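import Vale.Agent.P190.G2

/-! P190, part G3: additivity, local formula, prime steps, duality. -/

namespace Vale.Agent.P190

open Module

variable {k K Γ : Type} [Field k] [Field K] [Algebra k K] [AddCommGroup Γ]

namespace Fam

variable {S : Sys k K Γ}
variable {V : Type} [AddCommGroup V] [Module K V] [Module k V] [IsScalarTower k K V]
variable {W : Type} [AddCommGroup W] [Module K W] [Module k W] [IsScalarTower k K W]

theorem g3_div_mem {P : S.Pl} {a b : Γ} {f φ : K} (hf : f ≠ 0) (h1 : S.val P a f = 1)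
    (h0 : ∀ Q, Q ≠ P → S.val Q a f = 0) (hφ : φ ∈ S.B b) (hP : S.Ge P b φ 1) :
    φ * f⁻¹ ∈ S.B (b - a) := by
  rw [Sys.mem_iff_ge] at hφ ⊢
  intro Q
  have h2 : S.Ge Q (-a) f⁻¹ (-S.val Q a f) := Or.inr (Sys.val_inv Q a hf).ge
  rw [sub_eq_add_neg]
  by_cases hQ : Q = P
  · subst hQ
    exact (hP.mul h2).mono (by omega)
  · exact ((hφ Q).mul h2).mono (by rw [h0 Q hQ]; omega)

theorem g3_prime_mem {P : S.Pl} {a : Γ} {f : K} (hf : f ≠ 0) (h1 : S.val P a f = 1)
    (h0 : ∀ Q, Q ≠ P → S.val Q a f = 0) : f ∈ S.B a := by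
  refine (S.mem_iff a f hf).2 fun Q => ?_
  by_cases hQ : Q = P
  · rw [hQ, h1]; omega
  · rw [h0 Q hQ]

/-- a nonzero prime contains the prime element of some place -/
theorem IsPrime.exists_prime_elt' {p : Fam S K} (hp : p.IsPrime)
    (hne : ∃ a, ∃ φ : K, φ ≠ 0 ∧ φ ∈ p.U a) :
    ∃ P a, ∃ f : K, f ≠ 0 ∧ S.val P a f = 1 ∧ (∀ Q, Q ≠ P → S.val Q a f = 0) ∧ f ∈ p.U a := by
  obtain ⟨a, φ, hφ0, hφ⟩ := hne
  induction hn : (∑ᶠ P, S.val P a φ).toNat using Nat.strong_induction_on generalizing a φ with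
  | _ n ih =>
    have hB : φ ∈ S.B a := hp.1 a hφ
    have hv := (S.mem_iff a φ hφ0).1 hB
    by_cases hall : ∀ P, S.val P a φ = 0
    · exfalso
      have h1 : φ⁻¹ ∈ S.B (-a) := (S.mem_iff _ _ (inv_ne_zero hφ0)).2 fun P => by
        rw [Sys.val_inv P a hφ0, hall P]; rfl
      have h2 := p.smul_mem _ _ _ _ h1 hφ
      rw [neg_add_cancel, smul_eq_mul, inv_mul_cancel₀ hφ0] at h2
      exact hp.2.1 h2
    obtain ⟨P, hP⟩ := not_forall.1 hall
    obtain ⟨a₀, f, hf, h1, h0⟩ := S.prime P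
    have hψ := g3_div_mem hf h1 h0 hB (Or.inr (by have := hv P; omega))
    have hψ0 : φ * f⁻¹ ≠ 0 := mul_ne_zero hφ0 (inv_ne_zero hf)
    have e1 : f * (φ * f⁻¹) = φ := by field_simp
    have e2 : a₀ + (a - a₀) = a := by abel
    rcases hp.2.2 a₀ (a - a₀) f _ (g3_prime_mem hf h1 h0) hψ (by rwa [e1, e2]) with h | h
    · exact ⟨P, a₀, f, hf, h1, h0, h⟩
    · refine ih _ ?_ _ _ hψ0 h rfl
      have e3 : ∑ᶠ Q, S.val Q a φ = 1 + ∑ᶠ Q, S.val Q (a - a₀) (φ * f⁻¹) := by
        rw [← h1, ← finsum_eq_single (fun Q => S.val Q a₀ f) P h0,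
          ← finsum_add_distrib (S.fin_supp _ _ hf) (S.fin_supp _ _ hψ0)]
        refine finsum_congr fun Q => ?_
        rw [← S.val_mul Q _ _ _ _ hf hψ0, e1, e2]
      have e4 : 0 ≤ ∑ᶠ Q, S.val Q (a - a₀) (φ * f⁻¹) :=
        finsum_nonneg ((S.mem_iff _ _ hψ0).1 hψ)
      omega

theorem IsPrime.cases {p : Fam S K} (hp : p.IsPrime) (hne : ∃ a, ∃ φ : K, φ ≠ 0 ∧ φ ∈ p.U a) :
    (∃ P, p.IsCurve P) ∨ p.IsSmall := by
  obtain ⟨P, a, f, hf, h1, h0, hfp⟩ := hp.exists_prime_elt' hne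
  by_cases hall : ∀ b (φ : K), φ ∈ p.U b → S.Ge P b φ 1
  · refine Or.inl ⟨P, fun b φ => ⟨fun h => ⟨hp.1 b h, hall b φ h⟩, fun h => ?_⟩⟩
    have := p.smul_mem _ _ _ _ (g3_div_mem hf h1 h0 h.1 h.2) hfp
    rwa [sub_add_cancel, smul_eq_mul, inv_mul_cancel_right₀ hf] at this
  · right
    simp only [not_forall] at hall
    obtain ⟨b, g, hg, hg1⟩ := hall
    rw [Sys.Ge, not_or] at hg1
    have hg2 := (S.mem_iff b g hg1.1).1 (hp.1 b hg) P
    intro Q
    by_cases hQ : Q = P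
    · exact ⟨b, g, hg1.1, hg, by rw [hQ]; omega⟩
    · exact ⟨a, f, hf, hfp, h0 Q hQ⟩

/-- a nonzero prime contains the prime element of some place -/
theorem IsPrime.exists_prime_elt {p : Fam S K} (hp : p.IsPrime)
    (hne : ∃ a, ∃ φ : K, φ ≠ 0 ∧ φ ∈ p.U a) :
    ∃ P a, ∃ f : K, f ≠ 0 ∧ S.val P a f = 1 ∧ (∀ Q, Q ≠ P → S.val Q a f = 0) ∧ f ∈ p.U a := by
  exact hp.exists_prime_elt' hne

theorem IsCurve.eq_gen {p : Fam S K} {P : S.Pl} (hp : p.IsCurve P) {a : Γ} {f : K} (hf : f ≠ 0)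
    (h1 : S.val P a f = 1) (h0 : ∀ Q, Q ≠ P → S.val Q a f = 0) : p = gen S {(a, f)} := by
  refine le_antisymm (fun b φ hφ => ?_) (gen_le.2 ?_)
  · have h := (hp b φ).1 hφ
    exact mem_gen_singleton.2 ⟨_, g3_div_mem hf h1 h0 h.1 h.2, by
      rw [smul_eq_mul, inv_mul_cancel_right₀ hf]⟩
  · rintro _ rfl
    exact (hp a f).2 ⟨g3_prime_mem hf h1 h0, Or.inr h1.ge⟩

theorem finrank_gen_singleton (a : Γ) {v : V} (hv : v ≠ 0) (b : Γ) :
    finrank k ((gen S {(a, v)}).U b) = finrank k (S.B (b - a)) := by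
  let T : K →ₗ[k] V := (LinearMap.toSpanSingleton K V v).restrictScalars k
  have e1 : (gen S {(a, v)}).U b = (S.B (b - a)).map T := by
    ext x
    rw [mem_gen_singleton]
    exact ⟨fun ⟨φ, h, e⟩ => ⟨φ, h, e.symm⟩, fun ⟨φ, h, e⟩ => ⟨φ, h, e.symm⟩⟩
  rw [e1]
  exact ((S.B (b - a)).equivMapOfInjective T (smul_left_injective K hv)).finrank_eq.symm

/-- codimension of an ideal containing two coprime elements -/
theorem codim_le {p : Fam S K} (hp : p ≤ S.fam) {P : S.Pl} {a b : Γ} {f g : K} (hf : f ≠ 0)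
    (h1 : S.val P a f = 1) (h0 : ∀ Q, Q ≠ P → S.val Q a f = 0) (hfp : f ∈ p.U a)
    (hg : g ≠ 0) (hg0 : S.val P b g = 0) (hgp : g ∈ p.U b) (c : Γ) :
    (finrank k (S.B c) : ℤ) - finrank k (p.U c) ≤
      finrank k (S.B c) - finrank k (S.B (c - a)) - finrank k (S.B (c - b)) +
        finrank k (S.B (c - a - b)) := by
  haveI := (gen_FG (S := S) (Set.finite_singleton (a, f))).fd c
  haveI := (gen_FG (S := S) (Set.finite_singleton (b, g))).fd c
  haveI := (gen_FG (S := S) (Set.finite_singleton (a + b, f * g))).fd c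
  haveI := (fam_FG.of_le hp).fd c
  have e1 := Submodule.finrank_sup_add_finrank_inf_eq ((gen S {(a, f)}).U c) ((gen S {(b, g)}).U c)
  have e2 : (gen S {(a, f)}).U c ⊔ (gen S {(b, g)}).U c ≤ p.U c :=
    sup_le (gen_le.2 (by rintro _ rfl; exact hfp) c) (gen_le.2 (by rintro _ rfl; exact hgp) c)
  have e3 : (gen S {(a, f)}).U c ⊓ (gen S {(b, g)}).U c ≤ (gen S {(a + b, f * g)}).U c := by
    rintro x ⟨hx, hx'⟩
    obtain ⟨φ, hφ, rfl⟩ := mem_gen_singleton.1 hx
    obtain ⟨ψ, hψ, e⟩ := mem_gen_singleton.1 hx'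
    have h2 : S.Ge P (b + (c - b)) (g * ψ) 1 := by
      have := ((Sys.mem_iff_ge.1 hφ) P).mul (Or.inr h1.ge : S.Ge P a f 1)
      rwa [sub_add_cancel, ← smul_eq_mul, e, smul_eq_mul, mul_comm, ← add_sub_cancel b c] at this
    have h3 := g3_div_mem hf h1 h0 hψ (h2.of_unit_mul hg hg0)
    refine mem_gen_singleton.2 ⟨_, by rwa [show c - (a + b) = c - b - a by abel], ?_⟩
    rw [e, smul_eq_mul, smul_eq_mul]
    field_simp
  have e4 := Submodule.finrank_mono e2
  have e5 := Submodule.finrank_mono e3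
  rw [finrank_gen_singleton _ (mul_ne_zero hf hg), ← sub_sub] at e5
  rw [finrank_gen_singleton _ hf, finrank_gen_singleton _ hg] at e1
  omega

theorem ann_ne {U : Fam S V} (hs : U.Spans) (a : Γ) (v : V) :
    ∃ b, ∃ φ : K, φ ≠ 0 ∧ φ ∈ (U.ann a v).U b := by
  obtain ⟨b, f, hf, h1, h2⟩ := hs.exists_smul_mem a v
  exact ⟨b, f, hf, h1, h2⟩

/-- a basis adapted to an exact sequence -/
theorem g3_exact_basis {V₁ : Type} [AddCommGroup V₁] [Module K V₁] (α : V₁ →ₗ[K] V)
    (β : V →ₗ[K] W) (hα : Function.Injective α) (hex : Function.Exact α β) {ι₁ ι₂ : Type}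
    (b₁ : Basis ι₁ K V₁) (b₂ : Basis ι₂ K W) (l : ι₂ → V) (hl : ∀ j, β (l j) = b₂ j) :
    ∃ B : Basis (ι₁ ⊕ ι₂) K V, (∀ i, B (Sum.inl i) = α (b₁ i)) ∧ (∀ j, B (Sum.inr j) = l j) ∧
      (∀ x i, B.repr (α x) (Sum.inl i) = b₁.repr x i) ∧
      ∀ v j, B.repr v (Sum.inr j) = b₂.repr (β v) j := by
  have hs : ∀ y, β (b₂.constr K l y) = y := fun y =>
    LinearMap.congr_fun (b₂.ext (f₁ := β ∘ₗ b₂.constr K l) (f₂ := LinearMap.id) fun j => by
      simp [hl]) y
  have hβα : ∀ x, β (α x) = 0 := fun x => (hex _).2 ⟨x, rfl⟩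
  have hbij : Function.Bijective (α.coprod (b₂.constr K l)) := by
    constructor
    · rw [injective_iff_map_eq_zero]
      rintro ⟨x, y⟩ h
      have h1 := congrArg β h
      rw [LinearMap.coprod_apply, map_add, hβα, hs, zero_add, map_zero] at h1
      rw [LinearMap.coprod_apply, h1, map_zero, add_zero] at h
      exact Prod.ext (hα (h.trans (map_zero α).symm)) h1
    · intro v
      obtain ⟨x, hx⟩ := (hex (v - b₂.constr K l (β v))).1 (by rw [map_sub, hs, sub_self])
      exact ⟨(x, β v), by rw [LinearMap.coprod_apply, hx, sub_add_cancel]⟩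
  let E := LinearEquiv.ofBijective _ hbij
  have hE : ∀ x y, E (x, y) = α x + b₂.constr K l y := fun _ _ => rfl
  refine ⟨(b₁.prod b₂).map E, fun i => by simp [hE], fun j => by simp [hE], fun x i => ?_,
    fun v j => ?_⟩
  · have : α x = E (x, 0) := by simp [hE]
    rw [this]; simp
  · obtain ⟨⟨x, y⟩, rfl⟩ := E.surjective v
    rw [hE x y, map_add β, hβα, hs, zero_add, ← hE]; simp

theorem g3_basis_of_det {ι : Type} [Fintype ι] [DecidableEq ι] (e : Basis ι K V) (v : ι → V)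
    (h : e.det v ≠ 0) : ∃ b : Basis ι K V, ⇑b = v := by
  have h1 := e.is_basis_iff_det.2 (IsUnit.mk0 _ h)
  exact ⟨Basis.mk h1.1 h1.2.ge, Basis.coe_mk _ _⟩

theorem g3_isOpt_add {U : Fam S V} {P : S.Pl} {ι : Type} {b : Basis ι K V} {d : ι → Γ} {a : Γ}
    {v : V} (h1 : ∀ i, b i ∈ (U.add (gen S {(a, v)})).U (d i))
    (h2 : ∀ c w, w ∈ U.U c → ∀ i, S.Ge P (c - d i) (b.repr w i) 0)
    (h3 : ∀ i, S.Ge P (a - d i) (b.repr v i) 0) : (U.add (gen S {(a, v)})).IsOpt P b d := by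
  refine ⟨h1, fun c w hw i => ?_⟩
  obtain ⟨x, hx, y, hy, rfl⟩ := Submodule.mem_sup.1 hw
  obtain ⟨φ, hφ, rfl⟩ := mem_gen_singleton.1 hy
  rw [map_add, map_smul, Finsupp.add_apply, Finsupp.smul_apply, smul_eq_mul]
  have := ((Sys.mem_iff_ge.1 hφ) P).mul (h3 i)
  rw [sub_add_sub_cancel] at this
  exact (h2 c x hx i).add this

theorem g3_mem_dual_gen {G : Set (Γ × V)} {b : Γ} {f : Module.Dual K V}
    (h : ∀ p ∈ G, f p.2 ∈ S.B (b + p.1)) : f ∈ (gen S G).dual.U b := by
  intro c v hv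
  have : gen S G ≤ (S.fam.shift b).comap f := gen_le.2 fun p hp => by
    have := h p hp
    rwa [add_comm] at this
  rw [add_comm]
  exact this c hv

variable [FiniteDimensional K V] [FiniteDimensional K W]

theorem cl_add_exact {V₁ : Type} [AddCommGroup V₁] [Module K V₁] [Module k V₁]
    [IsScalarTower k K V₁] [FiniteDimensional K V₁] {U : Fam S V} (hU : U.FG) (hs : U.Spans)
    (α : V₁ →ₗ[K] V) (β : V →ₗ[K] W) (hα : Function.Injective α) (hβ : Function.Surjective β)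
    (hex : Function.Exact α β) : S.UnitDeg (U.cl - ((U.comap α).cl + (U.map β).cl)) := by
  classical
  have hU1 := hU.comap α hα
  have hs1 := hs.comap α
  have hU2 := hU.map β
  have hs2 := hs.map β hβ
  refine (isClass_cl hU hs).unique ?_
  let e₁ := finBasis K V₁
  let e₂ := finBasis K W
  choose l₀ hl₀ using fun j => hβ (e₂ j)
  obtain ⟨e, -, -, he3, he4⟩ := g3_exact_basis α β hα hex e₁ e₂ l₀ hl₀
  obtain ⟨c₁, hc₁, hn₁⟩ := (isClass_cl hU1 hs1).exists_norm e₁
  obtain ⟨c₂, hc₂, hn₂⟩ := (isClass_cl hU2 hs2).exists_norm e₂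
  refine isClass_of e (c₁ * c₂) (mul_ne_zero hc₁ hc₂) fun P => ?_
  obtain ⟨b₁, d₁, hb₁⟩ := exists_opt hU1 hs1 P (Fintype.card_fin _)
  obtain ⟨b₂, d₂, hb₂⟩ := exists_opt hU2 hs2 P (Fintype.card_fin _)
  choose l hl hl' using hb₂.1
  obtain ⟨B, hB1, hB2, hB3, hB4⟩ := g3_exact_basis α β hα hex b₁ b₂ l hl'
  refine ⟨B, Sum.elim d₁ d₂, ⟨?_, fun a v hv => ?_⟩, ?_⟩
  · rintro (i | j)
    · rw [hB1]; exact hb₁.1 i
    · rw [hB2]; exact hl j
  · have h2 : ∀ j, S.Ge P (a - d₂ j) (b₂.repr (β v) j) 0 := hb₂.2 a (β v) ⟨v, hv, rfl⟩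
    rintro (i | j)
    · obtain ⟨x, hx⟩ := (hex (v - ∑ j, b₂.repr (β v) j • l j)).1 (by
        have : ∀ j, β (l j) = b₂ j := hl'
        simp only [map_sub, map_sum, map_smul, this, Basis.sum_repr, sub_self])
      obtain ⟨b, f, hf, hfB, hfv, hf2⟩ := Sys.clear P _ _ h2
      have h3 : (U.comap α).LocMem P a x := by
        refine ⟨b, f, hf, hfB, hfv, ?_⟩
        change α (f • x) ∈ U.U (b + a)
        rw [map_smul, hx, smul_sub, Finset.smul_sum]
        refine Submodule.sub_mem _ (U.smul_mem _ _ _ _ hfB hv) (Submodule.sum_mem _ fun j _ => ?_)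
        have := U.smul_mem _ _ _ _ (hf2 j) (hl j)
        rwa [mul_smul, add_assoc, sub_add_cancel] at this
      have h4 : B.repr v (Sum.inl i) = b₁.repr x i := by
        rw [← hB3, hx]
        simp [← hB2]
      rw [h4]
      exact (hb₁.locMem_iff a x).1 h3 i
    · rw [hB4]; exact h2 j
  · have hdet : e.det B = e₁.det b₁ * e₂.det b₂ := by
      rw [Basis.det_apply, Basis.det_apply, Basis.det_apply, ← Matrix.det_fromBlocks_zero₂₁ _
        (Matrix.of fun i j => e.repr (l j) (Sum.inl i))]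
      congr 1
      ext (i | i) (j | j)
      · simp [Basis.toMatrix_apply, hB1, he3]
      · simp [Basis.toMatrix_apply, hB2]
      · simp [Basis.toMatrix_apply, hB1, he4, (hex _).2 ⟨_, rfl⟩]
      · have : β (l j) = b₂ j := hl' j
        simp [Basis.toMatrix_apply, hB2, he4, this]
    have := S.val_mul P (∑ i, d₁ i + (U.comap α).cl) (∑ i, d₂ i + (U.map β).cl) _ _
      (mul_ne_zero hc₁ (e₁.isUnit_det b₁).ne_zero)
      (mul_ne_zero hc₂ (e₂.isUnit_det b₂).ne_zero)
    rw [hn₁ P b₁ d₁ hb₁, hn₂ P b₂ d₂ hb₂] at this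
    rw [hdet, Fintype.sum_sum_type, mul_mul_mul_comm, add_add_add_comm]
    exact this

/-- The local degree of a subspace is the minimum over the maximal minors in a local basis. -/
theorem loc_formula {U : Fam S V} (α : W →ₗ[K] V) (hα : Function.Injective α)
    {κ ι : Type} [Fintype κ] [DecidableEq κ] [Fintype ι] (e : Basis κ K W) (γ : Γ) (c : K)
    (hc : c ≠ 0) (P : S.Pl)
    (hn : ∀ (b' : Basis κ K W) (d' : κ → Γ), (U.comap α).IsOpt P b' d' →
      S.val P (∑ l, d' l + γ) (c * e.det b') = 0)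
    (b : Basis ι K V) (d : ι → Γ) (hb : U.IsOpt P b d) (t : ℤ) :
    t ≤ S.val P γ c ↔ ∀ I : κ → ι,
      S.Ge P (-∑ l, d (I l)) (Matrix.det (Matrix.of fun l l' => b.repr (α (e l')) (I l))) t := by
  classical
  set M : ι → κ → K := fun i l' => b.repr (α (e l')) i with hM
  have hex : ∃ I : κ → ι, (Matrix.of fun l l' => M (I l) l').det ≠ 0 := by
    obtain ⟨g, hg⟩ := α.exists_leftInverse_of_injective (LinearMap.ker_eq_bot.2 hα)
    have htop : Submodule.span K (Set.range M) = ⊤ := by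
      refine eq_top_iff.2 ((Pi.basisFun K κ).span_eq.ge.trans (Submodule.span_le.2 ?_))
      rintro _ ⟨l, rfl⟩
      have : Pi.basisFun K κ l = ∑ i, e.repr (g (b i)) l • M i := by
        funext l'
        have h1 : e l' = g (∑ i, M i l' • b i) := by
          rw [hM, b.sum_repr]; exact (LinearMap.congr_fun hg (e l')).symm
        have h2 := congrArg (fun w => e.repr w l) h1
        simp only [map_sum, map_smul, Basis.repr_self, Finsupp.coe_finset_sum, Finset.sum_apply,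
          Finsupp.smul_apply, smul_eq_mul, Finsupp.single_apply] at h2
        simp only [Pi.basisFun_apply, Finset.sum_apply, Pi.smul_apply, smul_eq_mul,
          Pi.single_apply, h2, mul_comm]
      rw [this]
      exact Submodule.sum_mem _ fun i _ => Submodule.smul_mem _ _ (Submodule.subset_span ⟨i, rfl⟩)
    obtain ⟨κ', a, ha, hsp, hli⟩ := exists_linearIndependent' K M
    haveI : Fintype κ' := Fintype.ofInjective a ha
    have hcard := finrank_span_eq_card hli
    rw [hsp, htop, finrank_top, finrank_fintype_fun_eq_card] at hcard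
    let σ := Fintype.equivOfCardEq hcard
    refine ⟨a ∘ σ, ?_⟩
    have := (Matrix.linearIndependent_rows_iff_isUnit
      (A := Matrix.of fun l l' => M (a (σ l)) l')).1 (hli.comp σ σ.injective)
    exact ((Matrix.isUnit_iff_isUnit_det _).1 this).ne_zero
  obtain ⟨I₀, hI₀, hmin⟩ := Finset.exists_min_image
    (Finset.univ.filter fun I : κ → ι => (Matrix.of fun l l' => M (I l) l').det ≠ 0)
    (fun I => S.val P (-∑ l, d (I l)) (Matrix.of fun l l' => M (I l) l').det)
    (hex.imp fun I hI => Finset.mem_filter.2 ⟨Finset.mem_univ _, hI⟩)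
  replace hI₀ := (Finset.mem_filter.1 hI₀).2
  set A : Matrix κ κ K := Matrix.of fun l l' => M (I₀ l) l' with hA
  set μ := S.val P (-∑ l, d (I₀ l)) A.det with hμ
  have hge : ∀ I : κ → ι, S.Ge P (-∑ l, d (I l)) (Matrix.of fun l l' => M (I l) l').det μ :=
    fun I => or_iff_not_imp_left.2 fun h => hmin I (Finset.mem_filter.2 ⟨Finset.mem_univ _, h⟩)
  suffices hval : S.val P γ c = μ by
    rw [hval]
    exact ⟨fun h I => (hge I).mono h, fun h => (h I₀).resolve_left hI₀⟩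
  let Λ : W →ₗ[K] κ → K := LinearMap.pi fun l => (b.coord (I₀ l)) ∘ₗ α
  have hΛ : LinearMap.toMatrix e (Pi.basisFun K κ) Λ = A := by
    ext l l'
    simp [LinearMap.toMatrix_apply, Λ, hA, hM]
  let b' : Basis κ K W := Basis.ofEquivFun
    (LinearEquiv.ofIsUnitDet (f := Λ) (v := e) (v' := Pi.basisFun K κ)
      (by rw [hΛ]; exact IsUnit.mk0 _ hI₀))
  have hb' : ∀ w l, b'.repr w l = b.repr (α w) (I₀ l) := fun w l => by
    simp [b', Basis.ofEquivFun_repr_apply, Λ]
  have hdet : b'.det e = A.det := by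
    rw [Basis.det_apply]
    congr 1
  have hinv : S.Ge P (∑ l, d (I₀ l)) A.det⁻¹ (-μ) := by
    have := Sys.val_inv P (-∑ l, d (I₀ l)) hI₀
    rw [neg_neg] at this
    exact Or.inr this.ge
  have hloc : ∀ l, U.LocMem P (d (I₀ l)) (α (b' l)) := by
    intro l
    refine (hb.locMem_iff _ _).2 fun i => ?_
    have h1 : (Matrix.of fun m l' => M (Function.update I₀ l i m) l')
        = A.updateRow l (∑ m, b.repr (α (b' m)) i • A m) := by
      ext m l'
      by_cases hm : m = l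
      · subst hm
        simp only [Matrix.of_apply, Function.update_self, Matrix.updateRow_self, Finset.sum_apply,
          Pi.smul_apply, smul_eq_mul, hA, hM]
        conv_lhs => rw [← b'.sum_repr (e l')]
        simp only [map_sum, map_smul, Finsupp.coe_finset_sum, Finset.sum_apply, Finsupp.smul_apply,
          smul_eq_mul, hb', mul_comm]
      · simp [hA, Function.update_of_ne hm, Matrix.updateRow_ne hm]
    have h2 := (hge (Function.update I₀ l i)).mul hinv
    rw [h1, Matrix.det_updateRow_sum, smul_eq_mul, mul_inv_cancel_right₀ hI₀, add_neg_cancel] at h2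
    have h3 : -∑ m, d (Function.update I₀ l i m) + ∑ m, d (I₀ m) = d (I₀ l) - d i := by
      rw [← Finset.add_sum_erase _ _ (Finset.mem_univ l),
        ← Finset.add_sum_erase _ (fun m => d (I₀ m)) (Finset.mem_univ l), Function.update_self,
        Finset.sum_congr rfl fun m hm => by rw [Function.update_of_ne (Finset.ne_of_mem_erase hm)]]
      abel
    rwa [h3] at h2
  choose β h h0 hB hv hm using hloc
  have hu : ∀ l, IsUnit (h l) := fun l => IsUnit.mk0 _ (h0 l)
  have hopt : (U.comap α).IsOpt P (b'.isUnitSMul hu) fun l => β l + d (I₀ l) := by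
    refine ⟨fun l => ?_, fun a w hw l => ?_⟩
    · change α _ ∈ U.U _
      rw [Basis.isUnitSMul_apply, map_smul]; exact hm l
    · refine Sys.Ge.of_unit_mul (h0 l) (hv l) ?_
      have e1 : h l * (b'.isUnitSMul hu).repr w l = b.repr (α w) (I₀ l) := by
        rw [Basis.repr_isUnitSMul, hb', Units.smul_def]
        simp [h0 l]
      rw [e1, show β l + (a - (β l + d (I₀ l))) = a - d (I₀ l) by abel]
      exact hb.2 a (α w) hw _
  have h1 := hn _ _ hopt
  have h2 : e.det (b'.isUnitSMul hu) = (∏ l, h l) * A.det⁻¹ := by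
    rw [show ⇑(b'.isUnitSMul hu) = fun l => h l • b' l from funext (Basis.isUnitSMul_apply hu),
      AlternatingMap.map_smul_univ, smul_eq_mul]
    congr 1
    refine eq_inv_of_mul_eq_one_left ?_
    rw [← hdet, Basis.det_mul_det, Basis.det_self]
  have hp : ∏ l, h l ≠ 0 := Finset.prod_ne_zero_iff.2 fun l _ => h0 l
  have h3 := Sys.val_inv P (-∑ l, d (I₀ l)) hI₀
  rw [neg_neg] at h3
  rw [h2, Finset.sum_add_distrib, add_comm _ γ,
    S.val_mul P _ _ _ _ hc (mul_ne_zero hp (inv_ne_zero hI₀)),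
    S.val_mul P _ _ _ _ hp (inv_ne_zero hI₀), h3,
    Sys.val_prod P _ _ _ fun l _ => h0 l] at h1
  simp only [hv, Finset.sum_const_zero] at h1
  omega

theorem cl_step_curve {U : Fam S V} (hU : U.FG) (hs : U.Spans) (a : Γ) (v : V) {P : S.Pl}
    (hp : (U.ann a v).IsCurve P) {a₀ : Γ} {f : K} (hf : f ≠ 0) (h1 : S.val P a₀ f = 1)
    (h0 : ∀ Q, Q ≠ P → S.val Q a₀ f = 0) :
    S.UnitDeg ((U.add (gen S {(a, v)})).cl - (U.cl + a₀)) := by
  classical
  have hU' := hU.add (gen_FG (S := S) (Set.finite_singleton (a, v)))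
  refine (isClass_cl hU' (hs.mono (le_add_left _ _))).unique ?_
  let e := finBasis K V
  obtain ⟨c, hc, hn⟩ := (isClass_cl hU hs).exists_norm e
  have hfa : f ∈ (U.ann a v).U a₀ := (hp a₀ f).2 ⟨g3_prime_mem hf h1 h0, Or.inr h1.ge⟩
  refine isClass_of e (c * f) (mul_ne_zero hc hf) fun Q => ?_
  obtain ⟨b, d, hb⟩ := exists_opt hU hs Q (Fintype.card_fin _)
  have hcb : c * e.det b ≠ 0 := mul_ne_zero hc (e.isUnit_det b).ne_zero
  by_cases hQ : Q = P
  swap
  · refine ⟨b, d, g3_isOpt_add (fun i => le_add_left U _ _ (hb.1 i)) hb.2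
      ((hb.locMem_iff a v).1 ⟨a₀, f, hf, hfa.1, h0 Q hQ, hfa.2⟩), ?_⟩
    rw [mul_right_comm, ← add_assoc, S.val_mul Q _ _ _ _ hcb hf, hn Q b d hb, h0 Q hQ]; rfl
  subst hQ
  have hx : ∀ j, S.Ge Q (a - d j) (b.repr v j) (-1) := fun j => by
    have h2 := (hb.2 _ _ hfa.2 j).mul (Or.inr (Sys.val_inv Q a₀ hf).ge)
    rw [map_smul, Finsupp.smul_apply, smul_eq_mul, mul_comm f, mul_inv_cancel_right₀ hf, h1,
      show a₀ + a - d j + -a₀ = a - d j by abel] at h2
    exact h2
  obtain ⟨i, hi⟩ : ∃ i, ¬ S.Ge Q (a - d i) (b.repr v i) 0 := by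
    by_contra hall
    obtain ⟨β, h, hh0, hhB, hhv, hhm⟩ := (hb.locMem_iff a v).2 fun i =>
      by_contra fun hi => hall ⟨i, hi⟩
    have := ((hp β h).1 ⟨hhB, hhm⟩).2.resolve_left hh0
    omega
  rw [Sys.Ge, not_or] at hi
  have hi1 : S.val Q (a - d i) (b.repr v i) = -1 := by
    have := (hx i).resolve_left hi.1
    omega
  have hdet : b.det (Function.update b i v) = b.repr v i := by
    rw [Basis.det_apply, Basis.toMatrix_update, Basis.toMatrix_self, ← Matrix.cramer_apply,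
      Matrix.cramer_one]; rfl
  obtain ⟨b', hb'⟩ := g3_basis_of_det b _ (hdet ▸ hi.1)
  have hbi : b' i = v := by rw [hb', Function.update_self]
  have hrepr : ∀ u, b.repr u i = 0 → ∀ j, b'.repr u j = b.repr u j := by
    intro u hu j
    have : u = ∑ m, b.repr u m • b' m := by
      conv_lhs => rw [← b.sum_repr u]
      refine Finset.sum_congr rfl fun m _ => ?_
      by_cases hm : m = i
      · rw [hm, hu, zero_smul, zero_smul]
      · rw [hb', Function.update_of_ne hm]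
    conv_lhs => rw [this, Basis.repr_sum_self]
  refine ⟨b', Function.update d i a, g3_isOpt_add (fun j => ?_) (fun c' w hw j => ?_)
    (fun j => ?_), ?_⟩
  · by_cases hj : j = i
    · rw [hj, hbi, Function.update_self]
      exact le_add_right U _ _ (mem_gen (p := (a, v)) rfl)
    · rw [hb', Function.update_of_ne hj, Function.update_of_ne hj]
      exact le_add_left U _ _ (hb.1 j)
  · set τ := b.repr w i * (b.repr v i)⁻¹ with hτ
    have hτ1 : S.Ge Q (c' - a) τ 1 := by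
      have := (hb.2 _ _ hw i).mul (Or.inr (Sys.val_inv Q (a - d i) hi.1).ge)
      rwa [hi1, show c' - d i + -(a - d i) = c' - a by abel] at this
    have h3 := hrepr (w - τ • v) (by simp [hτ, hi.1]) j
    rw [map_sub, map_smul, ← hbi, Basis.repr_self, hbi] at h3
    simp only [map_sub, map_smul, Finsupp.sub_apply, Finsupp.smul_apply, smul_eq_mul] at h3
    by_cases hj : j = i
    · subst hj
      rw [Finsupp.single_eq_same, hτ, inv_mul_cancel_right₀ hi.1, sub_self, mul_one,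
        sub_eq_zero] at h3
      rw [h3, Function.update_self]
      exact hτ1.mono (by omega)
    · rw [Finsupp.single_eq_of_ne hj, mul_zero, sub_zero] at h3
      rw [h3, Function.update_of_ne hj, sub_eq_add_neg (b.repr w j)]
      have := (hτ1.mul (hx j)).neg
      rw [sub_add_sub_cancel] at this
      exact (hb.2 _ _ hw j).add this
  · rw [← hbi, Basis.repr_self]
    by_cases hj : j = i
    · rw [hj, Finsupp.single_eq_same, Function.update_self, sub_self]
      exact Or.inr (S.val_one Q).ge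
    · exact Or.inl (Finsupp.single_eq_of_ne hj)
  · have e1 : c * f * e.det b' = c * e.det b * (b.repr v i * f) := by
      rw [← Basis.det_mul_det e b b', hb', hdet]; ring
    have e2 : ∑ j, Function.update d i a j + (U.cl + a₀) = ∑ j, d j + U.cl + (a - d i + a₀) := by
      rw [Finset.sum_update_of_mem (Finset.mem_univ i), ← Finset.add_sum_erase _ d
        (Finset.mem_univ i), Finset.sdiff_singleton_eq_erase]
      abel
    rw [e1, e2, S.val_mul Q _ _ _ _ hcb (mul_ne_zero hi.1 hf), S.val_mul Q _ _ _ _ hi.1 hf,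
      hn Q b d hb, hi1, h1]
    rfl

theorem cl_step_small {U : Fam S V} (hU : U.FG) (hs : U.Spans) (a : Γ) (v : V)
    (hp : (U.ann a v).IsSmall) : S.UnitDeg ((U.add (gen S {(a, v)})).cl - U.cl) := by
  refine unitDeg_of_locMem hU hs (hU.add (gen_FG (Set.finite_singleton _)))
    (hs.mono (le_add_left _ _)) (fun P c w hw => locMem_of_mem P (le_add_left U _ c hw))
    fun P c w hw => ?_
  obtain ⟨b, h, h0, hh, hv⟩ := hp P
  obtain ⟨x, hx, y, hy, rfl⟩ := Submodule.mem_sup.1 hw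
  obtain ⟨φ, hφ, rfl⟩ := mem_gen_singleton.1 hy
  refine ⟨b, h, h0, hh.1, hv, ?_⟩
  rw [smul_add, smul_comm]
  refine Submodule.add_mem _ (U.smul_mem _ _ _ _ hh.1 hx) ?_
  have := U.smul_mem _ _ _ _ hφ hh.2
  rwa [show c - a + (b + a) = b + c by abel] at this

theorem eff_of_pairing (β : V →ₗ[K] W →ₗ[K] K) (hβ : ∀ v, (∀ w, β v w = 0) → v = 0)
    (hr : finrank K V = finrank K W) {U : Fam S V} {U' : Fam S W} (hU : U.FG) (hs : U.Spans)
    (hU' : U'.FG) (hs' : U'.Spans) (γ₀ : Γ)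
    (h : ∀ a b v w, v ∈ U.U a → w ∈ U'.U b → β v w ∈ S.B (a + b + γ₀)) :
    S.Eff (finrank K V • γ₀ - U.cl - U'.cl) := by
  classical
  let e := finBasis K V
  let e' := finBasisOfFinrankEq K W hr.symm
  obtain ⟨c, hc, hn⟩ := (isClass_cl hU hs).exists_norm e
  obtain ⟨c', hc', hn'⟩ := (isClass_cl hU' hs').exists_norm e'
  have hG : (LinearMap.toMatrix₂ e e' β).det ≠ 0 := by
    intro h0
    obtain ⟨x, hx, hx0⟩ := Matrix.exists_vecMul_eq_zero_iff.2 h0
    refine hx ?_
    have h1 : ∑ i, x i • e i = 0 := by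
      refine hβ _ fun w => ?_
      rw [show β (∑ i, x i • e i) = 0 from e'.ext fun j => ?_]; rfl
      have := congrFun hx0 j
      simpa [Matrix.vecMul, dotProduct, LinearMap.toMatrix₂_apply, LinearMap.sum_apply] using this
    rw [← e.repr_sum_self x, h1]; simp
  have hφ : (LinearMap.toMatrix₂ e e' β).det * (c * c')⁻¹ ≠ 0 :=
    mul_ne_zero hG (inv_ne_zero (mul_ne_zero hc hc'))
  refine ⟨_, hφ, (S.mem_iff _ _ hφ).2 fun P => ?_⟩
  obtain ⟨b, d, hb⟩ := exists_opt hU hs P (Fintype.card_fin _)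
  obtain ⟨b', d', hb'⟩ := exists_opt hU' hs' P ((Fintype.card_fin _).trans hr)
  have hcb : c * e.det b ≠ 0 := mul_ne_zero hc (e.isUnit_det b).ne_zero
  have hcb' : c' * e'.det b' ≠ 0 := mul_ne_zero hc' (e'.isUnit_det b').ne_zero
  have h1 := Sys.ge_det P (LinearMap.toMatrix₂ b b' β) (fun i => -d i) (fun j => d' j + γ₀)
    (fun _ => 0) fun i j => by
      rw [LinearMap.toMatrix₂_apply, show d' j + γ₀ - -d i = d i + d' j + γ₀ by abel]
      exact Sys.mem_iff_ge.1 (h _ _ _ _ (hb.1 i) (hb'.1 j)) P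
  have e1 : (LinearMap.toMatrix₂ b b' β).det = (LinearMap.toMatrix₂ e e' β).det * (c * c')⁻¹ *
      (c * e.det b * (c' * e'.det b')) := by
    rw [← LinearMap.toMatrix₂_mul_basis_toMatrix e e' b b' β, Matrix.det_mul, Matrix.det_mul,
      Matrix.det_transpose, ← Basis.det_apply, ← Basis.det_apply]
    field_simp
  have e2 : ∑ j, (d' j + γ₀) - ∑ i, -d i = finrank K V • γ₀ - U.cl - U'.cl +
      (∑ i, d i + U.cl + (∑ j, d' j + U'.cl)) := by
    rw [Finset.sum_add_distrib, Finset.sum_const, Finset.sum_neg_distrib, Finset.card_univ,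
      Fintype.card_fin]
    abel
  rw [e1, e2] at h1
  have h2 := h1.resolve_left (mul_ne_zero hφ (mul_ne_zero hcb hcb'))
  rw [S.val_mul P _ _ _ _ hφ (mul_ne_zero hcb hcb'), S.val_mul P _ _ _ _ hcb hcb', hn P b d hb,
    hn' P b' d' hb'] at h2
  simpa using h2

theorem dual_FG {U : Fam S V} (hs : U.Spans) : U.dual.FG := by
  classical
  obtain ⟨e, d, hle⟩ := hs.exists_free_le
  refine (free_FG e.dualBasis fun i => -d i).of_le fun a f hf => (mem_free _ _ _ _).2 fun i => ?_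
  rw [Basis.dualBasis_repr, sub_neg_eq_add]
  exact hf _ _ (hle _ (basis_mem_free e d i))

theorem dual_spans {U : Fam S V} (hU : U.FG) : U.dual.Spans := by
  obtain ⟨G, hG, rfl⟩ := hU
  haveI := hG.to_subtype
  refine spans_of_smul fun f => ?_
  obtain ⟨b, h, h0, -, hh⟩ := Sys.den (S := S) (fun p : G => p.1.1) fun p => f p.1.2
  exact ⟨b, h, h0, g3_mem_dual_gen fun p hp => hh ⟨p, hp⟩⟩

theorem mem_hull_iff_dual {U : Fam S V} (hU : U.FG) (hs : U.Spans) (a : Γ) (v : V) :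
    v ∈ U.hull.U a ↔ ∀ b f, f ∈ U.dual.U b → f v ∈ S.B (b + a) := by
  constructor
  · intro hv b f hf
    refine Sys.mem_iff_ge.2 fun P => ?_
    obtain ⟨b', h, h0, -, hval, hm⟩ := hv P
    have := Sys.mem_iff_ge.1 (hf _ _ hm) P
    rw [map_smul, smul_eq_mul, add_left_comm] at this
    exact this.of_unit_mul h0 hval
  · intro hv P
    obtain ⟨b, d, hb⟩ := exists_opt hU hs P (Fintype.card_fin _)
    refine (hb.locMem_iff a v).2 fun i => ?_
    obtain ⟨G, hG, rfl⟩ := hU
    haveI := hG.to_subtype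
    obtain ⟨β, h, h0, -, hval, hh⟩ := Sys.clear P (fun p : G => p.1.1 - d i)
      (fun p => b.repr p.1.2 i) fun p => hb.2 _ _ (mem_gen p.2) i
    have h1 := hv (β - d i) (h • b.coord i) (g3_mem_dual_gen fun p hp => by
      rw [show β - d i + p.1 = β + (p.1 - d i) by abel]
      exact hh ⟨p, hp⟩)
    rw [show β - d i + a = β + (a - d i) by abel] at h1
    exact (Sys.mem_iff_ge.1 h1 P).of_unit_mul h0 hval

/-- a rank one family lies in the free family given by its class -/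
theorem exists_gen_of_finrank_one {U : Fam S V} (hU : U.FG) (hs : U.Spans) (h1 : finrank K V = 1) :
    ∃ w : V, w ≠ 0 ∧ ∀ a v, v ∈ U.hull.U a → ∃ φ ∈ S.B (a + U.cl), v = φ • w := by
  let e := finBasisOfFinrankEq K V h1
  obtain ⟨c, hc, hn⟩ := (isClass_cl hU hs).exists_norm e
  refine ⟨c⁻¹ • e 0, smul_ne_zero (inv_ne_zero hc) (e.ne_zero 0), fun a v hv =>
    ⟨c * e.repr v 0, Sys.mem_iff_ge.2 fun P => ?_, ?_⟩⟩
  · obtain ⟨b, d, hb⟩ := exists_opt hU hs P ((Fintype.card_fin 1).trans h1.symm)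
    have h2 := ((hb.locMem_iff a v).1 (hv P) 0).mul (Or.inr (hn P b d hb).ge)
    have e1 : b.repr v 0 * (c * e.det b) = c * e.repr v 0 := by
      conv_rhs => rw [← b.sum_repr v]
      rw [Basis.det_apply, Matrix.det_unique, Basis.toMatrix_apply]
      simp only [Fin.sum_univ_one, map_smul, Finsupp.smul_apply, smul_eq_mul, Fin.default_eq_zero]
      ring
    rwa [e1, Fin.sum_univ_one, show a - d 0 + (d 0 + U.cl) = a + U.cl by abel] at h2
  · conv_lhs => rw [← e.sum_repr v]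
    rw [Fin.sum_univ_one, smul_smul, mul_right_comm, mul_inv_cancel₀ hc, one_mul]

end Fam

end Vale.Agent.P190
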