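import Vale.Agent.P190.D0
import Vale.Agent.P190.G3

/-! P190, part A1: the polynomial system and growth of its families. -/

namespace Vale.Agent.P190

open Module Filter

variable {k : Type} [Field k] {n : ℕ}

theorem a1_smon (a b : ℕ) : smon k ((a : ℤ), (b : ℤ)) = ss k ^ a * tt k ^ b := by
  simp [smon]

theorem a1_mem_lev (j : ℤ) (φ : KK k) : φ ∈ AA k j ↔ ∃ F : LL k, lev k F = φ ∧
    ∀ m ∈ F.coeff.support, 0 ≤ m.1 ∧ 0 ≤ m.2 ∧ m.1 + m.2 ≤ j := by
  classical
  obtain ⟨L, hL, -⟩ := exists_levHom (k := k)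
  constructor
  · intro h
    induction h using Submodule.span_induction with
    | mem x hx =>
      obtain ⟨a, b, hab, rfl⟩ := hx
      refine ⟨AddMonoidAlgebra.single ((a : ℤ), (b : ℤ)) 1, by rw [lev_single, one_smul, a1_smon], ?_⟩
      intro m hm
      rw [AddMonoidAlgebra.coeff_single] at hm
      have := Finsupp.support_single_subset hm
      rw [Finset.mem_singleton] at this
      subst this
      exact ⟨by simp, by simp, hab⟩
    | zero => exact ⟨0, by simp [lev], by simp⟩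
    | add x y _ _ hx hy =>
      obtain ⟨F, rfl, hF⟩ := hx
      obtain ⟨G, rfl, hG⟩ := hy
      refine ⟨F + G, by rw [← hL, ← hL, ← hL, map_add], fun m hm => ?_⟩
      rw [AddMonoidAlgebra.coeff_add] at hm
      rcases Finset.mem_union.1 (Finsupp.support_add hm) with h | h
      · exact hF m h
      · exact hG m h
    | smul c x _ hx =>
      obtain ⟨F, rfl, hF⟩ := hx
      refine ⟨c • F, by rw [← hL, ← hL, map_smul], fun m hm => ?_⟩
      rw [AddMonoidAlgebra.coeff_smul] at hm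
      exact hF m (Finsupp.support_smul hm)
  · rintro ⟨F, rfl, hF⟩
    refine Submodule.sum_mem _ fun m hm => Submodule.smul_mem _ _ (Submodule.subset_span ?_)
    obtain ⟨h1, h2, h3⟩ := hF m hm
    refine ⟨m.1.toNat, m.2.toNat, by omega, ?_⟩
    rw [← a1_smon, Int.toNat_of_nonneg h1, Int.toNat_of_nonneg h2]

theorem a1_finite (j : ℤ) :
    {φ : KK k | ∃ a b : ℕ, (a : ℤ) + b ≤ j ∧ φ = ss k ^ a * tt k ^ b}.Finite := by
  refine (((Set.finite_le_nat j.toNat).prod (Set.finite_le_nat j.toNat)).image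
    fun p : ℕ × ℕ => ss k ^ p.1 * tt k ^ p.2).subset ?_
  rintro _ ⟨a, b, hab, rfl⟩
  exact ⟨(a, b), ⟨by simp only [Set.mem_setOf_eq]; omega, by simp only [Set.mem_setOf_eq]; omega⟩,
    rfl⟩

namespace DP

variable (D : DP k n)

theorem a1_v_add (P : D.S.Pl) {φ ψ : KK k} (hφ : φ ≠ 0) (hψ : ψ ≠ 0) (h : φ + ψ ≠ 0) :
    min (D.v P φ) (D.v P ψ) ≤ D.v P (φ + ψ) := by
  have h1 := D.S.val_add P 0 φ ψ hφ hψ h
  have hn : (0 : ℤ) < n := by exact_mod_cast D.n_pos
  by_cases hP : P ∈ Set.range D.sp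
  · obtain ⟨i, rfl⟩ := hP
    simp only [D.val_sp, add_zero, Pi.zero_apply, min_le_iff] at h1 ⊢
    exact h1.imp (fun e => le_of_mul_le_mul_left e hn) fun e => le_of_mul_le_mul_left e hn
  · simpa only [D.val_ns P hP] using h1

theorem a1_v_const (P : D.S.Pl) (c : k) (hc : c ≠ 0) : D.v P (algebraMap k (KK k) c) = 0 := by
  have h1 := D.S.val_const P c hc
  by_cases hP : P ∈ Set.range D.sp
  · obtain ⟨i, rfl⟩ := hP
    simp only [D.val_sp, add_zero, Pi.zero_apply] at h1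
    exact (mul_eq_zero.1 h1).resolve_left (by exact_mod_cast D.n_pos.ne')
  · simpa only [D.val_ns P hP] using h1

/-- places of the projective plane -/
abbrev APl : Type := {P : D.S.Pl // P ≠ D.sp 1 ∧ P ≠ D.sp 3 ∧ P ≠ D.sp 5 ∧ P ≠ D.sp 9}

open Classical in
/-- valuations of the plane -/
noncomputable def Aval (P : D.APl) (j : ℤ) (φ : KK k) : ℤ :=
  D.v P.1 φ + if P.1 = D.sp 4 then j else 0

theorem a1_cases (P : D.APl) : P.1 ∉ Set.range D.sp ∨ P.1 = D.sp 0 ∨ P.1 = D.sp 2 ∨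
    P.1 = D.sp 4 ∨ P.1 = D.sp 6 ∨ P.1 = D.sp 7 ∨ P.1 = D.sp 8 := by
  by_cases hP : P.1 ∈ Set.range D.sp
  · obtain ⟨i, hi⟩ := hP
    obtain ⟨h1, h3, h5, h9⟩ := P.2
    rw [← hi] at h1 h3 h5 h9 ⊢
    right
    fin_cases i <;> simp_all
  · exact Or.inl hP

theorem Aval_ns {P : D.APl} (hP : P.1 ∉ Set.range D.sp) (j : ℤ) (φ : KK k) :
    D.Aval P j φ = D.v P.1 φ := by
  rw [Aval, if_neg, add_zero]
  intro h
  exact hP ⟨4, h.symm⟩

theorem Aval_sp {P : D.APl} {i : Fin 10} (hP : P.1 = D.sp i) (j : ℤ) (φ : KK k) :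
    D.Aval P j φ = D.v (D.sp i) φ + if i = 4 then j else 0 := by
  rw [Aval, hP]
  simp only [D.sp_inj.eq_iff]

theorem a1_mem_iff (j : ℤ) (φ : KK k) (hφ : φ ≠ 0) : φ ∈ AA k j ↔ ∀ P, 0 ≤ D.Aval P j φ := by
  rw [a1_mem_lev]
  constructor
  · rintro ⟨F, rfl, hF⟩ P
    have hF0 : F ≠ 0 := by
      rintro rfl
      exact hφ (by simp [lev])
    by_cases h0 : P.1 = D.sp 0
    · rw [D.Aval_sp h0, if_neg (by decide), add_zero]
      exact (D.v_hex F hF0 0 0).2 fun m hm => by simpa [rho] using (hF m hm).1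
    by_cases h2 : P.1 = D.sp 2
    · rw [D.Aval_sp h2, if_neg (by decide), add_zero]
      exact (D.v_hex F hF0 2 0).2 fun m hm => by simpa [rho] using (hF m hm).2.1
    by_cases h4 : P.1 = D.sp 4
    · rw [D.Aval_sp h4, if_pos rfl]
      have := (D.v_hex F hF0 4 (-j)).2 fun m hm => by
        have := (hF m hm).2.2
        simp only [rho, Matrix.cons_val]
        omega
      have e : D.v (D.sp 4) (lev k F) = D.v (D.sp ((4 : Fin 6).castLE (by norm_num))) (lev k F) :=
        rfl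
      omega
    rw [Aval, if_neg h4, add_zero]
    obtain ⟨h1, h3, h5, -⟩ := P.2
    refine D.v_lev F hF0 _ fun g => ?_
    fin_cases g
    exacts [h0, h1, h2, h3, h4, h5]
  · intro h
    obtain ⟨F, rfl⟩ := D.laurent φ hφ fun P hP h9 => by
      have := h ⟨P, hP 1, hP 3, hP 5, h9⟩
      have h4 : P ≠ D.sp 4 := hP 4
      rwa [Aval, if_neg h4, add_zero] at this
    have hF0 : F ≠ 0 := by
      rintro rfl
      exact hφ (by simp [lev])
    have ne : ∀ {i l : Fin 10}, i ≠ l → D.sp i ≠ D.sp l := fun e => D.sp_inj.ne e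
    have a0 := h ⟨D.sp 0, ne (by decide), ne (by decide), ne (by decide), ne (by decide)⟩
    have a2 := h ⟨D.sp 2, ne (by decide), ne (by decide), ne (by decide), ne (by decide)⟩
    have a4 := h ⟨D.sp 4, ne (by decide), ne (by decide), ne (by decide), ne (by decide)⟩
    rw [D.Aval_sp rfl, if_neg (by decide), add_zero] at a0 a2
    rw [D.Aval_sp rfl, if_pos rfl] at a4
    refine ⟨F, rfl, fun m hm => ⟨?_, ?_, ?_⟩⟩
    · simpa [rho] using (D.v_hex F hF0 0 0).1 a0 m hm
    · simpa [rho] using (D.v_hex F hF0 2 0).1 a2 m hm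
    · have a5 : -j ≤ D.v (D.sp 4) (lev k F) := by omega
      have := (D.v_hex F hF0 4 (-j)).1 a5 m hm
      simp only [rho, Matrix.cons_val] at this
      omega

theorem a1_prime_sp (P : D.APl) (i : Fin 10) (hP : P.1 = D.sp i) (c : Fin 5 → ℤ)
    (hc : ∀ l : Fin 10, l = 0 ∨ l = 2 ∨ l = 4 ∨ l = 6 ∨ l = 7 ∨ l = 8 →
      lamv c l + (if l = 4 then 1 else 0) = if l = i then 1 else 0)
    (hi : i = 0 ∨ i = 2 ∨ i = 4 ∨ i = 6 ∨ i = 7 ∨ i = 8) :
    ∃ a, ∃ f : KK k, f ≠ 0 ∧ D.Aval P a f = 1 ∧ ∀ Q, Q ≠ P → D.Aval Q a f = 0 := by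
  refine ⟨1, umon k c, umon_ne_zero c, ?_, fun Q hQ => ?_⟩
  · rw [D.Aval_sp hP, D.v_umon_sp, hc i hi, if_pos rfl]
  · have key : ∀ l : Fin 10, l = 0 ∨ l = 2 ∨ l = 4 ∨ l = 6 ∨ l = 7 ∨ l = 8 → Q.1 = D.sp l →
        D.Aval Q 1 (umon k c) = 0 := fun l hl h => by
      rw [D.Aval_sp h, D.v_umon_sp, hc l hl, if_neg]
      rintro rfl
      exact hQ (Subtype.ext (h.trans hP.symm))
    rcases D.a1_cases Q with h | h | h | h | h | h | h
    · rw [D.Aval_ns h, D.v_umon_ns _ h]
    all_goals exact key _ (by decide) h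

theorem a1_prime (P : D.APl) :
    ∃ a, ∃ f : KK k, f ≠ 0 ∧ D.Aval P a f = 1 ∧ ∀ Q, Q ≠ P → D.Aval Q a f = 0 := by
  rcases D.a1_cases P with h | h | h | h | h | h | h
  · obtain ⟨a, f, hf, h1, h0⟩ := D.S.prime P.1
    rw [D.val_ns _ h] at h1
    let c : Fin 5 → ℤ := ![-D.v (D.sp 0) f, -D.v (D.sp 2) f, -D.v (D.sp 6) f, -D.v (D.sp 7) f,
      -D.v (D.sp 8) f]
    refine ⟨-D.v (D.sp 4) (f * umon k c), f * umon k c, mul_ne_zero hf (umon_ne_zero c), ?_,
      fun Q hQ => ?_⟩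
    · rw [D.Aval_ns h, D.v_mul _ hf (umon_ne_zero c), D.v_umon_ns _ h, h1, add_zero]
    · rcases D.a1_cases Q with e | e | e | e | e | e | e
      · rw [D.Aval_ns e, D.v_mul _ hf (umon_ne_zero c), D.v_umon_ns _ e, add_zero,
          ← D.val_ns _ e a]
        exact h0 _ fun e' => hQ (Subtype.ext e')
      · rw [D.Aval_sp e, if_neg (by decide), D.v_mul _ hf (umon_ne_zero c), D.v_umon_sp, lamv_at0]
        simp [c]
      · rw [D.Aval_sp e, if_neg (by decide), D.v_mul _ hf (umon_ne_zero c), D.v_umon_sp, lamv_at2]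
        simp [c]
      · rw [D.Aval_sp e, if_pos rfl, add_neg_cancel]
      · rw [D.Aval_sp e, if_neg (by decide), D.v_mul _ hf (umon_ne_zero c), D.v_umon_sp, lamv_at6]
        simp [c]
      · rw [D.Aval_sp e, if_neg (by decide), D.v_mul _ hf (umon_ne_zero c), D.v_umon_sp, lamv_at7]
        simp [c]
      · rw [D.Aval_sp e, if_neg (by decide), D.v_mul _ hf (umon_ne_zero c), D.v_umon_sp, lamv_at8]
        simp [c]
  · exact D.a1_prime_sp P _ h ![1, 0, 0, 0, 0] (by decide) (by decide)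
  · exact D.a1_prime_sp P _ h ![0, 1, 0, 0, 0] (by decide) (by decide)
  · exact D.a1_prime_sp P _ h ![0, 0, 0, 0, 0] (by decide) (by decide)
  · exact D.a1_prime_sp P _ h ![0, 0, 1, 0, 0] (by decide) (by decide)
  · exact D.a1_prime_sp P _ h ![0, 0, 0, 1, 0] (by decide) (by decide)
  · exact D.a1_prime_sp P _ h ![0, 0, 0, 0, 1] (by decide) (by decide)

end DP

theorem a1_gens : ∃ (N : ℕ) (dg : Fin N → ℤ) (ev : Fin N → KK k), (∀ i, ev i ∈ AA k (dg i)) ∧
    ∀ a, AA k a ≤ Submodule.span k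
      {φ | ∃ e : Fin N → ℕ, ∑ i, e i • dg i = a ∧ φ = ∏ i, ev i ^ e i} := by
  refine ⟨3, fun _ => 1, ![1, ss k, tt k], fun i => ?_, fun j => Submodule.span_mono ?_⟩
  · fin_cases i
    · exact Submodule.subset_span ⟨0, 0, by simp, by simp⟩
    · exact Submodule.subset_span ⟨1, 0, by simp, by simp⟩
    · exact Submodule.subset_span ⟨0, 1, by simp, by simp⟩
  · rintro _ ⟨a, b, hab, rfl⟩
    refine ⟨![(j - a - b).toNat, a, b], ?_, by simp [Fin.prod_univ_three]⟩
    simp only [Fin.sum_univ_three, Matrix.cons_val, nsmul_eq_mul, mul_one]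
    omega

theorem DP.exists_sysA (D : DP k n) : ∃ SA : Sys k (KK k) ℤ, SA.B = AA k := by
  refine ⟨{ B := AA k
            Pl := D.APl
            val := D.Aval
            val_mul := ?_
            val_add := ?_
            val_const := ?_
            mem_iff := D.a1_mem_iff
            prime := D.a1_prime
            fin_supp := ?_
            fd := fun j => FiniteDimensional.span_of_finite k (a1_finite j)
            gens := a1_gens }, rfl⟩
  · intro P a b φ ψ h1 h2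
    simp only [DP.Aval, D.v_mul _ h1 h2]
    split_ifs <;> ring
  · intro P a φ ψ h1 h2 h3
    have := D.a1_v_add P.1 h1 h2 h3
    simp only [DP.Aval]
    omega
  · intro P c hc
    simp [DP.Aval, D.a1_v_const _ c hc]
  · intro a φ hφ
    refine (((Set.finite_range D.sp).union (D.S.fin_supp 0 φ hφ)).preimage
      (Subtype.val_injective.injOn (s := _))).subset fun P hP => ?_
    by_cases h : P.1 ∈ Set.range D.sp
    · exact Or.inl h
    · refine Or.inr ?_
      rw [Set.mem_setOf_eq, D.Aval_ns h, ← D.val_ns _ h 0] at hP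
      exact hP

theorem a1_card (u : ℕ) :
    2 * ((Finset.range u).biUnion Finset.HasAntidiagonal.antidiagonal : Finset (ℕ × ℕ)).card =
      u * (u + 1) := by
  rw [Finset.card_biUnion]
  · simp only [Finset.Nat.card_antidiagonal]
    induction u with
    | zero => simp
    | succ u ih => rw [Finset.sum_range_succ, mul_add, ih]; ring
  · intro a _ b _ hab
    refine Finset.disjoint_left.2 fun p h1 h2 => hab ?_
    rw [Finset.HasAntidiagonal.mem_antidiagonal] at h1 h2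
    omega

theorem finrank_AA (j : ℕ) : 2 * finrank k (AA k j) = (j + 1) * (j + 2) := by
  let T : Finset (ℕ × ℕ) := (Finset.range (j + 1)).biUnion Finset.HasAntidiagonal.antidiagonal
  have hT : ∀ p : ℕ × ℕ, p ∈ T ↔ p.1 + p.2 ≤ j := fun p => by simp [T, Nat.lt_succ_iff]
  have h1 : LinearIndependent k fun p : T => smon k ((p.1.1 : ℤ), (p.1.2 : ℤ)) := by
    refine smon_indep.comp (fun p : T => ((p.1.1 : ℤ), (p.1.2 : ℤ))) fun p q h => ?_
    simp only [Prod.mk.injEq, Nat.cast_inj] at h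
    exact Subtype.ext (Prod.ext h.1 h.2)
  have h2 : AA k j = Submodule.span k (Set.range fun p : T => smon k ((p.1.1 : ℤ), (p.1.2 : ℤ))) := by
    rw [AA]
    congr 1
    ext φ
    constructor
    · rintro ⟨a, b, hab, rfl⟩
      exact ⟨⟨(a, b), (hT _).2 (by simp only; omega)⟩, a1_smon a b⟩
    · rintro ⟨⟨p, hp⟩, rfl⟩
      exact ⟨p.1, p.2, by have := (hT p).1 hp; omega, a1_smon _ _⟩
  rw [h2, finrank_span_eq_card h1, Fintype.card_coe]
  exact a1_card (j + 1)

theorem AA_eq_bot {j : ℤ} (hj : j < 0) : AA k j = ⊥ := by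
  rw [AA, Submodule.span_eq_bot]
  rintro _ ⟨a, b, hab, rfl⟩
  omega

theorem mem_AA_iff (j : ℕ) (f : KK k) : f ∈ AA k j ↔ ∃ F : MvPolynomial (Fin 2) k,
    F.totalDegree ≤ j ∧ f = algebraMap (MvPolynomial (Fin 2) k) (KK k) F := by
  have hsm : ∀ (c : k) (F : MvPolynomial (Fin 2) k),
      algebraMap (MvPolynomial (Fin 2) k) (KK k) (c • F) =
        c • algebraMap (MvPolynomial (Fin 2) k) (KK k) F := fun c F => by
    rw [← IsScalarTower.coe_toAlgHom' k, map_smul]
  constructor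
  · intro h
    induction h using Submodule.span_induction with
    | mem x hx =>
      obtain ⟨a, b, hab, rfl⟩ := hx
      refine ⟨MvPolynomial.X 0 ^ a * MvPolynomial.X 1 ^ b, ?_, by simp [ss, tt]⟩
      refine (MvPolynomial.totalDegree_mul _ _).trans ?_
      rw [MvPolynomial.totalDegree_X_pow, MvPolynomial.totalDegree_X_pow]
      omega
    | zero => exact ⟨0, by simp, by simp⟩
    | add x y _ _ hx hy =>
      obtain ⟨F, hF, rfl⟩ := hx
      obtain ⟨G, hG, rfl⟩ := hy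
      exact ⟨F + G, (MvPolynomial.totalDegree_add _ _).trans (max_le hF hG), by rw [map_add]⟩
    | smul c x _ hx =>
      obtain ⟨F, hF, rfl⟩ := hx
      exact ⟨c • F, (MvPolynomial.totalDegree_smul_le _ _).trans hF, (hsm c F).symm⟩
  · rintro ⟨F, hF, rfl⟩
    rw [F.as_sum, map_sum]
    refine Submodule.sum_mem _ fun m hm => ?_
    have h1 : MvPolynomial.monomial m (MvPolynomial.coeff m F) =
        MvPolynomial.coeff m F • (MvPolynomial.X 0 ^ m 0 * MvPolynomial.X 1 ^ m 1) := by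
      rw [MvPolynomial.monomial_eq, Finsupp.prod_fintype _ _ (by simp), Fin.prod_univ_two,
        MvPolynomial.smul_eq_C_mul]
    rw [h1, hsm]
    refine Submodule.smul_mem _ _ (Submodule.subset_span ⟨m 0, m 1, ?_, by simp [ss, tt]⟩)
    have h2 := (MvPolynomial.le_totalDegree hm).trans hF
    rw [Finsupp.sum_fintype _ _ (by simp), Fin.sum_univ_two] at h2
    omega

theorem a1_finrank {j : ℤ} (hj : 0 ≤ j) :
    (finrank k (AA k j) : ℚ) = ((j : ℚ) + 1) * (j + 2) / 2 := by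
  obtain ⟨m, rfl⟩ := Int.eq_ofNat_of_zero_le hj
  have h : ((2 * finrank k (AA k m) : ℕ) : ℚ) = (((m + 1) * (m + 2) : ℕ) : ℚ) := by
    rw [finrank_AA]
  push_cast at h ⊢
  linarith

variable {SA : Sys k (KK k) ℤ}

theorem a1_eff (hA : SA.B = AA k) {a : ℤ} (h : SA.Eff a) : 0 ≤ a := by
  obtain ⟨φ, h0, h1⟩ := h
  by_contra h2
  rw [hA, AA_eq_bot (by omega)] at h1
  exact h0 h1

theorem a1_unit (hA : SA.B = AA k) {a : ℤ} (h : SA.UnitDeg a) : a = 0 := by
  have h1 := a1_eff hA h.eff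
  have h2 := a1_eff hA h.neg.eff
  omega

variable {V : Type} [AddCommGroup V] [Module (KK k) V] [Module k V] [IsScalarTower k (KK k) V]
variable [FiniteDimensional (KK k) V]

/-- the growth statement -/
def A1Good (U : Fam SA V) : Prop :=
  ∃ C : ℚ, ∀ᶠ j : ℤ in atTop, |(finrank k (U.U j) : ℚ) -
      (finrank (KK k) V * ((j : ℚ) + 1) * (j + 2) / 2 + U.cl * j)| ≤ C

theorem a1_free (hA : SA.B = AA k) (e : Basis (Fin (finrank (KK k) V)) (KK k) V)
    (d : Fin (finrank (KK k) V) → ℤ) : A1Good (Fam.free SA e d) := by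
  have hc : (Fam.free SA e d).cl = -∑ i, d i := by
    have := a1_unit hA ((Fam.isClass_cl (Fam.free_FG e d) (Fam.free_spans e d)).unique
      (Fam.isClass_free e d))
    omega
  refine ⟨|∑ i, ((d i : ℚ) ^ 2 - 3 * d i) / 2|, ?_⟩
  have h1 : ∀ᶠ j : ℤ in atTop, ∀ i, d i ≤ j := eventually_all.2 fun i => eventually_ge_atTop _
  filter_upwards [h1] with j hj
  refine le_of_eq (congrArg _ ?_)
  rw [Fam.finrank_free, hc, hA]
  push_cast
  rw [Finset.sum_congr rfl fun i _ => a1_finrank (k := k) (sub_nonneg.2 (hj i))]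
  have h2 : (finrank (KK k) V : ℚ) * ((j : ℚ) + 1) * (j + 2) / 2 =
      ∑ _i : Fin (finrank (KK k) V), ((j : ℚ) + 1) * (j + 2) / 2 := by
    simp; ring
  rw [h2, neg_mul, Finset.sum_mul, ← Finset.sum_neg_distrib, ← Finset.sum_add_distrib,
    ← Finset.sum_sub_distrib]
  refine Finset.sum_congr rfl fun i _ => ?_
  push_cast
  ring

theorem a1_step (hA : SA.B = AA k) {U : Fam SA V} (hU : U.FG) (hs : U.Spans) (a : ℤ) (v : V)
    (hp : (U.ann a v).IsPrime) (h : A1Good U) : A1Good (U.add (Fam.gen SA {(a, v)})) := by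
  obtain ⟨C, hC⟩ := h
  have hj : ∀ c : ℤ, (finrank k ((U.add (Fam.gen SA {(a, v)})).U c) : ℚ) =
      finrank k (U.U c) + finrank k (SA.B (c - a)) - finrank k ((U.ann a v).U (c - a)) :=
    fun c => by exact_mod_cast Fam.finrank_add_gen hU a v c
  rcases hp.cases (Fam.ann_ne hs a v) with ⟨P, hP⟩ | hsm
  · obtain ⟨a₀, f, hf, h1, h0⟩ := SA.prime P
    have hc := a1_unit hA (Fam.cl_step_curve hU hs a v hP hf h1 h0)
    have hc' : ((U.add (Fam.gen SA {(a, v)})).cl : ℚ) = U.cl + a₀ := by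
      exact_mod_cast sub_eq_zero.1 hc
    refine ⟨C + |(a₀ : ℚ) * (3 - 2 * a - a₀) / 2|, ?_⟩
    filter_upwards [hC, eventually_ge_atTop a, eventually_ge_atTop (a + a₀)] with j e1 e2 e3
    rw [hj, hP.eq_gen hf h1 h0, Fam.finrank_gen_singleton a₀ hf, hc', hA,
      a1_finrank (sub_nonneg.2 e2), a1_finrank (by omega : 0 ≤ j - a - a₀)]
    refine le_trans (le_of_eq ?_) ((abs_add_le _ _).trans (add_le_add e1 le_rfl))
    congr 1
    push_cast
    ring
  · obtain ⟨P, a₁, f, hf, h1, h0, hfp⟩ := hp.exists_prime_elt (Fam.ann_ne hs a v)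
    obtain ⟨b, g, hg, hgp, hg0⟩ := hsm P
    have hc := a1_unit hA (Fam.cl_step_small hU hs a v hsm)
    have hc' : ((U.add (Fam.gen SA {(a, v)})).cl : ℚ) = U.cl := by
      exact_mod_cast sub_eq_zero.1 hc
    refine ⟨C + a₁ * b, ?_⟩
    filter_upwards [hC, eventually_ge_atTop a, eventually_ge_atTop (a + a₁),
      eventually_ge_atTop (a + b), eventually_ge_atTop (a + a₁ + b)] with j e1 e2 e3 e4 e5
    have c1 := Fam.codim_le hp.1 hf h1 h0 hfp hg hg0 hgp (j - a)
    have c2 : (finrank k (SA.B (j - a)) : ℚ) - finrank k ((U.ann a v).U (j - a)) ≤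
        finrank k (SA.B (j - a)) - finrank k (SA.B (j - a - a₁)) - finrank k (SA.B (j - a - b)) +
          finrank k (SA.B (j - a - a₁ - b)) := by exact_mod_cast c1
    have c3 : (finrank k ((U.ann a v).U (j - a)) : ℚ) ≤ finrank k (SA.B (j - a)) := by
      haveI := SA.fd (j - a)
      have c5 : (U.ann a v).U (j - a) ≤ SA.B (j - a) := hp.1 (j - a)
      exact_mod_cast Submodule.finrank_mono c5
    have c4 : (finrank k (SA.B (j - a)) : ℚ) - finrank k (SA.B (j - a - a₁)) -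
        finrank k (SA.B (j - a - b)) + finrank k (SA.B (j - a - a₁ - b)) = a₁ * b := by
      rw [hA, a1_finrank (by omega : 0 ≤ j - a), a1_finrank (by omega : 0 ≤ j - a - a₁),
        a1_finrank (by omega : 0 ≤ j - a - b), a1_finrank (by omega : 0 ≤ j - a - a₁ - b)]
      push_cast
      ring
    rw [hj, hc']
    rw [abs_le] at e1 ⊢
    constructor <;> linarith [e1.1, e1.2]

theorem growth_A (hA : SA.B = AA k) {U : Fam SA V} (hU : U.FG) (hs : U.Spans) :
    ∃ C : ℚ, ∀ᶠ j : ℤ in atTop, |(finrank k (U.U j) : ℚ) -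
      (finrank (KK k) V * ((j : ℚ) + 1) * (j + 2) / 2 + U.cl * j)| ≤ C := by
  obtain ⟨e, d, hle⟩ := hs.exists_free_le
  refine Fam.induction_prime hle hU (fun X Y => A1Good X → A1Good Y) (fun _ h => h)
    (fun _ _ _ h1 h2 h => h2 (h1 h)) (fun X a v h0 h1 hp h => ?_) (a1_free hA e d)
  exact a1_step hA (hU.of_le ((Fam.le_add_left _ _).trans h1)) ((Fam.free_spans e d).mono h0)
    a v hp h

theorem dual_growth (hA : SA.B = AA k) {U : Fam SA V} (hU : U.FG) (hs : U.Spans) :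
    ∃ C : ℚ, ∀ᶠ j : ℤ in atTop, (finrank k (U.U j) : ℚ) + finrank k (U.dual.U j) ≤
      finrank (KK k) V * ((j : ℚ) + 1) * (j + 2) + C := by
  obtain ⟨C, hC⟩ := growth_A hA hU hs
  obtain ⟨C', hC'⟩ := growth_A hA (Fam.dual_FG hs) (Fam.dual_spans hU)
  have h1 := a1_eff hA (Fam.eff_of_pairing (Module.Dual.eval (KK k) V)
    (fun v hv => (Module.forall_dual_apply_eq_zero_iff (KK k) v).1 hv)
    Subspace.dual_finrank_eq.symm hU hs (Fam.dual_FG hs) (Fam.dual_spans hU) 0
    fun a b v w hv hw => by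
      rw [add_zero, add_comm]
      exact hw a v hv)
  have h2 : (U.cl : ℚ) + U.dual.cl ≤ 0 := by
    rw [smul_zero] at h1
    have : U.cl + U.dual.cl ≤ 0 := by omega
    exact_mod_cast this
  refine ⟨C + C', ?_⟩
  filter_upwards [hC, hC', eventually_ge_atTop 0] with j e1 e2 e3
  rw [Subspace.dual_finrank_eq] at e2
  have e4 : (0 : ℚ) ≤ j := by exact_mod_cast e3
  have e5 := mul_nonpos_of_nonpos_of_nonneg h2 e4
  nlinarith [(abs_le.1 e1).2, (abs_le.1 e2).2]

end Vale.Agent.P190
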