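import Vale.Agent.P190.G3

/-! P190, part G4: slopes. -/

namespace Vale.Agent.P190

open Module

variable {k K Γ : Type} [Field k] [Field K] [Algebra k K] [AddCommGroup Γ]

theorem Sys.UnitDeg.map_eq_zero {S : Sys k K Γ} {H : Γ →+ ℤ} (hH : ∀ a, S.Eff a → 0 ≤ H a)
    {a : Γ} (h : S.UnitDeg a) : H a = 0 := by
  have h1 := hH _ h.eff
  have h2 := hH _ h.neg.eff
  rw [map_neg] at h2
  omega

theorem Sys.UnitDeg.map_sub_eq {S : Sys k K Γ} {H : Γ →+ ℤ} (hH : ∀ a, S.Eff a → 0 ≤ H a)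
    {a b : Γ} (h : S.UnitDeg (a - b)) : H a = H b := by
  have := h.map_eq_zero hH
  rw [map_sub] at this
  omega

theorem Sys.Eff.map_sub_le {S : Sys k K Γ} {H : Γ →+ ℤ} (hH : ∀ a, S.Eff a → 0 ≤ H a)
    {a b : Γ} (h : S.Eff (a - b)) : H b ≤ H a := by
  have := hH _ h
  rw [map_sub] at this
  omega

namespace Fam

variable {S : Sys k K Γ} {H : Γ →+ ℤ}
variable {V : Type} [AddCommGroup V] [Module K V] [Module k V] [IsScalarTower k K V]
variable {W : Type} [AddCommGroup W] [Module K W] [Module k W] [IsScalarTower k K W]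

theorem map_equiv_eq_comap (U : Fam S V) (e : V ≃ₗ[K] W) :
    U.map e.toLinearMap = U.comap e.symm.toLinearMap := by
  ext a w
  constructor
  · rintro ⟨v, hv, rfl⟩
    simpa [Fam.comap] using hv
  · intro hw
    exact ⟨e.symm w, hw, by simp⟩

omit [IsScalarTower k K V] in
theorem spans_or_zero (hH : ∀ a, S.Eff a → 0 ≤ H a) {U U' : Fam S V} (hs : U.Spans)
    (h : ∀ P a v, v ∈ U.U a → U'.LocMem P a v) : (∀ a, H a = 0) ∨ U'.Spans := by
  rcases isEmpty_or_nonempty S.Pl with hP | ⟨⟨P⟩⟩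
  · exact Or.inl fun a => Sys.UnitDeg.map_eq_zero hH ⟨1, one_ne_zero, fun P => hP.elim P⟩
  · refine Or.inr (spans_of_smul fun v => ?_)
    obtain ⟨b, f, h1, -, h3⟩ := hs.exists_smul_mem 0 v
    obtain ⟨b', f', h1', -, -, h4⟩ := h P _ _ h3
    exact ⟨_, f' * f, mul_ne_zero h1' h1, by rwa [mul_smul]⟩

theorem LocMem.comap {U : Fam S V} {P : S.Pl} {a : Γ} (f : W →ₗ[K] V) {w : W}
    (h : U.LocMem P a (f w)) : (U.comap f).LocMem P a w := by
  obtain ⟨b, g, h1, h2, h3, h4⟩ := h
  exact ⟨b, g, h1, h2, h3, by simpa [Fam.comap] using h4⟩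

theorem fam_cl (hH : ∀ a, S.Eff a → 0 ≤ H a) : H S.fam.cl = 0 := by
  have h : S.fam.IsClass 0 := by
    refine isClass_of (Basis.singleton Unit K) 1 one_ne_zero fun P =>
      ⟨Basis.singleton Unit K, fun _ => 0, ⟨fun i => ?_, fun a v hv i => ?_⟩, ?_⟩
    · simpa [Sys.fam] using S.one_mem
    · simpa using Sys.mem_iff_ge.1 hv P
    · rw [Basis.det_self]
      simpa using S.val_one P
  simpa using ((isClass_cl fam_FG fam_spans).unique h).map_eq_zero hH

variable [FiniteDimensional K V] [FiniteDimensional K W]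

omit [Module k V] [IsScalarTower k K V] [Module k W] [IsScalarTower k K W]
  [FiniteDimensional K W] in
theorem finrank_comap_surj (β : V →ₗ[K] W) (hβ : Function.Surjective β) (Y : Submodule K W) :
    finrank K (Y.comap β) = finrank K Y + finrank K (LinearMap.ker β) := by
  have h1 := LinearMap.finrank_range_add_finrank_ker (β ∘ₗ (Y.comap β).subtype)
  rw [LinearMap.range_comp, Submodule.range_subtype, Submodule.map_comap_eq_of_surjective hβ,
    LinearMap.ker_comp, ← Submodule.finrank_map_subtype_eq, Submodule.map_comap_subtype,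
    inf_eq_right.2 (LinearMap.ker_le_comap β)] at h1
  exact h1.symm

omit [Module k V] [IsScalarTower k K V] [Module k W] [IsScalarTower k K W]
  [FiniteDimensional K V] [FiniteDimensional K W] in
theorem finrank_map_inj (α : W →ₗ[K] V) (hα : Function.Injective α) (Y : Submodule K W) :
    finrank K (Y.map α) = finrank K Y :=
  (Submodule.equivMapOfInjective α hα Y).finrank_eq.symm

theorem cl_comap_equiv (hH : ∀ a, S.Eff a → 0 ≤ H a) {U : Fam S V} (hU : U.FG) (hs : U.Spans)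
    (e : W ≃ₗ[K] V) : H (U.comap e.toLinearMap).cl = H U.cl := by
  have := (cl_map_equiv hU hs e.symm).map_sub_eq hH
  rwa [map_equiv_eq_comap, LinearEquiv.symm_symm] at this

theorem sdeg_top (hH : ∀ a, S.Eff a → 0 ≤ H a) {U : Fam S V} (hU : U.FG) (hs : U.Spans) :
    U.sdeg H ⊤ = H U.cl := by
  exact cl_comap_equiv hH hU hs Submodule.topEquiv

theorem sdeg_bot (hH : ∀ a, S.Eff a → 0 ≤ H a) (U : Fam S V) : U.sdeg H ⊥ = 0 := by
  exact (cl_of_finrank_zero (finrank_bot K V)).map_eq_zero hH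

theorem sdeg_range (hH : ∀ a, S.Eff a → 0 ≤ H a) {U : Fam S V} (hU : U.FG) (hs : U.Spans)
    (α : W →ₗ[K] V) (hα : Function.Injective α) :
    U.sdeg H (LinearMap.range α) = H (U.comap α).cl := by
  exact (cl_comap_equiv hH (hU.comap _ (LinearMap.range α).injective_subtype)
    (hs.comap _) (LinearEquiv.ofInjective α hα)).symm

theorem sdeg_comap (hH : ∀ a, S.Eff a → 0 ≤ H a) {U : Fam S V} (hU : U.FG) (hs : U.Spans)
    (α : W →ₗ[K] V) (hα : Function.Injective α) (Y : Submodule K W) :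
    (U.comap α).sdeg H Y = U.sdeg H (Y.map α) := by
  have := sdeg_range hH hU hs (α ∘ₗ Y.subtype) (hα.comp Y.injective_subtype)
  rw [LinearMap.range_comp, Submodule.range_subtype] at this
  exact this.symm

theorem sdeg_map (hH : ∀ a, S.Eff a → 0 ≤ H a) {U : Fam S V} (hU : U.FG) (hs : U.Spans)
    (β : V →ₗ[K] W) (hβ : Function.Surjective β) (Y : Submodule K W) :
    (U.map β).sdeg H Y = U.sdeg H (Y.comap β) - U.sdeg H (LinearMap.ker β) := by
  have h1 := (cl_add_exact (hU.comap _ (Y.comap β).injective_subtype) (hs.comap _)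
    (Submodule.inclusion (LinearMap.ker_le_comap β : LinearMap.ker β ≤ Y.comap β))
    (β.submoduleComap Y) (Submodule.inclusion_injective _)
    (LinearMap.submoduleComap_surjective_of_surjective β Y hβ) (by
      intro x
      constructor
      · intro hx
        exact ⟨⟨x, congrArg Subtype.val hx⟩, rfl⟩
      · rintro ⟨y, rfl⟩
        exact Subtype.ext y.2)).map_sub_eq hH
  have h2 : (U.comap (Y.comap β).subtype).map (β.submoduleComap Y) =
      (U.map β).comap Y.subtype := by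
    ext a y
    constructor
    · rintro ⟨x, hx, rfl⟩
      exact ⟨x, hx, rfl⟩
    · rintro ⟨x, hx, e⟩
      refine ⟨⟨x, ?_⟩, hx, Subtype.ext e⟩
      change β x ∈ Y
      rw [show β x = y from e]
      exact y.2
  rw [h2, map_add] at h1
  change U.sdeg H (Y.comap β) = U.sdeg H (LinearMap.ker β) + (U.map β).sdeg H Y at h1
  omega

theorem cl_mono (hH : ∀ a, S.Eff a → 0 ≤ H a) {U U' : Fam S V} (hU : U.FG) (hs : U.Spans)
    (hU' : U'.FG) (h : ∀ P a v, v ∈ U.U a → U'.LocMem P a v) : H U.cl ≤ H U'.cl := by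
  rcases spans_or_zero hH hs h with h0 | hs'
  · rw [h0, h0]
  · exact (eff_of_locMem hU hs hU' hs' h).map_sub_le hH

theorem sdeg_mono (hH : ∀ a, S.Eff a → 0 ≤ H a) {U U' : Fam S V} (hU : U.FG) (hs : U.Spans)
    (hU' : U'.FG) (h : ∀ P a v, v ∈ U.U a → U'.LocMem P a v) (X : Submodule K V) :
    U.sdeg H X ≤ U'.sdeg H X := by
  exact cl_mono hH (hU.comap _ X.injective_subtype) (hs.comap _)
    (hU'.comap _ X.injective_subtype) fun P a v hv => (h P a _ hv).comap X.subtype

theorem sdeg_hull (hH : ∀ a, S.Eff a → 0 ≤ H a) {U : Fam S V} (hU : U.FG) (hs : U.Spans)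
    (X : Submodule K V) : U.hull.sdeg H X = U.sdeg H X := by
  exact le_antisymm (sdeg_mono hH hU.hull (hs.mono U.le_hull) hU (fun P a v hv => hv P) X)
    (sdeg_mono hH hU hs hU.hull (fun P a v hv => locMem_of_mem P (U.le_hull a hv)) X)

theorem H_cl_shift (hH : ∀ a, S.Eff a → 0 ≤ H a) {U : Fam S V} (hU : U.FG) (hs : U.Spans)
    (w : Γ) : H (U.shift w).cl = H U.cl + finrank K V * H w := by
  rw [(cl_shift hU hs w).map_sub_eq hH, map_add, map_nsmul, nsmul_eq_mul]

theorem sdeg_shift (hH : ∀ a, S.Eff a → 0 ≤ H a) {U : Fam S V} (hU : U.FG) (hs : U.Spans)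
    (w : Γ) (X : Submodule K V) : (U.shift w).sdeg H X = U.sdeg H X + finrank K X * H w := by
  exact H_cl_shift hH (hU.comap _ X.injective_subtype) (hs.comap _) w

/-- the class along a map of degree `w` -/
theorem cl_le_of_map (hH : ∀ a, S.Eff a → 0 ≤ H a) {U : Fam S V} {U' : Fam S W} (hU : U.FG)
    (hs : U.Spans) (hU' : U'.FG) (hs' : U'.Spans) (f : V →ₗ[K] W)
    (w : Γ) (hf : ∀ a v, v ∈ U.U a → f v ∈ U'.U (a + w)) :
    H U.cl ≤ U.sdeg H (LinearMap.ker f) + U'.sdeg H (LinearMap.range f) +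
      finrank K (LinearMap.range f) * H w := by
  have h1 := (cl_add_exact hU hs (LinearMap.ker f).subtype f.rangeRestrict
    (LinearMap.ker f).injective_subtype f.surjective_rangeRestrict (by
      intro x
      constructor
      · intro hx
        exact ⟨⟨x, congrArg Subtype.val hx⟩, rfl⟩
      · rintro ⟨y, rfl⟩
        exact Subtype.ext y.2)).map_sub_eq hH
  have h2 := cl_mono hH (hU.map f.rangeRestrict) (hs.map _ f.surjective_rangeRestrict)
    ((hU'.shift w).comap _ (LinearMap.range f).injective_subtype) (by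
      rintro P a _ ⟨v, hv, rfl⟩
      exact locMem_of_mem P (hf a v hv))
  have h3 := sdeg_shift hH hU' hs' w (LinearMap.range f)
  rw [map_add] at h1
  unfold sdeg at h3 ⊢
  omega

theorem exists_maxLe (hH : ∀ a, S.Eff a → 0 ≤ H a) {U : Fam S V} (hU : U.FG) (hs : U.Spans) :
    ∃ σ : ℚ, U.MaxLe H σ := by
  let e := Module.finBasis K V
  obtain ⟨f, hf, d, h1⟩ := hU.exists_den e
  have key : ∀ (n : ℕ) (X : Submodule K V), finrank K X = n → U.sdeg H X ≤ H (-d) * n := by
    intro n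
    induction n with
    | zero =>
      intro X hX
      rw [Submodule.finrank_eq_zero.1 hX, sdeg_bot hH]
      simp
    | succ n ih =>
      intro X hX
      obtain ⟨x, hx, hx0⟩ : ∃ x ∈ X, x ≠ 0 := (Submodule.ne_bot_iff X).1 (by
        rintro rfl
        simp at hX)
      obtain ⟨i, hi⟩ : ∃ i, e.repr x i ≠ 0 := by
        by_contra h0
        push Not at h0
        exact hx0 (e.ext_elem fun i => by simpa using h0 i)
      let φ : X →ₗ[K] K := (f • e.coord i) ∘ₗ X.subtype
      have hφ : LinearMap.range φ = ⊤ := by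
        rw [LinearMap.range_eq_top]
        intro y
        refine ⟨(y / (f * e.repr x i)) • ⟨x, hx⟩, ?_⟩
        simp only [φ, map_smul, LinearMap.comp_apply, Submodule.subtype_apply,
          LinearMap.smul_apply, Basis.coord_apply, smul_eq_mul]
        exact div_mul_cancel₀ y (mul_ne_zero hf hi)
      have h2 := cl_le_of_map hH (hU.comap _ X.injective_subtype) (hs.comap _) fam_FG fam_spans
        φ (-d) (fun a v hv => by
          have := h1 a v (U.le_hull a hv) i
          rwa [sub_eq_add_neg] at this)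
      have h3 := LinearMap.finrank_range_add_finrank_ker φ
      rw [hφ, finrank_top, Module.finrank_self, hX] at h3
      rw [hφ, sdeg_top hH fam_FG fam_spans, fam_cl hH, finrank_top, Module.finrank_self,
        sdeg_comap hH hU hs _ X.injective_subtype] at h2
      have h4 := ih ((LinearMap.ker φ).map X.subtype) (by
        rw [finrank_map_inj _ X.injective_subtype]; omega)
      change U.sdeg H X ≤ _ at h2
      push_cast at h2 ⊢
      linarith
  exact ⟨H (-d), fun X => by exact_mod_cast key _ X rfl⟩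

theorem MaxLe.mono {U : Fam S V} {σ σ' : ℚ} (h : U.MaxLe H σ) (hσ : σ ≤ σ') : U.MaxLe H σ' := by
  exact fun X => (h X).trans (mul_le_mul_of_nonneg_right hσ (Nat.cast_nonneg _))

theorem MinGe.mono {U : Fam S V} {σ σ' : ℚ} (h : U.MinGe H σ) (hσ : σ' ≤ σ) : U.MinGe H σ' := by
  refine fun X => le_trans (mul_le_mul_of_nonneg_right hσ ?_) (h X)
  have : (finrank K X : ℚ) ≤ finrank K V := by exact_mod_cast X.finrank_le
  linarith

theorem MaxLe.minGe (hH : ∀ a, S.Eff a → 0 ≤ H a) {U : Fam S V} (hU : U.FG) (hs : U.Spans)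
    {μ δ : ℚ} (hδ : 0 ≤ δ) (h : U.MaxLe H (μ + δ))
    (hμ : μ * finrank K V ≤ H U.cl) : U.MinGe H (μ - finrank K V * δ) := by
  intro X
  by_cases hX : finrank K X = finrank K V
  · rw [Submodule.eq_top_of_finrank_eq hX, sdeg_top hH hU hs]
    simp
  have h1 : (finrank K X : ℚ) + 1 ≤ finrank K V := by
    exact_mod_cast lt_of_le_of_ne X.finrank_le hX
  have h2 := h X
  have h3 : (0 : ℚ) ≤ finrank K X := Nat.cast_nonneg _
  have h4 : δ * finrank K X ≤ finrank K V * δ * ((finrank K V : ℚ) - finrank K X) := by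
    have h5 : (finrank K X : ℚ) ≤ finrank K V * ((finrank K V : ℚ) - finrank K X) := by nlinarith
    nlinarith
  nlinarith

theorem exists_minGe (hH : ∀ a, S.Eff a → 0 ≤ H a) {U : Fam S V} (hU : U.FG) (hs : U.Spans) :
    ∃ σ : ℚ, U.MinGe H σ := by
  obtain ⟨σ, h⟩ := exists_maxLe hH hU hs
  refine ⟨_, MaxLe.minGe hH hU hs (μ := -|(H U.cl : ℚ)|) (δ := |(H U.cl : ℚ)| + |σ|)
    (by positivity) (h.mono (by linarith [le_abs_self σ])) ?_⟩
  rcases Nat.eq_zero_or_pos (finrank K V) with h0 | h0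
  · rw [h0, (cl_of_finrank_zero h0).map_eq_zero hH]
    simp
  · have h1 : (1 : ℚ) ≤ finrank K V := by exact_mod_cast h0
    nlinarith [neg_abs_le (H U.cl : ℚ), abs_nonneg (H U.cl : ℚ)]

/-- a nonzero subspace of maximal slope -/
theorem exists_max_slope (hH : ∀ a, S.Eff a → 0 ≤ H a) {U : Fam S V} (hU : U.FG) (hs : U.Spans)
    (hr : 0 < finrank K V) :
    ∃ X : Submodule K V, 0 < finrank K X ∧ U.MaxLe H ((U.sdeg H X : ℚ) / finrank K X) := by
  obtain ⟨σ, h⟩ := exists_maxLe hH hU hs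
  have hN : (0 : ℚ) < (finrank K V).factorial := by exact_mod_cast Nat.factorial_pos _
  have hint : ∀ X : Submodule K V, 0 < finrank K X → ∃ z : ℤ,
      (z : ℚ) = (U.sdeg H X : ℚ) / finrank K X * (finrank K V).factorial := by
    intro X hX
    obtain ⟨m, hm⟩ := Nat.dvd_factorial hX X.finrank_le
    refine ⟨U.sdeg H X * m, ?_⟩
    have : (finrank K X : ℚ) ≠ 0 := by exact_mod_cast hX.ne'
    rw [hm]; push_cast; field_simp
  obtain ⟨z, ⟨X, hX, hz⟩, hmax⟩ := Int.exists_greatest_of_bdd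
    (P := fun z => ∃ X : Submodule K V, 0 < finrank K X ∧
      (z : ℚ) = (U.sdeg H X : ℚ) / finrank K X * (finrank K V).factorial)
    ⟨⌈σ * (finrank K V).factorial⌉, by
      rintro z ⟨X, hX, hz⟩
      have h1 : (0 : ℚ) < finrank K X := by exact_mod_cast hX
      have h2 : (z : ℚ) ≤ σ * (finrank K V).factorial := by
        rw [hz]
        exact mul_le_mul_of_nonneg_right ((div_le_iff₀ h1).2 (h X)) hN.le
      exact_mod_cast h2.trans (Int.le_ceil _)⟩ (by
      have h1 : 0 < finrank K (⊤ : Submodule K V) := by simpa using hr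
      obtain ⟨z, hz⟩ := hint ⊤ h1
      exact ⟨z, ⊤, h1, hz⟩)
  refine ⟨X, hX, fun Y => ?_⟩
  rcases Nat.eq_zero_or_pos (finrank K Y) with h0 | h0
  · rw [h0, Submodule.finrank_eq_zero.1 h0, sdeg_bot hH]
    simp
  · obtain ⟨y, hy⟩ := hint Y h0
    have h1 : (y : ℚ) ≤ z := by exact_mod_cast hmax y ⟨Y, h0, hy⟩
    rw [hy, hz] at h1
    have h2 : (0 : ℚ) < finrank K Y := by exact_mod_cast h0
    exact (div_le_iff₀ h2).1 (le_of_mul_le_mul_right h1 hN)

theorem MaxLe.comap (hH : ∀ a, S.Eff a → 0 ≤ H a) {U : Fam S V} (hU : U.FG) (hs : U.Spans)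
    {σ : ℚ} (h : U.MaxLe H σ) (α : W →ₗ[K] V) (hα : Function.Injective α) :
    (U.comap α).MaxLe H σ := by
  intro Y
  rw [sdeg_comap hH hU hs α hα, ← finrank_map_inj α hα]
  exact h _

theorem H_cl_map (hH : ∀ a, S.Eff a → 0 ≤ H a) {U : Fam S V} (hU : U.FG) (hs : U.Spans)
    (β : V →ₗ[K] W) (hβ : Function.Surjective β) :
    H (U.map β).cl = H U.cl - U.sdeg H (LinearMap.ker β) := by
  rw [← sdeg_top hH (hU.map β) (hs.map β hβ), sdeg_map hH hU hs β hβ, Submodule.comap_top,
    sdeg_top hH hU hs]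

theorem MinGe.map (hH : ∀ a, S.Eff a → 0 ≤ H a) {U : Fam S V} (hU : U.FG) (hs : U.Spans)
    {σ : ℚ} (h : U.MinGe H σ) (β : V →ₗ[K] W) (hβ : Function.Surjective β) :
    (U.map β).MinGe H σ := by
  intro Y
  have h1 := h (Y.comap β)
  have h2 := finrank_comap_surj β hβ ⊤
  rw [Submodule.comap_top, finrank_top, finrank_top] at h2
  rw [finrank_comap_surj β hβ, h2] at h1
  rw [H_cl_map hH hU hs β hβ, sdeg_map hH hU hs β hβ]
  push_cast at h1 ⊢
  linarith

/-- quotient by a subspace of maximal slope -/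
theorem MaxLe.map_of_max (hH : ∀ a, S.Eff a → 0 ≤ H a) {U : Fam S V} (hU : U.FG) (hs : U.Spans)
    {σ : ℚ} (h : U.MaxLe H σ) (β : V →ₗ[K] W) (hβ : Function.Surjective β)
    (hmax : σ * finrank K (LinearMap.ker β) ≤ U.sdeg H (LinearMap.ker β)) :
    (U.map β).MaxLe H σ := by
  intro Y
  have h1 := h (Y.comap β)
  rw [finrank_comap_surj β hβ] at h1
  rw [sdeg_map hH hU hs β hβ]
  push_cast at h1 ⊢
  linarith

/-- a subspace of maximal slope has all quotient slopes at least that slope -/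
theorem MaxLe.minGe_comap (hH : ∀ a, S.Eff a → 0 ≤ H a) {U : Fam S V} (hU : U.FG) (hs : U.Spans)
    {σ : ℚ} (h : U.MaxLe H σ) (X : Submodule K V) (hmax : σ * finrank K X ≤ U.sdeg H X) :
    (U.comap X.subtype).MinGe H σ := by
  intro Y
  have h1 := h (Y.map X.subtype)
  rw [finrank_map_inj _ X.injective_subtype] at h1
  rw [sdeg_comap hH hU hs _ X.injective_subtype]
  change _ ≤ (U.sdeg H X : ℚ) - _
  linarith

theorem MinGe.of_exact (hH : ∀ a, S.Eff a → 0 ≤ H a) {V₁ : Type} [AddCommGroup V₁] [Module K V₁]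
    [Module k V₁] [IsScalarTower k K V₁] [FiniteDimensional K V₁] {U : Fam S V} (hU : U.FG)
    (hs : U.Spans) (α : V₁ →ₗ[K] V) (β : V →ₗ[K] W) (hα : Function.Injective α)
    (hβ : Function.Surjective β) (hex : Function.Exact α β) {σ : ℚ}
    (h₁ : (U.comap α).MinGe H σ) (h₂ : (U.map β).MinGe H σ) : U.MinGe H σ := by
  intro X
  have hk : LinearMap.ker β = LinearMap.range α := LinearMap.exact_iff.1 hex
  have e1 : (LinearMap.ker (β ∘ₗ X.subtype)).map X.subtype = (X.comap α).map α := by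
    rw [LinearMap.ker_comp, Submodule.map_comap_subtype, Submodule.map_comap_eq, hk, inf_comm]
  have e2 : LinearMap.range (β ∘ₗ X.subtype) = X.map β := by
    rw [LinearMap.range_comp, Submodule.range_subtype]
  have h1 := cl_le_of_map hH (hU.comap _ X.injective_subtype) (hs.comap _) (hU.map β)
    (hs.map β hβ) (β ∘ₗ X.subtype) 0 (fun a v hv => ⟨v, by rw [add_zero]; exact hv, rfl⟩)
  rw [sdeg_comap hH hU hs _ X.injective_subtype, e1, e2, ← sdeg_comap hH hU hs α hα, map_zero,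
    mul_zero, add_zero] at h1
  change U.sdeg H X ≤ _ at h1
  have h2 := (cl_add_exact hU hs α β hα hβ hex).map_sub_eq hH
  rw [map_add] at h2
  have h3 := LinearMap.finrank_range_add_finrank_ker (β ∘ₗ X.subtype)
  rw [← finrank_map_inj _ X.injective_subtype (LinearMap.ker _), e1, e2,
    finrank_map_inj α hα] at h3
  have h4 := LinearMap.finrank_range_add_finrank_ker β
  rw [LinearMap.range_eq_top.2 hβ, finrank_top, hk, LinearMap.finrank_range_of_inj hα] at h4
  have h5 := h₁ (X.comap α)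
  have h6 := h₂ (X.map β)
  have h7 : (U.sdeg H X : ℚ) ≤ (U.comap α).sdeg H (X.comap α) + (U.map β).sdeg H (X.map β) := by
    exact_mod_cast h1
  rw [h2, ← h3, ← h4]
  push_cast
  linarith

theorem MaxLe.congr (hH : ∀ a, S.Eff a → 0 ≤ H a) {U U' : Fam S V} (hU : U.FG) (hs : U.Spans)
    (hU' : U'.FG) (h : ∀ P a v, v ∈ U.U a → U'.LocMem P a v) {σ : ℚ} (hm : U'.MaxLe H σ) :
    U.MaxLe H σ := by
  intro X
  have : (U.sdeg H X : ℚ) ≤ U'.sdeg H X := by exact_mod_cast sdeg_mono hH hU hs hU' h X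
  exact this.trans (hm X)

theorem MinGe.congr (hH : ∀ a, S.Eff a → 0 ≤ H a) {U U' : Fam S V} (hU : U.FG) (hs : U.Spans)
    (hU' : U'.FG) (h : ∀ P a v, v ∈ U.U a → U'.LocMem P a v)
    (h' : ∀ P a v, v ∈ U'.U a → U.LocMem P a v) {σ : ℚ} (hm : U'.MinGe H σ) : U.MinGe H σ := by
  intro X
  have h1 := hm X
  rcases spans_or_zero hH hs h with h0 | hs'
  · simpa [sdeg, h0] using h1
  · rw [le_antisymm (sdeg_mono hH hU hs hU' h X) (sdeg_mono hH hU' hs' hU h' X),
      le_antisymm (cl_mono hH hU hs hU' h) (cl_mono hH hU' hs' hU h')]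
    exact h1

theorem MaxLe.shift (hH : ∀ a, S.Eff a → 0 ≤ H a) {U : Fam S V} (hU : U.FG) (hs : U.Spans)
    {σ : ℚ} (h : U.MaxLe H σ) (w : Γ) : (U.shift w).MaxLe H (σ + H w) := by
  intro X
  have := h X
  rw [sdeg_shift hH hU hs]
  push_cast
  linarith

theorem MinGe.shift (hH : ∀ a, S.Eff a → 0 ≤ H a) {U : Fam S V} (hU : U.FG) (hs : U.Spans)
    {σ : ℚ} (h : U.MinGe H σ) (w : Γ) : (U.shift w).MinGe H (σ + H w) := by
  intro X
  have := h X
  rw [sdeg_shift hH hU hs, H_cl_shift hH hU hs]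
  push_cast
  linarith

theorem MaxLe.map_equiv (hH : ∀ a, S.Eff a → 0 ≤ H a) {U : Fam S V} (hU : U.FG) (hs : U.Spans)
    {σ : ℚ} (h : U.MaxLe H σ) (e : V ≃ₗ[K] W) : (U.map e.toLinearMap).MaxLe H σ := by
  rw [map_equiv_eq_comap]
  exact h.comap hH hU hs _ e.symm.injective

/-- no sections in negative slope -/
theorem MaxLe.hull_eq_bot (hH : ∀ a, S.Eff a → 0 ≤ H a) {U : Fam S V} (hU : U.FG) (hs : U.Spans)
    {σ : ℚ} (h : U.MaxLe H σ) {a : Γ} (ha : σ + H a < 0) : U.hull.U a = ⊥ := by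
  rw [eq_bot_iff]
  intro v hv
  by_contra h0
  have hα : Function.Injective (LinearMap.toSpanSingleton K V v) :=
    LinearMap.ker_eq_bot.1 (LinearMap.ker_toSpanSingleton K h0)
  have h1 := h.comap hH hU hs _ hα ⊤
  rw [sdeg_top hH (hU.comap _ hα) (hs.comap _), finrank_top, Module.finrank_self] at h1
  have h2 := cl_mono hH (fam_FG.shift (-a)) (fam_spans.shift (-a)) (hU.comap _ hα) (by
    intro P b φ hφ
    have h3 := U.hull.smul_mem _ _ φ v hφ hv P
    rw [neg_add_cancel_right] at h3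
    exact LocMem.comap _ h3)
  rw [H_cl_shift hH fam_FG fam_spans, fam_cl hH, Module.finrank_self, map_neg] at h2
  have h4 : -(H a : ℚ) ≤ H (U.comap (LinearMap.toSpanSingleton K V v)).cl := by
    exact_mod_cast (by simpa using h2)
  push_cast at h1
  linarith

/-- a nonzero map of families of degree `w` -/
theorem MinGe.exists_sub (hH : ∀ a, S.Eff a → 0 ≤ H a) {U : Fam S V} {U' : Fam S W} (hU : U.FG)
    (hs : U.Spans) (hU' : U'.FG) (hs' : U'.Spans) {σ : ℚ} (h : U.MinGe H σ) (f : V →ₗ[K] W)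
    (w : Γ) (hf : ∀ a v, v ∈ U.U a → f v ∈ U'.U (a + w)) :
    (σ - H w) * finrank K (LinearMap.range f) ≤ U'.sdeg H (LinearMap.range f) := by
  have h1 : (H U.cl : ℚ) ≤ U.sdeg H (LinearMap.ker f) + U'.sdeg H (LinearMap.range f) +
      finrank K (LinearMap.range f) * H w := by
    exact_mod_cast cl_le_of_map hH hU hs hU' hs' f w hf
  have h2 := h (LinearMap.ker f)
  rw [← LinearMap.finrank_range_add_finrank_ker f] at h2
  push_cast at h2
  linarith

/-- slopes of a dual family -/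
theorem MinGe.maxLe_of_pairing (hH : ∀ a, S.Eff a → 0 ≤ H a) (β : V →ₗ[K] W →ₗ[K] K)
    (hβ : ∀ v, (∀ w, β v w = 0) → v = 0) {U : Fam S V} {U' : Fam S W} (hU : U.FG) (hs : U.Spans)
    (hU' : U'.FG) (hs' : U'.Spans) (γ₀ : Γ)
    (h : ∀ a b v w, v ∈ U.U a → w ∈ U'.U b → β v w ∈ S.B (a + b + γ₀)) {σ : ℚ}
    (hm : U'.MinGe H σ) : U.MaxLe H (H γ₀ - σ) := by
  intro X
  have hinj : Function.Injective (β ∘ₗ X.subtype) := by
    rw [← LinearMap.ker_eq_bot, LinearMap.ker_eq_bot']
    intro x hx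
    exact Subtype.ext (hβ x fun w => LinearMap.congr_fun hx w)
  have hg : Function.Surjective (β ∘ₗ X.subtype).flip := LinearMap.flip_surjective_iff₁.2 hinj
  have hr : finrank K X = finrank K (Module.Dual K X) := Subspace.dual_finrank_eq.symm
  have h1 := hH _ (eff_of_pairing (Module.Dual.eval K X)
    (fun x hx => (Module.forall_dual_apply_eq_zero_iff K x).1 hx) hr
    (hU.comap _ X.injective_subtype) (hs.comap _) (hU'.map (β ∘ₗ X.subtype).flip)
    (hs'.map _ hg) γ₀ (by
      rintro a b x _ hx ⟨w, hw, rfl⟩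
      exact h a b x w hx hw))
  have h2 := hm.map hH hU' hs' _ hg ⊥
  rw [sdeg_bot hH, finrank_bot] at h2
  rw [map_sub, map_sub, map_nsmul, nsmul_eq_mul] at h1
  have h3 : (0 : ℚ) ≤ finrank K X * H γ₀ - U.sdeg H X -
      H (U'.map (β ∘ₗ X.subtype).flip).cl := by exact_mod_cast h1
  have h4 : (finrank K (X →ₗ[K] K) : ℚ) = finrank K X := by exact_mod_cast hr.symm
  rw [h4] at h2
  push_cast at h2
  linarith

end Fam

end Vale.Agent.P190
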