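import Vale.Agent.P190.A1
import Vale.Agent.P190.G4

/-! P190, part A2: restriction of scalars to the polynomial subring and the dual family. -/

namespace Vale.Agent.P190

open Module Filter

variable {k : Type} [Field k] {n : ℕ} {D : DP k n} (h : Hs D)
variable {V : Type} [AddCommGroup V] [Module (KK k) V] [Module k V] [IsScalarTower k (KK k) V]

theorem a2_mem_kos {x y : KK k} {q : ℕ} {X : Submodule k V} {v : V} :
    v ∈ kos x y q X ↔ ∃ a ∈ X, ∃ b ∈ X, ∃ c ∈ X, v = x ^ q • a + y ^ q • b + c := by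
  constructor
  · intro hv
    obtain ⟨p, hp, c, hc, rfl⟩ := Submodule.mem_sup.1 hv
    obtain ⟨p1, ⟨a, ha, rfl⟩, p2, ⟨b, hb, rfl⟩, rfl⟩ := Submodule.mem_sup.1 hp
    exact ⟨a, ha, b, hb, c, hc, rfl⟩
  · rintro ⟨a, ha, b, hb, c, hc, rfl⟩
    exact Submodule.add_mem_sup (Submodule.add_mem_sup ⟨a, ha, rfl⟩ ⟨b, hb, rfl⟩) hc

theorem Hs.fin_fam {U : Fam D.S V} (hU : U.FG) (w : ZZ) : ∀ᶠ m : ℤ in atTop, ∀ c : Fin 5 → ℤ,
    U.U (w + lamv c + cst (m + n)) ≤ kos h.x h.y 1 (U.U (w + lamv c + cst m)) := by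
  obtain ⟨G, hG, rfl⟩ := hU
  have h1 := (eventually_all_finite hG).2 fun p (_ : p ∈ G) => h.fin (w - p.1)
  filter_upwards [h1] with m hm c
  refine Submodule.span_le.2 ?_
  rintro _ ⟨p, hp, φ, hφ, rfl⟩
  have h2 : φ ∈ D.S.B (w - p.1 + lamv c + cst (m + n)) := by
    rwa [show w - p.1 + lamv c + cst (m + n) = w + lamv c + cst (m + n) - p.1 by abel]
  obtain ⟨a, ha, b, hb, e, he, rfl⟩ := a2_mem_kos.1 (hm p hp c h2)
  have h3 : ∀ z ∈ D.S.B (w - p.1 + lamv c + cst m),
      z • p.2 ∈ (Fam.gen D.S G).U (w + lamv c + cst m) := fun z hz =>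
    Submodule.subset_span ⟨p, hp, z, by
      rwa [show w + lamv c + cst m - p.1 = w - p.1 + lamv c + cst m by abel], rfl⟩
  refine a2_mem_kos.2 ⟨_, h3 a ha, _, h3 b hb, _, h3 e he, ?_⟩
  simp only [add_smul, smul_eq_mul, mul_smul]

theorem a2_iter {x y : KK k} (N : ℕ → Submodule k V) (hN : ∀ j, N (j + 1) ≤ kos x y 1 (N j))
    (J : ℕ) : N J ≤ Submodule.span k
      {v | ∃ i l : ℕ, i + l ≤ J ∧ ∃ u ∈ N 0, v = (x ^ i * y ^ l) • u} := by
  induction J with
  | zero => exact fun u hu => Submodule.subset_span ⟨0, 0, le_rfl, u, hu, by simp⟩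
  | succ J ih =>
    intro v hv
    obtain ⟨a, ha, b, hb, c, hc, rfl⟩ := a2_mem_kos.1 (hN J hv)
    have key : ∀ (i₀ l₀ : ℕ), i₀ + l₀ ≤ 1 → ∀ z ∈ N J, (x ^ i₀ * y ^ l₀) • z ∈ Submodule.span k
        {v | ∃ i l : ℕ, i + l ≤ J + 1 ∧ ∃ u ∈ N 0, v = (x ^ i * y ^ l) • u} := by
      intro i₀ l₀ h0 z hz
      have hz' := ih hz
      clear hz
      induction hz' using Submodule.span_induction with
      | mem z hz =>
        obtain ⟨i, l, hil, u, hu, rfl⟩ := hz
        refine Submodule.subset_span ⟨i₀ + i, l₀ + l, by omega, u, hu, ?_⟩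
        rw [smul_smul]
        congr 1
        ring
      | zero => simp
      | add p q _ _ hp hq => rw [smul_add]; exact Submodule.add_mem _ hp hq
      | smul e p _ hp => rw [smul_comm]; exact Submodule.smul_mem _ e hp
    refine Submodule.add_mem _ (Submodule.add_mem _ ?_ ?_) ?_
    · simpa using key 1 0 le_rfl a ha
    · simpa using key 0 1 le_rfl b hb
    · simpa using key 0 0 (by norm_num) c hc

theorem Hs.a2_mon_mem (U : Fam D.S V) {a : ZZ} {u : V} (hu : u ∈ U.U a) (i l : ℕ) (J : ℤ)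
    (hJ : (i : ℤ) + l ≤ J) : (h.x ^ i * h.y ^ l) • u ∈ U.U (a + cst (J * n)) := by
  have h1 : ss k ^ i * tt k ^ l ∈ AA k J := Submodule.subset_span ⟨i, l, hJ, rfl⟩
  have h2 := h.emb_mem h1
  rw [map_mul, map_pow, map_pow, h.emb_ss, h.emb_tt] at h2
  have h3 := U.smul_mem _ _ _ _ h2 hu
  rwa [add_comm, mul_comm (n : ℤ) J] at h3

theorem Hs.tdim_zero {U : Fam D.S V} (hU : U.FG) : ∀ᶠ m : ℤ in atTop, ∀ (c : Fin 5 → ℤ) (q : ℕ),
    0 < q → h.tdim q U (cst m + lamv c) = 0 := by
  obtain ⟨m₀, hm₀⟩ := eventually_atTop.1 (h.fin_fam hU 0)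
  filter_upwards [eventually_ge_atTop m₀] with m hm c q _
  have hN : ∀ j : ℕ, U.U (cst m + lamv c + cst (((j + 1 : ℕ) : ℤ) * n)) ≤
      kos h.x h.y 1 (U.U (cst m + lamv c + cst ((j : ℤ) * n))) := by
    intro j
    have := hm₀ (m + j * n) (le_trans hm (le_add_of_nonneg_right (by positivity))) c
    have e1 : cst m + lamv c + cst (((j + 1 : ℕ) : ℤ) * n) = 0 + lamv c + cst (m + j * n + n) := by
      funext l
      simp only [cst, Pi.add_apply, Pi.zero_apply]
      push_cast
      ring
    have e2 : cst m + lamv c + cst ((j : ℤ) * n) = 0 + lamv c + cst (m + j * n) := by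
      funext l
      simp only [cst, Pi.add_apply, Pi.zero_apply]
      ring
    rw [e1, e2]
    exact this
  have hit := a2_iter (fun j : ℕ => U.U (cst m + lamv c + cst ((j : ℤ) * n))) hN (3 * q)
  have heq : U.U (cst m + lamv c + cst (3 * q * n)) =
      kos h.x h.y q (U.U (cst m + lamv c + cst (2 * q * n))) := by
    apply le_antisymm
    · have e1 : ((3 * q : ℕ) : ℤ) * n = 3 * q * n := by push_cast; ring
      simp only [e1] at hit
      refine hit.trans (Submodule.span_le.2 ?_)
      rintro _ ⟨i, l, hil, u, hu, rfl⟩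
      have hu' : u ∈ U.U (cst m + lamv c) := by simpa [cst_zero] using hu
      by_cases hi : q ≤ i
      · obtain ⟨i', rfl⟩ := Nat.exists_eq_add_of_le hi
        refine a2_mem_kos.2 ⟨_, h.a2_mon_mem U hu' i' l (2 * q) (by omega), 0,
          Submodule.zero_mem _, 0, Submodule.zero_mem _, ?_⟩
        rw [smul_zero, add_zero, add_zero, smul_smul]
        congr 1
        ring
      by_cases hl : q ≤ l
      · obtain ⟨l', rfl⟩ := Nat.exists_eq_add_of_le hl
        refine a2_mem_kos.2 ⟨0, Submodule.zero_mem _, _,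
          h.a2_mon_mem U hu' i l' (2 * q) (by omega), 0, Submodule.zero_mem _, ?_⟩
        rw [smul_zero, add_zero, zero_add, smul_smul]
        congr 1
        ring
      · refine a2_mem_kos.2 ⟨0, Submodule.zero_mem _, 0, Submodule.zero_mem _, _,
          h.a2_mon_mem U hu' i l (2 * q) (by omega), ?_⟩
        rw [smul_zero, smul_zero, add_zero, zero_add]
    · intro v hv
      obtain ⟨a, ha, b, hb, e, he, rfl⟩ := a2_mem_kos.1 hv
      have e1 : cst m + lamv c + cst (2 * q * n) + cst ((q : ℤ) * n) =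
          cst m + lamv c + cst (3 * q * n) := by
        funext l
        simp only [cst, Pi.add_apply]
        ring
      refine Submodule.add_mem _ (Submodule.add_mem _ ?_ ?_) ?_
      · have := h.a2_mon_mem U ha q 0 q (by simp)
        rw [e1] at this
        simpa using this
      · have := h.a2_mon_mem U hb 0 q q (by simp)
        rw [e1] at this
        simpa using this
      · have := h.a2_mon_mem U he 0 0 q (by simp)
        rw [e1] at this
        simpa using this
  unfold Hs.tdim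
  rw [heq, sub_self]

theorem a2_mem_resFam {SA : Sys k (KK k) ℤ} (hA : SA.B = AA k) (U : Fam D.S V) (a : ZZ) (j : ℤ)
    (v : V) : toRes h V v ∈ (resFam h SA hA U a).U j ↔ v ∈ U.U (cst (n * j) - a) := by
  constructor
  · rintro ⟨u, hu, huv⟩
    have : u = v := (toRes h V).injective huv
    exact this ▸ hu
  · exact fun hv => ⟨v, hv, rfl⟩

theorem resFam_FG {SA : Sys k (KK k) ℤ} (hA : SA.B = AA k) {U : Fam D.S V} (hU : U.FG) (a : ZZ) :
    (resFam h SA hA U a).FG := by
  obtain ⟨m₀, hm₀⟩ := eventually_atTop.1 (h.fin_fam hU (-a))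
  obtain ⟨t, ht⟩ := DP.fam_eq_bot hU
  have hn : (1 : ℤ) ≤ n := by exact_mod_cast D.n_pos
  set j₀ : ℤ := |m₀| with hj₀
  set j₁ : ℤ := -(|t| + |HL a|) with hj₁
  have := hU.fd (cst (n * j₀) - a)
  obtain ⟨s, hs⟩ := (Submodule.fg_iff_finiteDimensional (U.U (cst (n * j₀) - a))).2 inferInstance
  have hfin : ((fun v => (j₁, toRes h V v)) '' (s : Set V)).Finite := s.finite_toSet.image _
  refine (Fam.gen_FG (S := SA) hfin).of_le ?_
  set F := Fam.gen SA ((fun v => (j₁, toRes h V v)) '' (s : Set V)) with hF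
  have hone : ∀ j, 0 ≤ j → (1 : KK k) ∈ SA.B j := fun j hj => by
    rw [hA]
    exact Submodule.subset_span ⟨0, 0, by simpa using hj, by simp⟩
  have hlow : ∀ j, j ≤ j₀ → ∀ v ∈ U.U (cst (n * j) - a), toRes h V v ∈ F.U j := by
    intro j hj v hv
    by_cases hj' : j < j₁
    · have : U.U (cst (n * j) - a) = ⊥ := by
        refine ht _ ?_
        rw [map_sub, HL_cst]
        have h1 := neg_abs_le t
        have h2 := neg_abs_le (HL a)
        have h3 := abs_nonneg t
        have h4 := abs_nonneg (HL a)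
        nlinarith
      rw [this, Submodule.mem_bot] at hv
      rw [hv, map_zero]
      exact Submodule.zero_mem _
    · have hv' : v ∈ U.U (cst (n * j₀) - a) := by
        refine DP.fam_mono U (fun i => ?_) hv
        simp only [cst, Pi.sub_apply]
        nlinarith
      rw [← hs] at hv'
      clear hv
      induction hv' using Submodule.span_induction with
      | mem z hz =>
        have h1 : toRes h V z ∈ F.U j₁ := Fam.mem_gen (p := (j₁, toRes h V z)) ⟨z, hz, rfl⟩
        have h2 := F.smul_mem _ _ _ _ (hone (j - j₁) (by omega)) h1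
        rwa [one_smul, sub_add_cancel] at h2
      | zero => rw [map_zero]; exact Submodule.zero_mem _
      | add p q _ _ hp hq => rw [map_add]; exact Submodule.add_mem _ hp hq
      | smul e p _ hp => rw [map_smul]; exact Submodule.smul_mem _ e hp
  have hhigh : ∀ j, j₀ ≤ j → ∀ v ∈ U.U (cst (n * j) - a), toRes h V v ∈ F.U j := by
    intro j hj
    induction j, hj using Int.leInduction with
    | base => exact hlow j₀ le_rfl
    | succ j hj ih =>
      intro v hv
      have h1 := hm₀ (n * j) (by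
        have := le_abs_self m₀
        have := abs_nonneg m₀
        nlinarith) 0
      have e1 : -a + lamv 0 + cst (n * j + n) = cst (n * (j + 1)) - a := by
        rw [lamv_zero]
        funext l
        simp only [cst, Pi.add_apply, Pi.sub_apply, Pi.neg_apply, Pi.zero_apply]
        ring
      have e2 : -a + lamv 0 + cst (n * j) = cst (n * j) - a := by
        rw [lamv_zero]
        abel
      rw [e1, e2] at h1
      obtain ⟨p, hp, q, hq, r, hr, rfl⟩ := a2_mem_kos.1 (h1 hv)
      have hss : ss k ∈ SA.B 1 := by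
        rw [hA]
        exact Submodule.subset_span ⟨1, 0, by simp, by simp⟩
      have htt : tt k ∈ SA.B 1 := by
        rw [hA]
        exact Submodule.subset_span ⟨0, 1, by simp, by simp⟩
      rw [map_add, map_add, add_comm j 1, pow_one, pow_one]
      refine Submodule.add_mem _ (Submodule.add_mem _ ?_ ?_) ?_
      · have := F.smul_mem _ _ _ _ hss (ih p hp)
        rwa [smul_toRes, h.emb_ss] at this
      · have := F.smul_mem _ _ _ _ htt (ih q hq)
        rwa [smul_toRes, h.emb_tt] at this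
      · have := F.smul_mem _ _ _ _ (hone 1 zero_le_one) (ih r hr)
        rwa [one_smul] at this
  rintro j _ ⟨v, hv, rfl⟩
  rcases le_total j j₀ with hj | hj
  · exact hlow j hj v hv
  · exact hhigh j hj v hv


theorem a2_le_cst (b : ZZ) : ∃ j : ℤ, 0 ≤ j ∧ ∀ i, b i ≤ cst (n * j) i ∨ n = 0 := by
  refine ⟨∑ i, |b i|, Finset.sum_nonneg fun i _ => abs_nonneg _, fun i => ?_⟩
  rcases Nat.eq_zero_or_pos n with hn | hn
  · exact Or.inr hn
  · left
    have h1 : |b i| ≤ ∑ i, |b i| :=
      Finset.single_le_sum (f := fun i => |b i|) (fun i _ => abs_nonneg _) (Finset.mem_univ i)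
    have h2 := le_abs_self (b i)
    have h3 := abs_nonneg (b i)
    have hn' : (1 : ℤ) ≤ n := by exact_mod_cast hn
    simp only [cst]
    nlinarith

theorem DP.a2_le_cst (D : DP k n) (b : ZZ) : ∃ j : ℤ, 0 ≤ j ∧ ∀ i, b i ≤ cst (n * j) i := by
  obtain ⟨j, hj, H⟩ := Vale.Agent.P190.a2_le_cst (n := n) b
  exact ⟨j, hj, fun i => (H i).resolve_right D.n_pos.ne'⟩

/-- the span of the restricted family is stable under homogeneous multipliers -/
theorem a2_stable_cst {SA : Sys k (KK k) ℤ} (hA : SA.B = AA k) (U : Fam D.S V) (a : ZZ) {j : ℤ}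
    {φ : KK k} (hφ : φ ∈ D.S.B (cst (n * j))) (w : Res h V)
    (hw : w ∈ Submodule.span (KK k) {v | ∃ i, v ∈ (resFam h SA hA U a).U i}) :
    resMul h V φ w ∈ Submodule.span (KK k) {v | ∃ i, v ∈ (resFam h SA hA U a).U i} := by
  induction hw using Submodule.span_induction with
  | mem z hz =>
    obtain ⟨i, v, hv, rfl⟩ := hz
    refine Submodule.subset_span ⟨j + i, φ • v, ?_, rfl⟩
    have := U.smul_mem _ _ _ v hφ hv
    have e : cst (n * j) + (cst (n * i) - a) = cst (n * (j + i)) - a := by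
      funext l
      simp only [cst, Pi.add_apply, Pi.sub_apply]
      ring
    rw [e] at this
    exact this
  | zero => rw [map_zero]; exact Submodule.zero_mem _
  | add p q _ _ hp hq => rw [map_add]; exact Submodule.add_mem _ hp hq
  | smul e p _ hp => rw [map_smul]; exact Submodule.smul_mem _ e hp

theorem a2_span_fd {K Γ : Type} [Field K] [Algebra k K] [AddCommGroup Γ] {S : Sys k K Γ}
    {W : Type} [AddCommGroup W] [Module K W] [Module k W] [IsScalarTower k K W] {U : Fam S W}
    (hU : U.FG) : FiniteDimensional K (Submodule.span K {v | ∃ a, v ∈ U.U a}) := by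
  obtain ⟨G, hG, rfl⟩ := hU
  have := FiniteDimensional.span_of_finite K (hG.image Prod.snd)
  refine Submodule.finiteDimensional_of_le (S₂ := Submodule.span K (Prod.snd '' G))
    (Submodule.span_le.2 ?_)
  rintro v ⟨a, hv⟩
  induction hv using Submodule.span_induction with
  | mem z hz =>
    obtain ⟨p, hp, φ, _, rfl⟩ := hz
    exact Submodule.smul_mem _ φ (Submodule.subset_span ⟨p, hp, rfl⟩)
  | zero => exact Submodule.zero_mem _
  | add p q _ _ hp hq => exact Submodule.add_mem _ hp hq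
  | smul e p _ hp => exact Submodule.smul_of_tower_mem _ e hp

theorem a2_resMul_inj {φ : KK k} (hφ : φ ≠ 0) : Function.Injective (resMul h V φ) := by
  intro u v huv
  have h1 : φ • (toRes h V).symm u = φ • (toRes h V).symm v := (toRes h V).injective huv
  exact (toRes h V).symm.injective (smul_right_injective V hφ h1)

theorem a2_fam_spans {SA : Sys k (KK k) ℤ} (hA : SA.B = AA k) :
    (resFam h SA hA D.S.fam 0).Spans := by
  have := a2_span_fd (resFam_FG h hA (Fam.fam_FG (S := D.S)) 0)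
  set L := Submodule.span (KK k) {v | ∃ i, v ∈ (resFam h SA hA D.S.fam 0).U i} with hL
  refine eq_top_iff.2 fun w _ => ?_
  obtain ⟨φ, rfl⟩ := (toRes h (KK k)).surjective w
  obtain ⟨b, f, hf, hfB, hfφ⟩ := Sys.den (S := D.S) (fun _ : Unit => (0 : ZZ)) fun _ => φ
  obtain ⟨j, -, hj⟩ := D.a2_le_cst b
  have h1 : f ∈ D.S.B (cst (n * j)) := DP.fam_mono D.S.fam hj hfB
  have h2 : toRes h (KK k) (f * φ) ∈ L := by
    refine Submodule.subset_span ⟨j, f * φ, ?_, rfl⟩
    refine DP.fam_mono D.S.fam (fun i => ?_) (hfφ ())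
    simpa using hj i
  let T : L →ₗ[KK k] L := (resMul h (KK k) f).restrict fun w hw => a2_stable_cst h hA _ 0 h1 w hw
  have hT : Function.Injective T := fun u v huv =>
    Subtype.ext (a2_resMul_inj h hf (congrArg Subtype.val huv))
  obtain ⟨z, hz⟩ := LinearMap.surjective_of_injective hT ⟨_, h2⟩
  have h3 : resMul h (KK k) f z = resMul h (KK k) f (toRes h (KK k) φ) := congrArg Subtype.val hz
  rw [← a2_resMul_inj h hf h3]
  exact z.2

theorem resFam_spans {SA : Sys k (KK k) ℤ} (hA : SA.B = AA k) {U : Fam D.S V} (hs : U.Spans)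
    (a : ZZ) : (resFam h SA hA U a).Spans := by
  set L := Submodule.span (KK k) {v | ∃ i, v ∈ (resFam h SA hA U a).U i} with hL
  have hst : ∀ φ : Res h (KK k), ∀ w ∈ L, resMul h V ((toRes h (KK k)).symm φ) w ∈ L := by
    intro φ
    have hφ : φ ∈ Submodule.span (KK k) {v | ∃ i, v ∈ (resFam h SA hA D.S.fam 0).U i} := by
      rw [a2_fam_spans h hA]
      trivial
    induction hφ using Submodule.span_induction with
    | mem z hz =>
      obtain ⟨i, v, hv, rfl⟩ := hz
      intro w hw
      refine a2_stable_cst h hA U a (j := i) ?_ w hw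
      have hv' : v ∈ D.S.B (cst (n * i) - 0) := hv
      rwa [sub_zero] at hv'
    | zero =>
      intro w _
      have : resMul h V ((toRes h (KK k)).symm 0) w = 0 :=
        (congrArg (toRes h V) (zero_smul (KK k) ((toRes h V).symm w))).trans (map_zero _)
      rw [this]
      exact Submodule.zero_mem _
    | add p q _ _ hp hq =>
      intro w hw
      have : resMul h V ((toRes h (KK k)).symm (p + q)) w =
          resMul h V ((toRes h (KK k)).symm p) w + resMul h V ((toRes h (KK k)).symm q) w :=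
        add_smul ((toRes h (KK k)).symm p) ((toRes h (KK k)).symm q) ((toRes h V).symm w)
      rw [this]
      exact Submodule.add_mem _ (hp w hw) (hq w hw)
    | smul e p _ hp =>
      intro w hw
      have : resMul h V ((toRes h (KK k)).symm (e • p)) w =
          e • resMul h V ((toRes h (KK k)).symm p) w :=
        mul_smul (h.emb e) ((toRes h (KK k)).symm p) ((toRes h V).symm w)
      rw [this]
      exact Submodule.smul_mem _ e (hp w hw)
  refine eq_top_iff.2 fun w _ => ?_
  obtain ⟨v, rfl⟩ := (toRes h V).surjective w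
  obtain ⟨b, f, hf, -, hfv⟩ := hs.exists_smul_mem (-a) v
  obtain ⟨j, -, hj⟩ := D.a2_le_cst b
  have h2 : toRes h V (f • v) ∈ L := by
    refine Submodule.subset_span ⟨j, f • v, ?_, rfl⟩
    refine DP.fam_mono U (fun i => ?_) hfv
    have := hj i
    simp only [Pi.add_apply, Pi.neg_apply, Pi.sub_apply]
    omega
  have h3 := hst (toRes h (KK k) f⁻¹) _ h2
  have h4 : resMul h V ((toRes h (KK k)).symm (toRes h (KK k) f⁻¹)) (toRes h V (f • v)) =
      toRes h V v := congrArg (toRes h V) (inv_smul_smul₀ hf v)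
  rwa [h4] at h3

theorem a2_res_fd : FiniteDimensional (KK k) (Res h (KK k)) := by
  obtain ⟨SA, hA⟩ := D.exists_sysA
  have h1 := a2_span_fd (resFam_FG h hA (Fam.fam_FG (S := D.S)) 0)
  rw [a2_fam_spans h hA] at h1
  exact Module.Finite.of_surjective (⊤ : Submodule (KK k) (Res h (KK k))).subtype
    fun v => ⟨⟨v, trivial⟩, rfl⟩

/-- functoriality of the restriction of scalars -/
noncomputable def resMap {W : Type} [AddCommGroup W] [Module (KK k) W] (f : V →ₗ[KK k] W) :
    Res h V →ₗ[KK k] Res h W where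
  toFun v := f (show V from v)
  map_add' u v := f.map_add (show V from u) (show V from v)
  map_smul' g v := f.map_smul (h.emb g) (show V from v)

instance Res.finiteDimensional [FiniteDimensional (KK k) V] :
    FiniteDimensional (KK k) (Res h V) := by
  have := a2_res_fd h
  let e := Module.finBasis (KK k) V
  let T : (Fin (finrank (KK k) V) → Res h (KK k)) →ₗ[KK k] Res h V :=
    ∑ i, (resMap h (LinearMap.toSpanSingleton (KK k) V (e i))).comp (LinearMap.proj i)
  refine Module.Finite.of_surjective T fun w => ?_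
  refine ⟨fun i => toRes h (KK k) (e.repr ((toRes h V).symm w) i), ?_⟩
  simp only [T, LinearMap.sum_apply, LinearMap.comp_apply, LinearMap.proj_apply]
  exact e.sum_repr ((toRes h V).symm w)

/-- the map `λ ↦ ψ₀ ∘ λ` -/
noncomputable def theta (V : Type) [AddCommGroup V] [Module (KK k) V] [Module k V]
    [IsScalarTower k (KK k) V] (ψ₀ : Dag h (KK k)) : Module.Dual (KK k) V →ₗ[KK k] Dag h V where
  toFun l := (Dag.fn h (KK k) ψ₀).comp (resMap h l)
  map_add' l l' := LinearMap.ext fun v =>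
    (Dag.fn h (KK k) ψ₀).map_add (toRes h _ (l (show V from v))) (toRes h _ (l' (show V from v)))
  map_smul' φ l := LinearMap.ext fun v => congrArg (Dag.fn h (KK k) ψ₀)
    (l.map_smul φ (show V from v)).symm

theorem theta_apply (ψ₀ : Dag h (KK k)) (l : Module.Dual (KK k) V) (v : V) :
    Dag.fn h V (theta h V ψ₀ l) (toRes h V v) = Dag.fn h (KK k) ψ₀ (toRes h (KK k) (l v)) := rfl

theorem theta_inj {ψ₀ : Dag h (KK k)} (h0 : ψ₀ ≠ 0) : Function.Injective (theta h V ψ₀) := by
  rw [injective_iff_map_eq_zero]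
  intro l hl
  by_contra hne
  apply h0
  obtain ⟨v, hv⟩ : ∃ v, l v ≠ 0 := by
    by_contra hc
    push Not at hc
    exact hne (LinearMap.ext hc)
  refine LinearMap.ext fun w => ?_
  obtain ⟨z, rfl⟩ := (toRes h (KK k)).surjective w
  have h1 := theta_apply h ψ₀ l ((z * (l v)⁻¹) • v)
  rw [hl, l.map_smul, smul_eq_mul, inv_mul_cancel_right₀ hv] at h1
  exact h1.symm

theorem theta_surj [FiniteDimensional (KK k) V] {ψ₀ : Dag h (KK k)} (h0 : ψ₀ ≠ 0) :
    Function.Surjective (theta h V ψ₀) := by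
  let T : Res h (Module.Dual (KK k) V) →ₗ[KK k] Module.Dual (KK k) (Res h V) :=
    { toFun := fun l => Dag.fn h V (theta h V ψ₀ (show Module.Dual (KK k) V from l))
      map_add' := fun l l' => (theta h V ψ₀).map_add (show Module.Dual (KK k) V from l)
        (show Module.Dual (KK k) V from l')
      map_smul' := fun g l => LinearMap.ext fun v =>
        (Dag.fn h (KK k) ψ₀).map_smul g
          (toRes h _ ((show Module.Dual (KK k) V from l) (show V from v))) }
  have hT : Function.Injective T := theta_inj h h0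
  let e : V ≃ₗ[KK k] Module.Dual (KK k) V := (Module.finBasis (KK k) V).toDualEquiv
  have he : finrank (KK k) (Res h V) = finrank (KK k) (Res h (Module.Dual (KK k) V)) :=
    (LinearEquiv.ofBijective (resMap h e.toLinearMap) e.bijective).finrank_eq
  have hr : finrank (KK k) (Res h (Module.Dual (KK k) V)) =
      finrank (KK k) (Module.Dual (KK k) (Res h V)) := by
    rw [Subspace.dual_finrank_eq, he]
  exact (LinearMap.injective_iff_surjective_of_finrank_eq_finrank hr).1 hT

theorem exists_dag_ne : ∃ ψ₀ : Dag h (KK k), ψ₀ ≠ 0 := by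
  have h1 : toRes h (KK k) 1 ≠ 0 := fun e => one_ne_zero ((toRes h (KK k)).map_eq_zero_iff.1 e)
  by_contra hc
  push Not at hc
  refine h1 ((Module.forall_dual_apply_eq_zero_iff (KK k) _).1 fun f => ?_)
  rw [show f = 0 from hc f]
  rfl

/-- the dual over the big field is identified with the dual over the small field -/
noncomputable def thetaE (V : Type) [AddCommGroup V] [Module (KK k) V] [Module k V]
    [IsScalarTower k (KK k) V] [FiniteDimensional (KK k) V] {ψ₀ : Dag h (KK k)} (h0 : ψ₀ ≠ 0) :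
    Module.Dual (KK k) V ≃ₗ[KK k] Dag h V :=
  LinearEquiv.ofBijective (theta h V ψ₀) ⟨theta_inj h h0, theta_surj h h0⟩

instance Dag.finiteDimensional [FiniteDimensional (KK k) V] :
    FiniteDimensional (KK k) (Dag h V) := by
  obtain ⟨ψ₀, h0⟩ := exists_dag_ne h
  exact Module.Finite.equiv (thetaE h V h0)

theorem finrank_dag [FiniteDimensional (KK k) V] :
    finrank (KK k) (Dag h V) = finrank (KK k) V := by
  obtain ⟨ψ₀, h0⟩ := exists_dag_ne h
  rw [← (thetaE h V h0).finrank_eq, Subspace.dual_finrank_eq]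


/-- denominators can be chosen in the polynomial subring -/
theorem Hs.exists_poly_den {ι : Type} [Finite ι] (a : ι → ZZ) (φ : ι → KK k) :
    ∃ (d : ℕ) (g : MvPolynomial (Fin 2) k), g ≠ 0 ∧ g.totalDegree ≤ d ∧
      ∀ i, MvPolynomial.aeval ![h.x, h.y] g * φ i ∈ D.S.B (a i + cst (n * d)) := by
  classical
  obtain ⟨SA, hA⟩ := D.exists_sysA
  have hdeg : ∀ (d : ℕ) (g : MvPolynomial (Fin 2) k), g.totalDegree ≤ d →
      MvPolynomial.aeval ![h.x, h.y] g ∈ D.S.B (cst (n * d)) := by
    intro d g hg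
    rw [← h.emb_algebraMap]
    exact h.emb_mem ((mem_AA_iff d _).2 ⟨g, hg, rfl⟩)
  have one : ∀ i, ∃ (d : ℕ) (g : MvPolynomial (Fin 2) k), g ≠ 0 ∧ g.totalDegree ≤ d ∧
      MvPolynomial.aeval ![h.x, h.y] g * φ i ∈ D.S.B (a i + cst (n * d)) := by
    intro i
    obtain ⟨b, f, hf, hfB, hfv⟩ :=
      (resFam_spans h hA (Fam.fam_spans (S := D.S)) (-a i)).exists_smul_mem 0 (toRes h _ (φ i))
    rw [hA] at hfB
    have hb : 0 ≤ b := by
      by_contra hb
      rw [AA_eq_bot (not_le.1 hb), Submodule.mem_bot] at hfB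
      exact hf hfB
    obtain ⟨d, rfl⟩ := Int.eq_ofNat_of_zero_le hb
    obtain ⟨g, hg, rfl⟩ := (mem_AA_iff d f).1 hfB
    refine ⟨d, g, fun e => hf (by rw [e, map_zero]), hg, ?_⟩
    rw [smul_toRes, a2_mem_resFam, h.emb_algebraMap, add_zero, sub_neg_eq_add, add_comm] at hfv
    exact hfv
  have key : ∀ s : Finset ι, ∃ (d : ℕ) (g : MvPolynomial (Fin 2) k), g ≠ 0 ∧ g.totalDegree ≤ d ∧
      ∀ i ∈ s, MvPolynomial.aeval ![h.x, h.y] g * φ i ∈ D.S.B (a i + cst (n * d)) := by
    intro s
    induction s using Finset.induction_on with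
    | empty => exact ⟨0, 1, one_ne_zero, by simp, fun i hi => absurd hi (Finset.notMem_empty i)⟩
    | insert j s _ ih =>
      obtain ⟨d, g, hg, hgd, H⟩ := ih
      obtain ⟨d', g', hg', hgd', H'⟩ := one j
      refine ⟨d + d', g * g', mul_ne_zero hg hg',
        (MvPolynomial.totalDegree_mul g g').trans (add_le_add hgd hgd'), fun i hi => ?_⟩
      have e : cst (n * ((d + d' : ℕ) : ℤ)) = cst (n * d) + cst (n * d') := by
        rw [← cst_add]
        push_cast
        rw [mul_add]
      rw [e, map_mul]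
      rcases Finset.mem_insert.1 hi with rfl | hi
      · have := D.S.mul_mem (hdeg d g hgd) H'
        rw [← mul_assoc] at this
        convert this using 2
        abel
      · have := D.S.mul_mem (hdeg d' g' hgd') (H i hi)
        rw [← mul_assoc, mul_comm (MvPolynomial.aeval _ g')] at this
        convert this using 2
        abel
  have := Fintype.ofFinite ι
  obtain ⟨d, g, hg, hgd, H⟩ := key Finset.univ
  exact ⟨d, g, hg, hgd, fun i => H i (Finset.mem_univ i)⟩

theorem a2_mem_dag_iff {SA : Sys k (KK k) ℤ} (hA : SA.B = AA k) (U : Fam D.S V) (a : ZZ)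
    (j : ℤ) (ψ : Dag h V) : ψ ∈ (dag h U).U (a + cst (n * j)) ↔
      Dag.fn h V ψ ∈ (resFam h SA hA U a).dual.U j := by
  constructor
  · rintro H b _ ⟨v, hv, rfl⟩
    rw [hA]
    refine H (j + b) v ?_
    have e : cst (n * (j + b)) - (a + cst (n * j)) = cst (n * b) - a := by
      funext l
      simp only [cst, Pi.add_apply, Pi.sub_apply]
      ring
    rw [e]
    exact hv
  · intro H b v hv
    have e : cst (n * b) - (a + cst (n * j)) = cst (n * (b - j)) - a := by
      funext l
      simp only [cst, Pi.add_apply, Pi.sub_apply]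
      ring
    rw [e] at hv
    have := H (b - j) _ ⟨v, hv, rfl⟩
    rw [hA, add_sub_cancel] at this
    exact this

theorem finrank_dag_eq_dual {SA : Sys k (KK k) ℤ} (hA : SA.B = AA k) (U : Fam D.S V) (a : ZZ)
    (j : ℤ) : finrank k ((dag h U).U (a + cst (n * j))) =
      finrank k ((resFam h SA hA U a).dual.U j) := by
  have : (dag h U).U (a + cst (n * j)) =
      show Submodule k (Dag h V) from (resFam h SA hA U a).dual.U j :=
    Submodule.ext fun ψ => a2_mem_dag_iff h hA U a j ψ
  rw [this]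
  rfl

theorem a2_theta_mem (ψ₀ : Dag h (KK k)) {U : Fam D.S V} {a b : ZZ} {l : Module.Dual (KK k) V}
    (hl : theta h V ψ₀ l ∈ (dag h U).U a) {v : V} (hv : v ∈ U.U b) :
    l v • ψ₀ ∈ (dag h D.S.fam).U (a + b) := by
  intro j u hu
  have h1 := U.smul_mem _ _ u v hu hv
  rw [show cst (n * j) - (a + b) + b = cst (n * j) - a by abel] at h1
  have h2 := hl j _ h1
  rw [theta_apply, map_smul] at h2
  rw [Dag.fn_smul, smul_eq_mul, mul_comm]
  exact h2

theorem DP.a2_move (D : DP k n) (P : D.S.Pl) (a : ZZ) : ∃ (j : ℤ) (c : Fin 5 → ℤ),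
    umon k c ∈ D.S.B (cst (n * j) - a) ∧
      D.S.val P (cst (n * j) - a) (umon k c) ≤ D.S.val P (cst n) 1 := by
  obtain ⟨ε, m, c, hε, hv, he⟩ := D.move P fun i => a i / n + 1
  have hn : (0 : ℤ) < n := by exact_mod_cast D.n_pos
  have key : ∀ i, (cst (n * m) - a) i + n * lamv c i = n * ε i + (n - a i % n) := by
    intro i
    have h1 := congrFun he i
    have h2 := Int.mul_ediv_add_emod (a i) n
    simp only [cst, Pi.add_apply, Pi.sub_apply] at h1 ⊢
    linear_combination (-(n : ℤ)) * h1 + h2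
  refine ⟨m, c, ?_, ?_⟩
  · rw [D.hB]
    refine umon_mem_BB fun i => ?_
    rw [key]
    have := Int.emod_lt_of_pos (a i) hn
    have := mul_nonneg hn.le (hε i)
    omega
  · by_cases hP : P ∈ Set.range D.sp
    · obtain ⟨i, rfl⟩ := hP
      rw [D.val_one_sp] at hv
      rw [D.val_umon_sp, D.val_one_sp, key, hv]
      have := Int.emod_nonneg (a i) hn.ne'
      simp only [cst]
      omega
    · rw [D.val_umon_ns hP, D.val_one_ns hP]

theorem a2_dag_fam {ψ₀ : Dag h (KK k)} (h0 : ψ₀ ≠ 0) : ∃ f : KK k, f ≠ 0 ∧ ∃ γ₀ : ZZ,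
    ∀ a (φ : KK k), φ • ψ₀ ∈ (dag h D.S.fam).U a → f * φ ∈ D.S.B (a + γ₀) := by
  obtain ⟨SA, hA⟩ := D.exists_sysA
  obtain ⟨e, d, hle⟩ := (a2_fam_spans h hA).exists_free_le
  have he : ∀ i, (toRes h (KK k)).symm (e i) ∈ D.S.B (cst (n * d i)) := by
    intro i
    have h1 := hle _ (Fam.basis_mem_free (S := SA) e d i)
    have h2 := (a2_mem_resFam h hA D.S.fam 0 (d i) ((toRes h (KK k)).symm (e i))).1 h1
    rwa [sub_zero] at h2
  have hβ : ∀ i, ∃ β : KK k, Dag.fn h (KK k) (β • ψ₀) = e.coord i := by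
    intro i
    obtain ⟨l, hl⟩ := theta_surj h (V := KK k) h0 (e.coord i)
    refine ⟨l 1, LinearMap.ext fun w => ?_⟩
    obtain ⟨z, rfl⟩ := (toRes h (KK k)).surjective w
    have h1 := theta_apply h ψ₀ l z
    rw [hl] at h1
    rw [Dag.fn_smul, smul_eq_mul, mul_comm, ← smul_eq_mul, ← map_smul, smul_eq_mul, mul_one]
    exact h1.symm
  choose β hβ using hβ
  have hexp : ∀ z : KK k, z = ∑ i, h.emb (Dag.fn h (KK k) (z • ψ₀) (e i)) * β i := by
    intro z
    refine smul_left_injective (KK k) h0 ?_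
    change z • ψ₀ = (∑ i, h.emb (Dag.fn h (KK k) (z • ψ₀) (e i)) * β i) • ψ₀
    rw [Finset.sum_smul]
    have h1 : ∀ i, (h.emb (Dag.fn h (KK k) (z • ψ₀) (e i)) * β i) • ψ₀ =
        show Dag h (KK k) from Dag.fn h (KK k) (z • ψ₀) (e i) • e.coord i := by
      intro i
      rw [mul_smul, ← hβ i]
      refine LinearMap.ext fun w => ?_
      exact (Dag.fn h (KK k) (β i • ψ₀)).map_smul (Dag.fn h (KK k) (z • ψ₀) (e i)) w
    simp only [h1]
    exact (e.sum_dual_apply_smul_coord (Dag.fn h (KK k) (z • ψ₀))).symm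
  obtain ⟨b₀, f, hf, -, hfβ⟩ := Sys.den (S := D.S) (fun i => -cst (n * d i)) β
  refine ⟨f, hf, b₀ + cst n, fun a φ hφ => ?_⟩
  have key : ∀ (j : ℤ) (u : KK k), u ∈ D.S.B (cst (n * j) - a) →
      f * φ * u ∈ D.S.B (b₀ + cst (n * j)) := by
    intro j u hu
    rw [mul_assoc, hexp (φ * u), Finset.mul_sum]
    refine Submodule.sum_mem _ fun i _ => ?_
    have h1 := D.S.mul_mem hu (he i)
    have e1 : cst (n * j) - a + cst (n * d i) = cst (n * (j + d i)) - a := by
      funext l
      simp only [cst, Pi.add_apply, Pi.sub_apply]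
      ring
    rw [e1] at h1
    have h2 := hφ (j + d i) _ h1
    have h3 : Dag.fn h (KK k) (φ • ψ₀) (toRes h (KK k) (u * (toRes h (KK k)).symm (e i))) =
        Dag.fn h (KK k) ((φ * u) • ψ₀) (e i) := by
      rw [mul_comm φ u, mul_smul]
      rfl
    rw [h3] at h2
    have h4 := D.S.mul_mem (h.emb_mem h2) (hfβ i)
    have e2 : cst (n * (j + d i)) + (b₀ + -cst (n * d i)) = b₀ + cst (n * j) := by
      funext l
      simp only [cst, Pi.add_apply, Pi.neg_apply]
      ring
    rw [e2, mul_left_comm] at h4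
    exact h4
  by_cases hφ0 : φ = 0
  · rw [hφ0, mul_zero]
    exact Submodule.zero_mem _
  have hfφ : f * φ ≠ 0 := mul_ne_zero hf hφ0
  rw [D.S.mem_iff _ _ hfφ]
  intro P
  obtain ⟨j, c, hc, hv⟩ := D.a2_move P a
  have h1 := (D.S.mem_iff _ _ (mul_ne_zero hfφ (umon_ne_zero c))).1 (key j _ hc) P
  rw [show b₀ + cst (n * j) = (a + b₀) + (cst (n * j) - a) by abel,
    D.S.val_mul _ _ _ _ _ hfφ (umon_ne_zero c)] at h1
  have h2 := D.S.val_mul P (a + b₀) (cst n) _ _ hfφ one_ne_zero
  rw [mul_one] at h2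
  rw [← add_assoc, h2]
  omega

variable [FiniteDimensional (KK k) V]

theorem dag_FG {U : Fam D.S V} (hs : U.Spans) : (dag h U).FG := by
  obtain ⟨ψ₀, h0⟩ := exists_dag_ne h
  obtain ⟨f, hf, γ₀, H⟩ := a2_dag_fam h h0
  let T : Dag h V →ₗ[KK k] Module.Dual (KK k) V := f • (thetaE h V h0).symm.toLinearMap
  have hT : Function.Injective T := fun ψ ψ' e =>
    (thetaE h V h0).symm.injective (smul_right_injective _ hf e)
  refine (((Fam.dual_FG hs).shift γ₀).comap T hT).of_le ?_
  intro a ψ hψ b v hv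
  obtain ⟨l, rfl⟩ := (thetaE h V h0).surjective ψ
  have h1 := H _ _ (a2_theta_mem h ψ₀ hψ hv)
  have h2 : T (thetaE h V h0 l) v = f * l v := by
    simp [T]
  change T (thetaE h V h0 l) v ∈ _
  rw [h2, show a + γ₀ + b = a + b + γ₀ by abel]
  exact h1

theorem dag_spans {U : Fam D.S V} (hU : U.FG) : (dag h U).Spans := by
  obtain ⟨SA, hA⟩ := D.exists_sysA
  have hs := Fam.dual_spans (resFam_FG h hA hU 0)
  have key : ∀ g : Module.Dual (KK k) (Res h V),
      g ∈ Submodule.span (KK k) {v | ∃ a, v ∈ (resFam h SA hA U 0).dual.U a} →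
      (show Dag h V from g) ∈ Submodule.span (KK k) {ψ : Dag h V | ∃ a, ψ ∈ (dag h U).U a} := by
    intro g hg
    induction hg using Submodule.span_induction with
    | mem z hz =>
      obtain ⟨j, hj⟩ := hz
      exact Submodule.subset_span ⟨_, (a2_mem_dag_iff h hA U 0 j z).2 hj⟩
    | zero => exact Submodule.zero_mem _
    | add p q _ _ hp hq => exact Submodule.add_mem _ hp hq
    | smul e p _ hp =>
      have h1 : (show Dag h V from e • p) = h.emb e • (show Dag h V from p) :=
        LinearMap.ext fun w => (p.map_smul e w).symm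
      rw [h1]
      exact Submodule.smul_mem _ _ hp
  refine eq_top_iff.2 fun ψ _ => key (Dag.fn h V ψ) ?_
  rw [hs]
  trivial

theorem dag_maxLe {H : ZZ →+ ℤ} (hH : ∀ a, D.S.Eff a → 0 ≤ H a) {U : Fam D.S V} (hU : U.FG)
    (hs : U.Spans) {σ : ℚ} (hm : U.MinGe H σ) :
    (dag h U).MaxLe H (H (dag h D.S.fam).cl - σ) := by
  obtain ⟨w₀, h0, Hw⟩ := Fam.exists_gen_of_finrank_one (dag_FG h (Fam.fam_spans (S := D.S)))
    (dag_spans h (Fam.fam_FG (S := D.S))) (by rw [finrank_dag, finrank_self])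
  refine Fam.MinGe.maxLe_of_pairing hH (thetaE h V h0).symm.toLinearMap ?_ (dag_FG h hs)
    (dag_spans h hU) hU hs _ ?_ hm
  · intro ψ hψ
    exact (thetaE h V h0).symm.map_eq_zero_iff.1 (LinearMap.ext hψ)
  · intro a b ψ v hψ hv
    obtain ⟨l, rfl⟩ := (thetaE h V h0).surjective ψ
    obtain ⟨φ, hφ, e⟩ := Hw _ _ (Fam.le_hull _ _ (a2_theta_mem h w₀ hψ hv))
    have e' : l v = φ := smul_left_injective (KK k) h0 e
    simp only [LinearEquiv.coe_coe, LinearEquiv.symm_apply_apply]
    rw [e']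
    exact hφ

end Vale.Agent.P190
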