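import Vale.Agent.P190.A2

/-! P190, part A2b: graded local duality inequality. -/

namespace Vale.Agent.P190

open Module Filter

namespace A2b

section psi

variable {k K : Type} [Field k] [Field K] [Algebra k K]
variable {W : Type} [AddCommGroup W] [Module K W] [Module k W] [IsScalarTower k K W]

/-- the residue pairing attached to a functional -/
noncomputable def Psi (x y : K) (q : ℕ) (μ : W →ₗ[k] k) : W →ₗ[k] K :=
  ∑ i ∈ Finset.range q, ∑ j ∈ Finset.range q,
    (μ.comp ((LinearMap.lsmul K W (x ^ i * y ^ j)).restrictScalars k)).smulRight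
      (x ^ (q - 1 - i) * y ^ (q - 1 - j))

theorem Psi_apply (x y : K) (q : ℕ) (μ : W →ₗ[k] k) (u : W) : Psi x y q μ u =
    ∑ i ∈ Finset.range q, ∑ j ∈ Finset.range q,
      μ ((x ^ i * y ^ j) • u) • (x ^ (q - 1 - i) * y ^ (q - 1 - j)) := by
  simp [Psi, LinearMap.sum_apply]

theorem Psi_comm (x y : K) (q : ℕ) (μ : W →ₗ[k] k) (u : W) : Psi x y q μ u = Psi y x q μ u := by
  rw [Psi_apply, Psi_apply, Finset.sum_comm]
  refine Finset.sum_congr rfl fun i _ => Finset.sum_congr rfl fun j _ => ?_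
  rw [mul_comm (x ^ j), mul_comm (x ^ (q - 1 - j))]

theorem Psi_add (x y : K) (q : ℕ) (μ μ' : W →ₗ[k] k) (u : W) :
    Psi x y q (μ + μ') u = Psi x y q μ u + Psi x y q μ' u := by
  simp only [Psi_apply, LinearMap.add_apply, add_smul, Finset.sum_add_distrib]

theorem Psi_smul (x y : K) (q : ℕ) (c : k) (μ : W →ₗ[k] k) (u : W) :
    Psi x y q (c • μ) u = c • Psi x y q μ u := by
  simp only [Psi_apply, LinearMap.smul_apply, smul_eq_mul, mul_smul, Finset.smul_sum]

theorem Psi_x (x y : K) (q : ℕ) (μ : W →ₗ[k] k) (u : W)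
    (h0 : ∀ j < q, μ ((x ^ 0 * y ^ j) • u) = 0) (hq : ∀ j < q, μ ((x ^ q * y ^ j) • u) = 0) :
    Psi x y q μ (x • u) = x * Psi x y q μ u := by
  set g : ℕ → K := fun i => ∑ j ∈ Finset.range q,
    μ ((x ^ i * y ^ j) • u) • (x ^ (q - i) * y ^ (q - 1 - j)) with hg
  have e1 : Psi x y q μ (x • u) = ∑ i ∈ Finset.range q, g (i + 1) := by
    rw [Psi_apply]
    refine Finset.sum_congr rfl fun i _ => Finset.sum_congr rfl fun j _ => ?_
    rw [smul_smul, show x ^ i * y ^ j * x = x ^ (i + 1) * y ^ j by ring,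
      show q - 1 - i = q - (i + 1) by omega]
  have e2 : x * Psi x y q μ u = ∑ i ∈ Finset.range q, g i := by
    rw [Psi_apply, Finset.mul_sum]
    refine Finset.sum_congr rfl fun i hi => ?_
    rw [Finset.mul_sum]
    refine Finset.sum_congr rfl fun j _ => ?_
    have hi' := Finset.mem_range.1 hi
    rw [mul_smul_comm, show q - i = (q - 1 - i) + 1 by omega]
    congr 1
    ring
  have g0 : g 0 = 0 := Finset.sum_eq_zero fun j hj => by
    rw [h0 j (Finset.mem_range.1 hj), zero_smul]
  have gq : g q = 0 := Finset.sum_eq_zero fun j hj => by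
    rw [hq j (Finset.mem_range.1 hj), zero_smul]
  have e3 := Finset.sum_range_succ g q
  rw [Finset.sum_range_succ', g0, gq, add_zero, add_zero] at e3
  rw [e1, e2, e3]

end psi

variable {k : Type} [Field k]

theorem mono_mem_AA (a b : ℕ) {j : ℤ} (h : (a : ℤ) + b ≤ j) : ss k ^ a * tt k ^ b ∈ AA k j :=
  Submodule.subset_span ⟨a, b, h, rfl⟩

theorem indep_mono : LinearIndependent k fun m : ℕ × ℕ => ss k ^ m.1 * tt k ^ m.2 := by
  have h1 := (MvPolynomial.basisMonomials (Fin 2) k).linearIndependent.map'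
    (IsScalarTower.toAlgHom k (MvPolynomial (Fin 2) k) (KK k)).toLinearMap
    (LinearMap.ker_eq_bot.2 (IsFractionRing.injective (MvPolynomial (Fin 2) k) (KK k)))
  have h2 := h1.comp (fun m : ℕ × ℕ => (Finsupp.single (0 : Fin 2) m.1 + Finsupp.single 1 m.2))
    (by
      intro m m' hm
      have a0 := DFunLike.congr_fun hm 0
      have a1 := DFunLike.congr_fun hm 1
      simp at a0 a1
      exact Prod.ext a0 a1)
  have e : (fun m : ℕ × ℕ => ss k ^ m.1 * tt k ^ m.2) =
      (⇑(IsScalarTower.toAlgHom k (MvPolynomial (Fin 2) k) (KK k)).toLinearMap ∘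
        ⇑(MvPolynomial.basisMonomials (Fin 2) k)) ∘
        fun m : ℕ × ℕ => (Finsupp.single (0 : Fin 2) m.1 + Finsupp.single 1 m.2) := by
    funext m
    simp only [Function.comp, MvPolynomial.coe_basisMonomials, AlgHom.toLinearMap_apply,
      IsScalarTower.coe_toAlgHom', ss, tt, ← map_pow, ← map_mul]
    congr 1
    rw [MvPolynomial.X_pow_eq_monomial, MvPolynomial.X_pow_eq_monomial,
      MvPolynomial.monomial_mul, mul_one]
  rw [e]
  exact h2

variable {W : Type} [AddCommGroup W] [Module (KK k) W] [Module k W] [IsScalarTower k (KK k) W]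

theorem Psi_eq_zero {q : ℕ} {μ : W →ₗ[k] k} {u : W} (h : Psi (ss k) (tt k) q μ u = 0)
    {i j : ℕ} (hi : i < q) (hj : j < q) : μ ((ss k ^ i * tt k ^ j) • u) = 0 := by
  have e : Psi (ss k) (tt k) q μ u = ∑ m ∈ Finset.range q ×ˢ Finset.range q,
      μ ((ss k ^ (q - 1 - m.1) * tt k ^ (q - 1 - m.2)) • u) • (ss k ^ m.1 * tt k ^ m.2) := by
    rw [Psi_apply, Finset.sum_product, ← Finset.sum_range_reflect]
    refine Finset.sum_congr rfl fun i hi => ?_
    rw [← Finset.sum_range_reflect]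
    refine Finset.sum_congr rfl fun j hj => ?_
    have hi' := Finset.mem_range.1 hi
    have hj' := Finset.mem_range.1 hj
    rw [show q - 1 - (q - 1 - i) = i by omega, show q - 1 - (q - 1 - j) = j by omega]
  rw [e] at h
  have := linearIndependent_iff'.1 indep_mono _ _ h (q - 1 - i, q - 1 - j) (by
    simp only [Finset.mem_product, Finset.mem_range]; omega)
  simp only at this
  rwa [show q - 1 - (q - 1 - i) = i by omega, show q - 1 - (q - 1 - j) = j by omega] at this

variable {SA : Sys k (KK k) ℤ} (hA : SA.B = AA k) {N : Fam SA W}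
include hA

omit [IsScalarTower k (KK k) W] in
theorem mono_smul_mem {d d' : ℤ} {u : W} (hu : u ∈ N.U d) (a b : ℕ) (h : (a : ℤ) + b + d ≤ d') :
    (ss k ^ a * tt k ^ b) • u ∈ N.U d' := by
  have := N.smul_mem (d' - d) d (ss k ^ a * tt k ^ b) u
    (by rw [hA]; exact mono_mem_AA a b (by omega)) hu
  rwa [sub_add_cancel] at this

omit hA in
theorem mem_kos_0 {q : ℕ} {X : Submodule k W} {v : W} (hv : v ∈ X) :
    v ∈ kos (ss k) (tt k) q X := Submodule.mem_sup_right hv

omit hA in
theorem mem_kos_s {q : ℕ} {X : Submodule k W} {v : W} (hv : v ∈ X) :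
    ss k ^ q • v ∈ kos (ss k) (tt k) q X :=
  Submodule.mem_sup_left (Submodule.mem_sup_left ⟨v, hv, rfl⟩)

omit hA in
theorem mem_kos_t {q : ℕ} {X : Submodule k W} {v : W} (hv : v ∈ X) :
    tt k ^ q • v ∈ kos (ss k) (tt k) q X :=
  Submodule.mem_sup_left (Submodule.mem_sup_right ⟨v, hv, rfl⟩)

theorem kos_le (q : ℕ) : kos (ss k) (tt k) q (N.U (2 * q)) ≤ N.U (3 * q) := by
  refine sup_le (sup_le ?_ ?_) ?_
  · rintro _ ⟨v, hv, rfl⟩
    have := mono_smul_mem hA hv q 0 (d' := 3 * q) (by push_cast; omega)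
    rwa [pow_zero, mul_one] at this
  · rintro _ ⟨v, hv, rfl⟩
    have := mono_smul_mem hA hv 0 q (d' := 3 * q) (by push_cast; omega)
    rwa [pow_zero, one_mul] at this
  · intro v hv
    have := mono_smul_mem hA hv 0 0 (d' := 3 * q) (by push_cast; omega)
    rwa [pow_zero, pow_zero, one_mul, one_smul] at this

variable {q : ℕ} {μ : W →ₗ[k] k} (hμ : ∀ v ∈ kos (ss k) (tt k) q (N.U (2 * q)), μ v = 0)
include hμ

theorem kill_low {d : ℤ} {u : W} (hu : u ∈ N.U d) (a b : ℕ) (h : (a : ℤ) + b + d ≤ 2 * q) :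
    μ ((ss k ^ a * tt k ^ b) • u) = 0 :=
  hμ _ (mem_kos_0 (mono_smul_mem hA hu a b h))

theorem kill_s {d : ℤ} {u : W} (hu : u ∈ N.U d) (a b : ℕ) (ha : q ≤ a)
    (h : (a : ℤ) + b + d ≤ 3 * q) : μ ((ss k ^ a * tt k ^ b) • u) = 0 := by
  obtain ⟨a', rfl⟩ := Nat.exists_eq_add_of_le ha
  rw [pow_add, mul_assoc, mul_smul]
  exact hμ _ (mem_kos_s (mono_smul_mem hA hu a' b (by push_cast at h; omega)))

theorem kill_t {d : ℤ} {u : W} (hu : u ∈ N.U d) (a b : ℕ) (hb : q ≤ b)
    (h : (a : ℤ) + b + d ≤ 3 * q) : μ ((ss k ^ a * tt k ^ b) • u) = 0 := by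
  obtain ⟨b', rfl⟩ := Nat.exists_eq_add_of_le hb
  rw [pow_add, mul_left_comm, mul_smul]
  exact hμ _ (mem_kos_t (mono_smul_mem hA hu a b' (by push_cast at h; omega)))

theorem Psi_s {d : ℤ} {u : W} (hu : u ∈ N.U d) (hd : d ≤ q + 1) :
    Psi (ss k) (tt k) q μ (ss k • u) = ss k * Psi (ss k) (tt k) q μ u :=
  Psi_x _ _ _ _ _ (fun j hj => kill_low hA hμ hu 0 j (by push_cast; omega))
    (fun j hj => kill_s hA hμ hu q j le_rfl (by omega))

theorem Psi_t {d : ℤ} {u : W} (hu : u ∈ N.U d) (hd : d ≤ q + 1) :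
    Psi (ss k) (tt k) q μ (tt k • u) = tt k * Psi (ss k) (tt k) q μ u := by
  rw [Psi_comm, Psi_comm (ss k)]
  refine Psi_x _ _ _ _ _ (fun j hj => ?_) (fun j hj => ?_)
  · rw [mul_comm]; exact kill_low hA hμ hu j 0 (by push_cast; omega)
  · rw [mul_comm]; exact kill_t hA hμ hu j q le_rfl (by omega)

theorem Psi_mono {d : ℤ} {u : W} (hu : u ∈ N.U d) (a b : ℕ) (h : (a : ℤ) + b + d ≤ q + 2) :
    Psi (ss k) (tt k) q μ ((ss k ^ a * tt k ^ b) • u) =
      (ss k ^ a * tt k ^ b) * Psi (ss k) (tt k) q μ u := by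
  induction a with
  | zero =>
    induction b with
    | zero => simp
    | succ b ih =>
      have hm := mono_smul_mem hA hu 0 b (d' := b + d) (by push_cast; omega)
      rw [show ss k ^ 0 * tt k ^ (b + 1) = tt k * (ss k ^ 0 * tt k ^ b) by ring, mul_smul,
        Psi_t hA hμ hm (by push_cast at h; omega), ih (by push_cast at h ⊢; omega)]
      ring
  | succ a ih =>
    have hm := mono_smul_mem hA hu a b (d' := a + b + d) le_rfl
    rw [show ss k ^ (a + 1) * tt k ^ b = ss k * (ss k ^ a * tt k ^ b) by ring, mul_smul,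
      Psi_s hA hμ hm (by push_cast at h; omega), ih (by push_cast at h ⊢; omega)]
    ring

theorem Psi_AA {d e : ℤ} {u : W} (hu : u ∈ N.U d) {F : KK k} (hF : F ∈ AA k e)
    (h : e + d ≤ q + 2) : Psi (ss k) (tt k) q μ (F • u) = F * Psi (ss k) (tt k) q μ u := by
  induction hF using Submodule.span_induction with
  | mem φ hφ =>
    obtain ⟨a, b, hab, rfl⟩ := hφ
    exact Psi_mono hA hμ hu a b (by omega)
  | zero => simp
  | add x y _ _ hx hy => rw [add_smul, map_add, hx, hy, add_mul]
  | smul c x _ hx => rw [smul_assoc, map_smul, hx, smul_mul_assoc]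

theorem Psi_mem {d : ℤ} {u : W} (hu : u ∈ N.U d) : Psi (ss k) (tt k) q μ u ∈ AA k (d - 3) := by
  rw [Psi_apply]
  refine Submodule.sum_mem _ fun i hi => Submodule.sum_mem _ fun j hj => ?_
  have hi' := Finset.mem_range.1 hi
  have hj' := Finset.mem_range.1 hj
  by_cases h : (i : ℤ) + j + d ≤ 2 * q
  · rw [kill_low hA hμ hu i j h, zero_smul]; exact Submodule.zero_mem _
  · exact Submodule.smul_mem _ _ (mono_mem_AA _ _ (by omega))

omit hμ

theorem main [FiniteDimensional (KK k) W] (hN : N.FG) (hs : N.Spans) : ∀ᶠ q : ℕ in atTop,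
    (finrank k (N.U (3 * q)) : ℤ) - finrank k (kos (ss k) (tt k) q (N.U (2 * q))) ≤
      finrank k (N.dual.U (-3)) := by
  classical
  obtain ⟨e, d, hfree⟩ := hs.exists_free_le
  have he : ∀ i, e i ∈ N.U (d i) := fun i => hfree _ (Fam.mem_gen (p := (d i, e i)) ⟨i, rfl⟩)
  obtain ⟨G, hG, hNG⟩ := id hN
  have : Finite G := hG.to_subtype
  obtain ⟨b, f, hf0, hfB, hf⟩ := Sys.den (S := SA) (ι := G × Fin (finrank (KK k) W))
    (fun p => p.1.1.1 - d p.2) (fun p => e.repr p.1.1.2 p.2)
  obtain ⟨M, hM⟩ := (hG.image Prod.fst).bddAbove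
  have hgen : ∀ p ∈ G, p.2 ∈ N.U p.1 := fun p hp => hNG ▸ Fam.mem_gen hp
  filter_upwards [eventually_ge_atTop (b + M).toNat] with q hq
  have hq' : ∀ p ∈ G, b + p.1 ≤ q + 2 := fun p hp => by
    have := hM ⟨p, hp, rfl⟩
    omega
  have := hN.fd (3 * q)
  have := (Fam.dual_FG hs).fd (-3)
  set X := kos (ss k) (tt k) q (N.U (2 * q)) with hX
  have hXle : X ≤ N.U (3 * q) := kos_le hA q
  obtain ⟨π, hπ⟩ := (N.U (3 * q)).subtype.exists_leftInverse_of_injective
    (Submodule.ker_subtype _)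
  have hπ' : ∀ v (hv : v ∈ N.U (3 * q)), π v = ⟨v, hv⟩ := fun v hv =>
    DFunLike.congr_fun hπ ⟨v, hv⟩
  set X' := X.submoduleOf (N.U (3 * q)) with hX'
  set pr : W →ₗ[k] (N.U (3 * q) ⧸ X') := X'.mkQ.comp π with hpr
  have hkill : ∀ lam : Dual k (N.U (3 * q) ⧸ X'), ∀ v ∈ X, (lam.comp pr) v = 0 := by
    intro lam v hv
    have : pr v = 0 := by
      rw [hpr, LinearMap.comp_apply, hπ' v (hXle hv), Submodule.mkQ_apply,
        Submodule.Quotient.mk_eq_zero]
      exact hv
    rw [LinearMap.comp_apply, this, map_zero]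
  let Φ : Dual k (N.U (3 * q) ⧸ X') →ₗ[k] Dual (KK k) W :=
    { toFun := fun lam => e.constr k fun i => Psi (ss k) (tt k) q (lam.comp pr) (e i)
      map_add' := fun l l' => by
        rw [← map_add]
        congr 1
        funext i
        rw [LinearMap.add_comp, Psi_add, Pi.add_apply]
      map_smul' := fun c l => by
        rw [RingHom.id_apply, ← map_smul]
        congr 1
        funext i
        rw [LinearMap.smul_comp, Psi_smul, Pi.smul_apply] }
  have hΦe : ∀ lam i, Φ lam (e i) = Psi (ss k) (tt k) q (lam.comp pr) (e i) := fun lam i =>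
    e.constr_basis k _ i
  have hΦ : ∀ lam, ∀ p ∈ G, Φ lam p.2 = Psi (ss k) (tt k) q (lam.comp pr) p.2 := by
    intro lam p hp
    refine mul_left_cancel₀ hf0 ?_
    rw [← Psi_AA hA (hkill lam) (hgen p hp) (hA ▸ hfB) (hq' p hp), ← smul_eq_mul, ← map_smul]
    have e1 : f • p.2 = ∑ i, (f * e.repr p.2 i) • e i := by
      conv_lhs => rw [← e.sum_repr p.2]
      rw [Finset.smul_sum]
      exact Finset.sum_congr rfl fun i _ => smul_smul _ _ _
    rw [e1, map_sum, map_sum]
    refine Finset.sum_congr rfl fun i _ => ?_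
    have hfi := hf (⟨p, hp⟩, i)
    rw [hA] at hfi
    rw [Psi_AA hA (hkill lam) (he i) hfi (by have := hq' p hp; simp only; omega), map_smul, hΦe,
      smul_eq_mul]
  have hmem : ∀ lam, Φ lam ∈ N.dual.U (-3) := by
    intro lam c v hv
    rw [hNG] at hv
    induction hv using Submodule.span_induction with
    | mem x hx =>
      obtain ⟨p, hp, φ, hφ, rfl⟩ := hx
      rw [map_smul, hΦ lam p hp, smul_eq_mul]
      have h1 := Psi_mem hA (hkill lam) (hgen p hp)
      rw [← hA] at h1
      have := SA.mul_mem hφ h1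
      rwa [show c - p.1 + (p.1 - 3) = -3 + c by ring] at this
    | zero => simp
    | add x y _ _ hx hy => rw [map_add]; exact Submodule.add_mem _ hx hy
    | smul c x _ hx => rw [LinearMap.map_smul_of_tower]; exact Submodule.smul_mem _ c hx
  have hinj : Function.Injective (Φ.codRestrict _ hmem) := by
    refine (injective_iff_map_eq_zero _).2 fun lam hlam0 => ?_
    have hlam : Φ lam = 0 := congrArg Subtype.val hlam0
    have hz : ∀ v ∈ N.U (3 * q), (lam.comp pr) v = 0 := by
      intro v hv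
      rw [hNG] at hv
      induction hv using Submodule.span_induction with
      | mem x hx =>
        obtain ⟨p, hp, φ, hφ, rfl⟩ := hx
        rw [hA] at hφ
        induction hφ using Submodule.span_induction with
        | mem φ hφ =>
          obtain ⟨i, j, hij, rfl⟩ := hφ
          by_cases hi : q ≤ i
          · exact kill_s hA (hkill lam) (hgen p hp) i j hi (by omega)
          by_cases hj : q ≤ j
          · exact kill_t hA (hkill lam) (hgen p hp) i j hj (by omega)
          refine Psi_eq_zero ?_ (not_le.1 hi) (not_le.1 hj)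
          rw [← hΦ lam p hp, hlam, LinearMap.zero_apply]
        | zero => simp
        | add x y _ _ hx hy => rw [add_smul, map_add, hx, hy, add_zero]
        | smul c x _ hx => rw [smul_assoc, map_smul, hx, smul_zero]
      | zero => simp
      | add x y _ _ hx hy => rw [map_add, hx, hy, add_zero]
      | smul c x _ hx => rw [map_smul, hx, smul_zero]
    refine LinearMap.ext fun z => ?_
    obtain ⟨⟨v, hv⟩, rfl⟩ := X'.mkQ_surjective z
    have := hz v hv
    rwa [LinearMap.comp_apply, hpr, LinearMap.comp_apply, hπ' v hv] at this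
  have h1 := LinearMap.finrank_le_finrank_of_injective hinj
  rw [Subspace.dual_finrank_eq] at h1
  have h2 := X'.finrank_quotient_add_finrank
  have h3 : finrank k X' = finrank k X := (Submodule.submoduleOfEquivOfLe hXle).finrank_eq
  omega

end A2b

variable {k : Type} [Field k] {n : ℕ} {D : DP k n} (h : Hs D)
variable {V : Type} [AddCommGroup V] [Module (KK k) V] [Module k V] [IsScalarTower k (KK k) V]
variable [FiniteDimensional (KK k) V]

theorem Hs.tdim_le {U : Fam D.S V} (hU : U.FG) (hs : U.Spans) (a : ZZ) : ∀ᶠ q : ℕ in atTop,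
    h.tdim q U a ≤ finrank k ((dag h U).U (-a - cst (3 * n))) := by
  obtain ⟨SA, hA⟩ := D.exists_sysA
  filter_upwards [A2b.main hA (resFam_FG h hA hU (-a)) (resFam_spans h hA hs (-a))] with q hq
  have e0 : -a - cst (3 * n) = -a + cst (n * (-3)) := by
    funext l; simp only [cst, Pi.add_apply, Pi.sub_apply]; ring
  rw [e0, finrank_dag_eq_dual h hA U (-a) (-3)]
  refine le_of_eq_of_le ?_ hq
  have e3 : a + cst (3 * q * n) = cst (n * (3 * q)) - -a := by
    funext l; simp only [cst, Pi.add_apply, Pi.sub_apply, Pi.neg_apply]; ring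
  have e2 : a + cst (2 * q * n) = cst (n * (2 * q)) - -a := by
    funext l; simp only [cst, Pi.add_apply, Pi.sub_apply, Pi.neg_apply]; ring
  have hk : ∀ X : Submodule k V, kos (ss k) (tt k) q (X.map (toRes h V).toLinearMap) =
      (kos h.x h.y q X).map (toRes h V).toLinearMap := by
    intro X
    have hm : ∀ f : KK k, (smulL (V := Res h V) f).comp (toRes h V).toLinearMap =
        (toRes h V).toLinearMap.comp (smulL (h.emb f)) := fun f => LinearMap.ext fun v => rfl
    simp only [kos, Submodule.map_sup, ← Submodule.map_comp, hm, map_pow, h.emb_ss, h.emb_tt]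
  rw [Hs.tdim, e3, e2]
  change _ = (finrank k ((U.U (cst (n * (3 * q)) - -a)).map (toRes h V).toLinearMap) : ℤ) -
    finrank k (kos (ss k) (tt k) q ((U.U (cst (n * (2 * q)) - -a)).map (toRes h V).toLinearMap))
  rw [hk, LinearEquiv.finrank_map_eq, LinearEquiv.finrank_map_eq]

end Vale.Agent.P190
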