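import Vale.Agent.P190.G4

/-! P190, part Fr: generic facts on the Frobenius pull-back. -/

namespace Vale.Agent.P190

open Module

variable {k K Γ : Type} [Field k] [Field K] [Algebra k K] [AddCommGroup Γ] {S : Sys k K Γ}
variable {ι : Type} [Fintype ι] [DecidableEq ι] (p : ℕ) [Fact p.Prime] [CharP K p]

namespace FrAux

omit [Fintype ι] [DecidableEq ι] in
theorem fr_add (v w : ι → K) :
    (fun i => (v + w) i ^ p) = (fun i => v i ^ p) + fun i => w i ^ p := by
  funext i; simp [add_pow_char]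

omit [Fintype ι] [DecidableEq ι] [Fact p.Prime] [CharP K p] in
theorem fr_smul (c : K) (v : ι → K) :
    (fun i => (c • v) i ^ p) = c ^ p • fun i => v i ^ p := by
  funext i; simp [mul_pow]

omit [Fintype ι] [DecidableEq ι] [Fact p.Prime] [CharP K p] in
theorem fr_ksmul (c : k) (v : ι → K) :
    (fun i => (c • v) i ^ p) = c ^ p • fun i => v i ^ p := by
  funext i; simp [smul_pow]

omit [Fintype ι] [DecidableEq ι] [CharP K p] in
theorem fr_zero : (fun i => (0 : ι → K) i ^ p) = 0 := by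
  funext i; simp [(Fact.out : p.Prime).ne_zero]

omit [Fintype ι] [DecidableEq ι] in
theorem fr_sum {κ : Type} (s : Finset κ) (c : κ → K) (v : κ → ι → K) :
    (fun i => (∑ l ∈ s, c l • v l) i ^ p) = ∑ l ∈ s, c l ^ p • fun i => v l i ^ p := by
  funext i; simp [sum_pow_char, mul_pow]

omit [Fact p.Prime] [CharP K p] in
theorem pow_mem {a : Γ} {φ : K} (hφ : φ ∈ S.B a) : φ ^ p ∈ S.B (p • a) := by
  induction p with
  | zero => simpa using S.one_mem
  | succ j ih => rw [pow_succ, succ_nsmul]; exact S.mul_mem ih hφ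

omit [Fintype ι] [DecidableEq ι] [Fact p.Prime] [CharP K p] in
theorem mem_frob {U : Fam S (ι → K)} {a : Γ} {v : ι → K} (hv : v ∈ U.U a) :
    (fun i => v i ^ p) ∈ (U.frob p).U (p • a) :=
  Fam.mem_gen (p := (p • a, fun i => v i ^ p)) ⟨a, v, hv, rfl⟩

/-- Frobenius twist of a functional -/
noncomputable def frD (f : Module.Dual K (ι → K)) : Module.Dual K (ι → K) :=
  ∑ i, f (Pi.single i 1) ^ p • LinearMap.proj i

theorem frD_fr (f : Module.Dual K (ι → K)) (v : ι → K) :
    frD p f (fun i => v i ^ p) = f v ^ p := by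
  have : f v = ∑ i, f (Pi.single i 1) * v i := by
    conv_lhs => rw [pi_eq_sum_univ' v]
    simp [mul_comm]
  rw [this, sum_pow_char]
  simp [frD, mul_pow]

theorem ge_frob {U : Fam S (ι → K)} {P : S.Pl} {d : Γ} {f : Module.Dual K (ι → K)}
    (h : ∀ a v, v ∈ U.U a → S.Ge P (a - d) (f v) 0) (a : Γ) (w : ι → K)
    (hw : w ∈ (U.frob p).U a) : S.Ge P (a - p • d) (frD p f w) 0 := by
  induction hw using Submodule.span_induction with
  | mem x hx =>
    obtain ⟨_, ⟨b, u, hu, rfl⟩, φ, hφ, rfl⟩ := hx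
    rw [map_smul, frD_fr, smul_eq_mul]
    have h1 : S.Ge P (p • (b - d)) (f u ^ p) 0 := by
      by_cases h0 : f u = 0
      · exact Or.inl (by rw [h0, zero_pow (Fact.out : p.Prime).ne_zero])
      · refine Or.inr ?_
        rw [Sys.val_pow P _ h0]
        exact mul_nonneg (Int.natCast_nonneg p) ((h b u hu).resolve_left h0)
    have := ((Sys.mem_iff_ge.1 hφ) P).mul h1
    rwa [smul_sub, sub_add_sub_cancel] at this
  | zero => exact Or.inl (map_zero _)
  | add x y _ _ hx hy => rw [map_add]; exact hx.add hy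
  | smul c x _ hx =>
    rw [← algebraMap_smul K c x, map_smul, smul_eq_mul, ← Algebra.smul_def]
    exact hx.smul c

theorem exists_basis (X : Submodule K (ι → K)) {κ : Type} [Finite κ] (e : Basis κ K X) :
    ∃ e' : Basis κ K (Submodule.span K {w : ι → K | ∃ x ∈ X, w = fun i => x i ^ p}),
      ∀ l, (e' l : ι → K) = fun i => (e l : ι → K) i ^ p := by
  classical
  have := Fintype.ofFinite κ
  choose f hf using fun l => LinearMap.exists_extend (e.coord l)
  have hf' : ∀ l (x : X), f l x = e.repr x l := fun l x => LinearMap.congr_fun (hf l) x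
  have li : LinearIndependent K fun l => fun i => (e l : ι → K) i ^ p :=
    LinearIndependent.of_pairwise_dual_eq_zero_one _ (fun l => frD p (f l))
      (fun l m hlm => by
        beta_reduce
        rw [frD_fr, hf', Basis.repr_self, Finsupp.single_eq_of_ne hlm,
          zero_pow (Fact.out : p.Prime).ne_zero])
      fun l => by rw [frD_fr, hf', Basis.repr_self, Finsupp.single_eq_same, one_pow]
  have eq : Submodule.span K (Set.range fun l => fun i => (e l : ι → K) i ^ p) =
      Submodule.span K {w : ι → K | ∃ x ∈ X, w = fun i => x i ^ p} := by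
    refine le_antisymm (Submodule.span_mono ?_) (Submodule.span_le.2 ?_)
    · rintro _ ⟨l, rfl⟩; exact ⟨_, (e l).2, rfl⟩
    · rintro _ ⟨x, hx, rfl⟩
      have h1 : x = ∑ l, e.repr ⟨x, hx⟩ l • (e l : ι → K) := by
        have := congrArg X.subtype (e.sum_repr ⟨x, hx⟩).symm
        rw [map_sum] at this
        exact this
      rw [h1, fr_sum]
      exact Submodule.sum_mem _ fun l _ => Submodule.smul_mem _ _ (Submodule.subset_span ⟨l, rfl⟩)
  exact ⟨(Basis.span li).map (LinearEquiv.ofEq _ _ eq), fun l => by simp⟩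

theorem repr_eq {X Y : Submodule K (ι → K)} {κ : Type} {e : Basis κ K X} {e' : Basis κ K Y}
    (he : ∀ l, (e' l : ι → K) = fun i => (e l : ι → K) i ^ p) {l : κ} {f : Module.Dual K (ι → K)}
    (hf : ∀ x : X, f x = e.repr x l) (w : Y) : e'.repr w l = frD p f w := by
  classical
  refine LinearMap.congr_fun (e'.ext (f₁ := e'.coord l) (f₂ := frD p f ∘ₗ Y.subtype)
    fun m => ?_) w
  rw [LinearMap.comp_apply, Submodule.subtype_apply, he, frD_fr, hf, Basis.coord_apply,
    Basis.repr_self, Basis.repr_self, Finsupp.single_apply]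
  split_ifs <;> simp [(Fact.out : p.Prime).ne_zero]

theorem ext_opt {V : Type} [AddCommGroup V] [Module K V] [Module k V] [IsScalarTower k K V]
    [FiniteDimensional K V] {U : Fam S V} (hU : U.FG) (hs : U.Spans) (X : Submodule K V)
    {P : S.Pl} {κ : Type} [Finite κ] {b₁ : Basis κ K X} {d₁ : κ → Γ}
    (hb₁ : (U.comap X.subtype).IsOpt P b₁ d₁) (i : κ) :
    ∃ f : Module.Dual K V, (∀ x : X, f x = b₁.repr x i) ∧
      ∀ a v, v ∈ U.U a → S.Ge P (a - d₁ i) (f v) 0 := by
  have hex : Function.Exact X.subtype X.mkQ := LinearMap.exact_subtype_mkQ X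
  obtain ⟨b₂, d₂, hb₂⟩ := Fam.exists_opt (hU.map X.mkQ) (hs.map _ X.mkQ_surjective) P
    (Fintype.card_fin _)
  choose l hl hl' using hb₂.1
  obtain ⟨B, hB1, hB2, hB3, hB4⟩ :=
    Fam.g3_exact_basis X.subtype X.mkQ X.injective_subtype hex b₁ b₂ l hl'
  refine ⟨B.coord (Sum.inl i), fun x => hB3 x i, fun a v hv => ?_⟩
  have h2 : ∀ j, S.Ge P (a - d₂ j) (b₂.repr (X.mkQ v) j) 0 := hb₂.2 a (X.mkQ v) ⟨v, hv, rfl⟩
  obtain ⟨x, hx⟩ := (hex (v - ∑ j, b₂.repr (X.mkQ v) j • l j)).1 (by
    have : ∀ j, X.mkQ (l j) = b₂ j := hl'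
    simp only [map_sub, map_sum, map_smul, this, Basis.sum_repr, sub_self])
  obtain ⟨b, f, hf, hfB, hfv, hf2⟩ := Sys.clear P _ _ h2
  have h3 : (U.comap X.subtype).LocMem P a x := by
    refine ⟨b, f, hf, hfB, hfv, ?_⟩
    change X.subtype (f • x) ∈ U.U (b + a)
    rw [map_smul, hx, smul_sub, Finset.smul_sum]
    refine Submodule.sub_mem _ (U.smul_mem _ _ _ _ hfB hv) (Submodule.sum_mem _ fun j _ => ?_)
    have := U.smul_mem _ _ _ _ (hf2 j) (hl j)
    rwa [mul_smul, add_assoc, sub_add_cancel] at this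
  have h4 : B.repr v (Sum.inl i) = b₁.repr x i := by
    rw [← hB3, hx]
    simp [← hB2]
  rw [Basis.coord_apply, h4]
  exact (hb₁.locMem_iff a x).1 h3 i

theorem det_frob {V W κ : Type} [AddCommGroup V] [Module K V] [AddCommGroup W] [Module K W]
    [Fintype κ] [DecidableEq κ] {e b : Basis κ K V} {e' b' : Basis κ K W}
    (h : ∀ l m, e'.repr (b' m) l = e.repr (b m) l ^ p) : e'.det b' = e.det b ^ p := by
  rw [Basis.det_apply, Basis.det_apply, ← frobenius_def, RingHom.map_det]
  congr 1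
  ext l m
  exact h l m

end FrAux

open FrAux

namespace Fam

theorem frob_gen (G : Set (Γ × (ι → K))) :
    (gen S G).frob p = gen S ((fun q : Γ × (ι → K) => (p • q.1, fun i => q.2 i ^ p)) '' G) := by
  refine le_antisymm (gen_le.2 ?_) (gen_le.2 ?_)
  · rintro _ ⟨a, v, hv, rfl⟩
    change (fun i => v i ^ p) ∈ _
    induction hv using Submodule.span_induction with
    | mem x hx =>
      obtain ⟨q, hq, φ, hφ, rfl⟩ := hx
      rw [fr_smul]
      exact Submodule.subset_span ⟨_, ⟨q, hq, rfl⟩, φ ^ p, by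
        rw [← smul_sub]; exact pow_mem p hφ, rfl⟩
    | zero => rw [fr_zero]; exact Submodule.zero_mem _
    | add x y _ _ hx hy => rw [fr_add]; exact Submodule.add_mem _ hx hy
    | smul c x _ hx => rw [fr_ksmul]; exact Submodule.smul_mem _ _ hx
  · rintro _ ⟨q, hq, rfl⟩
    exact mem_frob p (mem_gen hq)

theorem frob_mono {U U' : Fam S (ι → K)} (h : U ≤ U') : U.frob p ≤ U'.frob p := by
  refine gen_le.2 ?_
  rintro _ ⟨a, v, hv, rfl⟩
  exact mem_frob p (h a hv)

theorem frob_add_gen (U : Fam S (ι → K)) (a : Γ) (v : ι → K) :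
    (U.add (gen S {(a, v)})).frob p = (U.frob p).add (gen S {(p • a, fun i => v i ^ p)}) := by
  refine le_antisymm (gen_le.2 ?_) (add_le.2 ⟨frob_mono p (le_add_left _ _), gen_le.2 ?_⟩)
  · rintro _ ⟨b, w, hw, rfl⟩
    obtain ⟨x, hx, y, hy, rfl⟩ := Submodule.mem_sup.1 hw
    obtain ⟨φ, hφ, rfl⟩ := mem_gen_singleton.1 hy
    change (fun i => (x + φ • v) i ^ p) ∈ _
    rw [fr_add, fr_smul]
    exact Submodule.add_mem_sup (mem_frob p hx)
      (mem_gen_singleton.2 ⟨φ ^ p, by rw [← smul_sub]; exact pow_mem p hφ, rfl⟩)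
  · rintro _ rfl
    exact mem_frob p (le_add_right U _ a (mem_gen (p := (a, v)) rfl))

theorem frobI_ann_le (U : Fam S (ι → K)) (a : Γ) (v : ι → K) :
    (U.ann a v).frobI p ≤ (U.frob p).ann (p • a) fun i => v i ^ p := by
  refine gen_le.2 ?_
  rintro _ ⟨b, φ, hφ, rfl⟩
  refine ⟨pow_mem p hφ.1, ?_⟩
  have := mem_frob p hφ.2
  rwa [fr_smul, smul_add] at this

theorem frob_FG {U : Fam S (ι → K)} (hU : U.FG) : (U.frob p).FG := by
  obtain ⟨G, hG, rfl⟩ := hU
  rw [frob_gen]
  exact gen_FG (hG.image _)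

theorem exists_frob_basis {κ : Type} [Finite κ] (b : Basis κ K (ι → K)) :
    ∃ b' : Basis κ K (ι → K), (∀ l, b' l = fun i => b l i ^ p) ∧
      ∀ (v : ι → K) l, b'.repr (fun i => v i ^ p) l = b.repr v l ^ p := by
  obtain ⟨e', he⟩ := exists_basis p ⊤ (b.map Submodule.topEquiv.symm)
  have := Fintype.ofFinite κ
  have top : Submodule.span K {w : ι → K | ∃ x ∈ (⊤ : Submodule K (ι → K)),
      w = fun i => x i ^ p} = ⊤ := by
    refine Submodule.eq_top_of_finrank_eq ?_
    rw [finrank_eq_card_basis e', finrank_eq_card_basis b]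
  refine ⟨e'.map (LinearEquiv.ofTop _ top), fun l => he l, fun v l => ?_⟩
  rw [Basis.map_repr, LinearEquiv.trans_apply,
    repr_eq p he (f := b.coord l) (fun x => by simp)]
  exact frD_fr p _ v

theorem frob_spans {U : Fam S (ι → K)} (hs : U.Spans) : (U.frob p).Spans := by
  unfold Spans at hs ⊢
  obtain ⟨b', hb, -⟩ := exists_frob_basis p (Pi.basisFun K ι)
  have key : ∀ v : ι → K, (fun i => v i ^ p) ∈
      Submodule.span K {v | ∃ a, v ∈ (U.frob p).U a} := by
    intro v
    have hv : v ∈ Submodule.span K {v | ∃ a, v ∈ U.U a} := hs ▸ Submodule.mem_top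
    induction hv using Submodule.span_induction with
    | mem x hx =>
      obtain ⟨a, ha⟩ := hx
      exact Submodule.subset_span ⟨_, mem_frob p ha⟩
    | zero => rw [fr_zero]; exact Submodule.zero_mem _
    | add x y _ _ hx hy => rw [fr_add]; exact Submodule.add_mem _ hx hy
    | smul c x _ hx => rw [fr_smul]; exact Submodule.smul_mem _ _ hx
  rw [eq_top_iff, ← b'.span_eq, Submodule.span_le]
  rintro _ ⟨l, rfl⟩
  rw [hb]; exact key _

theorem frob_free {κ : Type} [Finite κ] (b b' : Basis κ K (ι → K))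
    (hb : ∀ l, b' l = fun i => b l i ^ p) (d : κ → Γ) :
    (free S b d).frob p = free S b' fun l => p • d l := by
  rw [free, frob_gen, free, ← Set.range_comp]
  congr 2
  funext l
  rw [hb]; rfl

theorem IsOpt.frob {U : Fam S (ι → K)} {P : S.Pl} {κ : Type} [Finite κ] {b b' : Basis κ K (ι → K)}
    {d : κ → Γ} (h : U.IsOpt P b d) (hb : ∀ l, b' l = fun i => b l i ^ p) :
    (U.frob p).IsOpt P b' fun l => p • d l := by
  refine ⟨fun l => by rw [hb]; exact mem_frob p (h.1 l), fun a w hw l => ?_⟩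
  obtain ⟨b'', h1, h2⟩ := exists_frob_basis p b
  obtain rfl : b' = b'' := Basis.eq_of_apply_eq fun l => by rw [hb, h1]
  have : b'.repr w l = frD p (b.coord l) w :=
    LinearMap.congr_fun (b'.ext (f₁ := b'.coord l) (f₂ := frD p (b.coord l)) fun m => by
      rw [Basis.coord_apply, hb, h2, frD_fr, Basis.coord_apply]) w
  rw [this]
  exact ge_frob p (fun a v hv => h.2 a v hv l) a w hw

theorem frob_cl {U : Fam S (ι → K)} (hU : U.FG) (hs : U.Spans) :
    S.UnitDeg ((U.frob p).cl - p • U.cl) := by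
  refine (isClass_cl (frob_FG p hU) (frob_spans p hs)).unique ?_
  obtain ⟨e, c, hc, h⟩ := isClass_cl hU hs
  obtain ⟨e', -, he⟩ := exists_frob_basis p e
  refine isClass_of e' (c ^ p) (pow_ne_zero _ hc) fun P => ?_
  obtain ⟨b, d, h1, h2⟩ := h P
  obtain ⟨b', hb, -⟩ := exists_frob_basis p b
  refine ⟨b', _, h1.frob p hb, ?_⟩
  rw [det_frob p (e := e) (b := b) fun l m => by rw [hb, he], ← mul_pow, ← Finset.smul_sum,
    ← smul_add, Sys.val_pow P _ (mul_ne_zero hc (basis_det_ne e b)), h2, mul_zero]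

theorem finrank_frob_span (X : Submodule K (ι → K)) :
    finrank K (Submodule.span K {w : ι → K | ∃ x ∈ X, w = fun i => x i ^ p}) = finrank K X := by
  obtain ⟨e', -⟩ := exists_basis p X (finBasis K X)
  rw [finrank_eq_card_basis e', Fintype.card_fin]

theorem sdeg_frob {H : Γ →+ ℤ} (hH : ∀ a, S.Eff a → 0 ≤ H a) {U : Fam S (ι → K)} (hU : U.FG)
    (hs : U.Spans) (X : Submodule K (ι → K)) :
    (U.frob p).sdeg H (Submodule.span K {w : ι → K | ∃ x ∈ X, w = fun i => x i ^ p}) =
      p * U.sdeg H X := by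
  have key : ((U.frob p).comap (Submodule.span K
      {w : ι → K | ∃ x ∈ X, w = fun i => x i ^ p}).subtype).IsClass
      (p • (U.comap X.subtype).cl) := by
    obtain ⟨e, c, hc, h⟩ := isClass_cl (hU.comap _ X.injective_subtype) (hs.comap X.subtype)
    obtain ⟨e', he⟩ := exists_basis p X e
    refine isClass_of e' (c ^ p) (pow_ne_zero _ hc) fun P => ?_
    obtain ⟨b, d, h1, h2⟩ := h P
    obtain ⟨b', hb⟩ := exists_basis p X b
    refine ⟨b', fun l => p • d l, ⟨fun l => ?_, fun a w hw l => ?_⟩, ?_⟩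
    · change (b' l : ι → K) ∈ (U.frob p).U _
      rw [hb]; exact mem_frob p (h1.1 l)
    · obtain ⟨f, hf1, hf2⟩ := ext_opt hU hs X h1 l
      rw [repr_eq p hb hf1]
      exact ge_frob p hf2 a w hw
    · rw [det_frob p (e := e) (b := b) fun l m => ?_, ← mul_pow, ← Finset.smul_sum,
        ← smul_add, Sys.val_pow P _ (mul_ne_zero hc (basis_det_ne e b)), h2, mul_zero]
      obtain ⟨f, hf⟩ := LinearMap.exists_extend (e.coord l)
      have hf' : ∀ x : X, f x = e.repr x l := fun x => LinearMap.congr_fun hf x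
      rw [repr_eq p he hf', hb, frD_fr, hf']
  have := ((isClass_cl ((frob_FG p hU).comap _ (Submodule.injective_subtype _))
    ((frob_spans p hs).comap _)).unique key).map_sub_eq hH
  rw [sdeg, this, map_nsmul, nsmul_eq_mul, sdeg]

end Fam

end Vale.Agent.P190
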