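import Vale.Agent.P190.D3c
import Vale.Agent.P190.Fr

/-! P190, part D4: Riemann-Roch for families. -/

namespace Vale.Agent.P190

open Module Filter

variable {k : Type} [Field k] {n : ℕ} {D : DP k n}
variable {V : Type} [AddCommGroup V] [Module (KK k) V] [Module k V] [IsScalarTower k (KK k) V]
variable {W : Type} [AddCommGroup W] [Module (KK k) W] [Module k W] [IsScalarTower k (KK k) W]
variable [FiniteDimensional (KK k) V] [FiniteDimensional (KK k) W]

namespace D4

omit [FiniteDimensional (KK k) V] in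
theorem hh_step {U : Fam D.S V} (hU : U.FG) (a : ZZ) (v : V) (w : ZZ) :
    (hh n (U.add (Fam.gen D.S {(a, v)})) w : ℤ) = hh n U w + hq n (U.ann a v) (w - a) := by
  simp only [hq, hh, Nat.cast_sum]
  rw [← Finset.sum_sub_distrib, ← Finset.sum_add_distrib]
  refine Finset.sum_congr rfl fun c _ => ?_
  rw [Fam.finrank_add_gen hU, add_sub_right_comm w, add_sub_assoc]
  rfl

theorem hq_gen (a : ZZ) {f : KK k} (hf : f ≠ 0) (w : ZZ) : ∀ᶠ m : ℤ in atTop,
    (hq n (Fam.gen D.S {(a, f)}) (w + cst m) : ℚ) = P0 n (w + cst m) - P0 n (w + cst m - a) := by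
  filter_upwards [D.hh_fam w, D.hh_fam (w - a)] with m h1 h2
  have : hh n (Fam.gen D.S {(a, f)}) (w + cst m) = hh n D.S.fam (w - a + cst m) := by
    refine Finset.sum_congr rfl fun c _ => ?_
    rw [Fam.finrank_gen_singleton a hf, add_sub_right_comm, add_sub_right_comm]
    rfl
  rw [hq, this, add_sub_right_comm]
  push_cast
  rw [h1, h2]

theorem hq_anti {p p' : Fam D.S (KK k)} (h : p ≤ p') (h' : p' ≤ D.S.fam) (w : ZZ) :
    hq n p' w ≤ hq n p w := by
  have := DP.hh_mono (Fam.fam_FG.of_le h') h w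
  simp only [hq]
  omega

theorem RR_sum {ι : Type} (s : Finset ι) (γ : ι → ZZ) (g : ι → ℚ) (w : ZZ) :
    ∑ i ∈ s, RR n 1 (γ i) (g i) w = RR n s.card (∑ i ∈ s, γ i) (∑ i ∈ s, g i) w := by
  classical
  induction s using Finset.induction_on with
  | empty => simp [RR, II]
  | insert j s hj ih =>
    rw [Finset.sum_insert hj, Finset.sum_insert hj, Finset.sum_insert hj,
      Finset.card_insert_of_notMem hj, ih, ← RR_add]
    push_cast
    rw [add_comm (1 : ℚ)]

theorem P0_jump (a a₀ w : ZZ) : P0 n (w - a) - P0 n (w - a - a₀) =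
    RR n 0 a₀ (-((n : ℚ) ^ 3 * ((II a a₀ : ℚ) + (II a₀ a₀ : ℚ) / 2))) w := by
  rw [sub_sub, P0_sub, P0_sub]
  simp only [RR, II_neg_left, II_add_left, II_add_right, map_neg, map_add, II_comm a₀ a]
  push_cast
  ring

theorem step_curve {U : Fam D.S V} (hU : U.FG) (hs : U.Spans) (a : ZZ) (v : V) {P : D.S.Pl}
    (hP : (U.ann a v).IsCurve P) {a₀ : ZZ} {f : KK k} (hf : f ≠ 0) (h1 : D.S.val P a₀ f = 1)
    (h0 : ∀ Q, Q ≠ P → D.S.val Q a₀ f = 0) {g : ℚ} (hg : HasRR n U g) :
    HasRR n (U.add (Fam.gen D.S {(a, v)}))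
      (g + -((n : ℚ) ^ 3 * ((II a a₀ : ℚ) + (II a₀ a₀ : ℚ) / 2))) := by
  intro w
  filter_upwards [hg w, hq_gen (D := D) a₀ hf (w - a)] with m e1 e2
  have e3 := congrArg (Int.cast : ℤ → ℚ) (hh_step hU a v (w + cst m))
  rw [hP.eq_gen hf h1 h0, add_sub_right_comm] at e3
  push_cast at e3
  rw [e3, e1, e2, RR_congr n _ _ (D.II_eq_of_unitDeg (Fam.cl_step_curve hU hs a v hP hf h1 h0)),
    ← add_sub_right_comm, P0_jump, ← RR_add, add_zero]

theorem step_small {U : Fam D.S V} (hU : U.FG) (hs : U.Spans) (a : ZZ) (v : V)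
    (hP : (U.ann a v).IsSmall) {c₀ : ℤ}
    (hc : ∀ w : ZZ, ∀ᶠ m : ℤ in atTop, hq n (U.ann a v) (w + cst m) = c₀) {g : ℚ}
    (hg : HasRR n U g) : HasRR n (U.add (Fam.gen D.S {(a, v)})) (g + c₀) := by
  intro w
  filter_upwards [hg w, hc (w - a)] with m e1 e2
  have e3 := congrArg (Int.cast : ℤ → ℚ) (hh_step hU a v (w + cst m))
  rw [add_sub_right_comm, e2] at e3
  push_cast at e3
  rw [e3, e1, RR_congr n _ _ (D.II_eq_of_unitDeg (Fam.cl_step_small hU hs a v hP))]
  simp only [RR]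
  ring

open Classical in
/-- the chosen constant term -/
noncomputable def gg (U : Fam D.S V) : ℚ := if h : ∃ g, HasRR n U g then h.choose else 0

end D4

open D4

theorem II_fam_cl (D : DP k n) (w : ZZ) : II D.S.fam.cl w = 0 := by
  have h : D.S.fam.IsClass 0 := by
    refine Fam.isClass_of (Basis.singleton Unit (KK k)) 1 one_ne_zero fun P =>
      ⟨Basis.singleton Unit (KK k), fun _ => 0, ⟨fun i => ?_, fun a v hv i => ?_⟩, ?_⟩
    · simpa [Sys.fam] using D.S.one_mem
    · simpa using Sys.mem_iff_ge.1 hv P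
    · rw [Basis.det_self]
      simpa using D.S.val_one P
  rw [D.II_eq_of_unitDeg ((Fam.isClass_cl Fam.fam_FG Fam.fam_spans).unique h)]
  simp [II]

theorem hasRR_fam (D : DP k n) : HasRR n D.S.fam 0 := by
  intro w
  filter_upwards [D.hh_fam w] with m hm
  rw [hm, RR_congr n _ _ (γ' := 0) fun w => by rw [II_fam_cl]; simp [II]]
  simp [RR, II]

theorem hasRR_free {ι : Type} [Fintype ι] (e : Basis ι (KK k) V) (d : ι → ZZ) :
    HasRR n (Fam.free D.S e d) ((n : ℚ) ^ 3 * (∑ i, (II (d i) (d i) : ℚ)) / 2) := by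
  intro w
  filter_upwards [eventually_all.2 fun i => D.hh_fam (w - d i)] with m hm
  have e1 : hh n (Fam.free D.S e d) (w + cst m) = ∑ i, hh n D.S.fam (w - d i + cst m) := by
    simp only [hh, Fam.finrank_free]
    rw [Finset.sum_comm]
    refine Finset.sum_congr rfl fun i _ => Finset.sum_congr rfl fun c _ => ?_
    rw [add_sub_right_comm, add_sub_right_comm]
    rfl
  rw [e1, Nat.cast_sum, Finset.sum_congr rfl fun i _ => by
    rw [hm i, ← add_sub_right_comm, P0_sub], RR_sum, RR_congr n _ _ (D.II_eq_of_unitDeg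
      ((Fam.isClass_cl (Fam.free_FG e d) (Fam.free_spans e d)).unique (Fam.isClass_free e d))),
    finrank_eq_card_basis e, Finset.sum_neg_distrib, Finset.mul_sum, Finset.sum_div]
  rfl

theorem HasRR.mono {U U' : Fam D.S V} (hU' : U'.FG) (h : U ≤ U')
    (hcl : ∀ w, II U.cl w = II U'.cl w) {g g' : ℚ} (hg : HasRR n U g) (hg' : HasRR n U' g') :
    g ≤ g' := by
  obtain ⟨m, h1, h2⟩ := ((hg 0).and (hg' 0)).exists
  have h3 : (hh n U (0 + cst m) : ℚ) ≤ hh n U' (0 + cst m) := by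
    exact_mod_cast DP.hh_mono hU' h _
  rw [h1, h2, RR_congr n _ _ hcl] at h3
  simp only [RR] at h3
  linarith

theorem exists_hasRR {U : Fam D.S V} (hU : U.FG) (hs : U.Spans) : ∃ g, HasRR n U g := by
  obtain ⟨e, d, h⟩ := hs.exists_free_le
  refine Fam.induction_prime h hU (fun U₁ U₂ => (∃ g, HasRR n U₁ g) → ∃ g, HasRR n U₂ g)
    (fun _ => id) (fun _ _ _ h1 h2 => h2 ∘ h1) ?_ ⟨_, hasRR_free e d⟩
  rintro U' a v h1 h2 hp ⟨g, hg⟩
  have hU' : U'.FG := hU.of_le ((Fam.le_add_left _ _).trans h2)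
  have hs' : U'.Spans := (Fam.free_spans e d).mono h1
  rcases hp.cases (Fam.ann_ne hs' a v) with ⟨P, hP⟩ | hP
  · obtain ⟨a₀, f, hf, f1, f0⟩ := D.S.prime P
    exact ⟨_, step_curve hU' hs' a v hP hf f1 f0 hg⟩
  · obtain ⟨c₀, hc⟩ := small_const hp hP
    exact ⟨_, step_small hU' hs' a v hP hc hg⟩

theorem HasRR.add_exact {V₁ : Type} [AddCommGroup V₁] [Module (KK k) V₁] [Module k V₁]
    [IsScalarTower k (KK k) V₁] [FiniteDimensional (KK k) V₁] {U : Fam D.S V} (hU : U.FG)
    (hs : U.Spans) (α : V₁ →ₗ[KK k] V) (β : V →ₗ[KK k] W) (hα : Function.Injective α)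
    (hβ : Function.Surjective β) (hex : Function.Exact α β) {g₁ g₂ : ℚ}
    (h₁ : HasRR n (U.comap α) g₁) (h₂ : HasRR n (U.map β) g₂) : HasRR n U (g₁ + g₂) := by
  intro w
  filter_upwards [h₁ w, h₂ w] with m e1 e2
  have e3 : hh n U (w + cst m) = hh n (U.comap α) (w + cst m) + hh n (U.map β) (w + cst m) := by
    simp only [hh, ← Finset.sum_add_distrib]
    exact Finset.sum_congr rfl fun c _ => Fam.finrank_exact hU α β hα hex _
  have e4 : finrank (KK k) V = finrank (KK k) V₁ + finrank (KK k) W := by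
    rw [← β.finrank_range_add_finrank_ker, LinearMap.range_eq_top.2 hβ, finrank_top,
      LinearMap.exact_iff.1 hex, LinearMap.finrank_range_of_inj hα, add_comm]
  rw [e3, Nat.cast_add, e1, e2, ← RR_add, e4, Nat.cast_add,
    RR_congr n _ _ (D.II_eq_of_unitDeg (Fam.cl_add_exact hU hs α β hα hβ hex))]

theorem HasRR.unique {U : Fam D.S V} {g g' : ℚ} (hg : HasRR n U g) (hg' : HasRR n U g') :
    g = g' := by
  obtain ⟨m, h1, h2⟩ := ((hg 0).and (hg' 0)).exists
  rw [h1] at h2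
  simp only [RR] at h2
  linarith

theorem HasRR.map_equiv {U : Fam D.S V} (hU : U.FG) (hs : U.Spans) {g : ℚ} (hg : HasRR n U g)
    (e : V ≃ₗ[KK k] W) : HasRR n (U.map e.toLinearMap) g := by
  intro w
  filter_upwards [hg w] with m e1
  have e3 : hh n (U.map e.toLinearMap) (w + cst m) = hh n U (w + cst m) :=
    Finset.sum_congr rfl fun c _ => Fam.finrank_map_of_injective U _ e.injective _
  rw [e3, e1, e.finrank_eq, RR_congr n _ _ (D.II_eq_of_unitDeg (Fam.cl_map_equiv hU hs e))]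

theorem frob_RR [IsAlgClosed k] (p : ℕ) [Fact p.Prime] [CharP k p] {r : ℕ}
    {U : Fam D.S (Fin r → KK k)} (hU : U.FG) (hs : U.Spans) {g : ℚ} (hg : HasRR n U g) (w : ZZ) :
    ∀ᶠ m : ℤ in atTop,
      RR n r (p • U.cl) ((p : ℚ) ^ 2 * g) (w + cst m) ≤ hh n (U.frob p) (w + cst m) := by
  have : CharP (KK k) p := charP_of_injective_algebraMap (algebraMap k (KK k)).injective p
  have hgg : ∀ {U : Fam D.S (Fin r → KK k)} {g : ℚ}, HasRR n U g → gg U = g := by
    intro U g hg
    have h : ∃ g, HasRR n U g := ⟨g, hg⟩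
    rw [gg, dif_pos h]
    exact h.choose_spec.unique hg
  have hII : ∀ {γ γ' : ZZ}, D.S.UnitDeg (γ - γ') → ∀ w, II (p • γ) w = II (p • γ') w := by
    intro γ γ' h w
    rw [← natCast_zsmul, ← natCast_zsmul, II_smul_left, II_smul_left, D.II_eq_of_unitDeg h]
  obtain ⟨e, d, h⟩ := hU.exists_le_free (Pi.basisFun (KK k) (Fin r))
  have key := Fam.induction_prime (U.le_hull.trans h) (Fam.free_FG e d)
    (fun U₁ U₂ => ∀ w : ZZ, ∀ᶠ m : ℤ in atTop,
      RR n r (p • U₁.cl) ((p : ℚ) ^ 2 * gg U₁) (w + cst m) - hh n (U₁.frob p) (w + cst m) ≤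
      RR n r (p • U₂.cl) ((p : ℚ) ^ 2 * gg U₂) (w + cst m) - hh n (U₂.frob p) (w + cst m))
    (fun _ _ => Eventually.of_forall fun _ => le_rfl)
    (fun _ _ _ h1 h2 w => ((h1 w).and (h2 w)).mono fun _ h => h.1.trans h.2) (by
      intro U' a v h1 h2 hp w
      have hU' : U'.FG := (Fam.free_FG e d).of_le ((Fam.le_add_left _ _).trans h2)
      have hs' : U'.Spans := hs.mono h1
      obtain ⟨g', hg'⟩ := exists_hasRR hU' hs'
      have e1 : ∀ w, (hh n ((U'.add (Fam.gen D.S {(a, v)})).frob p) w : ℚ) ≤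
          hh n (U'.frob p) w + hq n ((U'.ann a v).frobI p) (w - p • a) := by
        intro w
        have e2 := hh_step (Fam.frob_FG p hU') (p • a) (fun i => v i ^ p) w
        have e3 := hq_anti (Fam.frobI_ann_le p U' a v) (Fam.ann_le_fam _ _ _) (w - p • a)
        rw [Fam.frob_add_gen]
        exact_mod_cast e2.le.trans (by omega)
      rcases hp.cases (Fam.ann_ne hs' a v) with ⟨P, hP⟩ | hP
      · obtain ⟨a₀, f, hf, f1, f0⟩ := D.S.prime P
        filter_upwards [hq_gen (D := D) (p • a₀) (pow_ne_zero p hf) (w - p • a)] with m e2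
        have e3 : Fam.gen D.S {(p • a₀, f ^ p)} ≤ (U'.ann a v).frobI p := by
          refine Fam.gen_le.2 ?_
          rintro _ rfl
          refine Fam.mem_gen (p := (p • a₀, f ^ p)) ⟨a₀, f, ?_, rfl⟩
          rw [hP.eq_gen hf f1 f0]
          exact Fam.mem_gen (p := (a₀, f)) rfl
        have e4 : (U'.ann a v).frobI p ≤ D.S.fam :=
          (Fam.frobI_ann_le p U' a v).trans (Fam.ann_le_fam _ _ _)
        have e5 : (hq n ((U'.ann a v).frobI p) (w + cst m - p • a) : ℚ) ≤
            hq n (Fam.gen D.S {(p • a₀, f ^ p)}) (w + cst m - p • a) := by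
          exact_mod_cast hq_anti e3 e4 _
        rw [← add_sub_right_comm, P0_jump] at e2
        have e6 := e1 (w + cst m)
        rw [hgg hg', hgg (step_curve hU' hs' a v hP hf f1 f0 hg'),
          RR_congr n _ _ (hII (Fam.cl_step_curve hU' hs' a v hP hf f1 f0)), smul_add]
        have e7 := RR_add n r 0 ((p : ℚ) ^ 2 * g')
          (-((n : ℚ) ^ 3 * ((II (p • a) (p • a₀) : ℚ) + (II (p • a₀) (p • a₀) : ℚ) / 2)))
          (p • U'.cl) (p • a₀) (w + cst m)
        have e8 : (p : ℚ) ^ 2 * g' +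
            -((n : ℚ) ^ 3 * ((II (p • a) (p • a₀) : ℚ) + (II (p • a₀) (p • a₀) : ℚ) / 2)) =
            (p : ℚ) ^ 2 * (g' + -((n : ℚ) ^ 3 * ((II a a₀ : ℚ) + (II a₀ a₀ : ℚ) / 2))) := by
          simp only [← natCast_zsmul, II_smul_left, II_smul_right]
          push_cast
          ring
        rw [add_zero, e8] at e7
        linarith
      · obtain ⟨c₀, hc⟩ := small_const hp hP
        filter_upwards [small_frob hp hP hc (Fact.out : p.Prime).pos (w - p • a)] with m e2
        have e3 : (hq n ((U'.ann a v).frobI p) (w + cst m - p • a) : ℚ) ≤ (p : ℚ) ^ 2 * c₀ := by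
          rw [add_sub_right_comm]; exact_mod_cast e2
        have e6 := e1 (w + cst m)
        rw [hgg hg', hgg (step_small hU' hs' a v hP hc hg'),
          RR_congr n _ _ (hII (Fam.cl_step_small hU' hs' a v hP))]
        simp only [RR] at e6 ⊢
        linarith)
  obtain ⟨e', he', -⟩ := Fam.exists_frob_basis p e
  have h1 := hasRR_free (D := D) e' (fun l => p • d l) w
  rw [← Fam.frob_free p e e' he'] at h1
  filter_upwards [key w, h1] with m e1 e2
  rw [hgg hg, hgg (hasRR_free e d), e2, RR_congr n _ _ (D.II_eq_of_unitDeg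
    (Fam.frob_cl p (Fam.free_FG e d) (Fam.free_spans e d)))] at e1
  have e3 : (n : ℚ) ^ 3 * (∑ i, (II (p • d i) (p • d i) : ℚ)) / 2 =
      (p : ℚ) ^ 2 * ((n : ℚ) ^ 3 * (∑ i, (II (d i) (d i) : ℚ)) / 2) := by
    simp only [← natCast_zsmul, II_smul_left, II_smul_right]
    push_cast
    simp only [← mul_assoc, ← Finset.mul_sum]
    ring
  rw [e3, Module.finrank_fin_fun] at e1
  linarith

end Vale.Agent.P190
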