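import Mathlib

/-! P190, part Kos: codimension calculus and the abstract Koszul counting inequality. -/

namespace Vale.Agent.P190.KosA

open Module

variable {k : Type} [Field k]

section cod

variable {X Y V : Type} [AddCommGroup X] [Module k X] [AddCommGroup Y] [Module k Y]
  [AddCommGroup V] [Module k V]

/-- codimension -/
noncomputable def cod (W : Submodule k X) : ℕ := finrank k (X ⧸ W)

/-- finite codimension -/
def Cof (W : Submodule k X) : Prop := FiniteDimensional k (X ⧸ W)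

theorem Cof.mono {W W' : Submodule k X} (h : Cof W) (hle : W ≤ W') : Cof W' := by
  have : FiniteDimensional k (X ⧸ W) := h
  exact Module.Finite.of_surjective (Submodule.factor hle) (Submodule.factor_surjective hle)

theorem cof_top : Cof (⊤ : Submodule k X) := by
  unfold Cof; infer_instance

theorem cod_top : cod (⊤ : Submodule k X) = 0 := by
  unfold cod; exact finrank_zero_of_subsingleton

theorem map_sup_mkQ (W T : Submodule k X) : (W ⊔ T).map W.mkQ = T.map W.mkQ := by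
  rw [Submodule.map_sup, Submodule.mkQ_map_self, bot_sup_eq]

theorem Cof.cod_sup {W : Submodule k X} (h : Cof W) (T : Submodule k X) :
    cod (W ⊔ T) + finrank k (T.map W.mkQ) = cod W := by
  have : FiniteDimensional k (X ⧸ W) := h
  have h1 := Submodule.finrank_quotient_add_finrank ((W ⊔ T).map W.mkQ)
  rw [(Submodule.quotientQuotientEquivQuotient W (W ⊔ T) le_sup_left).finrank_eq,
    map_sup_mkQ] at h1
  exact h1

theorem Cof.anti {W W' : Submodule k X} (h : Cof W) (hle : W ≤ W') : cod W' ≤ cod W := by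
  have := h.cod_sup W'
  rw [sup_eq_right.2 hle] at this
  omega

theorem Cof.comap {W : Submodule k Y} (h : Cof W) (f : X →ₗ[k] Y) :
    Cof (W.comap f) ∧ cod (W.comap f) + cod (W ⊔ LinearMap.range f) = cod W := by
  have : FiniteDimensional k (Y ⧸ W) := h
  have e := (W.mkQ ∘ₗ f).quotKerEquivRange
  rw [LinearMap.ker_comp, Submodule.ker_mkQ, LinearMap.range_comp] at e
  refine ⟨e.symm.finiteDimensional, ?_⟩
  rw [← h.cod_sup (LinearMap.range f), cod, e.finrank_eq, add_comm]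

theorem Cof.step {A B : Submodule k X} (h : Cof B) (hle : A ≤ B) (φ : B →ₗ[k] V)
    (hker : ∀ x : B, φ x = 0 ↔ (x : X) ∈ A) [FiniteDimensional k (LinearMap.range φ)] :
    Cof A ∧ cod A = cod B + finrank k (LinearMap.range φ) := by
  have e1 := (A.mkQ ∘ₗ B.subtype).quotKerEquivRange
  have e2 := φ.quotKerEquivRange
  have hk : LinearMap.ker (A.mkQ ∘ₗ B.subtype) = LinearMap.ker φ := by
    ext x; simp [hker]
  rw [hk, LinearMap.range_comp, Submodule.range_subtype] at e1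
  have e : B.map A.mkQ ≃ₗ[k] LinearMap.range φ := e1.symm.trans e2
  have f1 : FiniteDimensional k (B.map A.mkQ) := e.symm.finiteDimensional
  have : FiniteDimensional k (X ⧸ B) := h
  have f2 : FiniteDimensional k ((X ⧸ A) ⧸ B.map A.mkQ) :=
    (Submodule.quotientQuotientEquivQuotient A B hle).symm.finiteDimensional
  have f3 : Cof A := Module.Finite.of_submodule_quotient (B.map A.mkQ)
  refine ⟨f3, ?_⟩
  rw [← f3.cod_sup B, sup_eq_right.2 hle, e.finrank_eq]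

theorem Cof.inf {W W' : Submodule k X} (h : Cof W) (h' : Cof W') :
    Cof (W ⊓ W') ∧ cod (W ⊓ W') + cod (W ⊔ W') = cod W + cod W' := by
  have : FiniteDimensional k (X ⧸ W) := h
  obtain ⟨h1, h2⟩ := h'.step (A := W ⊓ W') inf_le_right (W.mkQ ∘ₗ W'.subtype) (by simp)
  refine ⟨h1, ?_⟩
  rw [LinearMap.range_comp, Submodule.range_subtype] at h2
  have := h.cod_sup W'
  omega

theorem Cof.prod {A : Submodule k X} {B : Submodule k Y} (h : Cof A) (h' : Cof B) :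
    Cof (A.prod B) ∧ cod (A.prod B) = cod A + cod B := by
  have : FiniteDimensional k (X ⧸ A) := h
  have : FiniteDimensional k (Y ⧸ B) := h'
  have e := (A.mkQ.prodMap B.mkQ).quotKerEquivOfSurjective
    (Function.Surjective.prodMap A.mkQ_surjective B.mkQ_surjective)
  rw [LinearMap.ker_prodMap, Submodule.ker_mkQ, Submodule.ker_mkQ] at e
  refine ⟨e.symm.finiteDimensional, ?_⟩
  rw [cod, e.finrank_eq, finrank_prod]; rfl

/-- the cube of a subspace -/
def cube (A : Submodule k X) : Submodule k (X × X × X) := A.prod (A.prod A)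

theorem mem_cube {A : Submodule k X} {z : X × X × X} :
    z ∈ cube A ↔ z.1 ∈ A ∧ z.2.1 ∈ A ∧ z.2.2 ∈ A := Iff.rfl

theorem Cof.cube {A : Submodule k X} (h : Cof A) : Cof (cube A) ∧ cod (cube A) = 3 * cod A := by
  obtain ⟨h1, h2⟩ := h.prod h
  obtain ⟨h3, h4⟩ := h.prod h1
  refine ⟨h3, ?_⟩
  rw [KosA.cube, h4, h2]; ring

/-- first Koszul differential -/
def d1 (a b c : X →ₗ[k] X) : X × X × X →ₗ[k] X × X × X where
  toFun z := (b z.2.2 - c z.2.1, c z.1 - a z.2.2, a z.2.1 - b z.1)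
  map_add' z w := by
    simp only [Prod.fst_add, Prod.snd_add, map_add, Prod.mk_add_mk, Prod.mk.injEq]
    refine ⟨?_, ?_, ?_⟩ <;> abel
  map_smul' t z := by simp [smul_sub]

/-- second Koszul differential -/
def d2 (a b c : X →ₗ[k] X) : X × X × X →ₗ[k] X where
  toFun z := a z.1 + b z.2.1 + c z.2.2
  map_add' z w := by
    simp only [Prod.fst_add, Prod.snd_add, map_add]
    abel
  map_smul' t z := by simp

theorem d1_apply (a b c : X →ₗ[k] X) (z : X × X × X) :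
    d1 a b c z = (b z.2.2 - c z.2.1, c z.1 - a z.2.2, a z.2.1 - b z.1) := rfl

theorem d2_apply (a b c : X →ₗ[k] X) (z : X × X × X) :
    d2 a b c z = a z.1 + b z.2.1 + c z.2.2 := rfl

theorem finrank_cube (A : Submodule k X) [FiniteDimensional k A] :
    FiniteDimensional k (cube A) ∧ finrank k (cube A) = 3 * finrank k A := by
  have e : cube A ≃ₗ[k] A × A × A :=
    { toFun := fun z => (⟨z.1.1, z.2.1⟩, ⟨z.1.2.1, z.2.2.1⟩, ⟨z.1.2.2, z.2.2.2⟩)
      map_add' := fun _ _ => rfl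
      map_smul' := fun _ _ => rfl
      invFun := fun z => ⟨(z.1, z.2.1, z.2.2), z.1.2, z.2.1.2, z.2.2.2⟩
      left_inv := fun _ => rfl
      right_inv := fun _ => rfl }
  refine ⟨e.symm.finiteDimensional, ?_⟩
  rw [e.finrank_eq, finrank_prod, finrank_prod]; ring

theorem euler (x y : V →ₗ[k] V) (hxy : ∀ v, x (y v) = y (x v)) (U1 U2 : Submodule k V)
    [FiniteDimensional k U1] [FiniteDimensional k U2] (hx : ∀ v ∈ U1, x v ∈ U2)
    (hy : ∀ v ∈ U1, y v ∈ U2) (h1 : U1 ≤ U2) :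
    3 * finrank k U1 + finrank k (U2.map x ⊔ U2.map y ⊔ U2 : Submodule k V) ≤
      finrank k (U1.comap x ⊓ U1.comap y ⊓ U1 : Submodule k V) + 3 * finrank k U2 := by
  obtain ⟨f1, e1⟩ := finrank_cube U1
  obtain ⟨f2, e2⟩ := finrank_cube U2
  set g2 := (d2 x y LinearMap.id).domRestrict (cube U2) with hg2
  let g1 : cube U1 →ₗ[k] cube U2 := ((d1 x y LinearMap.id).domRestrict (cube U1)).codRestrict _
    fun z => ⟨U2.sub_mem (hy _ z.2.2.2) (h1 z.2.2.1), U2.sub_mem (h1 z.2.1) (hx _ z.2.2.2),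
      U2.sub_mem (hx _ z.2.2.1) (hy _ z.2.1)⟩
  have r1 := g1.finrank_range_add_finrank_ker
  have r2 := g2.finrank_range_add_finrank_ker
  have a1 : LinearMap.range g1 ≤ LinearMap.ker g2 := by
    rintro _ ⟨z, rfl⟩
    change x (y z.1.2.2 - z.1.2.1) + y (z.1.1 - x z.1.2.2) + (x z.1.2.1 - y z.1.1) = 0
    rw [map_sub, map_sub, hxy]; abel
  have a2 : (U2.map x ⊔ U2.map y ⊔ U2 : Submodule k V) ≤ LinearMap.range g2 := by
    refine sup_le (sup_le ?_ ?_) ?_
    · rintro _ ⟨v, hv, rfl⟩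
      exact ⟨⟨(v, 0, 0), hv, U2.zero_mem, U2.zero_mem⟩, by simp [hg2, d2_apply]⟩
    · rintro _ ⟨v, hv, rfl⟩
      exact ⟨⟨(0, v, 0), U2.zero_mem, hv, U2.zero_mem⟩, by simp [hg2, d2_apply]⟩
    · intro v hv
      exact ⟨⟨(0, 0, v), U2.zero_mem, U2.zero_mem, hv⟩, by simp [hg2, d2_apply]⟩
  have key : ∀ z : LinearMap.ker g1, y z.1.1.2.2 = z.1.1.2.1 ∧ z.1.1.1 = x z.1.1.2.2 := by
    intro z
    have h0 := congrArg Subtype.val (LinearMap.mem_ker.1 z.2)
    change (y z.1.1.2.2 - z.1.1.2.1, z.1.1.1 - x z.1.1.2.2, x z.1.1.2.1 - y z.1.1.1) = 0 at h0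
    simp only [Prod.mk_eq_zero, sub_eq_zero] at h0
    exact ⟨h0.1, h0.2.1⟩
  have fs : FiniteDimensional k (U1.comap x ⊓ U1.comap y ⊓ U1 : Submodule k V) :=
    Submodule.finiteDimensional_of_le inf_le_right
  let ψ : LinearMap.ker g1 →ₗ[k] (U1.comap x ⊓ U1.comap y ⊓ U1 : Submodule k V) :=
    { toFun := fun z => ⟨z.1.1.2.2, ⟨by
        change x _ ∈ U1
        rw [← (key z).2]; exact z.1.2.1, by
        change y _ ∈ U1
        rw [(key z).1]; exact z.1.2.2.1⟩, z.1.2.2.2⟩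
      map_add' := fun _ _ => rfl
      map_smul' := fun _ _ => rfl }
  have a3 : finrank k (LinearMap.ker g1) ≤
      finrank k (U1.comap x ⊓ U1.comap y ⊓ U1 : Submodule k V) := by
    refine LinearMap.finrank_le_finrank_of_injective (f := ψ) fun z w hzw => ?_
    have h0 : z.1.1.2.2 = w.1.1.2.2 := congrArg Subtype.val hzw
    refine Subtype.ext (Subtype.ext (Prod.ext ?_ (Prod.ext ?_ h0)))
    · rw [(key z).2, (key w).2, h0]
    · rw [← (key z).1, ← (key w).1, h0]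
  have b1 := Submodule.finrank_mono a1
  have b2 := Submodule.finrank_mono a2
  omega

end cod

/-- abstract filtered Koszul data -/
structure Dat (k M V : Type) [Field k] [AddCommGroup M] [Module k M] [AddCommGroup V]
    [Module k V] where
  F : ℤ → Submodule k M
  ι : ∀ m, F m →ₗ[k] V
  U : ℤ → Submodule k V
  fd : ∀ m, FiniteDimensional k (U m)
  anti : ∀ m, F (m + 1) ≤ F m
  ker : ∀ m (z : F m), ι m z = 0 ↔ (z : M) ∈ F (m + 1)
  range : ∀ m, LinearMap.range (ι m) = U m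
  N : ℤ
  a : M →ₗ[k] M
  b : M →ₗ[k] M
  c : M →ₗ[k] M
  x : V →ₗ[k] V
  y : V →ₗ[k] V
  ha : ∀ i j, j = i + N → ∀ p (hp : p ∈ F i), ∃ h : a p ∈ F j, ι j ⟨_, h⟩ = x (ι i ⟨p, hp⟩)
  hb : ∀ i j, j = i + N → ∀ p (hp : p ∈ F i), ∃ h : b p ∈ F j, ι j ⟨_, h⟩ = y (ι i ⟨p, hp⟩)
  hc : ∀ i j, j = i + N → ∀ p (hp : p ∈ F i), ∃ h : c p ∈ F j, ι j ⟨_, h⟩ = ι i ⟨p, hp⟩
  dd : ∀ z, d2 a b c (d1 a b c z) = 0
  ex : ∀ z, d2 a b c z = 0 → ∃ w, d1 a b c w = z

namespace Dat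

variable {M V : Type} [AddCommGroup M] [Module k M] [AddCommGroup V] [Module k V]
  (P : Dat k M V)

theorem mono {i j : ℤ} (h : i ≤ j) : P.F j ≤ P.F i := by
  induction j, h using Int.leInduction with
  | base => exact le_rfl
  | succ j _ ih => exact (P.anti j).trans ih

theorem cof_succ {j : ℤ} (h : Cof (P.F j)) :
    Cof (P.F (j + 1)) ∧ cod (P.F (j + 1)) = cod (P.F j) + finrank k (P.U j) := by
  have := P.fd j
  have f : FiniteDimensional k (LinearMap.range (P.ι j)) := by rw [P.range]; exact this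
  have := h.step (P.anti j) (P.ι j) (P.ker j)
  rwa [P.range] at this

theorem cof {j₀ : ℤ} (h0 : P.F j₀ = ⊤) (j : ℤ) : Cof (P.F j) := by
  rcases le_total j₀ j with h | h
  · induction j, h using Int.leInduction with
    | base => rw [h0]; exact cof_top
    | succ j _ ih => exact (P.cof_succ ih).1
  · exact (show Cof (P.F j₀) by rw [h0]; exact cof_top).mono (P.mono h)

/-- bound for the first graded cohomology -/
noncomputable def sd (m : ℤ) : ℕ :=
  finrank k ((P.U (m + P.N)).comap P.x ⊓ (P.U (m + P.N)).comap P.y ⊓ P.U (m + P.N) :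
    Submodule k V)

/-- image of the second graded differential -/
noncomputable def kd (m : ℤ) : ℕ :=
  finrank k ((P.U (m + 2 * P.N)).map P.x ⊔ (P.U (m + 2 * P.N)).map P.y ⊔ P.U (m + 2 * P.N) :
    Submodule k V)

/-- cycles modulo the filtration -/
def Z (m : ℤ) : Submodule k (M × M × M) := (cube (P.F (m + 2 * P.N))).comap (d1 P.a P.b P.c)

/-- boundaries of the filtration -/
def D (m : ℤ) : Submodule k M := (cube (P.F (m + 2 * P.N))).map (d2 P.a P.b P.c)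

theorem cube_mono {i j : ℤ} (h : i ≤ j) : cube (P.F j) ≤ cube (P.F i) :=
  fun _ hz => ⟨P.mono h hz.1, P.mono h hz.2.1, P.mono h hz.2.2⟩

theorem cube_le_Z (m : ℤ) : cube (P.F (m + P.N)) ≤ P.Z m := by
  intro z hz
  have e : m + 2 * P.N = m + P.N + P.N := by ring
  exact ⟨Submodule.sub_mem _ (P.hb _ _ e _ hz.2.2).1 (P.hc _ _ e _ hz.2.1).1,
    Submodule.sub_mem _ (P.hc _ _ e _ hz.1).1 (P.ha _ _ e _ hz.2.2).1,
    Submodule.sub_mem _ (P.ha _ _ e _ hz.2.1).1 (P.hb _ _ e _ hz.1).1⟩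

theorem D_le (m : ℤ) : P.D m ≤ P.F (m + 3 * P.N) := by
  rintro _ ⟨z, hz, rfl⟩
  have e : m + 3 * P.N = m + 2 * P.N + P.N := by ring
  exact Submodule.add_mem _ (Submodule.add_mem _ (P.ha _ _ e _ hz.1).1 (P.hb _ _ e _ hz.2.1).1)
    (P.hc _ _ e _ hz.2.2).1

theorem D_mono {i j : ℤ} (h : i ≤ j) : P.D j ≤ P.D i :=
  Submodule.map_mono (P.cube_mono (by omega))

theorem z_step (hF : ∀ j, Cof (P.F j)) (m : ℤ) :
    cod (cube (P.F (m + 1 + P.N))) + cod (P.Z m) ≤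
      cod (cube (P.F (m + P.N))) + cod (P.Z (m + 1)) + P.sd m := by
  have c1 := (hF (m + P.N)).cube.1
  have cZ := ((hF (m + 1 + 2 * P.N)).cube.1.comap (d1 P.a P.b P.c)).1
  obtain ⟨cB, eB⟩ := Cof.inf cZ c1
  change Cof (P.Z (m + 1) ⊓ _) at cB
  change cod (P.Z (m + 1) ⊓ _) + cod (P.Z (m + 1) ⊔ _) = cod (P.Z (m + 1)) + _ at eB
  have hZ : P.Z (m + 1) ⊔ cube (P.F (m + P.N)) ≤ P.Z m :=
    sup_le (Submodule.comap_mono (P.cube_mono (by omega))) (P.cube_le_Z m)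
  have l1 := (c1.mono le_sup_right).anti hZ
  have e : m + 2 * P.N = m + P.N + P.N := by ring
  have e1 : m + 1 + P.N = m + P.N + 1 := by ring
  have e2 : m + 1 + 2 * P.N = m + 2 * P.N + 1 := by ring
  set B := P.Z (m + 1) ⊓ cube (P.F (m + P.N)) with hB
  have key : ∀ z : B, P.y (P.ι _ ⟨z.1.2.2, z.2.2.2.2⟩) = P.ι _ ⟨z.1.2.1, z.2.2.2.1⟩ ∧
      P.ι _ ⟨z.1.1, z.2.2.1⟩ = P.x (P.ι _ ⟨z.1.2.2, z.2.2.2.2⟩) := by
    intro z
    have hz : d1 P.a P.b P.c z.1 ∈ cube (P.F (m + 1 + 2 * P.N)) := z.2.1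
    rw [e2] at hz
    obtain ⟨m1, q1⟩ := P.hb _ _ e _ z.2.2.2.2
    obtain ⟨m2, q2⟩ := P.hc _ _ e _ z.2.2.2.1
    obtain ⟨m3, q3⟩ := P.hc _ _ e _ z.2.2.1
    obtain ⟨m4, q4⟩ := P.ha _ _ e _ z.2.2.2.2
    have k1 := (P.ker _ (⟨_, m1⟩ - ⟨_, m2⟩)).2 hz.1
    have k2 := (P.ker _ (⟨_, m3⟩ - ⟨_, m4⟩)).2 hz.2.1
    rw [map_sub, sub_eq_zero] at k1 k2
    exact ⟨by rw [← q1, ← q2, k1], by rw [← q3, ← q4, k2]⟩
  let φ : B →ₗ[k] V :=
    { toFun := fun z => P.ι _ ⟨z.1.2.2, z.2.2.2.2⟩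
      map_add' := fun z w => by rw [← map_add]; rfl
      map_smul' := fun t z => by rw [← map_smul]; rfl }
  have hmem : ∀ z : P.F (m + P.N), P.ι _ z ∈ P.U (m + P.N) := fun z => by
    rw [← P.range]; exact ⟨z, rfl⟩
  have hr : LinearMap.range φ ≤
      (P.U (m + P.N)).comap P.x ⊓ (P.U (m + P.N)).comap P.y ⊓ P.U (m + P.N) := by
    rintro _ ⟨z, rfl⟩
    refine ⟨⟨?_, ?_⟩, hmem _⟩
    · change P.x (P.ι _ ⟨z.1.2.2, z.2.2.2.2⟩) ∈ P.U (m + P.N)
      rw [← (key z).2]; exact hmem _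
    · change P.y (P.ι _ ⟨z.1.2.2, z.2.2.2.2⟩) ∈ P.U (m + P.N)
      rw [(key z).1]; exact hmem _
  have := P.fd (m + P.N)
  have fs : FiniteDimensional k ((P.U (m + P.N)).comap P.x ⊓ (P.U (m + P.N)).comap P.y ⊓
      P.U (m + P.N) : Submodule k V) := Submodule.finiteDimensional_of_le inf_le_right
  have fr : FiniteDimensional k (LinearMap.range φ) := Submodule.finiteDimensional_of_le hr
  have l2 : finrank k (LinearMap.range φ) ≤ P.sd m := Submodule.finrank_mono hr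
  have st := (cB.step (A := cube (P.F (m + 1 + P.N)))
    (le_inf (P.cube_le_Z (m + 1)) (P.cube_mono (by omega))) φ fun z => by
      rw [e1, mem_cube]
      constructor
      · intro h0
        change P.ι _ ⟨z.1.2.2, z.2.2.2.2⟩ = 0 at h0
        obtain ⟨k1, k2⟩ := key z
        rw [h0, map_zero] at k1 k2
        exact ⟨(P.ker _ _).1 k2, (P.ker _ _).1 k1.symm, (P.ker _ _).1 h0⟩
      · intro h0
        exact (P.ker _ ⟨z.1.2.2, z.2.2.2.2⟩).2 h0.2.2).2
  omega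

theorem sup_step (hF : ∀ j, Cof (P.F j)) (m : ℤ) :
    cod (P.D m ⊔ P.F (m + 1 + 3 * P.N)) + P.kd m ≤ cod (P.F (m + 1 + 3 * P.N)) := by
  have e : m + 3 * P.N = m + 2 * P.N + P.N := by ring
  have e1 : m + 1 + 3 * P.N = m + 3 * P.N + 1 := by ring
  have hle : P.D m ⊔ P.F (m + 1 + 3 * P.N) ≤ P.F (m + 3 * P.N) :=
    sup_le (P.D_le m) (P.mono (by omega))
  set φ := P.ι _ ∘ₗ Submodule.inclusion hle with hφ
  have := P.fd (m + 3 * P.N)
  have hr : LinearMap.range φ ≤ P.U (m + 3 * P.N) := by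
    rw [← P.range]; exact LinearMap.range_comp_le_range _ _
  have fr : FiniteDimensional k (LinearMap.range φ) := Submodule.finiteDimensional_of_le hr
  have st := (((hF _).mono le_sup_right).step (A := P.F (m + 1 + 3 * P.N)) le_sup_right φ
    fun z => (P.ker _ (Submodule.inclusion hle z)).trans (by rw [← e1]; rfl)).2
  have hsur : ∀ v ∈ P.U (m + 2 * P.N), ∃ p, ∃ hp : p ∈ P.F (m + 2 * P.N), P.ι _ ⟨p, hp⟩ = v := by
    intro v hv
    rw [← P.range] at hv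
    obtain ⟨z, rfl⟩ := hv
    exact ⟨z.1, z.2, rfl⟩
  have h0 := (P.F (m + 2 * P.N)).zero_mem
  have l : P.kd m ≤ finrank k (LinearMap.range φ) := by
    refine Submodule.finrank_mono (sup_le (sup_le ?_ ?_) ?_)
    · rintro _ ⟨v, hv, rfl⟩
      obtain ⟨p, hp, rfl⟩ := hsur v hv
      obtain ⟨m1, q1⟩ := P.ha _ _ e p hp
      exact ⟨⟨P.a p, Submodule.mem_sup_left ⟨(p, 0, 0), ⟨hp, h0, h0⟩, by simp [d2_apply]⟩⟩, q1⟩
    · rintro _ ⟨v, hv, rfl⟩
      obtain ⟨p, hp, rfl⟩ := hsur v hv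
      obtain ⟨m1, q1⟩ := P.hb _ _ e p hp
      exact ⟨⟨P.b p, Submodule.mem_sup_left ⟨(0, p, 0), ⟨h0, hp, h0⟩, by simp [d2_apply]⟩⟩, q1⟩
    · intro v hv
      obtain ⟨p, hp, rfl⟩ := hsur v hv
      obtain ⟨m1, q1⟩ := P.hc _ _ e p hp
      exact ⟨⟨P.c p, Submodule.mem_sup_left ⟨(0, 0, p), ⟨h0, h0, hp⟩, by simp [d2_apply]⟩⟩, q1⟩
  omega

theorem cod_succ3 (hF : ∀ j, Cof (P.F j)) (m t : ℤ) :
    cod (P.F (m + 1 + t)) = cod (P.F (m + t)) + finrank k (P.U (m + t)) := by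
  rw [show m + 1 + t = m + t + 1 by ring]; exact (P.cof_succ (hF _)).2

theorem t_step (hF : ∀ j, Cof (P.F j)) (m : ℤ) (hD : Cof (P.D (m + 1))) :
    cod (P.D m) + P.kd m ≤ cod (P.D (m + 1)) := by
  have hD' : Cof (P.D m) := hD.mono (P.D_mono (by omega))
  obtain ⟨-, e⟩ := hD'.inf (hF (m + 1 + 3 * P.N))
  have l := hD.anti (le_inf (P.D_mono (show m ≤ m + 1 by omega)) (P.D_le (m + 1)))
  have := P.sup_step hF m
  omega

theorem le_D_sup (hF : ∀ j, Cof (P.F j)) {m₁ : ℤ}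
    (ht : ∀ m, m₁ ≤ m → finrank k (P.U (m + 3 * P.N)) = P.kd m) {j : ℤ} (hj : m₁ ≤ j) :
    P.F (m₁ + 3 * P.N) ≤ P.D m₁ ⊔ P.F (j + 3 * P.N) := by
  induction j, hj using Int.leInduction with
  | base => exact le_sup_right
  | succ j hj ih =>
    refine ih.trans (sup_le le_sup_left ?_)
    have hle : P.D j ⊔ P.F (j + 1 + 3 * P.N) ≤ P.F (j + 3 * P.N) :=
      sup_le (P.D_le j) (P.mono (by omega))
    have c1 : Cof (P.D j ⊔ P.F (j + 1 + 3 * P.N)) := (hF _).mono le_sup_right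
    have h1 := P.sup_step hF j
    have h2 := P.cod_succ3 hF j (3 * P.N)
    have h3 := ht j hj
    have h4 := c1.cod_sup (P.F (j + 3 * P.N))
    rw [sup_eq_right.2 hle] at h4
    have : FiniteDimensional k (M ⧸ (P.D j ⊔ P.F (j + 1 + 3 * P.N))) := c1
    have h5 : (P.F (j + 3 * P.N)).map (P.D j ⊔ P.F (j + 1 + 3 * P.N)).mkQ = ⊥ :=
      Submodule.finrank_eq_zero.1 (by omega)
    rw [← le_bot_iff, Submodule.map_le_iff_le_comap, Submodule.comap_bot,
      Submodule.ker_mkQ] at h5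
    exact h5.trans (sup_le_sup_right (P.D_mono hj) _)

theorem tele {f g : ℤ → ℤ} {i j : ℤ} (hij : i ≤ j)
    (h : ∀ m, i ≤ m → m < j → f (m + 1) - f m ≤ g m) :
    f j - f i ≤ ∑ m ∈ Finset.Ico i j, g m := by
  induction j, hij using Int.leInduction with
  | base => simp
  | succ j hj ih =>
    have e : Finset.Ico i (j + 1) = insert j (Finset.Ico i j) := by
      ext m; simp only [Finset.mem_Ico, Finset.mem_insert]; omega
    rw [e, Finset.sum_insert (by simp)]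
    have := ih fun m h1 h2 => h m h1 (by omega)
    have := h j hj (by omega)
    linarith

theorem main (m₀ n₁ n₂ m₁ : ℤ) (h0 : P.F (m₀ + P.N) = ⊤) (h01 : m₀ ≤ n₁) (h12 : n₁ ≤ n₂)
    (h21 : n₂ ≤ m₁) (hD : P.F (m₁ + 3 * P.N) ≤ P.D m₁) :
    ∑ m ∈ Finset.Ico n₁ n₂, (3 * (finrank k (P.U (m + 2 * P.N)) : ℤ) -
        finrank k (P.U (m + 3 * P.N)) - 3 * finrank k (P.U (m + P.N))) ≤
      ∑ m ∈ Finset.Ico m₀ n₁, (P.sd m : ℤ) +
        ∑ m ∈ Finset.Ico n₂ m₁, ((finrank k (P.U (m + 3 * P.N)) : ℤ) - P.kd m) := by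
  have hF := P.cof h0
  have cD : ∀ m, m ≤ m₁ → Cof (P.D m) := fun m hm => ((hF _).mono hD).mono (P.D_mono hm)
  have t1 := tele (f := fun m => -(3 * (cod (P.F (m + 2 * P.N)) : ℤ) - cod (P.F (m + 3 * P.N)) -
      3 * cod (P.F (m + P.N))))
    (g := fun m => -(3 * (finrank k (P.U (m + 2 * P.N)) : ℤ) -
      finrank k (P.U (m + 3 * P.N)) - 3 * finrank k (P.U (m + P.N)))) h12 fun m _ _ => by
      simp only [P.cod_succ3 hF]
      push_cast; linarith
  have t2 := tele (f := fun m => (cod (cube (P.F (m + P.N))) : ℤ) - cod (P.Z m))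
    (g := fun m => (P.sd m : ℤ)) h01 fun m _ _ => by
      have := P.z_step hF m
      omega
  have t3 := tele (f := fun m => (cod (P.F (m + 3 * P.N)) : ℤ) - cod (P.D m))
    (g := fun m => (finrank k (P.U (m + 3 * P.N)) : ℤ) - P.kd m) h21 fun m _ hm => by
      have := P.t_step hF m (cD _ (by omega))
      have := P.cod_succ3 hF m (3 * P.N)
      omega
  rw [Finset.sum_neg_distrib] at t1
  have z0 : cod (cube (P.F (m₀ + P.N))) = 0 := by rw [(hF _).cube.2, h0, cod_top]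
  have z0' := (hF (m₀ + P.N)).cube.1.anti (P.cube_le_Z m₀)
  have d0 := (hF _).anti hD
  have d0' := (cD m₁ le_rfl).anti (P.D_le m₁)
  have E1 : ∀ m, cod (P.Z m) + cod (cube (P.F (m + 2 * P.N)) ⊔ LinearMap.range (d1 P.a P.b P.c)) =
      3 * cod (P.F (m + 2 * P.N)) := fun m => by
    rw [← (hF _).cube.2]; exact ((hF _).cube.1.comap _).2
  have E2 : ∀ m, cod ((P.F (m + 3 * P.N)).comap (d2 P.a P.b P.c)) +
      cod (P.F (m + 3 * P.N) ⊔ LinearMap.range (d2 P.a P.b P.c)) = cod (P.F (m + 3 * P.N)) :=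
    fun m => ((hF _).comap _).2
  have a1 : cod ((P.F (n₁ + 3 * P.N)).comap (d2 P.a P.b P.c)) ≤
      cod (cube (P.F (n₁ + 2 * P.N)) ⊔ LinearMap.range (d1 P.a P.b P.c)) := by
    refine ((hF _).cube.1.mono le_sup_left).anti (sup_le ?_ ?_)
    · exact Submodule.map_le_iff_le_comap.1 (P.D_le n₁)
    · rintro _ ⟨z, rfl⟩
      rw [Submodule.mem_comap, P.dd]; exact Submodule.zero_mem _
  have a2 : cod (P.F (n₁ + 3 * P.N) ⊔ LinearMap.range (d2 P.a P.b P.c)) ≤
      cod (P.F (n₂ + 3 * P.N) ⊔ LinearMap.range (d2 P.a P.b P.c)) :=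
    ((hF _).mono le_sup_left).anti (sup_le_sup_right (P.mono (by omega)) _)
  obtain ⟨c3, a3⟩ := (cD n₂ h21).comap (d2 P.a P.b P.c)
  have a4 : cod (cube (P.F (n₂ + 2 * P.N)) ⊔ LinearMap.range (d1 P.a P.b P.c)) ≤
      cod ((P.D n₂).comap (d2 P.a P.b P.c)) := by
    refine c3.anti ?_
    rw [D, Submodule.comap_map_eq]
    exact sup_le_sup_left (fun z hz => P.ex z hz) _
  have a5 : cod (P.F (n₂ + 3 * P.N) ⊔ LinearMap.range (d2 P.a P.b P.c)) ≤
      cod (P.D n₂ ⊔ LinearMap.range (d2 P.a P.b P.c)) :=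
    ((cD n₂ h21).mono le_sup_left).anti (sup_le_sup_right (P.D_le n₂) _)
  have a6 := (hF (n₂ + P.N)).cube.1.anti (P.cube_le_Z n₂)
  have a7 := (hF (n₂ + P.N)).cube.2
  have a8 := (hF (n₁ + P.N)).cube.2
  have b1 := E1 n₁
  have b2 := E1 n₂
  have b3 := E2 n₁
  have b4 := E2 n₂
  omega

end Dat

end Vale.Agent.P190.KosA
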