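import Vale.Agent.P190.DDefs

/-! P190, part L1b: Koszul vanishing and freeness from a regular sequence. -/

namespace Vale.Agent.P190

section koszul

variable {S : Type} [CommRing S]

/-- vanishing of the zeroth Koszul cohomology -/
def Kos0 (M : Type) [AddCommGroup M] [Module S M] (a b c : S) : Prop :=
  ∀ u : M, a • u = 0 → b • u = 0 → c • u = 0 → u = 0

/-- vanishing of the first Koszul cohomology -/
def Kos1 (M : Type) [AddCommGroup M] [Module S M] (a b c : S) : Prop :=
  ∀ u v w : M, b • w - c • v = 0 → c • u - a • w = 0 → a • v - b • u = 0 →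
    ∃ m : M, u = a • m ∧ v = b • m ∧ w = c • m

theorem mem_span_three {a b c g : S} (h : g ∈ Ideal.span {a, b, c}) :
    ∃ x y z : S, g = x * a + y * b + z * c := by
  obtain ⟨x, g', h', rfl⟩ := Ideal.mem_span_insert.1 h
  obtain ⟨y, z, rfl⟩ := Ideal.mem_span_pair.1 h'
  exact ⟨x, y, z, (add_assoc _ _ _).symm⟩

variable {M : Type} [AddCommGroup M] [Module S M] {f a b c : S}

theorem quot_eq_zero {m : M} (h : (Submodule.Quotient.mk m : QuotSMulTop f M) = 0) :
    ∃ m', f • m' = m := by
  obtain ⟨m', -, h'⟩ := (Submodule.mem_smul_pointwise_iff_exists _ _ _).1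
    ((Submodule.Quotient.mk_eq_zero _).1 h)
  exact ⟨m', h'⟩

theorem quot_smul (m : M) : (Submodule.Quotient.mk (f • m) : QuotSMulTop f M) = 0 :=
  (Submodule.Quotient.mk_eq_zero _).2 (Submodule.smul_mem_pointwise_smul _ _ _ trivial)

theorem kos0_step (hf : IsSMulRegular M f) (h : ∃ N : ℕ, f ^ N ∈ Ideal.span {a, b, c}) :
    Kos0 M a b c := by
  intro u ha hb hc
  obtain ⟨N, hN⟩ := h
  obtain ⟨x, y, z, e⟩ := mem_span_three hN
  refine (hf.pow N).right_eq_zero_of_smul ?_
  rw [e, add_smul, add_smul, mul_smul, mul_smul, mul_smul, ha, hb, hc]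
  simp

theorem kos1_step (hf : IsSMulRegular M f) (h : ∃ N : ℕ, f ^ N ∈ Ideal.span {a, b, c})
    (h0 : Kos0 (QuotSMulTop f M) a b c) : Kos1 M a b c := by
  intro u v w h1 h2 h3
  obtain ⟨N, hN⟩ := h
  obtain ⟨x, y, z, e⟩ := mem_span_three hN
  have key : ∀ j : ℕ, (∃ m : M, f ^ j • u = a • m ∧ f ^ j • v = b • m ∧ f ^ j • w = c • m) →
      ∃ m : M, u = a • m ∧ v = b • m ∧ w = c • m := by
    intro j
    induction j with
    | zero => simp
    | succ j ih =>
      rintro ⟨m, e1, e2, e3⟩
      rw [pow_succ', mul_smul] at e1 e2 e3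
      obtain ⟨m', rfl⟩ := quot_eq_zero (h0 (Submodule.Quotient.mk m)
        (by rw [← Submodule.Quotient.mk_smul, ← e1, quot_smul])
        (by rw [← Submodule.Quotient.mk_smul, ← e2, quot_smul])
        (by rw [← Submodule.Quotient.mk_smul, ← e3, quot_smul]))
      rw [smul_comm _ f] at e1 e2 e3
      exact ih ⟨m', hf e1, hf e2, hf e3⟩
  refine key N ⟨x • u + y • v + z • w, ?_, ?_, ?_⟩ <;> rw [e]
  · linear_combination (norm := module) z • h2 - y • h3
  · linear_combination (norm := module) x • h3 - z • h1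
  · linear_combination (norm := module) y • h1 - x • h2

theorem kos2_step (hf : IsSMulRegular M f) (h : ∃ N : ℕ, f ^ N ∈ Ideal.span {a, b, c})
    (h0 : Kos1 (QuotSMulTop f M) a b c) : Kos2 M a b c := by
  intro u v w h1
  obtain ⟨N, hN⟩ := h
  obtain ⟨x, y, z, e⟩ := mem_span_three hN
  have key : ∀ j : ℕ, (∃ p q r : M, f ^ j • u = b • r - c • q ∧ f ^ j • v = c • p - a • r ∧
      f ^ j • w = a • q - b • p) →
      ∃ p q r : M, u = b • r - c • q ∧ v = c • p - a • r ∧ w = a • q - b • p := by
    intro j
    induction j with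
    | zero => simp
    | succ j ih =>
      rintro ⟨p, q, r, e1, e2, e3⟩
      rw [pow_succ', mul_smul] at e1 e2 e3
      obtain ⟨m, k1, k2, k3⟩ := h0 (Submodule.Quotient.mk p) (Submodule.Quotient.mk q)
        (Submodule.Quotient.mk r)
        (by rw [← Submodule.Quotient.mk_smul, ← Submodule.Quotient.mk_smul,
          ← Submodule.Quotient.mk_sub, ← e1, quot_smul])
        (by rw [← Submodule.Quotient.mk_smul, ← Submodule.Quotient.mk_smul,
          ← Submodule.Quotient.mk_sub, ← e2, quot_smul])
        (by rw [← Submodule.Quotient.mk_smul, ← Submodule.Quotient.mk_smul,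
          ← Submodule.Quotient.mk_sub, ← e3, quot_smul])
      obtain ⟨m, rfl⟩ := Submodule.Quotient.mk_surjective _ m
      rw [← Submodule.Quotient.mk_smul, ← sub_eq_zero, ← Submodule.Quotient.mk_sub] at k1 k2 k3
      obtain ⟨p', hp⟩ := quot_eq_zero k1
      obtain ⟨q', hq⟩ := quot_eq_zero k2
      obtain ⟨r', hr⟩ := quot_eq_zero k3
      refine ih ⟨p', q', r', hf ?_, hf ?_, hf ?_⟩
      · show f • _ = f • _
        linear_combination (norm := module) e1 - b • hr + c • hq
      · show f • _ = f • _
        linear_combination (norm := module) e2 - c • hp + a • hr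
      · show f • _ = f • _
        linear_combination (norm := module) e3 - a • hq + b • hp
  refine key N ⟨z • v - y • w, x • w - z • u, y • u - x • v, ?_, ?_, ?_⟩ <;> rw [e]
  · linear_combination (norm := module) x • h1
  · linear_combination (norm := module) y • h1
  · linear_combination (norm := module) z • h1

end koszul

theorem kos2_of_regular {S : Type} [CommRing S] {M : Type} [AddCommGroup M] [Module S M]
    (f₁ f₂ f₃ a b c : S) (hreg : RingTheory.Sequence.IsWeaklyRegular M [f₁, f₂, f₃])
    (h : ∀ f ∈ [f₁, f₂, f₃], ∃ N : ℕ, f ^ N ∈ Ideal.span {a, b, c}) : Kos2 M a b c := by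
  rw [RingTheory.Sequence.isWeaklyRegular_cons_iff, RingTheory.Sequence.isWeaklyRegular_cons_iff,
    RingTheory.Sequence.isWeaklyRegular_cons_iff] at hreg
  exact kos2_step hreg.1 (h f₁ (by simp)) (kos1_step hreg.2.1 (h f₂ (by simp))
    (kos0_step hreg.2.2.1 (h f₃ (by simp))))

open MvPowerSeries in
theorem exists_decomp {k : Type} [Field k] (f : PS k) (hf : constantCoeff f = 0) :
    ∃ g : Fin 3 → PS k, f = ∑ i, X i * g i ∧ ∀ i d, coeff d (g i) = 0 ∨
      coeff d (g i) = coeff (d + Finsupp.single i 1) f := by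
  classical
  obtain ⟨g, hg⟩ : ∃ g : Fin 3 → PS k, ∀ i d, coeff d (g i) =
      if ∀ i' < i, d i' = 0 then coeff (d + Finsupp.single i 1) f else 0 :=
    ⟨fun i d => if ∀ i' < i, d i' = 0 then coeff (d + Finsupp.single i 1) f else 0,
      fun _ _ => rfl⟩
  refine ⟨g, ?_, fun i d => ?_⟩
  · ext d
    rw [map_sum]
    have hc : ∀ i, coeff d (X i * g i) =
        if 1 ≤ d i ∧ ∀ i' < i, d i' = 0 then coeff d f else 0 := by
      intro i
      rw [X_def, coeff_monomial_mul, one_mul]
      by_cases h1 : 1 ≤ d i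
      · have h2 : d - Finsupp.single i 1 + Finsupp.single i 1 = d :=
          tsub_add_cancel_of_le (Finsupp.single_le_iff.2 h1)
        rw [if_pos (Finsupp.single_le_iff.2 h1), hg, h2]
        refine if_congr ?_ rfl rfl
        simp only [h1, true_and]
        refine forall₂_congr fun i' hi' => ?_
        rw [Finsupp.tsub_apply, Finsupp.single_eq_of_ne hi'.ne, tsub_zero]
      · rw [if_neg fun h => h1 (Finsupp.single_le_iff.1 h), if_neg fun h => h1 h.1]
    rw [Finset.sum_congr rfl fun i _ => hc i]
    by_cases hd : d = 0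
    · subst hd
      simpa using hf
    · have hne := Finsupp.support_nonempty_iff.2 hd
      have h1 : ∀ i' < d.support.min' hne, d i' = 0 := fun i' hi' => by
        by_contra h
        exact absurd (d.support.min'_le i' (Finsupp.mem_support_iff.2 h)) (not_le.2 hi')
      have h2 := Finsupp.mem_support_iff.1 (d.support.min'_mem hne)
      rw [Finset.sum_eq_single (d.support.min' hne), if_pos ⟨by omega, h1⟩]
      · intro i _ hi
        refine if_neg fun h => ?_
        rcases lt_or_gt_of_ne hi with h' | h'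
        · have := h1 i h'
          omega
        · exact h2 (h.2 _ h')
      · simp
  · rw [hg]
    split_ifs
    exacts [Or.inr rfl, Or.inl rfl]

theorem mem_max_iff {k : Type} [Field k] (f : PS k) :
    f ∈ IsLocalRing.maximalIdeal (PS k) ↔ MvPowerSeries.constantCoeff f = 0 := by
  rw [IsLocalRing.mem_maximalIdeal, mem_nonunits_iff, MvPowerSeries.isUnit_iff_constantCoeff,
    isUnit_iff_ne_zero, not_not]

theorem X_mem_max {k : Type} [Field k] (i : Fin 3) :
    (MvPowerSeries.X i : PS k) ∈ IsLocalRing.maximalIdeal (PS k) :=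
  (mem_max_iff _).2 (MvPowerSeries.constantCoeff_X i)

theorem maximalIdeal_PS (k : Type) [Field k] : IsLocalRing.maximalIdeal (PS k) =
    Ideal.span {(MvPowerSeries.X 0 : PS k), MvPowerSeries.X 1, MvPowerSeries.X 2} := by
  refine le_antisymm (fun f hf => ?_) (Ideal.span_le.2 ?_)
  · obtain ⟨g, rfl, -⟩ := exists_decomp f ((mem_max_iff f).1 hf)
    refine Ideal.sum_mem _ fun i _ => Ideal.mul_mem_right _ _ (Ideal.subset_span ?_)
    fin_cases i <;> simp
  · rintro _ (rfl | rfl | rfl) <;> exact X_mem_max _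

theorem free_of_kos2 {k : Type} [Field k] (M : Type) [AddCommGroup M] [Module (PS k) M]
    [Module.Finite (PS k) M]
    (h : Kos2 M (MvPowerSeries.X 0 : PS k) (MvPowerSeries.X 1) (MvPowerSeries.X 2)) :
    Module.Free (PS k) M := by
  have := Module.finitePresentation_of_finite (PS k) M
  refine Module.free_of_maximalIdeal_rTensor_injective ?_
  rw [injective_iff_map_eq_zero]
  intro t ht
  let x : Fin 3 → IsLocalRing.maximalIdeal (PS k) := fun i => ⟨_, X_mem_max i⟩
  have hx : ∀ i j (m : M), x i ⊗ₜ[PS k] ((MvPowerSeries.X j : PS k) • m) =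
      x j ⊗ₜ[PS k] ((MvPowerSeries.X i : PS k) • m) := by
    intro i j m
    rw [← TensorProduct.smul_tmul, ← TensorProduct.smul_tmul]
    congr 1
    exact Subtype.ext (mul_comm _ _)
  have key : ∃ u v w : M, t = x 0 ⊗ₜ u + x 1 ⊗ₜ v + x 2 ⊗ₜ w := by
    clear ht
    induction t using TensorProduct.induction_on with
    | zero => exact ⟨0, 0, 0, by simp⟩
    | tmul g m =>
      obtain ⟨a, b, c, e⟩ := mem_span_three ((maximalIdeal_PS k).le g.2)
      refine ⟨a • m, b • m, c • m, ?_⟩
      rw [← TensorProduct.smul_tmul, ← TensorProduct.smul_tmul, ← TensorProduct.smul_tmul,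
        ← TensorProduct.add_tmul, ← TensorProduct.add_tmul]
      congr 1
      exact Subtype.ext e
    | add s t hs ht =>
      obtain ⟨u, v, w, rfl⟩ := hs
      obtain ⟨u', v', w', rfl⟩ := ht
      refine ⟨u + u', v + v', w + w', ?_⟩
      simp only [TensorProduct.tmul_add]
      abel
  obtain ⟨u, v, w, rfl⟩ := key
  have h1 := congrArg (TensorProduct.lid (PS k) M) ht
  simp only [map_add, LinearMap.rTensor_tmul, TensorProduct.lid_tmul, map_zero] at h1
  obtain ⟨p, q, r, rfl, rfl, rfl⟩ := h u v w h1
  simp only [TensorProduct.tmul_sub]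
  rw [hx 0 1, hx 0 2, hx 1 2]
  abel

theorem mem_pow_iff_order {k : Type} [Field k] (f : PS k) (j : ℕ) :
    f ∈ IsLocalRing.maximalIdeal (PS k) ^ j ↔ (j : ℕ∞) ≤ MvPowerSeries.order f := by
  induction j generalizing f with
  | zero => simp
  | succ j ih =>
    rw [pow_succ']
    constructor
    · intro hf
      refine Submodule.mul_induction_on hf (fun a ha b hb => ?_) fun a b ha hb => ?_
      · refine le_trans ?_ MvPowerSeries.le_order_mul
        rw [Nat.cast_succ, add_comm]
        exact add_le_add (MvPowerSeries.one_le_order_iff_constCoeff_eq_zero.2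
          ((mem_max_iff a).1 ha)) ((ih b).1 hb)
      · exact le_trans (le_min ha hb) MvPowerSeries.min_order_le_add
    · intro hf
      obtain ⟨g, hg, hg'⟩ := exists_decomp f (MvPowerSeries.one_le_order_iff_constCoeff_eq_zero.1
        (le_trans (by exact_mod_cast Nat.le_add_left 1 j) hf))
      rw [hg]
      refine Ideal.sum_mem _ fun i _ => Ideal.mul_mem_mul (X_mem_max i) ((ih _).2 ?_)
      refine MvPowerSeries.nat_le_order fun d hd => ?_
      rcases hg' i d with h | h
      · exact h
      · rw [h]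
        refine MvPowerSeries.coeff_of_lt_order (lt_of_lt_of_le ?_ hf)
        rw [map_add, Finsupp.degree_single]
        exact_mod_cast Nat.succ_lt_succ hd

theorem three_le_dim_PS (k : Type) [Field k] : (3 : WithBot ℕ∞) ≤ ringKrullDim (PS k) := by
  have key : ∀ n : ℕ, (n : WithBot ℕ∞) ≤ ringKrullDim (MvPowerSeries (Fin n) k) := by
    intro n
    induction n with
    | zero => exact ringKrullDim_nonneg_of_nontrivial
    | succ n ih =>
      rw [ringKrullDim_eq_of_ringEquiv (MvPowerSeries.finSuccEquiv k n).toRingEquiv]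
      refine le_trans ?_ ringKrullDim_succ_le_ringKrullDim_powerseries
      push_cast
      gcongr
  exact key 3

end Vale.Agent.P190
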