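import Vale.Agent.P190.D0
import Vale.Agent.P190.L1b
import Vale.Agent.P190.KosA

/-! P190, part Kos: the Koszul counting inequality. -/

namespace Vale.Agent.P190

open Module

variable {k : Type} [Field k] {n : ℕ} {D : DP k n} {h : Hs D}
variable {V : Type} [AddCommGroup V] [Module (KK k) V] [Module k V] [IsScalarTower k (KK k) V]

theorem kos_cst_add (c : Fin 5 → ℤ) (m t : ℤ) :
    cst m + lamv c + cst t = cst (m + t) + lamv c := by
  funext i; simp only [cst, Pi.add_apply]; ring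

theorem kos_nsmul_cst (q : ℕ) (t : ℤ) : q • cst t = cst (q * t) := by
  funext i
  rw [Pi.smul_apply]
  simp only [cst, nsmul_eq_mul]

omit [IsScalarTower k (KK k) V] in
theorem Model.X_pow {M : Type} [AddCommGroup M] [Module (PS k) M] [Module k M]
    [IsScalarTower k (PS k) M] {U : Fam D.S V} (Mo : Model h M U) (c : Fin 5 → ℤ) (l : Fin 3)
    (q : ℕ) : ∀ i j : ℤ, j = i + q * n → ∀ p (hp : p ∈ Mo.F i c),
      ∃ hm : (MvPowerSeries.X l : PS k) ^ q • p ∈ Mo.F j c,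
        Mo.ι j c ⟨_, hm⟩ = (![h.x, h.y, 1] : Fin 3 → KK k) l ^ q • Mo.ι i c ⟨p, hp⟩ := by
  induction q with
  | zero =>
    intro i j hj p hp
    obtain rfl : j = i := by simpa using hj
    exact ⟨by simpa using hp, by simp⟩
  | succ q ih =>
    intro i j hj p hp
    obtain ⟨m1, q1⟩ := ih i _ rfl p hp
    obtain rfl : j = i + q * n + n := by rw [hj]; push_cast; ring
    have e : (MvPowerSeries.X l : PS k) ^ (q + 1) • p =
        (MvPowerSeries.X l : PS k) • (MvPowerSeries.X l : PS k) ^ q • p := by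
      rw [smul_smul, pow_succ']
    refine ⟨e ▸ Mo.X_mem _ c l _ m1, ?_⟩
    have := Mo.X_comp _ c l _ m1
    rw [q1] at this
    refine Eq.trans ?_ (this.trans (by rw [smul_smul, ← pow_succ']))
    congr 1
    exact Subtype.ext e

/-- the abstract Koszul data of a model -/
noncomputable def Model.dat {M : Type} [AddCommGroup M] [Module (PS k) M] [Module k M]
    [IsScalarTower k (PS k) M] {U : Fam D.S V} (Mo : Model h M U)
    (hU : U.FG) (c : Fin 5 → ℤ) (q : ℕ)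
    (hK : Kos2 M ((MvPowerSeries.X 0 : PS k) ^ q) (MvPowerSeries.X 1 ^ q)
      (MvPowerSeries.X 2 ^ q)) : KosA.Dat k M V where
  F m := (Mo.F m c).restrictScalars k
  ι m := Mo.ι m c
  U m := U.U (cst m + lamv c)
  fd _ := hU.fd _
  anti m := Mo.anti m c
  ker m := Mo.ker m c
  range m := Mo.range m c
  N := q * n
  a := (LinearMap.lsmul (PS k) M (MvPowerSeries.X 0 ^ q)).restrictScalars k
  b := (LinearMap.lsmul (PS k) M (MvPowerSeries.X 1 ^ q)).restrictScalars k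
  c := (LinearMap.lsmul (PS k) M (MvPowerSeries.X 2 ^ q)).restrictScalars k
  x := smulL (h.x ^ q)
  y := smulL (h.y ^ q)
  ha := Mo.X_pow c 0 q
  hb := Mo.X_pow c 1 q
  hc i j hj p hp := by
    obtain ⟨m1, q1⟩ := Mo.X_pow c 2 q i j hj p hp
    exact ⟨m1, q1.trans (by simp)⟩
  dd z := by
    simp only [KosA.d1_apply, KosA.d2_apply, LinearMap.restrictScalars_apply,
      LinearMap.lsmul_apply, smul_sub, smul_smul]
    generalize (MvPowerSeries.X 0 ^ q : PS k) = A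
    generalize (MvPowerSeries.X 1 ^ q : PS k) = B
    generalize (MvPowerSeries.X 2 ^ q : PS k) = C
    rw [mul_comm B A, mul_comm C A, mul_comm C B]
    abel
  ex z hz := by
    obtain ⟨p, q, r, h1, h2, h3⟩ := hK z.1 z.2.1 z.2.2 hz
    exact ⟨(p, q, r), Prod.ext h1.symm (Prod.ext h2.symm h3.symm)⟩

theorem Model.koszul {M : Type} [AddCommGroup M] [Module (PS k) M] [Module k M]
    [IsScalarTower k (PS k) M] [Module.Finite (PS k) M] {U : Fam D.S V} (Mo : Model h M U)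
    (hU : U.FG) (c : Fin 5 → ℤ) (q : ℕ)
    (hK : Kos2 M ((MvPowerSeries.X 0 : PS k) ^ q) (MvPowerSeries.X 1 ^ q) (MvPowerSeries.X 2 ^ q))
    (m₀ n₁ n₂ m₁ : ℤ) (h0 : Mo.F (m₀ + q * n) c = ⊤) (h01 : m₀ ≤ n₁) (h12 : n₁ ≤ n₂)
    (h21 : n₂ ≤ m₁) (ht : ∀ m, m₁ ≤ m → h.tdim q U (cst m + lamv c) = 0) :
    ∑ m ∈ Finset.Ico n₁ n₂,
        (3 * (finrank k (U.U (cst m + lamv c + cst (2 * q * n))) : ℤ) -
          finrank k (U.U (cst m + lamv c + cst (3 * q * n))) -
          3 * finrank k (U.U (cst m + lamv c + cst (q * n)))) ≤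
      ∑ m ∈ Finset.Ico m₀ n₁, h.sdim q U (cst m + lamv c) +
        ∑ m ∈ Finset.Ico n₂ m₁, h.tdim q U (cst m + lamv c) := by
  set P := Mo.dat hU c q hK with hP
  have e1 : ∀ m, U.U (cst m + lamv c + cst (q * n)) = P.U (m + P.N) := fun m => by
    rw [kos_cst_add]; rfl
  have e2 : ∀ m, U.U (cst m + lamv c + cst (2 * q * n)) = P.U (m + 2 * P.N) := fun m => by
    rw [kos_cst_add, mul_assoc]; rfl
  have e3 : ∀ m, U.U (cst m + lamv c + cst (3 * q * n)) = P.U (m + 3 * P.N) := fun m => by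
    rw [kos_cst_add, mul_assoc]; rfl
  have s1 : ∀ m, h.sdim q U (cst m + lamv c) = P.sd m := fun m => by
    rw [Hs.sdim, e1]; rfl
  have s2 : ∀ m, h.tdim q U (cst m + lamv c) =
      (finrank k (P.U (m + 3 * P.N)) : ℤ) - P.kd m := fun m => by
    rw [Hs.tdim, e2, e3]; rfl
  simp only [s1, s2]
  rw [Finset.sum_congr rfl fun m _ => by rw [e1, e2, e3]]
  have h0' : P.F (m₀ + P.N) = ⊤ := by
    change (Mo.F (m₀ + q * n) c).restrictScalars k = ⊤
    rw [h0]; rfl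
  refine P.main m₀ n₁ n₂ m₁ h0' h01 h12 h21 ?_
  have hsup := fun j (hj : m₁ ≤ j) => P.le_D_sup (P.cof h0') (m₁ := m₁) (fun m hm => by
    have := ht m hm
    rw [s2] at this
    omega) hj
  let F2 := Mo.F (m₁ + 2 * P.N) c
  let N' : Submodule (PS k) M :=
    F2.map (LinearMap.lsmul (PS k) M (MvPowerSeries.X 0 ^ q)) ⊔
      F2.map (LinearMap.lsmul (PS k) M (MvPowerSeries.X 1 ^ q)) ⊔
        F2.map (LinearMap.lsmul (PS k) M (MvPowerSeries.X 2 ^ q))
  have hN1 : ∀ z, z ∈ P.D m₁ → z ∈ N' := by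
    rintro _ ⟨z, hz, rfl⟩
    exact Submodule.add_mem_sup (Submodule.add_mem_sup ⟨z.1, hz.1, rfl⟩ ⟨z.2.1, hz.2.1, rfl⟩)
      ⟨z.2.2, hz.2.2, rfl⟩
  have hN2 : ∀ z, z ∈ N' → z ∈ P.D m₁ := by
    intro z hz
    obtain ⟨_, hu, _, ⟨w, hw, rfl⟩, rfl⟩ := Submodule.mem_sup.1 hz
    obtain ⟨_, ⟨u, hu', rfl⟩, _, ⟨v, hv, rfl⟩, rfl⟩ := Submodule.mem_sup.1 hu
    exact ⟨(u, v, w), ⟨hu', hv, hw⟩, rfl⟩
  intro z hz
  refine hN2 z ?_
  rw [← Submodule.Quotient.mk_eq_zero, ← Submodule.mem_bot (PS k),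
    ← Ideal.iInf_pow_smul_eq_bot_of_isLocalRing (M := M ⧸ N') (IsLocalRing.maximalIdeal (PS k))
      (IsLocalRing.maximalIdeal.isMaximal (PS k)).ne_top, Submodule.mem_iInf]
  intro j
  obtain ⟨m, hm⟩ := Mo.sep c j
  obtain ⟨u, hu, v, hv, rfl⟩ :=
    Submodule.mem_sup.1 (hsup (max m₁ (m - 3 * P.N)) (le_max_left _ _) hz)
  have hv' : v ∈ P.F m := P.mono (by omega) hv
  have h1 : N'.mkQ v ∈ (IsLocalRing.maximalIdeal (PS k) ^ j • (⊤ : Submodule (PS k) M)).map
      N'.mkQ := ⟨v, hm hv', rfl⟩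
  rw [Submodule.map_smul''] at h1
  rw [Submodule.Quotient.mk_add, (Submodule.Quotient.mk_eq_zero N').2 (hN1 u hu), zero_add]
  exact Submodule.smul_mono le_rfl le_top h1

/-- Euler characteristic inequality for the graded Koszul complex -/
theorem Hs.euler_kos (h : Hs D) {U : Fam D.S V} (hU : U.FG) (q : ℕ) (a : ZZ) :
    (finrank k (U.U (a + cst (3 * q * n))) : ℤ) - 3 * finrank k (U.U (a + cst (2 * q * n))) +
      3 * finrank k (U.U (a + cst (q * n))) ≤ h.sdim q U a + h.tdim q U a := by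
  have f1 := hU.fd (a + cst (q * n))
  have f2 := hU.fd (a + cst (2 * q * n))
  have e : q • cst n + (a + cst (q * n)) = a + cst (2 * q * n) := by
    rw [kos_nsmul_cst]; funext i; simp only [cst, Pi.add_apply]; ring
  have e' : cst (q * n) + (a + cst (q * n)) = a + cst (2 * q * n) := by
    funext i; simp only [cst, Pi.add_apply]; ring
  have := KosA.euler (smulL (h.x ^ q) : V →ₗ[k] V) (smulL (h.y ^ q))
    (fun v => smul_comm (h.x ^ q) (h.y ^ q) v) (U.U (a + cst (q * n))) (U.U (a + cst (2 * q * n)))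
    (fun v hv => e ▸ U.smul_mem _ _ _ v (D.S.pow_mem h.hx q) hv)
    (fun v hv => e ▸ U.smul_mem _ _ _ v (D.S.pow_mem h.hy q) hv)
    (fun v hv => by
      have := U.smul_mem _ _ _ v (D.one_mem_cst (m := q * n) (by positivity)) hv
      rwa [e', one_smul] at this)
  rw [Hs.sdim, Hs.tdim, sat, kos]
  omega

theorem Hs.sat_le_hull (h : Hs D) (U : Fam D.S V) (q : ℕ) (a : ZZ) :
    sat h.x h.y q (U.U (a + cst (q * n))) ≤ U.hull.U a := by
  intro v hv P
  by_cases hP : P ∈ Set.range D.sp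
  · obtain ⟨i, rfl⟩ := hP
    have e : q • cst n + a = a + cst (q * n) := by
      rw [kos_nsmul_cst, add_comm]
    refine ⟨q • cst n, h.y ^ q, pow_ne_zero _ h.y_ne, D.S.pow_mem h.hy q, ?_, ?_⟩
    · rw [Sys.val_pow _ _ h.y_ne, h.y_val, mul_zero]
    · rw [e]; exact hv.1.2
  · refine ⟨cst (q * n), 1, one_ne_zero, D.one_mem_cst (by positivity), ?_, ?_⟩
    · rw [D.val_ns P hP, ← D.val_ns P hP 0, D.S.val_one]
    · rw [one_smul, add_comm]; exact hv.2

end Vale.Agent.P190
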