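import Vale.Agent.P190.A2b
import Vale.Agent.P190.Kos
import Vale.Agent.P190.D4

/-! P190, part A3: Euler characteristic bound and the canonical class. -/

namespace Vale.Agent.P190

open Module Filter

theorem a3_lin {a b : ℚ} (h : ∀ᶠ j : ℤ in atTop, 0 ≤ a * j + b) : 0 ≤ a := by
  by_contra h0
  rw [not_le] at h0
  obtain ⟨j, h1, h2⟩ := (h.and (eventually_gt_atTop ⌈b / -a⌉)).exists
  have h3 : b / -a < j := (Int.le_ceil _).trans_lt (by exact_mod_cast h2)
  rw [div_lt_iff₀ (by linarith)] at h3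
  linarith

theorem a3_quad {a b c : ℚ} (h : ∀ᶠ j : ℤ in atTop, 0 ≤ a * j ^ 2 + b * j + c) : 0 ≤ a := by
  refine a3_lin (b := b + |c|) ?_
  filter_upwards [h, eventually_ge_atTop 1] with j h1 h2
  have h3 : (1 : ℚ) ≤ j := by exact_mod_cast h2
  refine (mul_nonneg_iff_of_pos_left (by linarith : (0 : ℚ) < j)).1 ?_
  nlinarith [le_abs_self c, abs_nonneg c]

variable {k : Type} [Field k] {n : ℕ} {D : DP k n} (h : Hs D)
variable {V : Type} [AddCommGroup V] [Module (KK k) V] [Module k V] [IsScalarTower k (KK k) V]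
variable [FiniteDimensional (KK k) V]

theorem Hs.euler {U : Fam D.S V} (hU : U.FG) (hs : U.Spans) {g : ℚ} (hg : HasRR n U g) (w : ZZ) :
    RR n (finrank (KK k) V) U.cl g w ≤
      (hh n U.hull w : ℚ) + hh n (dag h U) (-w - cst (3 * n)) := by
  have hn : (0 : ℤ) < n := by exact_mod_cast D.n_pos
  have ht : ∀ t : ℤ, 0 < t → Tendsto (fun q : ℕ => t * q * n) atTop atTop := fun t ht =>
    (tendsto_natCast_atTop_atTop.const_mul_atTop' ht).atTop_mul_const' hn
  obtain ⟨q, h1, h2, h3, h4⟩ := ((eventually_all.2 fun c : Fin 5 → Fin n =>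
    h.tdim_le hU hs (w + lamv fun j => (c j : ℤ))).and (((ht 1 one_pos).eventually (hg w)).and
      (((ht 2 two_pos).eventually (hg w)).and ((ht 3 three_pos).eventually (hg w))))).exists
  rw [one_mul] at h2
  rw [RR_third_diff n _ g _ w (q * n), ← mul_assoc, ← mul_assoc, ← h2, ← h3, ← h4,
    ← DP.hh_eq_sum_neg (dag h U)]
  have key : ∀ c : Fin 5 → Fin n,
      (3 * finrank k (U.U (w + cst (q * n) + lamv fun j => (c j : ℤ))) -
        3 * finrank k (U.U (w + cst (2 * q * n) + lamv fun j => (c j : ℤ))) +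
        finrank k (U.U (w + cst (3 * q * n) + lamv fun j => (c j : ℤ))) : ℚ) ≤
      finrank k (U.hull.U (w + lamv fun j => (c j : ℤ))) +
        finrank k ((dag h U).U (-w - cst (3 * n) - lamv fun j => (c j : ℤ))) := by
    intro c
    have e1 := h.euler_kos hU q (w + lamv fun j => (c j : ℤ))
    have e2 := h1 c
    have := hU.hull.fd (w + lamv fun j => (c j : ℤ))
    have e3 := Submodule.finrank_mono (h.sat_le_hull U q (w + lamv fun j => (c j : ℤ)))
    rw [show -(w + lamv fun j => (c j : ℤ)) - cst (3 * n) =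
      -w - cst (3 * n) - lamv fun j => (c j : ℤ) by abel] at e2
    rw [add_right_comm w (cst (q * n)), add_right_comm w (cst (2 * q * n)),
      add_right_comm w (cst (3 * q * n))]
    rw [Hs.sdim] at e1
    have e4 : (3 * finrank k (U.U (w + (lamv fun j => (c j : ℤ)) + cst (q * n))) -
        3 * finrank k (U.U (w + (lamv fun j => (c j : ℤ)) + cst (2 * q * n))) +
        finrank k (U.U (w + (lamv fun j => (c j : ℤ)) + cst (3 * q * n))) : ℤ) ≤
      finrank k (U.hull.U (w + lamv fun j => (c j : ℤ))) +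
        finrank k ((dag h U).U (-w - cst (3 * n) - lamv fun j => (c j : ℤ))) := by omega
    exact_mod_cast e4
  have := Finset.sum_le_sum fun c (_ : c ∈ Finset.univ) => key c
  simp only [Finset.sum_add_distrib, Finset.sum_sub_distrib, ← Finset.mul_sum] at this
  simpa only [hh, Nat.cast_sum] using this

theorem Hs.dag_fam_cl : HA (dag h D.S.fam).cl ≤ 42 * n - 12 := by
  have hn : (0 : ℤ) < n := by exact_mod_cast D.n_pos
  have hn' : (0 : ℚ) < n := by exact_mod_cast D.n_pos
  set δ := (dag h D.S.fam).cl with hδ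
  obtain ⟨g, hg⟩ := exists_hasRR (dag_FG h (Fam.fam_spans (S := D.S))) (dag_spans h Fam.fam_FG)
  have hr : finrank (KK k) (Dag h (KK k)) = 1 := by rw [finrank_dag, finrank_self]
  simp only [HasRR, hr, ← hδ, Nat.cast_one] at hg
  obtain ⟨t, ht⟩ := DP.fam_eq_bot (Fam.fam_FG (S := D.S)).hull
  have i1 : ∀ w : ZZ, ∀ᶠ m : ℤ in atTop, 0 ≤ (n : ℚ) ^ 3 * (2 * HL δ - 10 * (7 * n - 2)) * m +
      ((n : ℚ) ^ 3 * (II δ w - (7 * n - 2) * HL w) + ((n : ℚ) ^ 3 * (90 * n ^ 2 + 15 * n * (n - 2) -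
        6 * n * HL δ - (n - 2) * HL δ / 2) + g)) := by
    intro w
    filter_upwards [hg (w - cst (3 * n)), eventually_gt_atTop (|HL w| + |t|)] with m h1 h2
    have h3 := h.euler Fam.fam_FG Fam.fam_spans (hasRR_fam D) (-(w + cst m))
    have h4 : hh n D.S.fam.hull (-(w + cst m)) = 0 := by
      refine Finset.sum_eq_zero fun c _ => ?_
      rw [ht, finrank_bot]
      rw [map_add, map_neg, map_add, HL_lamv, HL_cst]
      have := abs_le.1 (le_refl |HL w|)
      have := abs_le.1 (le_refl |t|)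
      omega
    rw [h4, neg_neg, add_sub_right_comm, h1,
      RR_congr n _ _ (γ' := 0) (fun w => by rw [II_fam_cl]; simp [II])] at h3
    have z : ∀ x, II 0 x = 0 := fun x => by simp [II]
    simp only [RR, P0, sub_eq_add_neg w, II_add_left, II_add_right, II_neg_left, II_neg_right,
      map_add, map_neg, II_cst, II_comm w (cst _), II_comm δ (cst _), HL_cst, z, map_zero,
      finrank_self] at h3
    push_cast at h3
    linarith
  obtain ⟨SA, hA⟩ := D.exists_sysA
  set ρ := finrank (KK k) (Res h (KK k))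
  have hj : Tendsto (fun j : ℤ => (n : ℤ) * j) atTop atTop := tendsto_id.const_mul_atTop' hn
  have hc : ∀ x : ℚ, ∑ _c : Fin 5 → Fin n, x = (n : ℚ) ^ 5 * x := fun x => by simp
  have hF := fun c : Fin 5 → Fin n => resFam_FG h hA (Fam.fam_FG (S := D.S)) (lamv fun j => (c j : ℤ))
  have hS := fun c : Fin 5 → Fin n =>
    resFam_spans h hA (Fam.fam_spans (S := D.S)) (lamv fun j => (c j : ℤ))
  have e1 : ∀ᶠ j : ℤ in atTop, (∑ c : Fin 5 → Fin n,
      finrank k ((resFam h SA hA D.S.fam (lamv fun j => (c j : ℤ))).U j) : ℚ) =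
        P0 n (cst (n * j)) := by
    filter_upwards [hj.eventually (D.hh_fam 0)] with j h1
    rw [zero_add, ← DP.hh_eq_sum_neg] at h1
    rw [← h1, Nat.cast_sum]
    refine Finset.sum_congr rfl fun c _ => congrArg _ ?_
    exact LinearEquiv.finrank_map_eq _ _
  have i2 : (ρ : ℚ) ≤ 20 := by
    choose C hC using fun c => growth_A hA (hF c) (hS c)
    have : 0 ≤ (n : ℚ) ^ 5 * (10 - ρ / 2) := by
      refine a3_quad (b := -5 * (n - 2) * n ^ 4 - n ^ 5 * ρ * 3 / 2 - ∑ c : Fin 5 → Fin n,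
        ((resFam h SA hA D.S.fam (lamv fun j => (c j : ℤ))).cl : ℚ))
        (c := P0 n 0 - n ^ 5 * ρ + ∑ c, C c) ?_
      filter_upwards [e1, eventually_all.2 hC] with j h1 h2
      have h3 := Finset.sum_le_sum fun c (_ : c ∈ Finset.univ) => (abs_le.1 (h2 c)).1
      simp only [Finset.sum_add_distrib, Finset.sum_sub_distrib, Finset.sum_neg_distrib,
        ← Finset.sum_mul, hc, h1] at h3
      simp only [P0, II_cst, HL_cst, map_zero, ← cst_zero] at h3 ⊢
      push_cast at h3 ⊢
      linarith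
    have := (mul_nonneg_iff_of_pos_left (by positivity)).1 this
    linarith
  have i3 : 0 ≤ (n : ℚ) ^ 4 * (10 * (7 * n - 2) - 2 * HL δ) := by
    choose C hC using fun c => dual_growth hA (hF c) (hS c)
    refine a3_lin (b := 40 * n ^ 5 + ∑ c, C c - 2 * P0 n 0 + n ^ 3 * (n - 2) * HL δ / 2 - g) ?_
    filter_upwards [e1, eventually_all.2 hC, hj.eventually (hg 0), eventually_ge_atTop 0]
      with j h1 h2 h4 h5
    have h3 := Finset.sum_le_sum fun c (_ : c ∈ Finset.univ) => h2 c
    have h6 : (0 : ℚ) ≤ j := by exact_mod_cast h5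
    have h7 : (n : ℚ) ^ 5 * (ρ * ((j : ℚ) + 1) * (j + 2)) ≤ n ^ 5 * (20 * (j + 1) * (j + 2)) := by
      gcongr
    rw [zero_add] at h4
    have h8 : (∑ c : Fin 5 → Fin n,
        finrank k ((resFam h SA hA D.S.fam (lamv fun j => (c j : ℤ))).dual.U j) : ℚ) =
          RR n 1 δ g (cst (n * j)) := by
      rw [← h4, hh, Nat.cast_sum]
      refine Finset.sum_congr rfl fun c _ => ?_
      rw [← finrank_dag_eq_dual, add_comm]
    simp only [Finset.sum_add_distrib, hc, h1, h8] at h3
    simp only [RR, P0, II_cst, HL_cst, map_zero, ← cst_zero, II_comm δ (cst _)] at h3 ⊢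
    push_cast at h3 ⊢
    linarith
  have i4 := (mul_nonneg_iff_of_pos_left (by positivity)).1 (a3_lin (i1 0))
  have i5 := (mul_nonneg_iff_of_pos_left (by positivity)).1 i3
  have i6 : 2 * (HL δ : ℚ) - 10 * (7 * n - 2) = 0 := by linarith
  have i7 : 0 ≤ (n : ℚ) ^ 3 * (42 * n - 12 - HA δ) := by
    refine a3_lin (b := (n : ℚ) ^ 3 * (90 * n ^ 2 + 15 * n * (n - 2) -
        6 * n * HL δ - (n - 2) * HL δ / 2) + g) (Eventually.of_forall fun j => ?_)
    obtain ⟨m, hm⟩ := (i1 ((-j) • ![1, 1, 1, 1, 1, 1, 0, 0, 0, 0])).exists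
    have e : HL ![1, 1, 1, 1, 1, 1, 0, 0, 0, 0] = 6 := by rw [HL_eq]; rfl
    rw [i6, II_smul_right, II_comm, ← HA_eq_II, map_zsmul, e, smul_eq_mul] at hm
    push_cast at hm
    linarith
  have i8 := (mul_nonneg_iff_of_pos_left (by positivity)).1 i7
  have i9 : (HA δ : ℚ) ≤ 42 * n - 12 := by linarith
  exact_mod_cast i9

end Vale.Agent.P190
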