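import Vale.Agent.P190.Cart1
import Vale.Agent.P190.Fr

/-! P190, part Cart2: instability of the Frobenius pull-back is bounded. -/

namespace Vale.Agent.P190

open Module

namespace Cart2

variable {k K Γ : Type} [Field k] [Field K] [Algebra k K] [AddCommGroup Γ] {S : Sys k K Γ}
  {H : Γ →+ ℤ}

theorem minGe_of_le {V : Type} [AddCommGroup V] [Module K V] [Module k V] [IsScalarTower k K V]
    [FiniteDimensional K V] (hH : ∀ a, S.Eff a → 0 ≤ H a) {A B : Fam S V} (hA : A.FG)
    (hs : A.Spans) (hB : B.FG) (h : A ≤ B) {σ : ℚ} (hm : A.MinGe H σ) : B.MinGe H σ := by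
  intro X
  have h1 := Fam.H_cl_map hH hA hs X.mkQ X.mkQ_surjective
  have h2 := Fam.H_cl_map hH hB (hs.mono h) X.mkQ X.mkQ_surjective
  have h3 := Fam.cl_mono hH (hA.map X.mkQ) (hs.map _ X.mkQ_surjective) (hB.map X.mkQ)
    fun P a v hv => Fam.locMem_of_mem P (Submodule.map_mono (h a) hv)
  rw [Submodule.ker_mkQ] at h1 h2
  have h4 : H A.cl - A.sdeg H X ≤ H B.cl - B.sdeg H X := by omega
  refine (hm X).trans ?_
  exact_mod_cast h4

variable {ι : Type} [Fintype ι]

theorem step (hH : ∀ a, S.Eff a → 0 ≤ H a) {U : Fam S (ι → K)} (hU : U.FG) (hs : U.Spans)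
    (d : Derivation k K K) (w : Γ) (hw : 0 ≤ H w)
    (hd : ∀ a v, v ∈ U.U a → (fun i => d (v i)) ∈ U.U (a + w)) (X : Submodule K (ι → K)) {τ : ℚ}
    (hX : (U.comap X.subtype).MinGe H τ) :
    (U.comap (X ⊔ Submodule.span K ((fun (v : ι → K) i => d (v i)) '' X)).subtype).MinGe H
      (τ - H w) := by
  set T := X ⊔ Submodule.span K ((fun (v : ι → K) i => d (v i)) '' X) with hT
  have hle : X ≤ T := le_sup_left
  have hm : ∀ v : X, (fun i => d (v.1 i)) ∈ T := fun v =>
    Submodule.mem_sup_right (Submodule.subset_span ⟨v, v.2, rfl⟩)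
  set X' := LinearMap.range (Submodule.inclusion hle) with hX'
  have hU1 := hU.comap _ X.injective_subtype
  have hs1 := hs.comap X.subtype
  have hU2 := hU.comap _ T.injective_subtype
  have hs2 := hs.comap T.subtype
  let f : X →ₗ[K] T ⧸ X' :=
    { toFun := fun v => X'.mkQ ⟨_, hm v⟩
      map_add' := fun u v => by
        rw [← map_add]; congr 1; ext i; simp
      map_smul' := fun c v => by
        rw [RingHom.id_apply, ← map_smul, Submodule.mkQ_apply, Submodule.mkQ_apply,
          Submodule.Quotient.eq]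
        refine ⟨d c • v, ?_⟩
        ext i
        simp [mul_comm] }
  have hf : Function.Surjective f := by
    intro q
    obtain ⟨⟨t, ht⟩, rfl⟩ := X'.mkQ_surjective q
    obtain ⟨x, hx, y, hy, rfl⟩ := Submodule.mem_sup.1 ht
    have key : ∀ y (hy : y ∈ Submodule.span K ((fun (v : ι → K) i => d (v i)) '' X)),
        X'.mkQ ⟨y, Submodule.mem_sup_right hy⟩ ∈ LinearMap.range f := by
      intro y hy
      induction hy using Submodule.span_induction with
      | mem z hz =>
        obtain ⟨v, hv, rfl⟩ := hz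
        exact ⟨⟨v, hv⟩, rfl⟩
      | zero => exact ⟨0, (map_zero f).trans (map_zero X'.mkQ).symm⟩
      | add a b ha hb h1 h2 =>
        have := Submodule.add_mem _ h1 h2
        rwa [← map_add] at this
      | smul c a ha h1 =>
        have := Submodule.smul_mem _ c h1
        rwa [← map_smul] at this
    obtain ⟨v, hv⟩ := key y hy
    refine ⟨v, hv.trans ?_⟩
    rw [Submodule.mkQ_apply, Submodule.mkQ_apply, eq_comm, Submodule.Quotient.eq]
    exact ⟨⟨x, hx⟩, Subtype.ext (by simp)⟩
  refine Fam.MinGe.of_exact hH hU2 hs2 (Submodule.inclusion hle) X'.mkQ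
    (Submodule.inclusion_injective hle) X'.mkQ_surjective
    (LinearMap.exact_iff.2 (Submodule.ker_mkQ _)) ?_ ?_
  · have : (0 : ℚ) ≤ H w := by exact_mod_cast hw
    exact hX.mono (by linarith)
  · have h1 := (hX.map hH hU1 hs1 f hf).shift hH (hU1.map f) (hs1.map f hf) (-w)
    rw [map_neg, Int.cast_neg, ← sub_eq_add_neg] at h1
    refine minGe_of_le hH ((hU1.map f).shift _) ((hs1.map f hf).shift _) (hU2.map _) ?_ h1
    rintro a _ ⟨v, hv, rfl⟩
    refine ⟨⟨_, hm v⟩, ?_, rfl⟩
    have := hd _ _ hv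
    rwa [neg_add_cancel_right] at this

theorem chain {J : Type} (hH : ∀ a, S.Eff a → 0 ≤ H a) {U : Fam S (ι → K)} (hU : U.FG)
    (hs : U.Spans) (d : J → Derivation k K K) (w : Γ) (hw : 0 ≤ H w)
    (hd : ∀ j a v, v ∈ U.U a → (fun i => d j (v i)) ∈ U.U (a + w)) (m : ℕ) :
    ∀ (X : Submodule K (ι → K)) (τ : ℚ), Fintype.card ι ≤ finrank K X + m →
      (U.comap X.subtype).MinGe H τ → ∃ Y, X ≤ Y ∧ (∀ j, ∀ v ∈ Y, (fun i => d j (v i)) ∈ Y) ∧
        (U.comap Y.subtype).MinGe H (τ - m * H w) := by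
  have hw' : (0 : ℚ) ≤ H w := by exact_mod_cast hw
  induction m with
  | zero =>
    intro X τ h1 h2
    have : X = ⊤ := Submodule.eq_top_of_finrank_eq (le_antisymm X.finrank_le (by simpa using h1))
    exact ⟨X, le_rfl, fun j v _ => by rw [this]; trivial, by simpa using h2⟩
  | succ m ih =>
    intro X τ h1 h2
    by_cases h : ∀ j, ∀ v ∈ X, (fun i => d j (v i)) ∈ X
    · exact ⟨X, le_rfl, h, h2.mono (by
        have : (0 : ℚ) ≤ ((m + 1 : ℕ) : ℚ) * H w := by positivity
        linarith)⟩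
    push Not at h
    obtain ⟨j, v, hv, hn⟩ := h
    have h3 := step hH hU hs (d j) w hw (hd j) X h2
    have h4 : X < X ⊔ Submodule.span K ((fun (v : ι → K) i => d j (v i)) '' X) :=
      lt_of_le_of_ne le_sup_left fun e => hn (by
        rw [e]; exact Submodule.mem_sup_right (Submodule.subset_span ⟨v, hv, rfl⟩))
    have h5 := Submodule.finrank_lt_finrank_of_lt h4
    obtain ⟨Y, a1, a2, a3⟩ := ih _ _ (by omega) h3
    refine ⟨Y, h4.le.trans a1, a2, ?_⟩
    convert a3 using 1
    push_cast; ring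

end Cart2

variable {k : Type} [Field k] {n : ℕ}

theorem DP.frob_maxLe (D : DP k n) [IsAlgClosed k] (p : ℕ) [Fact p.Prime] [CharP k p] {r : ℕ}
    {U : Fam D.S (Fin r → KK k)} (hU : U.FG) (hs : U.Spans) {σ : ℚ} (hm : U.MaxLe HA σ) :
    (U.frob p).MaxLe HA (p * σ + 6 * n * r) := by
  have : CharP (KK k) p := charP_of_injective_algebraMap (algebraMap k (KK k)).injective p
  have hH := D.eff_HA
  have hU' := Fam.frob_FG p hU
  have hs' := Fam.frob_spans p hs
  rcases Nat.eq_zero_or_pos r with h0 | h0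
  · subst h0
    intro X
    rw [Subsingleton.elim X ⊥, Fam.sdeg_bot hH]
    simp
  obtain ⟨d, hd1, hd2⟩ := exists_der k
  obtain ⟨X, hX, hmax⟩ := Fam.exists_max_slope hH hU' hs' (by simpa using h0)
  have hX' : (0 : ℚ) < finrank (KK k) X := by exact_mod_cast hX
  have h1 := hmax.minGe_comap hH hU' hs' X (div_mul_cancel₀ _ hX'.ne').le
  have hd : ∀ j a v, v ∈ (U.frob p).U a → (fun i => d j (v i)) ∈ (U.frob p).U (a + bsh n) := by
    intro j a v hv
    induction hv using Submodule.span_induction with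
    | mem x hx =>
      obtain ⟨_, ⟨b, u, hu, rfl⟩, φ, hφ, rfl⟩ := hx
      refine Submodule.subset_span ⟨_, ⟨b, u, hu, rfl⟩, d j φ, ?_, ?_⟩
      · rw [D.hB] at hφ ⊢
        rw [add_sub_right_comm]
        exact hd1 j n _ φ hφ
      · funext i
        simp [Derivation.leibniz_pow, mul_comm]
    | zero =>
      have : (fun i => d j ((0 : Fin r → KK k) i)) = 0 := by funext i; simp
      rw [this]; exact Submodule.zero_mem _
    | add x y _ _ hx hy =>
      have : (fun i => d j ((x + y) i)) = (fun i => d j (x i)) + fun i => d j (y i) := by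
        funext i; simp
      rw [this]; exact Submodule.add_mem _ hx hy
    | smul c x _ hx =>
      have : (fun i => d j ((c • x) i)) = c • fun i => d j (x i) := by
        funext i; simp
      rw [this]; exact Submodule.smul_mem _ _ hx
  obtain ⟨Y, a1, a2, a3⟩ := Cart2.chain hH hU' hs' d (bsh n)
    (by rw [HA_bsh]; positivity) hd r X _ (by simp) h1
  obtain ⟨X', hX'⟩ := descent p d (hd2 p) Y a2
  have b1 := a3 ⊥
  rw [Fam.sdeg_bot hH, finrank_bot, HA_bsh] at b1
  change _ ≤ ((U.frob p).sdeg HA Y : ℚ) - _ at b1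
  have b2 : finrank (KK k) Y = finrank (KK k) X' := by rw [hX', Fam.finrank_frob_span]
  have b3 : (U.frob p).sdeg HA Y = p * U.sdeg HA X' := by rw [hX', Fam.sdeg_frob p hH hU hs]
  have b4 := hm X'
  have b5 : (0 : ℚ) < finrank (KK k) X' := by
    rw [← b2]; exact_mod_cast hX.trans_le (Submodule.finrank_mono a1)
  rw [b2, b3] at b1
  push_cast at b1
  refine hmax.mono (le_of_mul_le_mul_right ?_ b5)
  have b6 : (p : ℚ) * (U.sdeg HA X' : ℚ) ≤ p * (σ * finrank (KK k) X') :=
    mul_le_mul_of_nonneg_left b4 (Nat.cast_nonneg p)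
  linarith

end Vale.Agent.P190
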