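import Vale.Agent.P190.D1a

/-! P190, part D1b: the Cox ring theorem and the del Pezzo system. -/

namespace Vale.Agent.P190

open AddMonoidAlgebra

variable {k : Type} [Field k]

theorem supp_div_one (G : AddMonoidAlgebra k ℤ) {lo hi : ℤ}
    (h : ∀ y ∈ ((1 - single 1 1) * G).coeff.support, lo ≤ y ∧ y ≤ hi) :
    ∀ β ∈ G.coeff.support, lo ≤ β ∧ β + 1 ≤ hi := by
  intro β hβ
  have hne : G.coeff.support.Nonempty := ⟨β, hβ⟩
  have hc : ∀ y, ((1 - single 1 1) * G : AddMonoidAlgebra k ℤ).coeff (1 + y) =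
      G.coeff (1 + y) - G.coeff y := by
    intro y
    rw [sub_mul, one_mul, coeff_sub, Finsupp.sub_apply, coeff_single_mul_add, one_mul]
  constructor
  · have h1 := hc (G.coeff.support.min' hne - 1)
    have h2 : G.coeff (G.coeff.support.min' hne - 1) = 0 := by
      by_contra h3
      have := G.coeff.support.min'_le _ (Finsupp.mem_support_iff.2 h3)
      omega
    rw [h2, sub_zero, add_sub_cancel] at h1
    have h4 := (h _ (Finsupp.mem_support_iff.2 (by
      rw [h1]; exact Finsupp.mem_support_iff.1 (G.coeff.support.min'_mem hne)))).1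
    exact h4.trans (G.coeff.support.min'_le _ hβ)
  · have h1 := hc (G.coeff.support.max' hne)
    have h2 : G.coeff (1 + G.coeff.support.max' hne) = 0 := by
      by_contra h3
      have := G.coeff.support.le_max' _ (Finsupp.mem_support_iff.2 h3)
      omega
    rw [h2, zero_sub] at h1
    have h4 := (h _ (Finsupp.mem_support_iff.2 (by
      rw [h1, neg_ne_zero]; exact Finsupp.mem_support_iff.1 (G.coeff.support.max'_mem hne)))).2
    have := G.coeff.support.le_max' _ hβ
    omega

theorem supp_div_pow (m : ℕ) (G : AddMonoidAlgebra k ℤ) {lo hi : ℤ}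
    (h : ∀ y ∈ ((1 - single 1 1) ^ m * G).coeff.support, lo ≤ y ∧ y ≤ hi) :
    ∀ β ∈ G.coeff.support, lo ≤ β ∧ β + m ≤ hi := by
  induction m generalizing G with
  | zero => simpa using h
  | succ m ih =>
    rw [pow_succ, mul_assoc] at h
    intro β hβ
    have := supp_div_one G (lo := lo) (hi := hi - m)
      (fun y hy => ⟨(ih _ h y hy).1, by linarith [(ih _ h y hy).2]⟩) β hβ
    push_cast
    exact ⟨this.1, by linarith [this.2]⟩

theorem single_zsmul_sub_mem (u : ℤ × ℤ) (x : ℤ) :
    (single (x • u) 1 - 1 : LL k) ∈ Ideal.span {(1 - single u 1 : LL k)} := by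
  have h0 : (1 - single u 1 : LL k) ∈ Ideal.span {(1 - single u 1 : LL k)} :=
    Ideal.subset_span rfl
  induction x using Int.induction_on with
  | zero => simp [one_def]
  | succ x ih =>
    have : (single (((x : ℤ) + 1) • u) 1 - 1 : LL k) =
        single u 1 * (single ((x : ℤ) • u) 1 - 1) - (1 - single u 1) := by
      rw [mul_sub, single_mul_single, add_smul, one_smul, add_comm, mul_one, mul_one]; ring
    rw [this]
    exact Ideal.sub_mem _ (Ideal.mul_mem_left _ _ ih) h0
  | pred x ih =>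
    have : (single ((-(x : ℤ) - 1) • u) 1 - 1 : LL k) =
        single (-u) 1 * (single ((-(x : ℤ)) • u) 1 - 1) + single (-u) 1 * (1 - single u 1) := by
      rw [mul_sub, mul_sub, single_mul_single, single_mul_single, sub_smul, one_smul, mul_one,
        mul_one, neg_add_cancel, ← one_def, sub_eq_neg_add (-(x : ℤ) • u)]
      ring
    rw [this]
    exact Ideal.add_mem _ (Ideal.mul_mem_left _ _ ih) (Ideal.mul_mem_left _ _ h0)

theorem exists_div_lin (u : ℤ × ℤ) (p : ℤ × ℤ →+ ℤ) (j : ℤ → ℤ × ℤ) (q : ℤ × ℤ → ℤ)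
    (hq : ∀ m, m = j (p m) + q m • u) (F : LL k) (h : mapDomainAlgHom k k p F = 0) :
    ∃ F' : LL k, F = (1 - single u 1) * F' := by
  have key : ∀ F : LL k, F - mapDomain j (mapDomain p F) ∈
      Ideal.span {(1 - single u 1 : LL k)} := by
    intro F
    induction F using induction_linear with
    | zero => simp
    | add x y hx hy =>
      rw [mapDomain_add, mapDomain_add, add_sub_add_comm]
      exact Ideal.add_mem _ hx hy
    | single m c =>
      have : (single m c - single (j (p m)) c : LL k) =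
          single (j (p m)) c * (single (q m • u) 1 - 1) := by
        rw [mul_sub, single_mul_single, ← hq, mul_one, mul_one]
      rw [mapDomain_single, mapDomain_single, this]
      exact Ideal.mul_mem_left _ _ (single_zsmul_sub_mem u _)
  have h1 := key F
  rw [mapDomainAlgHom_apply] at h
  rw [h, mapDomain_zero, sub_zero, Ideal.mem_span_singleton] at h1
  exact h1

theorem exists_pow_mul (p : ℤ × ℤ →+ ℤ) (hp : ∀ u ∈ ({(1, 0), (0, 1)} : Set (ℤ × ℤ)),
    p u = 0 ∨ p u = 1) {m : ℕ} {F : LL k} (hF : F ∈ mOne k ^ m) :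
    ∃ G, mapDomainAlgHom k k p F = (1 - single 1 1) ^ m * G := by
  have h1 : (mOne k).map (mapDomainAlgHom k k p) ≤
      Ideal.span {(1 - single 1 1 : AddMonoidAlgebra k ℤ)} := by
    have h0 : ∀ u ∈ ({(1, 0), (0, 1)} : Set (ℤ × ℤ)), mapDomainAlgHom k k p (single u 1 - 1) ∈
        Ideal.span {(1 - single 1 1 : AddMonoidAlgebra k ℤ)} := by
      intro u hu
      rw [map_sub, map_one, mapDomainAlgHom_apply, mapDomain_single]
      rcases hp u hu with e | e <;> rw [e]
      · rw [← one_def, sub_self]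
        exact Ideal.zero_mem _
      · exact Ideal.mem_span_singleton.2 ⟨-1, by ring⟩
    rw [mOne, Ideal.map_span, Ideal.span_le]
    rintro _ ⟨_, rfl | rfl, rfl⟩
    · exact h0 _ (by simp)
    · exact h0 _ (by simp)
  have h2 := Ideal.mem_map_of_mem (mapDomainAlgHom k k p) hF
  rw [Ideal.map_pow] at h2
  have h3 := Ideal.pow_right_mono h1 m h2
  rw [Ideal.span_singleton_pow, Ideal.mem_span_singleton] at h3
  exact h3

theorem mem_supp_mapDomain (p : ℤ × ℤ →+ ℤ) (F : LL k) {y : ℤ}
    (hy : y ∈ (mapDomainAlgHom k k p F).coeff.support) : ∃ m ∈ F.coeff.support, p m = y := by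
  have := Finsupp.mapDomain_support (f := p) (s := F.coeff) hy
  simpa using this

namespace Vals

variable (W : Vals k)

/-- admissible functions -/
def Adm (n : ℕ) (a : ZZ) (φ : KK k) : Prop :=
  φ = 0 ∨ ((∀ P, P ∉ Set.range W.sp → 0 ≤ W.v P φ) ∧ ∀ i, 0 ≤ n * W.v (W.sp i) φ + a i)

theorem v_one (P : W.Pl) : W.v P 1 = 0 := by simpa using W.v_const P 1 one_ne_zero

variable {W}

theorem Adm.add {n : ℕ} {a : ZZ} {φ ψ : KK k} (h : W.Adm n a φ) (h' : W.Adm n a ψ) :
    W.Adm n a (φ + ψ) := by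
  by_cases h1 : φ = 0
  · simpa [h1] using h'
  by_cases h2 : ψ = 0
  · simpa [h2] using h
  by_cases h3 : φ + ψ = 0
  · exact Or.inl h3
  obtain ⟨a1, a2⟩ := h.resolve_left h1
  obtain ⟨b1, b2⟩ := h'.resolve_left h2
  refine Or.inr ⟨fun P hP => (le_min (a1 P hP) (b1 P hP)).trans (W.v_add P φ ψ h1 h2 h3),
    fun i => ?_⟩
  have hn : (0 : ℤ) ≤ n := Int.natCast_nonneg n
  rcases min_le_iff.1 (W.v_add (W.sp i) φ ψ h1 h2 h3) with e | e
  · nlinarith [a2 i]
  · nlinarith [b2 i]

theorem Adm.smul {n : ℕ} {a : ZZ} {φ : KK k} (h : W.Adm n a φ) (c : k) : W.Adm n a (c • φ) := by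
  by_cases h1 : φ = 0
  · exact Or.inl (by simp [h1])
  by_cases h2 : c = 0
  · exact Or.inl (by simp [h2])
  have h3 : ∀ P, W.v P (c • φ) = W.v P φ := fun P => by
    rw [Algebra.smul_def, W.v_mul P _ _ (by simpa using h2) h1, W.v_const P c h2, zero_add]
  refine Or.inr ?_
  simp only [h3]
  exact h.resolve_left h1

theorem adm_of_mem {n : ℕ} {a : ZZ} {φ : KK k} (h : φ ∈ BB k n a) : W.Adm n a φ := by
  induction h using Submodule.span_induction with
  | mem x hx =>
    obtain ⟨c, hc, rfl⟩ := hx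
    exact Or.inr ⟨fun P hP => (W.v_umon_ns P hP c).ge, fun i => by
      rw [W.v_umon_sp, add_comm]; exact hc i⟩
  | zero => exact Or.inl rfl
  | add x y _ _ hx hy => exact hx.add hy
  | smul c x _ hx => exact hx.smul c

theorem Adm.unit {a : ZZ} {φ : KK k} (h : W.Adm 1 a φ) (c : Fin 5 → ℤ) :
    W.Adm 1 (a + ((1 : ℕ) : ℤ) • lamv c) (umon k (-c) * φ) := by
  by_cases h1 : φ = 0
  · exact Or.inl (by simp [h1])
  obtain ⟨a1, a2⟩ := h.resolve_left h1
  refine Or.inr ⟨fun P hP => ?_, fun i => ?_⟩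
  · rw [W.v_mul P _ _ (umon_ne_zero _) h1, W.v_umon_ns P hP, zero_add]
    exact a1 P hP
  · rw [W.v_mul _ _ _ (umon_ne_zero _) h1, W.v_umon_sp, lamv_neg]
    have := a2 i
    simp only [Nat.cast_one, one_mul, one_smul, Pi.add_apply, Pi.neg_apply] at this ⊢
    linarith

theorem not_hex {i : Fin 10} (hi : 6 ≤ i.val) (g : Fin 6) :
    W.sp i ≠ W.sp (g.castLE (by norm_num)) := by
  intro e
  have := congrArg Fin.val (W.sp_inj e)
  simp only [Fin.val_castLE] at this
  omega

theorem Adm.laurent {a : ZZ} {φ : KK k} (h : W.Adm 1 a φ) (h1 : φ ≠ 0) (h6 : a 6 = 0)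
    (h7 : a 7 = 0) (h8 : a 8 = 0) : ∃ F : LL k, F ≠ 0 ∧ lev k F = φ ∧
      (∀ m ∈ F.coeff.support, 0 ≤ m.1 + a 0 ∧ 0 ≤ m.1 + m.2 + a 1 ∧ 0 ≤ m.2 + a 2 ∧
        0 ≤ -m.1 + a 3 ∧ 0 ≤ -m.1 - m.2 + a 4 ∧ 0 ≤ -m.2 + a 5) ∧
      ∀ j : ℕ, a 9 = -j → F ∈ mOne k ^ j := by
  obtain ⟨a1, a2⟩ := h.resolve_left h1
  simp only [Nat.cast_one, one_mul] at a2
  obtain ⟨F, rfl⟩ := W.laurent φ h1 (by
    intro P hP h9
    by_cases hs : P ∈ Set.range W.sp
    · obtain ⟨i, rfl⟩ := hs
      have := a2 i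
      fin_cases i
      · exact absurd rfl (hP 0)
      · exact absurd rfl (hP 1)
      · exact absurd rfl (hP 2)
      · exact absurd rfl (hP 3)
      · exact absurd rfl (hP 4)
      · exact absurd rfl (hP 5)
      · simpa [h6] using this
      · simpa [h7] using this
      · simpa [h8] using this
      · exact absurd rfl h9
    · exact a1 P hs)
  have hF : F ≠ 0 := by rintro rfl; exact h1 (by simp [lev])
  refine ⟨F, hF, rfl, fun m hm => ?_, fun j hj => (W.v_pt F hF j).1 (by linarith [a2 9])⟩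
  have key := fun g : Fin 6 => (W.v_hex F hF g (-a (g.castLE (by norm_num)))).1
    (by linarith [a2 (g.castLE (by norm_num))]) m hm
  have k0 := key 0
  have k1 := key 1
  have k2 := key 2
  have k3 := key 3
  have k4 := key 4
  have k5 := key 5
  change -a 0 ≤ 1 * m.1 + 0 * m.2 at k0
  change -a 1 ≤ 1 * m.1 + 1 * m.2 at k1
  change -a 2 ≤ 0 * m.1 + 1 * m.2 at k2
  change -a 3 ≤ -1 * m.1 + 0 * m.2 at k3
  change -a 4 ≤ -1 * m.1 + -1 * m.2 at k4
  change -a 5 ≤ 0 * m.1 + -1 * m.2 at k5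
  refine ⟨?_, ?_, ?_, ?_, ?_, ?_⟩ <;> linarith

theorem Adm.lower {a : ZZ} {φ : KK k} (h : W.Adm 1 a φ) {i : Fin 10} (hi : 6 ≤ i.val)
    (ha : a i = 0) (c : Fin 5 → ℤ) (hc : lamv c i = 1) (F : LL k) (hφ : φ = umon k c * lev k F) :
    W.Adm 1 (a - Pi.single i 1) φ := by
  by_cases h1 : φ = 0
  · exact Or.inl h1
  obtain ⟨a1, a2⟩ := h.resolve_left h1
  refine Or.inr ⟨a1, fun j => ?_⟩
  by_cases hj : j = i
  · subst hj
    have h2 : lev k F ≠ 0 := by rintro e; exact h1 (by rw [hφ, e, mul_zero])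
    have hF : F ≠ 0 := by rintro rfl; exact h2 (by simp [lev])
    have h3 := W.v_lev F hF (W.sp j) (not_hex hi)
    rw [hφ, W.v_mul _ _ _ (umon_ne_zero c) h2, W.v_umon_sp, hc]
    simp only [Nat.cast_one, one_mul, Pi.sub_apply, Pi.single_eq_same, ha]
    linarith
  · simpa [hj] using a2 j

theorem cox_aux (m : ℕ) (a : ZZ) (φ : KK k) (hm : a 6 + a 7 + a 8 - a 9 ≤ m)
    (h : W.Adm 1 a φ) : φ ∈ BB k 1 a := by
  obtain ⟨f, hf, -⟩ := exists_levHom (k := k)
  have hs : ∀ (u : ℤ × ℤ) (c : k), f (single u c) = c • smon k u := fun u c => by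
    rw [hf, lev_single]
  have norm : ∀ m : ℕ, (∀ (a : ZZ) (φ : KK k), a 6 = 0 → a 7 = 0 → a 8 = 0 → -a 9 ≤ m →
      W.Adm 1 a φ → φ ∈ BB k 1 a) → ∀ (a : ZZ) (φ : KK k), a 6 + a 7 + a 8 - a 9 ≤ m →
      W.Adm 1 a φ → φ ∈ BB k 1 a := by
    intro m H a φ hm h
    rw [mem_BB_iff_unit a ![0, 0, -a 6, -a 7, -a 8]]
    refine H _ _ ?_ ?_ ?_ ?_ (h.unit _)
    · simp [lamv_at6]
    · simp [lamv_at7]
    · simp [lamv_at8]
    · simp [lamv_at9]; linarith
  induction m generalizing a φ with
  | zero =>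
    refine norm 0 (fun a φ h6 h7 h8 h9 h => ?_) a φ hm h
    by_cases h1 : φ = 0
    · simp [h1]
    obtain ⟨F, -, rfl, h2, -⟩ := h.laurent h1 h6 h7 h8
    refine Submodule.sum_mem _ fun u hu => Submodule.smul_mem _ _ ?_
    rw [smon_eq]
    obtain ⟨b0, b1, b2, b3, b4, b5⟩ := h2 u hu
    refine umon_mem_BB fun i => ?_
    rw [lamv_eq]
    simp only [Nat.cast_zero] at h9
    fin_cases i <;> simp <;> linarith
  | succ m ih =>
    refine norm (m + 1) (fun a φ h6 h7 h8 h9 h => ?_) a φ hm h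
    by_cases h10 : -a 9 ≤ m
    · exact ih a φ (by linarith) h
    have h11 : a 9 = -((m + 1 : ℕ) : ℤ) := by push_cast at h9 ⊢; omega
    by_cases h1 : φ = 0
    · simp [h1]
    obtain ⟨F, hF, rfl, h2, h3⟩ := h.laurent h1 h6 h7 h8
    have h4 := h3 _ h11
    have low : ∀ (i : Fin 10) (ψ : KK k), (i = 6 ∨ i = 7) → W.Adm 1 (a - Pi.single i 1) ψ →
        ψ ∈ BB k 1 a := by
      intro i ψ hi hψ
      refine BB_mono (fun j => ?_) (ih _ ψ ?_ hψ)
      · by_cases hj : j = i
        · subst hj; simp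
        · simp [hj]
      · rcases hi with rfl | rfl <;> simp [h6, h7, h8, h11]
    by_cases hw : a 0 + a 3 < (m + 1 : ℕ)
    · obtain ⟨G, hG⟩ := exists_pow_mul (AddMonoidHom.fst ℤ ℤ) (by simp) h4
      have h5 := supp_div_pow (m + 1) G (lo := -a 0) (hi := a 3) (by
        intro y hy
        rw [← hG] at hy
        obtain ⟨u, hu, rfl⟩ := mem_supp_mapDomain _ F hy
        obtain ⟨b0, -, -, b3, -⟩ := h2 u hu
        simp only [AddMonoidHom.coe_fst]
        constructor <;> linarith)
      have h6' : G = 0 := by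
        by_contra h7'
        obtain ⟨β, hβ⟩ := Finsupp.support_nonempty_iff.2 (fun e => h7' (coeff_injective e))
        have := h5 β hβ
        omega
      rw [h6', mul_zero] at hG
      obtain ⟨F', hF'⟩ := exists_div_lin (0, 1) (AddMonoidHom.fst ℤ ℤ) (fun x => (x, 0))
        (fun u => u.2) (fun u => by simp) F hG
      refine low 7 _ (Or.inr rfl) (h.lower (by decide) h7 ![0, 0, 0, 1, 0] (by simp [lamv_at7]) F' ?_)
      rw [← hf, ← hf, hF', map_mul, map_sub, map_one, hs]
      simp [umon_eq, smon]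
    · obtain ⟨G, hG⟩ := exists_pow_mul (AddMonoidHom.snd ℤ ℤ) (by simp) h4
      have h5 := supp_div_pow (m + 1) G (lo := max (-a 2) (-a 1 - a 3))
        (hi := min (a 5) (a 4 + a 0)) (by
        intro y hy
        rw [← hG] at hy
        obtain ⟨u, hu, rfl⟩ := mem_supp_mapDomain _ F hy
        obtain ⟨b0, b1, b2, b3, b4, b5⟩ := h2 u hu
        simp only [AddMonoidHom.coe_snd, max_le_iff, le_min_iff]
        refine ⟨⟨?_, ?_⟩, ?_, ?_⟩ <;> linarith)
      have h14 : 0 ≤ a 1 + a 4 := by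
        obtain ⟨u, hu⟩ := Finsupp.support_nonempty_iff.2 (fun e => hF (coeff_injective e))
        obtain ⟨-, b1, -, -, b4, -⟩ := h2 u hu
        linarith
      set Ψ : LL k := ∑ β ∈ G.coeff.support, single (max (-a 0) (-a 1 - β - (m + 1 : ℕ)), β)
        (G.coeff β) * (single (1, 0) 1 - single (0, 1) 1) ^ (m + 1) with hΨ
      have e1 : mapDomainAlgHom k k (AddMonoidHom.snd ℤ ℤ) Ψ = (1 - single 1 1) ^ (m + 1) * G := by
        conv_rhs => rw [← sum_coeff_single G, Finsupp.sum, Finset.mul_sum]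
        rw [hΨ, map_sum]
        refine Finset.sum_congr rfl fun β _ => ?_
        simp only [map_mul, map_pow, map_sub, mapDomainAlgHom_apply, mapDomain_single,
          AddMonoidHom.coe_snd, ← one_def]
        ring
      have e2 : lev k Ψ ∈ BB k 1 a := by
        rw [← hf, hΨ, map_sum]
        refine Submodule.sum_mem _ fun β hβ => ?_
        have e3 : smon k (max (-a 0) (-a 1 - β - (m + 1 : ℕ)), β) * (ss k - tt k) ^ (m + 1) =
            umon k ![max (-a 0) (-a 1 - β - (m + 1 : ℕ)), β, 0, 0, (m + 1 : ℕ)] := by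
          rw [umon_eq, ← zpow_natCast]
          simp [smon]
        have e4 : smon k (1, 0) = ss k := by simp [smon]
        have e5 : smon k (0, 1) = tt k := by simp [smon]
        rw [map_mul, map_pow, map_sub, hs, hs, hs, one_smul, one_smul, e4, e5, smul_mul_assoc, e3]
        refine Submodule.smul_mem _ _ (umon_mem_BB fun i => ?_)
        have h15 := h5 β hβ
        rw [lamv_eq]
        generalize ((m + 1 : ℕ) : ℤ) = M at h15 hw h11
        have h16 : 0 ≤ M := by omega
        fin_cases i <;> simp <;> omega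
      obtain ⟨F', hF'⟩ := exists_div_lin (1, 0) (AddMonoidHom.snd ℤ ℤ) (fun y => (0, y))
        (fun u => u.1) (fun u => by simp) (F - Ψ) (by rw [map_sub, hG, e1, sub_self])
      have e6 : W.Adm 1 a (lev k F + (-1 : k) • lev k Ψ) := h.add ((adm_of_mem e2).smul _)
      have e7 := low 6 _ (Or.inl rfl) (e6.lower (by decide) h6 ![0, 0, 1, 0, 0]
        (by simp [lamv_at6]) F' (by
          rw [← hf, ← hf, ← hf, neg_one_smul, ← sub_eq_add_neg, ← map_sub, hF', map_mul, map_sub,
            map_one, hs]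
          simp [umon_eq, smon]))
      have e8 := Submodule.add_mem _ e7 e2
      rwa [neg_one_smul, neg_add_cancel_right] at e8

end Vals

/-- Cox ring theorem -/
theorem Vals.cox (W : Vals k) (a : ZZ) (φ : KK k) (hφ : φ ≠ 0)
    (hns : ∀ P, P ∉ Set.range W.sp → 0 ≤ W.v P φ) (hsp : ∀ i, 0 ≤ W.v (W.sp i) φ + a i) :
    φ ∈ Submodule.span k {ψ | ∃ c : Fin 5 → ℤ, (∀ i, 0 ≤ lamv c i + a i) ∧ ψ = umon k c} := by
  have h := Vals.cox_aux (W := W) (a 6 + a 7 + a 8 - a 9).toNat a φ (Int.self_le_toNat _)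
    (Or.inr ⟨hns, by simpa using hsp⟩)
  refine Submodule.span_mono ?_ h
  rintro _ ⟨c, hc, rfl⟩
  exact ⟨c, fun i => by simpa [add_comm] using hc i, rfl⟩

theorem BB_gens (n : ℕ) : ∃ (N : ℕ) (dg : Fin N → ZZ) (ev : Fin N → KK k),
    (∀ i, ev i ∈ BB k n (dg i)) ∧ ∀ a, BB k n a ≤ Submodule.span k
      {φ | ∃ e : Fin N → ℕ, ∑ i, e i • dg i = a ∧ φ = ∏ i, ev i ^ e i} := by
  let ι := Fin 10 ⊕ Fin 5 ⊕ Fin 5
  let dg : ι → ZZ := Sum.elim (fun i => Pi.single i 1)
    (Sum.elim (fun j => -((n : ℤ) • lamv (Pi.single j 1))) fun j => (n : ℤ) • lamv (Pi.single j 1))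
  let ev : ι → KK k := Sum.elim (fun _ => 1)
    (Sum.elim (fun j => umon k (Pi.single j 1)) fun j => umon k (-Pi.single j 1))
  obtain ⟨σ⟩ : Nonempty (Fin (Fintype.card ι) ≃ ι) := ⟨(Fintype.equivFin ι).symm⟩
  have hu : ∀ j, umon k (Pi.single j 1) = uu k j := fun j => by
    rw [umon, Finset.prod_eq_single j] <;> simp +contextual [Pi.single_apply]
  have hl : ∀ j i, lamv (Pi.single j 1) i = lam j i := fun j i => by
    simp [lamv, Pi.single_apply]
  have hm : ∀ x, ev x ∈ BB k n (dg x) := by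
    rintro (i | j | j)
    · change 1 ∈ BB k n (Pi.single i 1)
      rw [← umon_zero]
      refine umon_mem_BB fun l => ?_
      simp only [lamv_zero, Pi.zero_apply, mul_zero, add_zero, Pi.single_apply]
      split_ifs <;> simp
    · exact umon_mem_BB_neg _
    · exact umon_neg_mem_BB _
  refine ⟨_, fun i => dg (σ i), fun i => ev (σ i), fun i => hm _, fun a => Submodule.span_mono ?_⟩
  · rintro _ ⟨c, hc, rfl⟩
    let e : ι → ℕ := Sum.elim (fun i => (a i + n * lamv c i).toNat)
      (Sum.elim (fun j => (c j).toNat) fun j => (-c j).toNat)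
    refine ⟨fun i => e (σ i), ?_, ?_⟩
    · rw [Equiv.sum_comp σ fun x => e x • dg x]
      funext i
      have h1 : ∀ j, ((c j).toNat : ℤ) = c j + (-c j).toNat := fun j => by omega
      simp only [ι, e, dg, Fintype.sum_sum_type, Sum.elim_inl, Sum.elim_inr, Pi.add_apply,
        Finset.sum_apply, Pi.smul_apply, Pi.neg_apply, hl]
      simp only [nsmul_eq_mul, smul_eq_mul,
        Int.toNat_of_nonneg (hc _), Pi.single_apply, mul_ite, mul_one, mul_zero,
        Finset.sum_ite_eq, Finset.mem_univ, if_true, ← Finset.sum_add_distrib]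
      rw [lamv, Finset.mul_sum, add_assoc, ← Finset.sum_add_distrib, Finset.sum_eq_zero, add_zero]
      intro j _
      rw [h1 j]
      ring
    · rw [Equiv.prod_comp σ fun x => ev x ^ e x]
      simp only [ι, e, ev, Fintype.prod_sum_type, Sum.elim_inl, Sum.elim_inr, one_pow,
        Finset.prod_const_one, one_mul, umon_neg, hu, ← Finset.prod_mul_distrib]
      refine Finset.prod_congr rfl fun j _ => ?_
      rw [inv_pow, ← zpow_natCast, ← zpow_natCast, ← zpow_neg, ← zpow_add₀ (uu_ne_zero j)]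
      congr 1
      omega

open Classical in
/-- the valuation on homogeneous elements -/
noncomputable def Vals.val (W : Vals k) (n : ℕ) (P : W.Pl) (a : ZZ) (φ : KK k) : ℤ :=
  if h : P ∈ Set.range W.sp then n * W.v P φ + a h.choose else W.v P φ

theorem Vals.val_sp (W : Vals k) (n : ℕ) (i : Fin 10) (a : ZZ) (φ : KK k) :
    W.val n (W.sp i) a φ = n * W.v (W.sp i) φ + a i := by
  have h : W.sp i ∈ Set.range W.sp := ⟨i, rfl⟩
  rw [Vals.val, dif_pos h, W.sp_inj h.choose_spec]

theorem Vals.val_ns (W : Vals k) (n : ℕ) {P : W.Pl} (hP : P ∉ Set.range W.sp) (a : ZZ)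
    (φ : KK k) : W.val n P a φ = W.v P φ := by
  rw [Vals.val, dif_neg hP]

theorem Vals.exists_DP (W : Vals k) {n : ℕ} (hn : 0 < n) : Nonempty (DP k n) := by
  have hn' : (0 : ℤ) < n := by exact_mod_cast hn
  let S : Sys k (KK k) ZZ :=
    { B := BB k n
      Pl := W.Pl
      val := W.val n
      val_mul := by
        intro P a b φ ψ h1 h2
        by_cases hP : P ∈ Set.range W.sp
        · obtain ⟨i, rfl⟩ := hP
          simp only [W.val_sp, W.v_mul _ _ _ h1 h2, Pi.add_apply]; ring
        · simp only [W.val_ns n hP, W.v_mul _ _ _ h1 h2]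
      val_add := by
        intro P a φ ψ h1 h2 h3
        have h4 := W.v_add P φ ψ h1 h2 h3
        by_cases hP : P ∈ Set.range W.sp
        · obtain ⟨i, rfl⟩ := hP
          simp only [W.val_sp, min_le_iff] at h4 ⊢
          exact h4.imp (fun e => by nlinarith) fun e => by nlinarith
        · simpa only [W.val_ns n hP] using h4
      val_const := by
        intro P c hc
        by_cases hP : P ∈ Set.range W.sp
        · obtain ⟨i, rfl⟩ := hP
          simp [W.val_sp, W.v_const _ c hc]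
        · simp [W.val_ns n hP, W.v_const _ c hc]
      mem_iff := by
        intro a φ hφ
        constructor
        · intro h P
          obtain ⟨a1, a2⟩ := (Vals.adm_of_mem (W := W) h).resolve_left hφ
          by_cases hP : P ∈ Set.range W.sp
          · obtain ⟨i, rfl⟩ := hP
            rw [W.val_sp]; exact a2 i
          · rw [W.val_ns n hP]; exact a1 P hP
        · intro h
          refine Submodule.span_mono ?_ (W.cox (fun i => a i / n) φ hφ
            (fun P hP => W.val_ns n hP a φ ▸ h P) fun i => ?_)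
          · rintro _ ⟨c, hc, rfl⟩
            refine ⟨c, fun i => ?_, rfl⟩
            have h1 := Int.mul_ediv_self_le (x := a i) hn'.ne'
            nlinarith [hc i]
          · have h1 := h (W.sp i)
            rw [W.val_sp, add_comm] at h1
            have h2 := Int.ediv_nonneg h1 hn'.le
            rwa [Int.add_mul_ediv_left _ _ hn'.ne', add_comm] at h2
      prime := by
        intro P
        by_cases hP : P ∈ Set.range W.sp
        · obtain ⟨i, rfl⟩ := hP
          refine ⟨Pi.single i 1, 1, one_ne_zero, by simp [W.val_sp, W.v_one], fun Q hQ => ?_⟩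
          by_cases hQ' : Q ∈ Set.range W.sp
          · obtain ⟨j, rfl⟩ := hQ'
            have : j ≠ i := fun e => hQ (by rw [e])
            simp [W.val_sp, W.v_one, this]
          · rw [W.val_ns n hQ', W.v_one]
        · obtain ⟨f, h1, h2, h3⟩ := W.prime P hP
          refine ⟨fun i => -(n * W.v (W.sp i) f), f, h1, by rw [W.val_ns n hP, h2], fun Q hQ => ?_⟩
          by_cases hQ' : Q ∈ Set.range W.sp
          · obtain ⟨j, rfl⟩ := hQ'
            simp [W.val_sp]
          · rw [W.val_ns n hQ', h3 Q hQ' hQ]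
      fin_supp := by
        intro a φ hφ
        refine ((Set.finite_range W.sp).union (W.fin_supp φ hφ)).subset fun P hP => ?_
        by_cases h : P ∈ Set.range W.sp
        · exact Or.inl h
        · exact Or.inr (by simpa [W.val_ns n h] using hP)
      fd := fun a => FiniteDimensional.span_of_finite k
        (((finite_monomials hn a).image (umon k)).subset (by
          rintro _ ⟨c, hc, rfl⟩
          exact ⟨c, hc, rfl⟩))
      gens := BB_gens n }
  exact ⟨⟨S, hn, rfl, W.sp, W.sp_inj, W.v, W.val_sp n, fun P hP => W.val_ns n hP, W.v_umon_sp,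
    W.v_umon_ns, W.laurent, W.v_lev, W.v_hex, W.v_pt⟩⟩

theorem exists_DP (k : Type) [Field k] {n : ℕ} (hn : 0 < n) : Nonempty (DP k n) :=
  (exists_vals k).elim fun W => W.exists_DP hn

end Vale.Agent.P190
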