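import Vale.Agent.P190.D3b

/-! P190, part D5: existence of a homogeneous system of parameters. -/

namespace Vale.Agent.P190

open Module Filter

variable {k : Type} [Field k] {n : ℕ}

namespace D5

theorem avoid {E : Type} [AddCommGroup E] [Module k E] [Infinite k] (B : Submodule k E)
    (Q : Set (Submodule k E)) (hQ : Q.Finite) (h : ∀ q ∈ Q, ¬ B ≤ q) :
    ∃ x ∈ B, ∀ q ∈ Q, x ∉ q := by
  classical
  have h1 : (⊤ : Submodule k B) ∉ hQ.toFinset.image fun q => q.comap B.subtype := by
    intro hm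
    obtain ⟨q, hq, e⟩ := Finset.mem_image.1 hm
    refine h q (hQ.mem_toFinset.1 hq) fun x hx => ?_
    have : (⟨x, hx⟩ : B) ∈ q.comap B.subtype := by rw [e]; trivial
    exact this
  have h2 := Subspace.biUnion_ne_univ_of_top_notMem h1
  obtain ⟨x, hx⟩ := (Set.ne_univ_iff_exists_notMem _).1 h2
  refine ⟨x, x.2, fun q hq hxq => hx ?_⟩
  simp only [Set.mem_iUnion]
  exact ⟨q.comap B.subtype, Finset.mem_image.2 ⟨q, hQ.mem_toFinset.2 hq, rfl⟩, hxq⟩

/-- the elements vanishing at a place -/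
def van (D : DP k n) (P : D.S.Pl) (a : ZZ) : Submodule k (KK k) where
  carrier := {φ | D.S.Ge P a φ 1}
  zero_mem' := Or.inl rfl
  add_mem' := fun h h' => Sys.Ge.add h h'
  smul_mem' := fun c _ h => Sys.Ge.smul h c

theorem exists_y (D : DP k n) [Infinite k] : ∃ y ∈ D.S.B (cst n), y ≠ 0 ∧
    ∀ i, D.S.val (D.sp i) (cst n) y = 0 := by
  obtain ⟨y, hy, h⟩ := avoid (D.S.B (cst n)) (Set.range fun i => van D (D.sp i) (cst n))
    (Set.finite_range _) (by
      rintro _ ⟨i, rfl⟩ hle
      obtain ⟨j, hj, -⟩ := imat_adj i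
      obtain ⟨c, -, -, -, -, -, -, -, -, -, -, ⟨a1, a2, a3⟩, -⟩ := exists_chart i j hj
      have hm : umon k c ∈ D.S.B (cst n) := by
        rw [D.hB]
        refine umon_mem_BB fun l => ?_
        have : 0 ≤ 1 + lamv c l := by
          by_cases e1 : l = i
          · rw [e1, a1]
          by_cases e2 : l = j
          · rw [e2, a2]
          exact zero_le_one.trans (a3 l e1 e2)
        have h2 : cst n l + n * lamv c l = n * (1 + lamv c l) := by simp only [cst]; ring
        rw [h2]
        positivity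
      rcases hle hm with h0 | h0
      · exact umon_ne_zero c h0
      · rw [D.val_umon_sp] at h0
        have h2 : cst n i + n * lamv c i = n * (1 + lamv c i) := by simp only [cst]; ring
        rw [h2, a1] at h0
        omega)
  have h0 : y ≠ 0 := fun e => h _ ⟨0, rfl⟩ (Or.inl e)
  refine ⟨y, hy, h0, fun i => ?_⟩
  have h1 := (D.S.mem_iff _ _ h0).1 hy (D.sp i)
  have h2 : ¬ 1 ≤ D.S.val (D.sp i) (cst n) y := fun e => h _ ⟨i, rfl⟩ (Or.inr e)
  omega

theorem smulL_apply (x φ : KK k) : smulL x φ = x * φ := rfl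

theorem mem_kos {x y : KK k} {X : Submodule k (KK k)} {φ : KK k} :
    φ ∈ kos x y 1 X ↔ ∃ a ∈ X, ∃ b ∈ X, ∃ c ∈ X, φ = x * a + y * b + c := by
  constructor
  · intro h
    obtain ⟨u, hu, c, hc, rfl⟩ := Submodule.mem_sup.1 h
    obtain ⟨_, ⟨a, ha, rfl⟩, _, ⟨b, hb, rfl⟩, rfl⟩ := Submodule.mem_sup.1 hu
    exact ⟨a, ha, b, hb, c, hc, by simp [smulL_apply]⟩
  · rintro ⟨a, ha, b, hb, c, hc, rfl⟩
    exact Submodule.add_mem_sup (Submodule.add_mem_sup ⟨a, ha, by simp [smulL_apply]⟩
      ⟨b, hb, by simp [smulL_apply]⟩) hc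

theorem exists_x (D : DP k n) [Infinite k] {y : KK k} (hy : y ∈ D.S.B (cst n))
    (hv : ∀ i, D.S.val (D.sp i) (cst n) y = 0) (hy0 : y ≠ 0) :
    ∃ x ∈ D.S.B (cst n), ∀ w : ZZ, ∀ᶠ m : ℤ in atTop,
      D.S.B (w + cst m + cst n) ≤ kos x y 1 (D.S.B (w + cst m)) := by
  have h1 : (1 : KK k) ∈ D.S.B (cst n) := D.one_mem_cst (Int.natCast_nonneg n)
  have h0 : Fam.gen D.S {(cst n, y), (cst n, (1 : KK k))} ≤ D.S.fam := by
    rw [Fam.gen_le]
    rintro _ (rfl | rfl)
    · exact hy
    · exact h1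
  have key := Fam.induction_prime h0 Fam.fam_FG
    (fun U U' => U ≤ U' ∧ ∃ Q : Set (Submodule k (KK k)), Q.Finite ∧
      (∀ q ∈ Q, ¬ D.S.B (cst n) ≤ q) ∧ ∀ x ∈ D.S.B (cst n), (∀ q ∈ Q, x ∉ q) → ∀ w : ZZ,
        ∀ᶠ m : ℤ in atTop, U'.U (w + cst m + cst n) ≤
          U.U (w + cst m + cst n) ⊔ (U'.U (w + cst m)).map (smulL x))
    (fun U => ⟨le_rfl, ∅, Set.finite_empty, by simp, fun _ _ _ _ =>
      Eventually.of_forall fun _ => le_sup_left⟩)
    (by
      rintro U U' U'' ⟨l1, Q1, f1, p1, s1⟩ ⟨l2, Q2, f2, p2, s2⟩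
      refine ⟨l1.trans l2, Q1 ∪ Q2, f1.union f2, fun q hq => hq.elim (p1 q) (p2 q),
        fun x hx hq w => ?_⟩
      filter_upwards [s1 x hx (fun q h => hq q (Or.inl h)) w,
        s2 x hx (fun q h => hq q (Or.inr h)) w] with m e1 e2
      refine e2.trans (sup_le (e1.trans (sup_le_sup_left ?_ _)) le_sup_right)
      exact Submodule.map_mono (l2 _))
    (by
      intro U a v l1 l2 hp
      have hva : v ∈ D.S.B a := l2 a (Fam.le_add_right U (Fam.gen D.S {(a, v)}) a
        (Fam.mem_gen (S := D.S) (G := {(a, v)}) (p := (a, v)) (Set.mem_singleton _)))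
      have hmem : ∀ z : KK k, z ∈ D.S.B (cst n) → (z = y ∨ z = 1) →
          z ∈ (U.ann a v).U (cst n) := by
        intro z hz hz'
        refine ⟨hz, ?_⟩
        have hzU : z ∈ U.U (cst n) := by
          rcases hz' with e | e
          · exact e ▸ Fam.gen_le.1 l1 _ (Set.mem_insert _ _)
          · exact e ▸ Fam.gen_le.1 l1 _ (Set.mem_insert_of_mem _ (Set.mem_singleton _))
        have := U.smul_mem a (cst n) v z hva hzU
        rwa [smul_eq_mul, mul_comm, add_comm] at this
      have hs : (U.ann a v).IsSmall := by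
        rcases hp.cases ⟨cst n, 1, one_ne_zero, hmem 1 h1 (by simp)⟩ with ⟨P, hP⟩ | hP
        · exfalso
          by_cases hr : P ∈ Set.range D.sp
          · obtain ⟨i, rfl⟩ := hr
            rcases ((hP _ _).1 (hmem y hy (by simp))).2 with e | e
            · exact hy0 e
            · rw [hv] at e; omega
          · rcases ((hP _ _).1 (hmem 1 h1 (by simp))).2 with e | e
            · exact one_ne_zero e
            · rw [D.val_one_ns hr] at e; omega
        · exact hP
      refine ⟨Fam.le_add_left _ _, ?_⟩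
      rcases prime_cases_irrelevant hp with hc | hc
      · refine ⟨∅, Set.finite_empty, by simp, fun x _ _ w => ?_⟩
        filter_upwards [hc (w + cst n - a)] with m e
        refine le_trans (sup_le le_rfl fun z hz => ?_) le_sup_left
        obtain ⟨φ, hφ, rfl⟩ := Fam.mem_gen_singleton.1 hz
        have := (e (show φ ∈ D.S.B (w + cst n - a + cst m) by
          rwa [show w + cst n - a + cst m = w + cst m + cst n - a by abel])).2
        rwa [show w + cst n - a + cst m + a = w + cst m + cst n by abel] at this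
      · refine ⟨{(U.ann a v).U (cst n)}, Set.finite_singleton _, by simpa using hc,
          fun x hx hq w => ?_⟩
        filter_upwards [small_surj hp hs hx (hq _ rfl) (w - a)] with m e
        refine sup_le le_sup_left fun z hz => ?_
        obtain ⟨φ, hφ, rfl⟩ := Fam.mem_gen_singleton.1 hz
        obtain ⟨φ₁, h₁, _, ⟨ψ, hψ, rfl⟩, rfl⟩ := Submodule.mem_sup.1
          (e (show φ ∈ D.S.B (w - a + cst m + cst n) by
            rwa [show w - a + cst m + cst n = w + cst m + cst n - a by abel]))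
        rw [add_smul]
        refine Submodule.add_mem_sup ?_ ⟨ψ • v, ?_, ?_⟩
        · have := h₁.2
          rwa [show w - a + cst m + cst n + a = w + cst m + cst n by abel] at this
        · refine Fam.le_add_right _ _ _ (Fam.mem_gen_singleton.2 ⟨ψ, ?_, rfl⟩)
          rwa [show w + cst m - a = w - a + cst m by abel]
        · simp [smulL_apply, mul_assoc])
  obtain ⟨-, Q, f, p, s⟩ := key
  obtain ⟨x, hx, hq⟩ := avoid _ Q f p
  refine ⟨x, hx, fun w => ?_⟩
  filter_upwards [s x hx hq w] with m e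
  refine le_trans e (sup_le (fun z hz => ?_) ?_)
  · rw [Set.insert_eq, Fam.gen_union] at hz
    obtain ⟨_, h₁, _, h₂, rfl⟩ := Submodule.mem_sup.1 hz
    obtain ⟨φ, hφ, rfl⟩ := Fam.mem_gen_singleton.1 h₁
    obtain ⟨ψ, hψ, rfl⟩ := Fam.mem_gen_singleton.1 h₂
    rw [add_sub_cancel_right] at hφ hψ
    exact mem_kos.2 ⟨0, Submodule.zero_mem _, φ, hφ, ψ, hψ, by simp [mul_comm]⟩
  · rintro _ ⟨φ, hφ, rfl⟩
    exact mem_kos.2 ⟨φ, hφ, 0, Submodule.zero_mem _, 0, Submodule.zero_mem _,
      by simp [smulL_apply]⟩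

theorem unif (D : DP k n) {x y : KK k}
    (h : ∀ w : ZZ, ∀ᶠ m : ℤ in atTop,
      D.S.B (w + cst m + cst n) ≤ kos x y 1 (D.S.B (w + cst m))) (w : ZZ) :
    ∀ᶠ m : ℤ in atTop, ∀ c : Fin 5 → ℤ,
      D.S.B (w + lamv c + cst (m + n)) ≤ kos x y 1 (D.S.B (w + lamv c + cst m)) := by
  have := DP.eventually_forall_char D.n_pos
    (fun a => D.S.B (a + cst n) ≤ kos x y 1 (D.S.B a)) (by
      intro a c hQ φ hφ
      have hu : umon k (-c) * umon k c = 1 := by rw [← umon_add, neg_add_cancel, umon_zero]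
      have h1 : umon k c * φ ∈ D.S.B (a + cst n) := by
        rw [D.hB] at hφ ⊢
        rw [mem_BB_iff_unit _ c, ← mul_assoc, hu, one_mul]
        rwa [show a + cst n + (n : ℤ) • lamv c = a + (n : ℤ) • lamv c + cst n by abel]
      obtain ⟨p, hp, q, hq, r, hr, e⟩ := mem_kos.1 (hQ h1)
      rw [D.hB] at hp hq hr ⊢
      refine mem_kos.2 ⟨_, (mem_BB_iff_unit _ c _).1 hp, _, (mem_BB_iff_unit _ c _).1 hq, _,
        (mem_BB_iff_unit _ c _).1 hr, ?_⟩
      calc φ = umon k (-c) * (umon k c * φ) := by rw [← mul_assoc, hu, one_mul]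
        _ = _ := by rw [e]; ring) h w
  filter_upwards [this] with m e c
  rw [cst_add, ← add_assoc]
  exact e c

theorem indep (D : DP k n) {x y : KK k} {m : ℤ} (hm : 0 ≤ m)
    (h : D.S.B (cst m + cst n) ≤ kos x y 1 (D.S.B (cst m))) : AlgebraicIndependent k ![x, y] := by
  set A := Algebra.adjoin k (Set.range ![x, y]) with hA
  have hxA : x ∈ A := Algebra.subset_adjoin ⟨0, rfl⟩
  have hyA : y ∈ A := Algebra.subset_adjoin ⟨1, rfl⟩
  let N : Submodule A (KK k) := Submodule.span A (D.S.B (cst m) : Set (KK k))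
  have hN : N ≠ ⊥ := by
    intro e
    have : (1 : KK k) ∈ N := Submodule.subset_span (D.one_mem_cst hm)
    rw [e] at this
    exact one_ne_zero ((Submodule.mem_bot _).1 this)
  have hfg : N.FG := by
    have := D.S.fd (cst m)
    obtain ⟨s, hs⟩ := (Submodule.fg_iff_finiteDimensional _).2 this
    refine ⟨s, ?_⟩
    simp only [N, ← hs]
    exact (Submodule.span_span_of_tower k A (s : Set (KK k))).symm
  have hint : ∀ z ∈ D.S.B (cst n), IsIntegral A z := by
    intro z hz
    refine isIntegral_of_smul_mem_submodule N hN hfg z fun u hu => ?_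
    induction hu using Submodule.span_induction with
    | mem u hu =>
      have h1 := D.S.mul_mem hu hz
      obtain ⟨p, hp, q, hq, r, hr, e⟩ := mem_kos.1 (h h1)
      rw [smul_eq_mul, mul_comm, e]
      exact N.add_mem (N.add_mem (N.smul_mem ⟨x, hxA⟩ (Submodule.subset_span hp))
        (N.smul_mem ⟨y, hyA⟩ (Submodule.subset_span hq))) (Submodule.subset_span hr)
    | zero => simp
    | add u v _ _ hu hv => rw [smul_add]; exact N.add_mem hu hv
    | smul c u _ hu => rw [smul_comm]; exact N.smul_mem c hu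
  have hX : ∀ i : Fin 2, IsIntegral A
      (algebraMap (MvPolynomial (Fin 2) k) (KK k) (MvPolynomial.X i)) := by
    intro i
    refine hint _ ?_
    rw [D.hB]
    fin_cases i
    · have : umon k ![1, 0, 0, 0, 0] ∈ BB k n (cst n) := umon_mem_BB fun l => by
        rw [lamv_eq]; fin_cases l <;> simp [cst]
      rw [umon_eq] at this
      simpa [ss] using this
    · have : umon k ![0, 1, 0, 0, 0] ∈ BB k n (cst n) := umon_mem_BB fun l => by
        rw [lamv_eq]; fin_cases l <;> simp [cst]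
      rw [umon_eq] at this
      simpa [tt] using this
  have hP : ∀ f : MvPolynomial (Fin 2) k,
      IsIntegral A (algebraMap (MvPolynomial (Fin 2) k) (KK k) f) := by
    intro f
    induction f using MvPolynomial.induction_on with
    | C c =>
      have : algebraMap (MvPolynomial (Fin 2) k) (KK k) (MvPolynomial.C c) =
          algebraMap A (KK k) (algebraMap k A c) := by
        rw [← IsScalarTower.algebraMap_apply, ← MvPolynomial.algebraMap_eq,
          ← IsScalarTower.algebraMap_apply]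
      rw [this]
      exact isIntegral_algebraMap
    | add f g hf hg => rw [map_add]; exact hf.add hg
    | mul_X f i hf => rw [map_mul]; exact hf.mul (hX i)
  have : Algebra.IsAlgebraic A (KK k) := ⟨fun z => by
    obtain ⟨a, b, -, rfl⟩ := IsFractionRing.div_surjective (A := MvPolynomial (Fin 2) k) z
    rw [div_eq_mul_inv]
    exact (hP a).isAlgebraic.mul (IsAlgebraic.inv_iff.2 (hP b).isAlgebraic)⟩
  refine (Algebra.IsAlgebraic.isTranscendenceBasis_of_le_trdeg_of_finite k ![x, y] ?_).1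
  exact ((MvPolynomial.algebraicIndependent_X (Fin 2) k).map'
    (f := IsScalarTower.toAlgHom k (MvPolynomial (Fin 2) k) (KK k)) algMap_inj).cardinalMk_le_trdeg

end D5

theorem DP.exists_hs (D : DP k n) [Infinite k] : Nonempty (Hs D) := by
  obtain ⟨y, hy, hy0, hv⟩ := D5.exists_y D
  obtain ⟨x, hx, h⟩ := D5.exists_x D hy hv hy0
  obtain ⟨m, h1, h2⟩ := ((h 0).and (eventually_ge_atTop 0)).exists
  rw [zero_add] at h1
  exact ⟨⟨x, y, hx, hy, hy0, hv, D5.indep D h2 h1, D5.unif D h⟩⟩

end Vale.Agent.P190
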