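import Vale.Agent.P190.EDefs

/-! P190, part Num: the numerical inequality. -/

namespace Vale.Agent.P190

theorem Phi_nonneg (n : ℕ) (Y : ℚ) : 0 ≤ Phi n Y := by
  unfold Phi
  split_ifs with h
  · exact le_rfl
  · have := not_lt.1 h
    positivity

theorem Phi_mono (n : ℕ) {Y Y' : ℚ} (h : Y ≤ Y') : Phi n Y ≤ Phi n Y' := by
  by_cases h1 : Y < 0
  · rw [Phi, if_pos h1]
    exact Phi_nonneg n Y'
  · have h2 := not_lt.1 h1
    rw [Phi, if_neg h1, Phi, if_neg (not_lt.2 (h2.trans h))]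
    gcongr

/-- the telescoping majorant -/
def Psi (n : ℕ) (Y : ℚ) : ℚ :=
  (n : ℚ) ^ 3 * (Y + 7) ^ 2 / 24 + (n : ℚ) ^ 2 * (Y + 13) ^ 4 / (48 * 216)

theorem sum_Phi_le (n N : ℕ) : ∀ Y : ℚ, ∑ j ∈ Finset.range N, Phi n (Y - 12 * j) ≤ Psi n Y := by
  induction N with
  | zero => intro Y; rw [Finset.sum_range_zero, Psi]; positivity
  | succ N ih =>
    intro Y
    by_cases h : Y < 0
    · rw [Finset.sum_eq_zero]
      · rw [Psi]; positivity
      · intro j _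
        have : (0 : ℚ) ≤ j := Nat.cast_nonneg j
        rw [Phi, if_pos (by linarith)]
    · have h1 := ih (Y - 12)
      have h2 := not_lt.1 h
      rw [Finset.sum_range_succ']
      have h3 : ∑ j ∈ Finset.range N, Phi n (Y - 12 * ((j + 1 : ℕ) : ℚ)) =
          ∑ j ∈ Finset.range N, Phi n (Y - 12 - 12 * j) :=
        Finset.sum_congr rfl fun j _ => by congr 1; push_cast; ring
      have h4 : Phi n (Y - 12 * ((0 : ℕ) : ℚ)) ≤ Psi n Y - Psi n (Y - 12) := by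
        rw [Nat.cast_zero, mul_zero, sub_zero, Phi, if_neg h, Psi, Psi]
        have : 0 ≤ (n : ℚ) ^ 2 * (Y + 7) := by positivity
        nlinarith
      rw [h3]
      linarith

theorem sum_Phi_Ico (n : ℕ) (c : ℚ) (a b : ℤ) :
    ∑ m ∈ Finset.Ico a b, Phi n (c - 12 * m) ≤ Psi n (c - 12 * a) := by
  rw [Int.Ico_eq_finset_map, Finset.sum_map]
  refine le_trans (le_of_eq (Finset.sum_congr rfl fun j _ => ?_)) (sum_Phi_le n _ _)
  congr 1
  simp
  ring

theorem numerics (m₀ m₁ : ℤ) :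
    ∑ m ∈ Finset.Ico m₀ (-7000), Phi 80000 (3 * 80000 + 6 + 12 * m) +
      ∑ m ∈ Finset.Ico (7001 : ℤ) m₁, Phi 80000 (3 * 80000 + 6 - 12 * m) < -XX 80000 7000 := by
  have h1 : ∑ m ∈ Finset.Ico m₀ (-7000), Phi 80000 (3 * 80000 + 6 + 12 * m) =
      ∑ m ∈ Finset.Ico (7001 : ℤ) (1 - m₀), Phi 80000 (3 * 80000 + 6 - 12 * m) := by
    refine Finset.sum_nbij' (fun m => -m) (fun m => -m) ?_ ?_ ?_ ?_ ?_
    · intro m hm
      rw [Finset.mem_Ico] at hm ⊢
      omega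
    · intro m hm
      rw [Finset.mem_Ico] at hm ⊢
      omega
    · intro m _; simp
    · intro m _; simp
    · intro m _; congr 1; push_cast; ring
  have h2 := sum_Phi_Ico 80000 (3 * 80000 + 6) 7001 (1 - m₀)
  have h3 := sum_Phi_Ico 80000 (3 * 80000 + 6) 7001 m₁
  have h4 : 2 * Psi 80000 (3 * 80000 + 6 - 12 * ((7001 : ℤ) : ℚ)) < -XX 80000 7000 := by
    norm_num [Psi, XX]
  rw [h1]
  linarith

end Vale.Agent.P190
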