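import Vale.Agent.P190.PB2

/-! P190, part PB3: the bound for the number of sections. -/

namespace Vale.Agent.P190

open Module

theorem pb3_shift {n : ℕ} (hn : 0 < n) (g : ℤ → ℚ) (u : ℤ) :
    ∑ x : Fin n, g ((u + x) % n) = ∑ x ∈ Finset.range n, g x := by
  have hn' : (0 : ℤ) < n := by exact_mod_cast hn
  rw [Finset.sum_range (fun x => g x)]
  let f : Fin n → Fin n := fun x => ⟨((u + x) % n).toNat, by
    have h1 := Int.emod_lt_of_pos (u + x) hn'
    have h2 := Int.emod_nonneg (u + x) hn'.ne'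
    omega⟩
  have hf : ∀ x, ((f x : ℕ) : ℤ) = (u + x) % n := fun x =>
    Int.toNat_of_nonneg (Int.emod_nonneg _ hn'.ne')
  have hinj : Function.Injective f := by
    intro x y h
    have h1 : (u + x) % n = (u + y) % n := by rw [← hf, ← hf, h]
    have h2 : (n : ℤ) ∣ (u + y) - (u + x) := (Int.ModEq.dvd h1)
    have h3 : (u + y) - (u + x) = 0 :=
      Int.eq_zero_of_abs_lt_dvd h2 (by have := x.2; have := y.2; rw [abs_lt]; omega)
    exact Fin.ext (by omega)
  refine Fintype.sum_bijective f (Finite.injective_iff_bijective.1 hinj) _ _ fun x => ?_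
  rw [hf]

theorem pb3_tri (n : ℕ) : ∀ z : ℚ,
    ∑ x ∈ Finset.range n, max 0 (z - 2 * (((x : ℕ) : ℤ) : ℚ)) ≤ (max 0 (z + 1)) ^ 2 / 4 := by
  induction n with
  | zero => intro z; simp only [Finset.range_zero, Finset.sum_empty]; positivity
  | succ n ih =>
    intro z
    rw [Finset.sum_range_succ']
    have h1 := ih (z - 2)
    have h2 : ∑ x ∈ Finset.range n, max 0 (z - 2 * ((((x + 1 : ℕ) : ℕ) : ℤ) : ℚ)) =
        ∑ x ∈ Finset.range n, max 0 (z - 2 - 2 * (((x : ℕ) : ℤ) : ℚ)) :=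
      Finset.sum_congr rfl fun x _ => by push_cast; ring_nf
    rw [h2]
    have h3 : max 0 (z - 2 * (((0 : ℕ) : ℤ) : ℚ)) = max 0 z := by simp
    rw [h3]
    rcases le_total z 0 with h | h
    · rw [max_eq_left h]
      rw [max_eq_left (by linarith : z - 2 + 1 ≤ 0)] at h1
      have : (0 : ℚ) ≤ (max 0 (z + 1)) ^ 2 / 4 := by positivity
      linarith
    · rw [max_eq_right h, max_eq_right (by linarith : (0 : ℚ) ≤ z + 1)]
      rcases le_total z 1 with h' | h'
      · rw [max_eq_left (by linarith : z - 2 + 1 ≤ 0)] at h1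
        nlinarith [sq_nonneg (z - 1)]
      · rw [max_eq_right (by linarith : (0 : ℚ) ≤ z - 2 + 1)] at h1
        nlinarith

theorem pb3_char {n : ℕ} (hn : 0 < n) (i : Fin 3) (g : ℤ → ℚ) (u : ℤ) :
    ∑ c : Fin 3 → Fin n, g ((u + c i) % n) = (n : ℚ) ^ 2 * ∑ x ∈ Finset.range n, g x := by
  rw [← pb3_shift hn g u, ← (Fin.insertNthEquiv (fun _ => Fin n) i).sum_comp,
    Fintype.sum_prod_type, Finset.mul_sum]
  refine Finset.sum_congr rfl fun x _ => ?_
  simp [Fin.insertNthEquiv]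

theorem pb3_cube (j : ℕ) : ∀ Y : ℚ, (j : ℚ) ≤ Y + 1 →
    ∑ i ∈ Finset.range j, (Y - i + 3) ^ 2 ≤ (Y + 4) ^ 3 / 3 := by
  induction j with
  | zero =>
    intro Y hY
    simp only [Finset.range_zero, Finset.sum_empty]
    have : (0 : ℚ) ≤ Y + 4 := by push_cast at hY; linarith
    positivity
  | succ j ih =>
    intro Y hY
    rw [Finset.sum_range_succ']
    push_cast at hY
    have h1 := ih (Y - 1) (by linarith)
    have h2 : ∑ i ∈ Finset.range j, (Y - ((i + 1 : ℕ) : ℚ) + 3) ^ 2 =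
        ∑ i ∈ Finset.range j, (Y - 1 - i + 3) ^ 2 :=
      Finset.sum_congr rfl fun x _ => by push_cast; ring
    rw [h2]
    have hj : (0 : ℚ) ≤ j := Nat.cast_nonneg j
    push_cast
    nlinarith

variable {k : Type} [Field k] {n : ℕ}
variable {V : Type} [AddCommGroup V] [Module (KK k) V] [Module k V] [IsScalarTower k (KK k) V]
variable [FiniteDimensional (KK k) V]

theorem DP.h2_le (D : DP k n) [Infinite k] {U : Fam D.S V} (hU : U.FG) (hs : U.Spans) {σ : ℚ}
    (hm : U.MaxLe HA σ) {ι : Type} [Fintype ι] (b : Fin 3 → Basis ι (KK k) V)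
    (d : Fin 3 → ι → ZZ) (hb : ∀ i, U.IsOpt (D.sp (mid i)) (b i) (d i)) (t : Fin 3 → ℤ) (j : ℕ) :
    ∀ (a : ZZ) (y : ℚ), (∀ i, a (mid i) = t i) → σ + HA a ≤ y → y < j →
      (h2 n U.hull a : ℚ) ≤ ∑ x ∈ Finset.range j, ((Fintype.card ι : ℚ) +
        (∑ i, ∑ l, max 0 ((y - x) / 3 - 2 * (((t i - d i l (mid i)) % n : ℤ) : ℚ))) / 6) := by
  induction j with
  | zero =>
    intro a y _ hy hj
    have : h2 n U.hull a = 0 := by
      refine Finset.sum_eq_zero fun c _ => ?_
      rw [hm.hull_eq_bot D.eff_HA hU hs, finrank_bot]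
      rw [map_add, HA_lamv, add_zero]
      push_cast at hj
      linarith
    simp [this]
  | succ j ih =>
    intro a y ha hy hj
    obtain ⟨g, hg⟩ := D.peel hU hs hm b d hb a y hy
    have h1 : HA (a - Pi.single (hex g) 1) = HA a - 1 := by
      rw [map_sub]
      congr 1
      fin_cases g <;> simp [HA, hex]
    have h2' := ih (a - Pi.single (hex g) 1) (y - 1) (fun i => by
      rw [Pi.sub_apply, ha, Pi.single_eq_of_ne, sub_zero]
      fin_cases g <;> fin_cases i <;> decide) (by rw [h1]; push_cast; linarith)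
      (by push_cast at hj; linarith)
    rw [Finset.sum_range_succ']
    simp only [ha] at hg
    have h3 : ∀ x : ℕ, y - ((x + 1 : ℕ) : ℚ) = y - 1 - x := fun x => by push_cast; ring
    simp only [h3, Nat.cast_zero, sub_zero]
    linarith

theorem DP.boundB (D : DP k n) [Infinite k] {U : Fam D.S V} (hU : U.FG) (hs : U.Spans) {σ : ℚ}
    (hm : U.MaxLe HA σ) (w : ZZ) (Y : ℚ) (hY : σ + HA w ≤ Y) :
    (hh n U.hull w : ℚ) ≤ finrank (KK k) V * Phi n Y := by
  choose b d hb using fun i : Fin 3 =>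
    Fam.exists_opt hU hs (D.sp (mid i)) (ι := Fin (finrank (KK k) V)) (Fintype.card_fin _)
  have hr : (0 : ℚ) ≤ finrank (KK k) V := Nat.cast_nonneg _
  have hn0 : (0 : ℚ) ≤ n := Nat.cast_nonneg _
  have key : ∀ j : ℕ, Y < j → (hh n U.hull w : ℚ) ≤ ∑ x ∈ Finset.range j,
      ∑ c : Fin 3 → Fin n, ((finrank (KK k) V : ℚ) +
        (∑ i, ∑ l, max 0 ((Y - x) / 3 - 2 * (((w (mid i) - d i l (mid i) + c i) % n : ℤ) : ℚ))) / 6) := by
    intro j hj
    rw [hh_eq_sum_h2, Nat.cast_sum, Finset.sum_comm]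
    refine Finset.sum_le_sum fun c _ => ?_
    have := D.h2_le hU hs hm b d hb (fun i => w (mid i) + c i) j
      (w + lamv ![0, 0, (c 0 : ℤ), (c 1 : ℤ), (c 2 : ℤ)]) Y
      (fun i => by rw [Pi.add_apply, lamv_mid' i fun i => (c i : ℤ)])
      (by rw [map_add, HA_lamv, add_zero]; exact hY) hj
    rw [Fintype.card_fin] at this
    simpa only [add_sub_right_comm] using this
  unfold Phi
  split_ifs with h0
  · have := key 0 (by simpa using h0)
    simpa using this
  · push Not at h0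
    have hj := key (⌊Y⌋₊ + 1) (by push_cast; exact Nat.lt_floor_add_one Y)
    have hfl : ((⌊Y⌋₊ + 1 : ℕ) : ℚ) ≤ Y + 1 := by
      push_cast
      linarith [Nat.floor_le h0]
    have hc := pb3_cube _ Y hfl
    have hstep : ∀ x ∈ Finset.range (⌊Y⌋₊ + 1),
        ∑ c : Fin 3 → Fin n, ((finrank (KK k) V : ℚ) +
          (∑ i, ∑ l, max 0 ((Y - x) / 3 -
            2 * (((w (mid i) - d i l (mid i) + c i) % n : ℤ) : ℚ))) / 6) ≤
        finrank (KK k) V * ((n : ℚ) ^ 3 + (n : ℚ) ^ 2 / 72 * (Y - x + 3) ^ 2) := by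
      intro x hx
      have hx' : (x : ℚ) ≤ Y := by
        have : x ≤ ⌊Y⌋₊ := Nat.lt_succ_iff.1 (Finset.mem_range.1 hx)
        exact (Nat.cast_le.2 this).trans (Nat.floor_le h0)
      rw [Finset.sum_add_distrib, ← Finset.sum_div, Finset.sum_comm]
      have h1 : ∀ i : Fin 3, ∑ c : Fin 3 → Fin n, ∑ l, max 0 ((Y - x) / 3 -
            2 * (((w (mid i) - d i l (mid i) + c i) % n : ℤ) : ℚ)) ≤
          finrank (KK k) V * ((n : ℚ) ^ 2 * ((Y - x + 3) ^ 2 / 36)) := by
        intro i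
        rw [Finset.sum_comm]
        refine (Finset.sum_le_card_nsmul _ _ ((n : ℚ) ^ 2 * ((Y - x + 3) ^ 2 / 36))
          fun l _ => ?_).trans (by simp)
        rw [pb3_char D.n_pos i (fun θ => max 0 ((Y - x) / 3 - 2 * (θ : ℚ)))]
        refine mul_le_mul_of_nonneg_left ((pb3_tri n _).trans (le_of_eq ?_)) (by positivity)
        rw [max_eq_right (by linarith)]
        ring
      have h2' := Finset.sum_le_sum (s := Finset.univ) fun i _ => h1 i
      simp only [Finset.sum_const, Finset.card_univ, Fintype.card_fin, Fintype.card_fun,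
        nsmul_eq_mul] at h2' ⊢
      push_cast at h2' ⊢
      linarith
    refine (hj.trans (Finset.sum_le_sum hstep)).trans ?_
    rw [← Finset.mul_sum]
    refine mul_le_mul_of_nonneg_left ?_ hr
    rw [Finset.sum_add_distrib, ← Finset.mul_sum, Finset.sum_const, Finset.card_range, nsmul_eq_mul]
    have h4 : (Y + 4) ^ 3 ≤ (Y + 7) ^ 3 := pow_le_pow_left₀ (by linarith) (by linarith) 3
    have h5 : (0 : ℚ) ≤ (n : ℚ) ^ 3 := by positivity
    have h6 : (0 : ℚ) ≤ (n : ℚ) ^ 2 / 72 := by positivity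
    have h7 := mul_le_mul_of_nonneg_left hfl h5
    have h8 := mul_le_mul_of_nonneg_left (hc.trans (div_le_div_of_nonneg_right h4 (by norm_num))) h6
    linarith

end Vale.Agent.P190
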