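import Vale.Agent.P190.T4
import Vale.Agent.P190.D1b
import Vale.Agent.P190.D5
import Vale.Agent.P190.Cart2
import Vale.Agent.P190.A3
import Vale.Agent.P190.PB3
import Vale.Agent.P190.Num

/-! P190, part Bog: the Bogomolov inequality and the Euler characteristic bound. -/

namespace Vale.Agent.P190

open Module Filter

theorem II_ge_of_bounded {ρ : ZZ} {r : ℤ} (h0 : ∀ i, 0 ≤ ρ i) (h1 : ∀ i, ρ i ≤ r) :
    -(10 * r ^ 2) ≤ II ρ ρ := by
  have key : ∀ i j, (if i = j then -r ^ 2 else 0) ≤ ρ i * imat i j * ρ j := by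
    intro i j
    split_ifs with h
    · subst h
      have : imat i i = -1 := by revert i; decide
      rw [this]
      nlinarith [h0 i, h1 i]
    · have : 0 ≤ imat i j := by revert i j; decide
      exact mul_nonneg (mul_nonneg (h0 i) this) (h0 j)
  have := Finset.sum_le_sum (s := Finset.univ) fun i _ =>
    Finset.sum_le_sum (s := Finset.univ) fun j _ => key i j
  simpa [II] using this

theorem RR_at (n : ℕ) {r : ℕ} (hr : 0 < r) (γ w : ZZ) (g : ℚ) :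
    RR n r γ g w = r * ((n : ℚ) ^ 3 * (7 / 12 * (n : ℚ) ^ 2 - 5 / 2 * n + 35 / 12)) +
      (n : ℚ) ^ 3 * II ((r : ℤ) • w + γ) ((r : ℤ) • w + γ) / (2 * r) -
      (n : ℚ) ^ 3 * ((n : ℚ) - 2) * HL ((r : ℤ) • w + γ) / 2 +
      (g - (n : ℚ) ^ 3 * II γ γ / (2 * r)) := by
  have : (r : ℚ) ≠ 0 := by positivity
  simp only [RR, P0, II_add_left, II_add_right, II_smul_left, II_smul_right, map_add, map_zsmul,
    smul_eq_mul, II_comm w γ]
  push_cast
  field_simp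
  ring

theorem sum_Icc_quad (A B C : ℚ) (M : ℕ) :
    ∑ m ∈ Finset.Icc (-(M : ℤ)) M, (A + B * m + C * (m : ℚ) ^ 2) =
      (2 * M + 1) * A + C * (M * (M + 1) * (2 * M + 1) / 3) := by
  induction M with
  | zero => simp
  | succ M ih =>
    have e : Finset.Icc (-((M + 1 : ℕ) : ℤ)) (M + 1 : ℕ) =
        insert (-((M : ℤ) + 1)) (insert ((M : ℤ) + 1) (Finset.Icc (-(M : ℤ)) M)) := by
      ext x
      simp only [Finset.mem_Icc, Finset.mem_insert]
      push_cast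
      omega
    rw [e, Finset.sum_insert (by simp only [Finset.mem_Icc, Finset.mem_insert]; omega),
      Finset.sum_insert (by simp only [Finset.mem_Icc]; omega), ih]
    push_cast
    ring

theorem exists_central (n : ℕ) {r : ℕ} (hr : 0 < r) (γ : ZZ) : ∃ w : ZZ,
    (0 : ℚ) ≤ HA γ / r + HA w ∧ (HA γ : ℚ) / r + HA w ≤ 12 ∧ ∀ g : ℚ,
      r * ((n : ℚ) ^ 3 * (7 / 12 * (n : ℚ) ^ 2 - 5 / 2 * n + 35 / 12)) - (n : ℚ) ^ 3 * 5 * r -
        (n : ℚ) ^ 3 * ((n : ℚ) + 2) * 5 * r + (g - (n : ℚ) ^ 3 * II γ γ / (2 * r)) ≤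
      RR n r γ g w := by
  have hrQ : (0 : ℚ) < r := by exact_mod_cast hr
  have hrZ : (0 : ℤ) < r := by exact_mod_cast hr
  refine ⟨fun i => -(γ i / r), ?_⟩
  generalize hw : (fun i => -(γ i / r) : ZZ) = w
  have hρ : ∀ i, ((r : ℤ) • w + γ) i = γ i % r := fun i => by
    have := Int.mul_ediv_add_emod (γ i) r
    simp only [← hw, Pi.add_apply, Pi.smul_apply, smul_eq_mul]
    linarith
  have hHAρ : (HA ((r : ℤ) • w + γ) : ℚ) = r * HA w + HA γ := by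
    simp only [map_add, map_zsmul, smul_eq_mul]; push_cast; ring
  simp only [RR_at n hr γ w]
  generalize (r : ℤ) • w + γ = ρ at *
  have hρ0 : ∀ i, 0 ≤ ρ i := fun i => by rw [hρ]; exact Int.emod_nonneg _ hrZ.ne'
  have hρ1 : ∀ i, ρ i ≤ r := fun i => by rw [hρ]; exact (Int.emod_lt_of_pos _ hrZ).le
  have hA0 : 0 ≤ HA ρ := by
    have := hρ0
    simp only [HA, AddMonoidHom.coe_mk, ZeroHom.coe_mk]
    linarith [this 0, this 1, this 2, this 3, this 4, this 5, this 6, this 7, this 8]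
  have hA1 : HA ρ ≤ 12 * r := by
    have := hρ1
    simp only [HA, AddMonoidHom.coe_mk, ZeroHom.coe_mk]
    linarith [this 0, this 1, this 2, this 3, this 4, this 5, this 6, this 7, this 8]
  have hL0 : 0 ≤ HL ρ := Finset.sum_nonneg (s := Finset.univ) fun i _ => hρ0 i
  have hL1 : HL ρ ≤ 10 * r := by
    have := Finset.sum_le_sum (s := Finset.univ) fun i _ => hρ1 i
    simpa [HL] using this
  have hw' : (HA γ : ℚ) / r + HA w = HA ρ / r := by rw [hHAρ]; field_simp; ring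
  have hA0' : (0 : ℚ) ≤ HA ρ / r := div_nonneg (by exact_mod_cast hA0) hrQ.le
  have hA1' : (HA ρ : ℚ) / r ≤ 12 := by
    rw [div_le_iff₀ hrQ]; exact_mod_cast hA1
  have c1 : -((n : ℚ) ^ 3 * 5 * r) ≤ (n : ℚ) ^ 3 * II ρ ρ / (2 * r) := by
    have : (-(10 * (r : ℚ) ^ 2)) ≤ II ρ ρ := by exact_mod_cast II_ge_of_bounded hρ0 hρ1
    rw [le_div_iff₀ (by positivity)]
    have h3 : (0 : ℚ) ≤ (n : ℚ) ^ 3 := by positivity
    nlinarith [mul_le_mul_of_nonneg_left this h3]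
  have c2 : (n : ℚ) ^ 3 * ((n : ℚ) - 2) * HL ρ / 2 ≤ (n : ℚ) ^ 3 * ((n : ℚ) + 2) * 5 * r := by
    have h0 : (0 : ℚ) ≤ HL ρ := by exact_mod_cast hL0
    have h1 : (HL ρ : ℚ) ≤ 10 * r := by exact_mod_cast hL1
    have h3 : (0 : ℚ) ≤ (n : ℚ) ^ 3 := by positivity
    have h4 : (0 : ℚ) ≤ n := by positivity
    have : ((n : ℚ) - 2) * HL ρ ≤ ((n : ℚ) + 2) * (10 * r) := by nlinarith
    nlinarith [mul_le_mul_of_nonneg_left this h3]
  refine ⟨hw' ▸ hA0', hw' ▸ hA1', fun g => by linarith⟩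

theorem bound_char_p {n : ℕ} {k : Type} [Field k] [IsAlgClosed k] (p : ℕ) [Fact p.Prime]
    [CharP k p] (D : DP k n) {r : ℕ} (hr : 0 < r) {U : Fam D.S (Fin r → KK k)} (hU : U.FG)
    (hs : U.Spans) {g : ℚ} (hg : HasRR n U g) (hm : U.MaxLe HA ((HA U.cl : ℚ) / r)) :
    (p : ℚ) ^ 2 * (g - (n : ℚ) ^ 3 * II U.cl U.cl / (2 * r)) ≤
      r * Phi n (6 * n * r + 12) + r * Phi n (6 * n - 12 + 6 * n * r ^ 2) -
      r * ((n : ℚ) ^ 3 * (7 / 12 * (n : ℚ) ^ 2 - 5 / 2 * n + 35 / 12)) +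
      (n : ℚ) ^ 3 * 5 * r + (n : ℚ) ^ 3 * ((n : ℚ) + 2) * 5 * r := by
  have hrQ : (0 : ℚ) < r := by exact_mod_cast hr
  haveI : CharP (KK k) p := charP_of_injective_algebraMap (algebraMap k (KK k)).injective p
  obtain ⟨h⟩ := D.exists_hs
  have hF := Fam.frob_FG p hU
  have hFs := Fam.frob_spans p hs
  obtain ⟨g', hg'⟩ := exists_hasRR hF hFs
  have hfin : finrank (KK k) (Fin r → KK k) = r := by simp
  have hclF := D.II_eq_of_unitDeg (Fam.frob_cl p hU hs)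
  have hHA : HA (U.frob p).cl = p * HA U.cl := by
    rw [(Fam.frob_cl p hU hs).map_sub_eq D.eff_HA, map_nsmul, nsmul_eq_mul]
  have hII : II (U.frob p).cl (U.frob p).cl = p * (p * II U.cl U.cl) := by
    rw [hclF, II_comm, hclF, ← natCast_zsmul, II_smul_left, II_smul_right]
  have hg2 : (p : ℚ) ^ 2 * g ≤ g' := by
    obtain ⟨m, h1, h2⟩ := ((frob_RR p hU hs hg 0).and (hg' 0)).exists
    rw [h2, hfin, RR_congr n _ _ hclF] at h1
    simp only [RR] at h1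
    linarith
  have hmax := D.frob_maxLe p hU hs hm
  have hmin := Fam.MaxLe.minGe D.eff_HA hF hFs (μ := p * (HA U.cl / r)) (δ := 6 * n * r)
    (by positivity) hmax (by rw [hfin, hHA]; push_cast; field_simp; rfl)
  rw [hfin] at hmin
  obtain ⟨w, hw0, hw1, hw⟩ := exists_central n hr (U.frob p).cl
  have hw2 := hw g'
  rw [hHA] at hw0 hw1
  rw [hII] at hw2
  push_cast at hw0 hw1 hw2
  rw [mul_div_assoc] at hw0 hw1
  have e1 := h.euler hF hFs hg' w
  have b1 := D.boundB hF hFs hmax w (6 * n * r + 12) (by linarith)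
  have hdFG := dag_FG h (U := U.frob p) hFs
  have b2 := D.boundB hdFG (dag_spans h hF) (dag_maxLe h D.eff_HA hF hFs hmin)
    (-w - cst (3 * n)) (6 * n - 12 + 6 * n * r ^ 2) (by
      have : (HA (dag h D.S.fam).cl : ℚ) ≤ 42 * n - 12 := by exact_mod_cast h.dag_fam_cl
      rw [map_sub, map_neg, HA_cst]; push_cast; linarith)
  rw [finrank_dag, hfin] at b2
  have b3 := (Nat.cast_le (α := ℚ)).2
    (DP.hh_mono hdFG.hull (Fam.le_hull (dag h (U.frob p))) (-w - cst (3 * n)))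
  rw [hfin] at e1 b1
  have h2 : (p : ℚ) ^ 2 * (g - (n : ℚ) ^ 3 * II U.cl U.cl / (2 * r)) = (p : ℚ) ^ 2 * g -
      (n : ℚ) ^ 3 * (p * (p * II U.cl U.cl)) / (2 * r) := by ring
  rw [h2]
  linarith

variable {n : ℕ} (D : DP QQ n)

theorem bogomolov {V : Type} [AddCommGroup V] [Module (KK QQ) V] [Module QQ V]
    [IsScalarTower QQ (KK QQ) V] [FiniteDimensional (KK QQ) V] {U : Fam D.S V} (hU : U.FG)
    (hs : U.Spans) (hr : 0 < finrank (KK QQ) V) {g : ℚ} (hg : HasRR n U g)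
    (hm : U.MaxLe HA ((HA U.cl : ℚ) / finrank (KK QQ) V)) :
    g ≤ (n : ℚ) ^ 3 * II U.cl U.cl / (2 * finrank (KK QQ) V) := by
  obtain ⟨N₀, hN₀⟩ := reduce_mod_p D hU hs hg hm
  generalize finrank (KK QQ) V = r at *
  generalize U.cl = γ at *
  by_contra hlt
  have hδ0 : 0 < g - (n : ℚ) ^ 3 * II γ γ / (2 * r) := by linarith [not_le.1 hlt]
  have key : ∀ p : ℕ, N₀ < p → p.Prime → (p : ℚ) ^ 2 * (g - (n : ℚ) ^ 3 * II γ γ / (2 * r)) ≤
      r * Phi n (6 * n * r + 12) + r * Phi n (6 * n - 12 + 6 * n * r ^ 2) -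
      r * ((n : ℚ) ^ 3 * (7 / 12 * (n : ℚ) ^ 2 - 5 / 2 * n + 35 / 12)) +
      (n : ℚ) ^ 3 * 5 * r + (n : ℚ) ^ 3 * ((n : ℚ) + 2) * 5 * r := by
    intro p hp hpp
    haveI : Fact p.Prime := ⟨hpp⟩
    obtain ⟨D'⟩ := exists_DP (AlgebraicClosure (ZMod p)) D.n_pos
    obtain ⟨U', g', hU', hs', hg', hgg, hm', hcl⟩ := hN₀ p hp hpp _ D'
    have h1 : HA U'.cl = HA γ := by rw [HA_eq_II, II_comm, hcl, II_comm, ← HA_eq_II]
    have h2 : II U'.cl U'.cl = II γ γ := by rw [hcl, II_comm, hcl]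
    have h3 := bound_char_p p D' hr hU' hs' hg' (by rw [h1]; exact hm')
    rw [h2] at h3
    refine le_trans (mul_le_mul_of_nonneg_left (by linarith) (by positivity)) h3
  generalize g - (n : ℚ) ^ 3 * II γ γ / (2 * r) = δ at *
  generalize r * Phi n (6 * n * r + 12) + r * Phi n (6 * n - 12 + 6 * n * r ^ 2) -
      r * ((n : ℚ) ^ 3 * (7 / 12 * (n : ℚ) ^ 2 - 5 / 2 * n + 35 / 12)) +
      (n : ℚ) ^ 3 * 5 * r + (n : ℚ) ^ 3 * ((n : ℚ) + 2) * 5 * r = C at *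
  obtain ⟨p, hp1, hpp⟩ := Nat.exists_infinite_primes (max (N₀ + 1) (⌈C / δ⌉₊ + 1))
  have c3 := key p (by omega) hpp
  have c4 : C / δ < p := by
    have h1 : ⌈C / δ⌉₊ + 1 ≤ p := le_of_max_le_right hp1
    have h2 := Nat.le_ceil (C / δ)
    have h3 : ((⌈C / δ⌉₊ : ℕ) : ℚ) + 1 ≤ p := by exact_mod_cast h1
    linarith
  rw [div_lt_iff₀ hδ0] at c4
  have c5 : (1 : ℚ) ≤ p := by exact_mod_cast hpp.one_le
  nlinarith [mul_nonneg (sub_nonneg.2 c5) (mul_nonneg (by positivity : (0 : ℚ) ≤ p) hδ0.le)]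

theorem chi_semistable {r : ℕ} (hr : 0 < r) {γ : ZZ} {g : ℚ}
    (hg : g ≤ (n : ℚ) ^ 3 * II γ γ / (2 * r)) (h1 : (3 * n - 6 : ℚ) * r ≤ HA γ)
    (h2 : (HA γ : ℚ) ≤ (3 * n + 6) * r) (M : ℕ) :
    ∑ m ∈ Finset.Icc (-(M : ℤ)) M, RR n r γ g (cst m) ≤ r * XX n M := by
  have hrQ : (0 : ℚ) < r := by exact_mod_cast hr
  have e : ∀ m : ℤ, RR n r γ g (cst m) =
      (r * ((n : ℚ) ^ 3 * (7 / 12 * (n : ℚ) ^ 2 - 5 / 2 * n + 35 / 12)) -
        (n : ℚ) ^ 3 * ((n : ℚ) - 2) * HL γ / 2 + g) +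
      ((n : ℚ) ^ 3 * 2 * HL γ - r * (n : ℚ) ^ 3 * ((n : ℚ) - 2) * 5) * m +
      10 * r * (n : ℚ) ^ 3 * (m : ℚ) ^ 2 := by
    intro m
    simp only [RR, P0, II_comm γ (cst m), II_cst, HL_cst]
    push_cast
    ring
  rw [Finset.sum_congr rfl fun m _ => e m, sum_Icc_quad]
  have hz := hodge ((4 : ℤ) • γ + cst (-(r * (n - 2))))
  simp only [II_add_left, II_add_right, II_smul_left, II_smul_right, II_comm γ (cst _), II_cst,
    HL_cst, map_add, map_zsmul, HA_cst, smul_eq_mul] at hz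
  have hzQ := (Int.cast_le (R := ℚ)).2 hz
  push_cast at hzQ
  have h3 : (4 * (HA γ : ℚ) + 12 * -(r * (n - 2))) ^ 2 ≤ (48 * r) ^ 2 :=
    pow_le_pow_left₀ (by linarith) (by linarith) 2
  have h4 : (II γ γ : ℚ) / (2 * r) ≤
      ((n : ℚ) - 2) * HL γ / 2 - r * 20 * ((n : ℚ) / 2 - 1) ^ 2 / 8 + 12 * r := by
    rw [div_le_iff₀ (by positivity)]
    nlinarith
  have h5 : g ≤ (n : ℚ) ^ 3 *
      (((n : ℚ) - 2) * HL γ / 2 - r * 20 * ((n : ℚ) / 2 - 1) ^ 2 / 8 + 12 * r) := by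
    refine hg.trans ?_
    rw [mul_div_assoc]
    exact mul_le_mul_of_nonneg_left h4 (by positivity)
  have h6 := mul_le_mul_of_nonneg_left h5 (by positivity : (0 : ℚ) ≤ 2 * M + 1)
  simp only [XX]
  nlinarith

theorem chi_bound_aux (M : ℕ) (r : ℕ) : ∀ {V : Type} [AddCommGroup V] [Module (KK QQ) V]
    [Module QQ V] [IsScalarTower QQ (KK QQ) V] [FiniteDimensional (KK QQ) V] {U : Fam D.S V},
    finrank (KK QQ) V = r → U.FG → U.Spans → ∀ {g : ℚ}, HasRR n U g → U.MinGe HA (3 * n - 6) →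
    U.MaxLe HA (3 * n + 6) →
    ∑ m ∈ Finset.Icc (-(M : ℤ)) M, RR n r U.cl g (cst m) ≤ r * XX n M := by
  induction r using Nat.strong_induction_on with
  | _ r ih =>
  intro V _ _ _ _ _ U hr hU hs g hg hmin hmax
  rcases Nat.eq_zero_or_pos r with h0 | h0
  · subst h0
    have hcl : ∀ w, II U.cl w = II 0 w :=
      D.II_eq_of_unitDeg (by simpa using Fam.cl_of_finrank_zero (U := U) hr)
    have e : ∀ w, RR n (0 : ℕ) U.cl g w = g := fun w => by
      rw [RR_congr n _ _ hcl]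
      simp [RR, II]
    obtain ⟨m, hm⟩ := (hg 0).exists
    haveI : Subsingleton V := Module.finrank_zero_iff.1 hr
    rw [hr, e] at hm
    have : hh n U (0 + cst m) = 0 :=
      Finset.sum_eq_zero fun c _ => Module.finrank_zero_of_subsingleton
    rw [this] at hm
    rw [Finset.sum_congr rfl fun m _ => e (cst m), ← hm]
    simp
  obtain ⟨X, hX, hXm⟩ := Fam.exists_max_slope D.eff_HA hU hs (hr ▸ h0)
  have hXQ : (0 : ℚ) < finrank (KK QQ) X := by exact_mod_cast hX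
  have hrQ : (0 : ℚ) < r := by exact_mod_cast h0
  have hU₁ := hU.comap _ X.injective_subtype
  have hs₁ := hs.comap X.subtype
  have hU₂ := hU.map X.mkQ
  have hs₂ := hs.map _ X.mkQ_surjective
  obtain ⟨g₁, hg₁⟩ := exists_hasRR hU₁ hs₁
  obtain ⟨g₂, hg₂⟩ := exists_hasRR hU₂ hs₂
  have hex : Function.Exact X.subtype X.mkQ := LinearMap.exact_subtype_mkQ X
  have hgg := hg.unique (HasRR.add_exact hU hs _ _ X.injective_subtype X.mkQ_surjective hex hg₁ hg₂)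
  have hcl := D.II_eq_of_unitDeg
    (Fam.cl_add_exact hU hs _ _ X.injective_subtype X.mkQ_surjective hex)
  have hrk : finrank (KK QQ) (V ⧸ X) + finrank (KK QQ) X = r := hr ▸ X.finrank_quotient_add_finrank
  have hup : (U.sdeg HA X : ℚ) / finrank (KK QQ) X ≤ 3 * n + 6 := by
    rw [div_le_iff₀ hXQ]; exact hmax X
  have hlo : (3 * n - 6 : ℚ) ≤ (U.sdeg HA X : ℚ) / finrank (KK QQ) X := by
    have h1 := hmin ⊥
    have h2 := hXm ⊤
    rw [Fam.sdeg_bot D.eff_HA, finrank_bot, hr] at h1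
    rw [Fam.sdeg_top D.eff_HA hU hs, finrank_top, hr] at h2
    push_cast at h1
    refine le_of_mul_le_mul_right ?_ hrQ
    linarith
  have b1 := bogomolov D hU₁ hs₁ hX hg₁ (hXm.comap D.eff_HA hU hs _ X.injective_subtype)
  have s1 := chi_semistable hX b1 ((le_div_iff₀ hXQ).1 hlo) (hmax X) M
  have s2 := ih _ (by omega) rfl hU₂ hs₂ hg₂ (hmin.map D.eff_HA hU hs _ X.mkQ_surjective)
    ((hXm.map_of_max D.eff_HA hU hs _ X.mkQ_surjective (by
      rw [Submodule.ker_mkQ, div_mul_cancel₀ _ hXQ.ne'])).mono hup)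
  have e : ∀ w, RR n r U.cl g w =
      RR n (finrank (KK QQ) X) (U.comap X.subtype).cl g₁ w +
        RR n (finrank (KK QQ) (V ⧸ X)) (U.map X.mkQ).cl g₂ w := fun w => by
    rw [← RR_add, RR_congr n _ _ hcl, hgg, ← hrk]
    push_cast
    rw [add_comm (finrank (KK QQ) (V ⧸ X) : ℚ)]
  simp only [e, Finset.sum_add_distrib]
  rw [← hrk]
  push_cast
  linarith

theorem chi_bound {V : Type} [AddCommGroup V] [Module (KK QQ) V] [Module QQ V]
    [IsScalarTower QQ (KK QQ) V] [FiniteDimensional (KK QQ) V] {U : Fam D.S V} (hU : U.FG)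
    (hs : U.Spans) {g : ℚ} (hg : HasRR n U g) (hmin : U.MinGe HA (3 * n - 6))
    (hmax : U.MaxLe HA (3 * n + 6)) (M : ℕ) :
    ∑ m ∈ Finset.Icc (-(M : ℤ)) M, RR n (finrank (KK QQ) V) U.cl g (cst m) ≤
      finrank (KK QQ) V * XX n M :=
  chi_bound_aux D M _ rfl hU hs hg hmin hmax

end Vale.Agent.P190
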