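import Vale.Agent.P190.D0

/-! P190, part Cart1: logarithmic derivations and Cartier descent. -/

namespace Vale.Agent.P190

namespace Cart1

open MvPolynomial TrivSqZeroExt

variable (k : Type) [Field k]

/-- first order expansion of a polynomial -/
noncomputable def jet (i : Fin 2) : MvPolynomial (Fin 2) k →+* TrivSqZeroExt (KK k) (KK k) where
  toFun a := inl (algebraMap _ (KK k) a) + inr (algebraMap _ (KK k) (X i * pderiv i a))
  map_one' := by ext <;> simp
  map_mul' a b := by
    ext
    · simp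
    · simp only [snd_add, snd_inl, snd_inr, zero_add, snd_mul, fst_add, fst_inl, fst_inr,
        add_zero, pderiv_mul, map_add, map_mul, smul_eq_mul, MulOpposite.smul_eq_mul_unop,
        MulOpposite.unop_op]
      ring
  map_zero' := by ext <;> simp
  map_add' a b := by ext <;> simp [mul_add]

theorem jet_unit (i : Fin 2) (y : nonZeroDivisors (MvPolynomial (Fin 2) k)) :
    IsUnit (jet k i y) := by
  rw [isUnit_iff_isUnit_fst]
  simp [jet]

/-- first order expansion of a rational function -/
noncomputable def Jet (i : Fin 2) : KK k →+* TrivSqZeroExt (KK k) (KK k) :=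
  IsLocalization.lift (jet_unit k i)

theorem Jet_alg (i : Fin 2) (a : MvPolynomial (Fin 2) k) :
    Jet k i (algebraMap _ (KK k) a) = jet k i a := IsLocalization.lift_eq _ _

theorem fst_Jet (i : Fin 2) (φ : KK k) : (Jet k i φ).fst = φ := by
  have : (fstHom (KK k) (KK k) (KK k)).toRingHom.comp (Jet k i) = RingHom.id _ := by
    refine IsLocalization.ringHom_ext (nonZeroDivisors (MvPolynomial (Fin 2) k)) ?_
    refine RingHom.ext fun a => ?_
    simp [Jet_alg, jet]
  exact DFunLike.congr_fun this φ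

theorem snd_Jet_alg (i : Fin 2) (a : MvPolynomial (Fin 2) k) :
    (Jet k i (algebraMap _ (KK k) a)).snd = algebraMap _ (KK k) (X i * pderiv i a) := by
  simp [Jet_alg, jet]

theorem snd_Jet_mul (i : Fin 2) (φ ψ : KK k) :
    (Jet k i (φ * ψ)).snd = φ * (Jet k i ψ).snd + ψ * (Jet k i φ).snd := by
  rw [map_mul, snd_mul, fst_Jet, fst_Jet]
  simp [mul_comm]

/-- the logarithmic derivations -/
noncomputable def der (i : Fin 2) : Derivation k (KK k) (KK k) :=
  Derivation.mk'
    { toFun := fun φ => (Jet k i φ).snd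
      map_add' := fun φ ψ => by rw [map_add, snd_add]
      map_smul' := fun c φ => by
        rw [Algebra.smul_def, snd_Jet_mul,
          IsScalarTower.algebraMap_apply k (MvPolynomial (Fin 2) k) (KK k) c, snd_Jet_alg,
          ← IsScalarTower.algebraMap_apply]
        simp [Algebra.smul_def] }
    (snd_Jet_mul k i)

theorem der_alg (i : Fin 2) (a : MvPolynomial (Fin 2) k) :
    der k i (algebraMap _ (KK k) a) = algebraMap _ (KK k) (X i * pderiv i a) := snd_Jet_alg k i a

theorem der_ss : der k 0 (ss k) = ss k ∧ der k 1 (ss k) = 0 := by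
  simp [ss, der_alg]

theorem der_tt : der k 0 (tt k) = 0 ∧ der k 1 (tt k) = tt k := by
  simp [tt, der_alg]

variable {k}

theorem log_mul (d : Derivation k (KK k) (KK k)) {φ ψ : KK k} (h1 : φ ≠ 0) (h2 : ψ ≠ 0) :
    d (φ * ψ) / (φ * ψ) = d φ / φ + d ψ / ψ := by
  rw [d.leibniz]; simp only [smul_eq_mul]; field_simp; ring

theorem log_zpow (d : Derivation k (KK k) (KK k)) {φ : KK k} (h : φ ≠ 0) (z : ℤ) :
    d (φ ^ z) / φ ^ z = z • (d φ / φ) := by
  rw [d.leibniz_zpow, zpow_sub_one₀ h]
  have := zpow_ne_zero z h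
  simp only [smul_eq_mul, zsmul_eq_mul]
  field_simp

theorem der_umon (d : Derivation k (KK k) (KK k)) (c : Fin 5 → ℤ) :
    d (umon k c) = umon k c * ∑ j, c j • (d (uu k j) / uu k j) := by
  have h := fun j => zpow_ne_zero (c j) (uu_ne_zero (k := k) j)
  rw [mul_comm, ← div_eq_iff (umon_ne_zero c), umon, Fin.prod_univ_five, Fin.sum_univ_five,
    log_mul d (mul_ne_zero (mul_ne_zero (mul_ne_zero (h 0) (h 1)) (h 2)) (h 3)) (h 4),
    log_mul d (mul_ne_zero (mul_ne_zero (h 0) (h 1)) (h 2)) (h 3),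
    log_mul d (mul_ne_zero (h 0) (h 1)) (h 2), log_mul d (h 0) (h 1)]
  simp only [log_zpow d (uu_ne_zero _)]

theorem mem_bsh (n : ℕ) (c : Fin 5 → ℤ) (h : ∀ i, 0 ≤ bsh 1 i + lamv c i) :
    umon k c ∈ BB k n (bsh n) := by
  refine umon_mem_BB fun i => ?_
  have e : bsh n i = n * bsh 1 i := by fin_cases i <;> simp [bsh]
  rw [e, ← mul_add]
  exact mul_nonneg (Int.natCast_nonneg n) (h i)

theorem log_mem (n : ℕ) (i : Fin 2) (j : Fin 5) :
    der k i (uu k j) / uu k j ∈ BB k n (bsh n) := by
  have m0 := mem_bsh (k := k) n 0 (by decide)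
  have m1 := mem_bsh (k := k) n ![1, 0, -1, 0, 0] (by decide)
  have m2 := mem_bsh (k := k) n ![1, 0, 0, 0, -1] (by decide)
  have m3 := mem_bsh (k := k) n ![0, 1, 0, -1, 0] (by decide)
  have m4 := mem_bsh (k := k) n ![0, 1, 0, 0, -1] (by decide)
  rw [umon_zero] at m0
  rw [umon_eq] at m1 m2 m3 m4
  have h0 : ss k ≠ 0 := uu_ne_zero (k := k) 0
  have h1 : tt k ≠ 0 := uu_ne_zero (k := k) 1
  obtain ⟨a1, a2⟩ := der_ss k
  obtain ⟨a3, a4⟩ := der_tt k
  fin_cases i <;> fin_cases j
  · simpa [uu, a1, h0] using m0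
  · simp [uu, a3]
  · simpa [uu, a1, div_eq_mul_inv] using m1
  · simp [uu, a3]
  · simpa [uu, a1, a3, div_eq_mul_inv] using m2
  · simp [uu, a2]
  · simpa [uu, a4, h1] using m0
  · simp [uu, a2]
  · simpa [uu, a4, div_eq_mul_inv] using m3
  · simpa [uu, a2, a4, div_eq_mul_inv] using m4

theorem exists_root (p : ℕ) [Fact p.Prime] [CharP k p] [IsAlgClosed k]
    (H : MvPolynomial (Fin 2) k) (h : ∀ i, X i * pderiv i H = 0) :
    ∃ G : MvPolynomial (Fin 2) k, H = G ^ p := by
  classical
  have hp : 0 < p := (Fact.out : p.Prime).pos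
  have h1 : ∀ i m, coeff m (X i * pderiv i H) = (m i : k) * coeff m H := by
    intro i m
    clear h
    induction H using MvPolynomial.induction_on' with
    | monomial u a =>
      rw [X_mul_pderiv_monomial, coeff_smul, coeff_monomial]
      split_ifs with hu
      · subst hu; simp
      · simp
    | add f g hf hg => rw [map_add, mul_add, coeff_add, hf, hg, coeff_add, mul_add]
  have h2 : ∀ m ∈ H.support, ∀ i, p ∣ m i := by
    intro m hm i
    have := h1 i m
    rw [h i, coeff_zero] at this
    exact (CharP.cast_eq_zero_iff k p _).1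
      ((mul_eq_zero.1 this.symm).resolve_right (mem_support_iff.1 hm))
  choose r hr using fun c : k => IsAlgClosed.exists_pow_nat_eq c hp
  refine ⟨∑ m ∈ H.support, monomial (m.mapRange (· / p) (by simp)) (r (coeff m H)), ?_⟩
  rw [sum_pow_char]
  conv_lhs => rw [H.as_sum]
  refine Finset.sum_congr rfl fun m hm => ?_
  rw [monomial_pow, hr]
  congr 2
  ext i
  simp [Nat.mul_div_cancel' (h2 m hm i)]

end Cart1

open Cart1 in
theorem exists_der (k : Type) [Field k] : ∃ d : Fin 2 → Derivation k (KK k) (KK k),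
    (∀ i (n : ℕ) (a : ZZ) (φ : KK k), φ ∈ BB k n a → d i φ ∈ BB k n (a + bsh n)) ∧
    ∀ (p : ℕ) [Fact p.Prime] [CharP k p] [IsAlgClosed k] (φ : KK k), (∀ i, d i φ = 0) →
      ∃ ψ : KK k, φ = ψ ^ p := by
  refine ⟨der k, fun i n a φ hφ => ?_, fun p _ _ _ φ hφ => ?_⟩
  · induction hφ using Submodule.span_induction with
    | mem x hx =>
      obtain ⟨c, hc, rfl⟩ := hx
      rw [der_umon]
      exact mul_mem_BB (umon_mem_BB hc)
        (Submodule.sum_mem _ fun j _ => zsmul_mem (log_mem n i j) _)
    | zero => simp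
    | add x y _ _ hx hy => rw [map_add]; exact Submodule.add_mem _ hx hy
    | smul c x _ hx => rw [Derivation.map_smul]; exact Submodule.smul_mem _ c hx
  · have hinj := IsFractionRing.injective (MvPolynomial (Fin 2) k) (KK k)
    have : CharP (KK k) p := charP_of_injective_algebraMap hinj p
    have hp : 0 < p := (Fact.out : p.Prime).pos
    obtain ⟨a, b, hb, rfl⟩ := IsFractionRing.div_surjective (A := MvPolynomial (Fin 2) k) φ
    have hb0 : algebraMap _ (KK k) b ≠ 0 :=
      (map_ne_zero_iff _ hinj).2 (nonZeroDivisors.ne_zero hb)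
    have e : algebraMap _ (KK k) (a * b ^ (p - 1)) =
        algebraMap _ (KK k) a / algebraMap _ (KK k) b * algebraMap _ (KK k) b ^ p := by
      obtain ⟨q, rfl⟩ := Nat.exists_eq_succ_of_ne_zero hp.ne'
      rw [map_mul, map_pow, Nat.succ_sub_one, pow_succ]
      field_simp
    obtain ⟨G, hG⟩ := exists_root p (a * b ^ (p - 1)) fun i => by
      refine (map_eq_zero_iff _ hinj).1 ?_
      rw [← der_alg, e, Derivation.leibniz, hφ i, Derivation.leibniz_pow, smul_zero, add_zero,
        nsmul_eq_mul, CharP.cast_eq_zero, zero_mul, smul_zero]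
    refine ⟨algebraMap _ (KK k) G / algebraMap _ (KK k) b, ?_⟩
    rw [div_pow, ← map_pow, ← hG, e, mul_div_cancel_right₀ _ (pow_ne_zero _ hb0)]

theorem descent {k K J ι : Type} [Field k] [Field K] [Algebra k K] [Fintype ι] (p : ℕ)
    [Fact p.Prime] [CharP K p] (d : J → Derivation k K K)
    (hc : ∀ φ : K, (∀ j, d j φ = 0) → ∃ ψ : K, φ = ψ ^ p) (X : Submodule K (ι → K))
    (hX : ∀ j, ∀ v ∈ X, (fun i => d j (v i)) ∈ X) :
    ∃ X' : Submodule K (ι → K),
      X = Submodule.span K {w : ι → K | ∃ x ∈ X', w = fun i => x i ^ p} := by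
  classical
  have hp : p ≠ 0 := (Fact.out : p.Prime).ne_zero
  let X' : Submodule K (ι → K) :=
    { carrier := {x | (fun i => x i ^ p) ∈ X}
      zero_mem' := by
        have : (fun i => (0 : ι → K) i ^ p) = 0 := by funext i; simp [hp]
        change _ ∈ X
        rw [this]; exact X.zero_mem
      add_mem' := fun {x y} hx hy => by
        have : (fun i => (x + y) i ^ p) = (fun i => x i ^ p) + fun i => y i ^ p := by
          funext i; simp [add_pow_char]
        change _ ∈ X
        rw [this]; exact X.add_mem hx hy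
      smul_mem' := fun c x hx => by
        have : (fun i => (c • x) i ^ p) = c ^ p • fun i => x i ^ p := by
          funext i; simp [mul_pow]
        change _ ∈ X
        rw [this]; exact X.smul_mem _ hx }
  refine ⟨X', le_antisymm ?_ (Submodule.span_le.2 ?_)⟩
  swap
  · rintro _ ⟨x, hx, rfl⟩; exact hx
  set T := Submodule.span K {w : ι → K | ∃ x ∈ X', w = fun i => x i ^ p}
  have key : ∀ (s : Finset ι), ∀ v ∈ X, (∀ i, i ∉ s → v i = 0) → v ∈ T := by
    intro s
    induction s using Finset.strongInduction with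
    | H s ih =>
    intro v hv hs
    by_cases h0 : v = 0
    · rw [h0]; exact T.zero_mem
    obtain ⟨i₀, hi₀⟩ := Function.ne_iff.1 h0
    have hi₀ : v i₀ ≠ 0 := hi₀
    have m0 : i₀ ∈ s := by_contra fun h => hi₀ (hs _ h)
    set u := (v i₀)⁻¹ • v with hu
    have huX : u ∈ X := X.smul_mem _ hv
    by_cases h1 : ∀ j i, d j (u i) = 0
    · choose x hx using fun i => hc (u i) fun j => h1 j i
      have e : u = fun i => x i ^ p := funext hx
      have : u ∈ T := Submodule.subset_span ⟨x, by change _ ∈ X; rw [← e]; exact huX, e⟩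
      have := T.smul_mem (v i₀) this
      rwa [hu, smul_smul, mul_inv_cancel₀ hi₀, one_smul] at this
    push Not at h1
    obtain ⟨j, i₁, h1⟩ := h1
    set w : ι → K := fun i => d j (u i) with hw
    have hwX : w ∈ X := hX j u huX
    have hws : ∀ i, i ∉ s → w i = 0 := fun i hi => by simp [hw, hu, hs i hi]
    have m1 : i₁ ∈ s := by_contra fun h => h1 (hws _ h)
    have a1 : w ∈ T := ih (s.erase i₀) (Finset.erase_ssubset m0) w hwX fun i hi => by
      by_cases h : i = i₀
      · have : u i₀ = 1 := inv_mul_cancel₀ hi₀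
        change d j (u i) = 0
        rw [h, this, Derivation.map_one_eq_zero]
      · exact hws i fun h' => hi (Finset.mem_erase.2 ⟨h, h'⟩)
    have h1' : w i₁ ≠ 0 := h1
    have a2 : v - (v i₁ / w i₁) • w ∈ T := ih (s.erase i₁) (Finset.erase_ssubset m1) _
      (X.sub_mem hv (X.smul_mem _ hwX)) fun i hi => by
        by_cases h : i = i₁
        · rw [h, Pi.sub_apply, Pi.smul_apply, smul_eq_mul, div_mul_cancel₀ _ h1', sub_self]
        · have h2 : i ∉ s := fun h' => hi (Finset.mem_erase.2 ⟨h, h'⟩)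
          rw [Pi.sub_apply, Pi.smul_apply, hs i h2, hws i h2, smul_zero, sub_zero]
    simpa using T.add_mem a2 (T.smul_mem (v i₁ / w i₁) a1)
  exact fun v hv => key Finset.univ v hv fun i hi => absurd (Finset.mem_univ i) hi

end Vale.Agent.P190
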