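import Vale.Agent.P190.G1

/-! P190, part G2a: valuations, spanning, hull, free families. -/

namespace Vale.Agent.P190

open Module

variable {k K Γ : Type} [Field k] [Field K] [Algebra k K] [AddCommGroup Γ]

namespace Sys

variable {S : Sys k K Γ}

theorem val_inv (P : S.Pl) (a : Γ) {φ : K} (h : φ ≠ 0) : S.val P (-a) φ⁻¹ = -S.val P a φ := by
  have h1 := S.val_mul P a (-a) φ φ⁻¹ h (inv_ne_zero h)
  rw [add_neg_cancel, mul_inv_cancel₀ h, S.val_one] at h1
  omega

theorem val_neg (P : S.Pl) (a : Γ) {φ : K} (h : φ ≠ 0) : S.val P a (-φ) = S.val P a φ := by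
  have h1 := S.val_mul P 0 a (-1) φ (by simp) h
  have h2 := S.val_const P (-1) (by simp)
  rw [map_neg, map_one] at h2
  rw [zero_add, neg_one_mul, h2, zero_add] at h1
  exact h1

theorem val_pow (P : S.Pl) (a : Γ) {φ : K} (h : φ ≠ 0) (j : ℕ) :
    S.val P (j • a) (φ ^ j) = j * S.val P a φ := by
  induction j with
  | zero => simpa using S.val_one P
  | succ j ih =>
    rw [succ_nsmul, pow_succ, S.val_mul P _ _ _ _ (pow_ne_zero j h) h, ih]
    push_cast; ring

theorem val_prod (P : S.Pl) {ι : Type} (s : Finset ι) (a : ι → Γ) (φ : ι → K)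
    (h : ∀ i ∈ s, φ i ≠ 0) :
    S.val P (∑ i ∈ s, a i) (∏ i ∈ s, φ i) = ∑ i ∈ s, S.val P (a i) (φ i) := by
  classical
  induction s using Finset.induction_on with
  | empty => simpa using S.val_one P
  | insert j s hj ih =>
    have h' : ∀ i ∈ s, φ i ≠ 0 := fun i hi => h i (Finset.mem_insert_of_mem hi)
    rw [Finset.sum_insert hj, Finset.prod_insert hj, Finset.sum_insert hj,
      S.val_mul P _ _ _ _ (h j (Finset.mem_insert_self _ _)) (Finset.prod_ne_zero_iff.2 h'), ih h']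

theorem Ge.mono {P : S.Pl} {a : Γ} {φ : K} {t t' : ℤ} (h : S.Ge P a φ t) (ht : t' ≤ t) :
    S.Ge P a φ t' := by
  exact h.imp id fun h => ht.trans h

theorem Ge.add {P : S.Pl} {a : Γ} {φ ψ : K} {t : ℤ} (h : S.Ge P a φ t) (h' : S.Ge P a ψ t) :
    S.Ge P a (φ + ψ) t := by
  by_cases h1 : φ = 0
  · simpa [h1] using h'
  by_cases h2 : ψ = 0
  · simpa [h2] using h
  by_cases h3 : φ + ψ = 0
  · exact Or.inl h3
  exact Or.inr ((le_min (h.resolve_left h1) (h'.resolve_left h2)).trans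
    (S.val_add P a φ ψ h1 h2 h3))

theorem Ge.neg {P : S.Pl} {a : Γ} {φ : K} {t : ℤ} (h : S.Ge P a φ t) : S.Ge P a (-φ) t := by
  by_cases h1 : φ = 0
  · exact Or.inl (by simp [h1])
  · exact Or.inr (by rw [val_neg P a h1]; exact h.resolve_left h1)

theorem Ge.smul {P : S.Pl} {a : Γ} {φ : K} {t : ℤ} (h : S.Ge P a φ t) (c : k) :
    S.Ge P a (c • φ) t := by
  by_cases h1 : φ = 0
  · exact Or.inl (by simp [h1])
  by_cases h2 : c = 0
  · exact Or.inl (by simp [h2])
  have h3 := S.val_mul P 0 a (algebraMap k K c) φ (by simpa using h2) h1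
  rw [zero_add, S.val_const P c h2, zero_add, ← Algebra.smul_def] at h3
  exact Or.inr (by rw [h3]; exact h.resolve_left h1)

theorem Ge.mul {P : S.Pl} {a b : Γ} {φ ψ : K} {t t' : ℤ} (h : S.Ge P a φ t)
    (h' : S.Ge P b ψ t') : S.Ge P (a + b) (φ * ψ) (t + t') := by
  by_cases h1 : φ = 0
  · exact Or.inl (by simp [h1])
  by_cases h2 : ψ = 0
  · exact Or.inl (by simp [h2])
  exact Or.inr (by
    rw [S.val_mul P a b φ ψ h1 h2]
    exact add_le_add (h.resolve_left h1) (h'.resolve_left h2))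

theorem Ge.sum {P : S.Pl} {a : Γ} {ι : Type} (s : Finset ι) {φ : ι → K} {t : ℤ}
    (h : ∀ i ∈ s, S.Ge P a (φ i) t) : S.Ge P a (∑ i ∈ s, φ i) t := by
  classical
  induction s using Finset.induction_on with
  | empty => exact Or.inl (by simp)
  | insert j s hj ih =>
    rw [Finset.sum_insert hj]
    exact (h j (Finset.mem_insert_self _ _)).add (ih fun i hi => h i (Finset.mem_insert_of_mem hi))

theorem Ge.prod {P : S.Pl} {ι : Type} (s : Finset ι) {a : ι → Γ} {φ : ι → K} {t : ι → ℤ}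
    (h : ∀ i ∈ s, S.Ge P (a i) (φ i) (t i)) :
    S.Ge P (∑ i ∈ s, a i) (∏ i ∈ s, φ i) (∑ i ∈ s, t i) := by
  classical
  induction s using Finset.induction_on with
  | empty => exact Or.inr (by simpa using (S.val_one P).ge)
  | insert j s hj ih =>
    rw [Finset.sum_insert hj, Finset.sum_insert hj, Finset.prod_insert hj]
    exact (h j (Finset.mem_insert_self _ _)).mul (ih fun i hi => h i (Finset.mem_insert_of_mem hi))

/-- cancelling a local unit -/
theorem Ge.of_unit_mul {P : S.Pl} {a b : Γ} {f φ : K} {t : ℤ} (hf : f ≠ 0)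
    (hv : S.val P b f = 0) (h : S.Ge P (b + a) (f * φ) t) : S.Ge P a φ t := by
  by_cases h1 : φ = 0
  · exact Or.inl h1
  have h2 := h.resolve_left (mul_ne_zero hf h1)
  rw [S.val_mul P b a f φ hf h1, hv, zero_add] at h2
  exact Or.inr h2

theorem ge_det (P : S.Pl) {ι : Type} [Fintype ι] [DecidableEq ι] (M : Matrix ι ι K)
    (r c : ι → Γ) (t : ι → ℤ) (h : ∀ i j, S.Ge P (c j - r i) (M i j) (t i)) :
    S.Ge P (∑ j, c j - ∑ i, r i) M.det (∑ i, t i) := by
  rw [Matrix.det_apply]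
  refine Ge.sum _ fun σ _ => ?_
  have h1 := Ge.prod (P := P) Finset.univ (a := fun i => c i - r (σ i)) (φ := fun i => M (σ i) i)
    (t := fun i => t (σ i)) fun i _ => h (σ i) i
  rw [Finset.sum_sub_distrib, Equiv.sum_comp σ r, Equiv.sum_comp σ t] at h1
  rcases Int.units_eq_one_or (Equiv.Perm.sign σ) with e | e <;> rw [e]
  · simpa using h1
  · simpa using h1.neg

theorem mem_iff_ge {a : Γ} {φ : K} : φ ∈ S.B a ↔ ∀ P, S.Ge P a φ 0 := by
  by_cases h : φ = 0
  · subst h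
    exact ⟨fun _ _ => Or.inl rfl, fun _ => Submodule.zero_mem _⟩
  · rw [S.mem_iff a φ h]
    exact ⟨fun h1 P => Or.inr (h1 P), fun h1 P => (h1 P).resolve_left h⟩

open Classical in
theorem exists_prod_prime (T : Finset S.Pl) (n : ℕ) :
    ∃ b, ∃ f : K, f ≠ 0 ∧ ∀ R, S.val R b f = if R ∈ T then (n : ℤ) else 0 := by
  induction T using Finset.induction_on with
  | empty => exact ⟨0, 1, one_ne_zero, fun R => by simpa using S.val_one R⟩
  | insert Q T hQ ih =>
    obtain ⟨b, f, hf, h1⟩ := ih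
    obtain ⟨a, g, hg, h2, h3⟩ := S.prime Q
    refine ⟨n • a + b, g ^ n * f, mul_ne_zero (pow_ne_zero n hg) hf, fun R => ?_⟩
    rw [S.val_mul R _ _ _ _ (pow_ne_zero n hg) hf, val_pow R a hg, h1]
    by_cases hR : R = Q
    · subst hR; simp [h2, hQ]
    · simp [h3 R hR, hR]

theorem clear_on (D : S.Pl → Prop) {ι : Type} [Finite ι] (a : ι → Γ) (φ : ι → K)
    (h : ∀ P, D P → ∀ i, S.Ge P (a i) (φ i) 0) :
    ∃ b, ∃ f : K, f ≠ 0 ∧ f ∈ S.B b ∧ (∀ P, D P → S.val P b f = 0) ∧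
      ∀ i, f * φ i ∈ S.B (b + a i) := by
  classical
  have hT : {Q | ¬ D Q ∧ ∃ i, φ i ≠ 0 ∧ S.val Q (a i) (φ i) ≠ 0}.Finite := by
    refine (Set.finite_iUnion fun i : {i // φ i ≠ 0} => S.fin_supp (a i) (φ i) i.2).subset ?_
    rintro Q ⟨-, i, h1, h2⟩
    exact Set.mem_iUnion.2 ⟨⟨i, h1⟩, h2⟩
  obtain ⟨n, hn⟩ := Finite.exists_le fun q : hT.toFinset × ι => (-S.val q.1 (a q.2) (φ q.2)).toNat
  obtain ⟨b, f, hf, h1⟩ := exists_prod_prime hT.toFinset n
  refine ⟨b, f, hf, (S.mem_iff b f hf).2 fun P => ?_, fun P hP => ?_, fun i => ?_⟩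
  · rw [h1]; split_ifs <;> simp
  · rw [h1, if_neg]
    simp [hP]
  · by_cases h2 : φ i = 0
    · simp [h2]
    refine (S.mem_iff _ _ (mul_ne_zero hf h2)).2 fun P => ?_
    rw [S.val_mul P _ _ _ _ hf h2, h1]
    split_ifs with h3
    · have := hn (⟨P, h3⟩, i)
      simp only at this
      omega
    · by_cases hP : D P
      · simpa using (h P hP i).resolve_left h2
      · have : S.val P (a i) (φ i) = 0 := by
          by_contra h4
          exact h3 (hT.mem_toFinset.2 ⟨hP, i, h2, h4⟩)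
        simp [this]

/-- clearing denominators away from `P` -/
theorem clear (P : S.Pl) {ι : Type} [Finite ι] (a : ι → Γ) (φ : ι → K)
    (h : ∀ i, S.Ge P (a i) (φ i) 0) :
    ∃ b, ∃ f : K, f ≠ 0 ∧ f ∈ S.B b ∧ S.val P b f = 0 ∧ ∀ i, f * φ i ∈ S.B (b + a i) := by
  obtain ⟨b, f, h1, h2, h3, h4⟩ := clear_on (fun Q => Q = P) a φ (by rintro _ rfl; exact h)
  exact ⟨b, f, h1, h2, h3 P rfl, h4⟩

/-- clearing all denominators -/
theorem den {ι : Type} [Finite ι] (a : ι → Γ) (φ : ι → K) :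
    ∃ b, ∃ f : K, f ≠ 0 ∧ f ∈ S.B b ∧ ∀ i, f * φ i ∈ S.B (b + a i) := by
  obtain ⟨b, f, h1, h2, -, h4⟩ := clear_on (S := S) (fun _ => False) a φ (fun _ h => h.elim)
  exact ⟨b, f, h1, h2, h4⟩

theorem UnitDeg.zero : S.UnitDeg 0 := by
  exact ⟨1, one_ne_zero, S.val_one⟩

theorem UnitDeg.neg {a : Γ} (h : S.UnitDeg a) : S.UnitDeg (-a) := by
  obtain ⟨φ, h1, h2⟩ := h
  exact ⟨φ⁻¹, inv_ne_zero h1, fun P => by rw [val_inv P a h1, h2, neg_zero]⟩

theorem UnitDeg.add {a b : Γ} (h : S.UnitDeg a) (h' : S.UnitDeg b) : S.UnitDeg (a + b) := by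
  obtain ⟨φ, h1, h2⟩ := h
  obtain ⟨ψ, h3, h4⟩ := h'
  exact ⟨φ * ψ, mul_ne_zero h1 h3, fun P => by rw [S.val_mul P a b φ ψ h1 h3, h2, h4, add_zero]⟩

theorem UnitDeg.nsmul {a : Γ} (h : S.UnitDeg a) (j : ℕ) : S.UnitDeg (j • a) := by
  obtain ⟨φ, h1, h2⟩ := h
  exact ⟨φ ^ j, pow_ne_zero j h1, fun P => by rw [val_pow P a h1, h2, mul_zero]⟩

theorem UnitDeg.eff {a : Γ} (h : S.UnitDeg a) : S.Eff a := by
  obtain ⟨φ, h1, h2⟩ := h
  exact ⟨φ, h1, (S.mem_iff a φ h1).2 fun P => (h2 P).ge⟩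

theorem Eff.add {a b : Γ} (h : S.Eff a) (h' : S.Eff b) : S.Eff (a + b) := by
  obtain ⟨φ, h1, h2⟩ := h
  obtain ⟨ψ, h3, h4⟩ := h'
  exact ⟨φ * ψ, mul_ne_zero h1 h3, S.mul_mem h2 h4⟩

theorem UnitDeg.finrank_fam {V : Type} [AddCommGroup V] [Module K V] [Module k V]
    [IsScalarTower k K V] (U : Fam S V) {a : Γ} (h : S.UnitDeg a) (b : Γ) :
    finrank k (U.U (b + a)) = finrank k (U.U b) := by
  obtain ⟨φ, h1, h2⟩ := h
  have h3 : φ ∈ S.B a := (S.mem_iff a φ h1).2 fun P => (h2 P).ge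
  have h4 : φ⁻¹ ∈ S.B (-a) := (S.mem_iff _ _ (inv_ne_zero h1)).2 fun P => by
    rw [val_inv P a h1, h2, neg_zero]
  let e : V ≃ₗ[k] V := (LinearEquiv.smulOfNeZero K V φ h1).restrictScalars k
  have h5 : (U.U b).map (e : V →ₗ[k] V) = U.U (b + a) := by
    apply le_antisymm
    · rintro _ ⟨v, hv, rfl⟩
      rw [add_comm]
      exact U.smul_mem a b φ v h3 hv
    · intro v hv
      refine ⟨φ⁻¹ • v, ?_, ?_⟩
      · have := U.smul_mem (-a) (b + a) φ⁻¹ v h4 hv
        rwa [show -a + (b + a) = b by abel] at this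
      · change φ • φ⁻¹ • v = v
        rw [smul_smul, mul_inv_cancel₀ h1, one_smul]
  rw [← h5, LinearEquiv.finrank_map_eq]

theorem UnitDeg.finrank_eq {a : Γ} (h : S.UnitDeg a) (b : Γ) :
    finrank k (S.B (b + a)) = finrank k (S.B b) := by
  exact h.finrank_fam S.fam b

end Sys

namespace Fam

variable {S : Sys k K Γ}
variable {V : Type} [AddCommGroup V] [Module K V] [Module k V] [IsScalarTower k K V]
variable {W : Type} [AddCommGroup W] [Module K W] [Module k W] [IsScalarTower k K W]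

theorem finrank_unit (U : Fam S V) {a : Γ} (h : S.UnitDeg a) (b : Γ) :
    finrank k (U.U (b + a)) = finrank k (U.U b) := by
  exact h.finrank_fam U b

omit [IsScalarTower k K V] in
theorem Spans.mono {U U' : Fam S V} (h : U.Spans) (hle : U ≤ U') : U'.Spans := by
  unfold Spans at h ⊢
  rw [eq_top_iff, ← h]
  exact Submodule.span_mono fun v ⟨a, ha⟩ => ⟨a, hle a ha⟩

omit [IsScalarTower k K V] in
/-- every vector has a nonzero multiple in the family -/
theorem Spans.exists_smul_mem {U : Fam S V} (h : U.Spans) (a : Γ) (v : V) :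
    ∃ b, ∃ f : K, f ≠ 0 ∧ f ∈ S.B b ∧ f • v ∈ U.U (b + a) := by
  have hv : v ∈ Submodule.span K {v | ∃ a, v ∈ U.U a} := by rw [h]; trivial
  induction hv using Submodule.span_induction with
  | mem x hx =>
    obtain ⟨a0, hx⟩ := hx
    obtain ⟨b, f, h1, h2, h3⟩ := Sys.den (S := S) (ι := Unit) (fun _ => a - a0) (fun _ => 1)
    refine ⟨b, f, h1, h2, ?_⟩
    have := U.smul_mem _ _ _ x (h3 ()) hx
    rwa [mul_one, show b + (a - a0) + a0 = b + a by abel] at this
  | zero => exact ⟨0, 1, one_ne_zero, S.one_mem, by simp⟩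
  | add x y _ _ hx hy =>
    obtain ⟨b, f, h1, h2, h3⟩ := hx
    obtain ⟨b', f', h1', h2', h3'⟩ := hy
    refine ⟨b + b', f * f', mul_ne_zero h1 h1', S.mul_mem h2 h2', ?_⟩
    rw [smul_add]
    refine Submodule.add_mem _ ?_ ?_
    · have := U.smul_mem b' (b + a) f' _ h2' h3
      rwa [smul_smul, mul_comm f' f, show b' + (b + a) = b + b' + a by abel] at this
    · have := U.smul_mem b (b' + a) f _ h2 h3'
      rwa [smul_smul, ← add_assoc] at this
  | smul c x _ hx =>
    obtain ⟨b, f, h1, h2, h3⟩ := hx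
    obtain ⟨b', f', h1', h2', h3'⟩ := Sys.den (S := S) (ι := Unit) (fun _ => 0) (fun _ => c)
    refine ⟨b' + b, f' * f, mul_ne_zero h1' h1, S.mul_mem h2' h2, ?_⟩
    have := U.smul_mem _ _ _ _ (h3' ()) h3
    rwa [smul_smul, add_zero, ← add_assoc, show f' * c * f = f' * f * c by ring, ← smul_smul]
      at this

omit [IsScalarTower k K V] in
theorem spans_of_smul {U : Fam S V} (h : ∀ v : V, ∃ a, ∃ f : K, f ≠ 0 ∧ f • v ∈ U.U a) :
    U.Spans := by
  unfold Spans
  rw [eq_top_iff]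
  intro v _
  obtain ⟨a, f, h1, h2⟩ := h v
  have := Submodule.smul_mem (Submodule.span K {v | ∃ a, v ∈ U.U a}) f⁻¹
    (Submodule.subset_span ⟨a, h2⟩)
  rwa [smul_smul, inv_mul_cancel₀ h1, one_smul] at this

theorem Spans.comap {U : Fam S V} (h : U.Spans) (f : W →ₗ[K] V) : (U.comap f).Spans := by
  refine spans_of_smul fun w => ?_
  obtain ⟨b, g, h1, -, h3⟩ := h.exists_smul_mem 0 (f w)
  exact ⟨b + 0, g, h1, by simpa [Fam.comap] using h3⟩

theorem Spans.map {U : Fam S V} (h : U.Spans) (f : V →ₗ[K] W) (hf : Function.Surjective f) :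
    (U.map f).Spans := by
  refine spans_of_smul fun w => ?_
  obtain ⟨v, rfl⟩ := hf w
  obtain ⟨b, g, h1, -, h3⟩ := h.exists_smul_mem 0 v
  exact ⟨b + 0, g, h1, g • v, h3, by simp⟩

omit [IsScalarTower k K V] in
theorem Spans.shift {U : Fam S V} (h : U.Spans) (w : Γ) : (U.shift w).Spans := by
  refine spans_of_smul fun v => ?_
  obtain ⟨b, g, h1, -, h3⟩ := h.exists_smul_mem w v
  exact ⟨b, g, h1, h3⟩

omit [IsScalarTower k K V] in
theorem locMem_of_mem {U : Fam S V} (P : S.Pl) {a : Γ} {v : V} (h : v ∈ U.U a) :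
    U.LocMem P a v := by
  exact ⟨0, 1, one_ne_zero, S.one_mem, S.val_one P, by simpa using h⟩

omit [IsScalarTower k K V] in
theorem LocMem.trans {U U' : Fam S V} {P : S.Pl} {a : Γ} {v : V} (h : U.LocMem P a v)
    (hU : ∀ b x, x ∈ U.U b → U'.LocMem P b x) : U'.LocMem P a v := by
  obtain ⟨b, f, h1, h2, h3, h4⟩ := h
  obtain ⟨b', f', h1', h2', h3', h4'⟩ := hU _ _ h4
  refine ⟨b' + b, f' * f, mul_ne_zero h1' h1, S.mul_mem h2' h2, ?_, ?_⟩
  · rw [S.val_mul P _ _ _ _ h1' h1, h3, h3', add_zero]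
  · rwa [smul_smul, ← add_assoc] at h4'

theorem le_hull (U : Fam S V) : U ≤ U.hull := by
  exact fun a v hv P => locMem_of_mem P hv

theorem locMem_hull {U : Fam S V} {P : S.Pl} {a : Γ} {v : V} :
    U.hull.LocMem P a v ↔ U.LocMem P a v := by
  exact ⟨fun h => h.trans fun b x hx => hx P,
    fun h => h.trans fun b x hx => locMem_of_mem P (U.le_hull b hx)⟩

omit [IsScalarTower k K V] in
theorem IsOpt.locMem_iff {U : Fam S V} {P : S.Pl} {ι : Type} [Finite ι] {b : Basis ι K V}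
    {d : ι → Γ} (hb : U.IsOpt P b d) (a : Γ) (v : V) :
    U.LocMem P a v ↔ ∀ i, S.Ge P (a - d i) (b.repr v i) 0 := by
  constructor
  · rintro ⟨c, f, h1, -, h3, h4⟩ i
    have h5 := hb.2 _ _ h4 i
    rw [map_smul, Finsupp.smul_apply, smul_eq_mul, add_sub_assoc] at h5
    exact h5.of_unit_mul h1 h3
  · intro h
    obtain ⟨c, f, h1, h2, h3, h4⟩ := Sys.clear P _ _ h
    refine ⟨c, f, h1, h2, h3, ?_⟩
    have := Fintype.ofFinite ι
    rw [← b.sum_repr v, Finset.smul_sum]
    refine Submodule.sum_mem _ fun i _ => ?_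
    have h5 := U.smul_mem _ _ _ _ (h4 i) (hb.1 i)
    rwa [mul_smul, show c + (a - d i) + d i = c + a by abel] at h5

theorem mem_free {ι : Type} [Finite ι] (e : Basis ι K V) (d : ι → Γ) (a : Γ) (v : V) :
    v ∈ (free S e d).U a ↔ ∀ i, e.repr v i ∈ S.B (a - d i) := by
  classical
  constructor
  · intro hv i
    induction hv using Submodule.span_induction with
    | mem x hx =>
      obtain ⟨_, ⟨j, rfl⟩, φ, h1, rfl⟩ := hx
      by_cases hij : j = i
      · subst hij; simpa using h1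
      · simp [hij]
    | zero => simp
    | add x y _ _ hx hy => rw [map_add]; exact Submodule.add_mem _ hx hy
    | smul c x _ hx =>
      rw [← algebraMap_smul K c x, map_smul, Finsupp.smul_apply, smul_eq_mul, ← Algebra.smul_def]
      exact Submodule.smul_mem _ c hx
  · intro h
    have := Fintype.ofFinite ι
    rw [← e.sum_repr v]
    exact Submodule.sum_mem _ fun i _ => Submodule.subset_span ⟨_, ⟨i, rfl⟩, _, h i, rfl⟩

theorem free_FG {ι : Type} [Finite ι] (e : Basis ι K V) (d : ι → Γ) : (free S e d).FG := by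
  exact ⟨_, Set.finite_range _, rfl⟩

theorem basis_mem_free {ι : Type} (e : Basis ι K V) (d : ι → Γ) (i : ι) :
    e i ∈ (free S e d).U (d i) :=
  Submodule.subset_span ⟨_, ⟨i, rfl⟩, 1, by simpa using S.one_mem, by simp⟩

theorem free_spans {ι : Type} (e : Basis ι K V) (d : ι → Γ) : (free S e d).Spans := by
  unfold Spans
  rw [eq_top_iff, ← e.span_eq]
  refine Submodule.span_mono ?_
  rintro _ ⟨i, rfl⟩
  exact ⟨d i, basis_mem_free e d i⟩

theorem free_isOpt {ι : Type} [Finite ι] (e : Basis ι K V) (d : ι → Γ) (P : S.Pl) :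
    (free S e d).IsOpt P e d := by
  exact ⟨basis_mem_free e d, fun a v hv i => Sys.mem_iff_ge.1 ((mem_free e d a v).1 hv i) P⟩

theorem finrank_free {ι : Type} [Fintype ι] (e : Basis ι K V) (d : ι → Γ) (a : Γ) :
    finrank k ((free S e d).U a) = ∑ i, finrank k (S.B (a - d i)) := by
  have := fun i => S.fd (a - d i)
  let f : (free S e d).U a →ₗ[k] (∀ i, S.B (a - d i)) :=
    { toFun := fun v i => ⟨e.repr v i, (mem_free e d a v).1 v.2 i⟩
      map_add' := fun x y => by ext i; simp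
      map_smul' := fun c x => by
        ext i
        simp only [SetLike.val_smul, RingHom.id_apply, Pi.smul_apply]
        rw [← algebraMap_smul K c (x : V), map_smul, Finsupp.smul_apply, smul_eq_mul,
          ← Algebra.smul_def] }
  have hf : Function.Bijective f := by
    constructor
    · intro x y hxy
      refine Subtype.ext (e.ext_elem fun i => ?_)
      exact congrArg Subtype.val (congrFun hxy i)
    · intro g
      refine ⟨⟨e.equivFun.symm fun i => g i, (mem_free e d a _).2 fun i => ?_⟩, ?_⟩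
      · rw [← e.equivFun_apply, LinearEquiv.apply_symm_apply]; exact (g i).2
      · ext i
        change e.repr (e.equivFun.symm fun i => g i) i = g i
        rw [← e.equivFun_apply, LinearEquiv.apply_symm_apply]
  rw [(LinearEquiv.ofBijective f hf).finrank_eq, Module.finrank_pi_fintype]

theorem FG.exists_den {U : Fam S V} (hU : U.FG) {ι : Type} [Finite ι] (e : Basis ι K V) :
    ∃ f : K, f ≠ 0 ∧ ∃ d : Γ, ∀ a v, v ∈ U.hull.U a → ∀ i, f * e.repr v i ∈ S.B (a - d) := by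
  obtain ⟨G, hG, rfl⟩ := hU
  have := hG.to_subtype
  obtain ⟨b, f, h1, -, h3⟩ := Sys.den (S := S) (ι := G × ι) (fun q => q.1.1.1)
    (fun q => e.repr q.1.1.2 q.2)
  have key : ∀ a v, v ∈ (gen S G).U a → ∀ i, f * e.repr v i ∈ S.B (a + b) := by
    intro a v hv i
    induction hv using Submodule.span_induction with
    | mem x hx =>
      obtain ⟨p, hp, φ, h4, rfl⟩ := hx
      have h5 := S.mul_mem h4 (h3 (⟨p, hp⟩, i))
      rw [map_smul, Finsupp.smul_apply, smul_eq_mul, mul_left_comm]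
      rwa [show a - p.1 + (b + p.1) = a + b by abel] at h5
    | zero => simp
    | add x y _ _ hx hy =>
      rw [map_add, Finsupp.add_apply, mul_add]; exact Submodule.add_mem _ hx hy
    | smul c x _ hx =>
      rw [← algebraMap_smul K c x, map_smul, Finsupp.smul_apply, smul_eq_mul, mul_left_comm,
        ← Algebra.smul_def]
      exact Submodule.smul_mem _ c hx
  refine ⟨f, h1, -b, fun a v hv i => Sys.mem_iff_ge.2 fun P => ?_⟩
  obtain ⟨c, g, g1, -, g3, g4⟩ := hv P
  have h6 := Sys.mem_iff_ge.1 (key _ _ g4 i) P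
  rw [map_smul, Finsupp.smul_apply, smul_eq_mul, mul_left_comm, add_assoc] at h6
  rw [sub_neg_eq_add]
  exact h6.of_unit_mul g1 g3

theorem FG.exists_le_free {U : Fam S V} (hU : U.FG) {ι : Type} [Finite ι] (e : Basis ι K V) :
    ∃ (e' : Basis ι K V) (d : ι → Γ), U.hull ≤ free S e' d := by
  obtain ⟨f, h1, d, h2⟩ := hU.exists_den e
  refine ⟨e.unitsSMul fun _ => (Units.mk0 f h1)⁻¹, fun _ => d, fun a v hv => ?_⟩
  refine (mem_free _ _ a v).2 fun i => ?_
  rw [Basis.repr_unitsSMul]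
  simpa [Units.smul_def] using h2 a v hv i

variable [FiniteDimensional K V] [FiniteDimensional K W]

theorem FG.hull {U : Fam S V} (hU : U.FG) : U.hull.FG := by
  obtain ⟨e, d, h⟩ := hU.exists_le_free (Module.finBasis K V)
  exact (free_FG e d).of_le h

theorem Spans.exists_free_le {U : Fam S V} (hs : U.Spans) :
    ∃ (e : Basis (Fin (finrank K V)) K V) (d : Fin (finrank K V) → Γ), free S e d ≤ U := by
  choose b f h1 h2 h3 using fun i => hs.exists_smul_mem 0 (Module.finBasis K V i)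
  refine ⟨(Module.finBasis K V).unitsSMul fun i => Units.mk0 (f i) (h1 i), fun i => b i + 0, ?_⟩
  refine gen_le.2 ?_
  rintro _ ⟨i, rfl⟩
  simpa [Basis.unitsSMul_apply, Units.smul_def] using h3 i

end Fam

end Vale.Agent.P190
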