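import Vale.Agent.P190.EDefs
import Vale.Agent.P190.G2a

/-! P190, part D0: elementary facts on the del Pezzo data. -/

namespace Vale.Agent.P190

open Module Filter

theorem sum_ten {M : Type} [AddCommMonoid M] (f : Fin 10 → M) :
    ∑ i, f i = f 0 + f 1 + f 2 + f 3 + f 4 + f 5 + f 6 + f 7 + f 8 + f 9 := by
  simp only [Fin.sum_univ_castSucc, Fin.sum_univ_zero, zero_add]
  rfl

theorem lamv_eq (c : Fin 5 → ℤ) : lamv c = ![c 0, c 0 + c 1 + c 4, c 1, -c 0 - c 2 - c 4,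
    -c 0 - c 1 - c 2 - c 3 - c 4, -c 1 - c 3 - c 4, c 2, c 3, c 4, c 2 + c 3 + c 4] := by
  funext i
  fin_cases i <;> simp [lamv, lam, Fin.sum_univ_five] <;> ring

theorem lamv_at0 (c : Fin 5 → ℤ) : lamv c 0 = c 0 := by rw [lamv_eq]; rfl
theorem lamv_at1 (c : Fin 5 → ℤ) : lamv c 1 = c 0 + c 1 + c 4 := by rw [lamv_eq]; rfl
theorem lamv_at2 (c : Fin 5 → ℤ) : lamv c 2 = c 1 := by rw [lamv_eq]; rfl
theorem lamv_at3 (c : Fin 5 → ℤ) : lamv c 3 = -c 0 - c 2 - c 4 := by rw [lamv_eq]; rfl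
theorem lamv_at4 (c : Fin 5 → ℤ) : lamv c 4 = -c 0 - c 1 - c 2 - c 3 - c 4 := by
  rw [lamv_eq]; rfl
theorem lamv_at5 (c : Fin 5 → ℤ) : lamv c 5 = -c 1 - c 3 - c 4 := by rw [lamv_eq]; rfl
theorem lamv_at6 (c : Fin 5 → ℤ) : lamv c 6 = c 2 := by rw [lamv_eq]; rfl
theorem lamv_at7 (c : Fin 5 → ℤ) : lamv c 7 = c 3 := by rw [lamv_eq]; rfl
theorem lamv_at8 (c : Fin 5 → ℤ) : lamv c 8 = c 4 := by rw [lamv_eq]; rfl
theorem lamv_at9 (c : Fin 5 → ℤ) : lamv c 9 = c 2 + c 3 + c 4 := by rw [lamv_eq]; rfl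

theorem lamv_zero : lamv 0 = 0 := by
  funext i; simp [lamv]

theorem lamv_add (c c' : Fin 5 → ℤ) : lamv (c + c') = lamv c + lamv c' := by
  funext i; simp [lamv, add_mul, Finset.sum_add_distrib]

theorem lamv_neg (c : Fin 5 → ℤ) : lamv (-c) = -lamv c := by
  funext i; simp [lamv]

theorem lamv_smul (t : ℤ) (c : Fin 5 → ℤ) : lamv (t • c) = t • lamv c := by
  funext i; simp [lamv, Finset.mul_sum, mul_assoc]

theorem cst_add (m m' : ℤ) : cst (m + m') = cst m + cst m' := by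
  rfl

theorem cst_neg (m : ℤ) : cst (-m) = -cst m := by
  rfl

theorem cst_zero : cst 0 = 0 := by
  rfl

theorem cst_smul (t m : ℤ) : t • cst m = cst (t * m) := by
  rfl

theorem II_eq (x y : ZZ) : II x y =
    -x 0 * y 0 + x 0 * y 1 + x 0 * y 5 + x 0 * y 7 +
    (x 1 * y 0 - x 1 * y 1 + x 1 * y 2 + x 1 * y 8) +
    (x 2 * y 1 - x 2 * y 2 + x 2 * y 3 + x 2 * y 6) +
    (x 3 * y 2 - x 3 * y 3 + x 3 * y 4 + x 3 * y 7) +
    (x 4 * y 3 - x 4 * y 4 + x 4 * y 5 + x 4 * y 8) +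
    (x 5 * y 0 + x 5 * y 4 - x 5 * y 5 + x 5 * y 6) +
    (x 6 * y 2 + x 6 * y 5 - x 6 * y 6 + x 6 * y 9) +
    (x 7 * y 0 + x 7 * y 3 - x 7 * y 7 + x 7 * y 9) +
    (x 8 * y 1 + x 8 * y 4 - x 8 * y 8 + x 8 * y 9) +
    (x 9 * y 6 + x 9 * y 7 + x 9 * y 8 - x 9 * y 9) := by
  simp [II, sum_ten, imat]
  ring

theorem HL_eq (x : ZZ) : HL x = x 0 + x 1 + x 2 + x 3 + x 4 + x 5 + x 6 + x 7 + x 8 + x 9 :=
  sum_ten x

theorem HA_eq (x : ZZ) : HA x = x 0 + x 1 + x 2 + x 3 + x 4 + x 5 + 2 * (x 6 + x 7 + x 8) := rfl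

theorem II_comm (x y : ZZ) : II x y = II y x := by
  rw [II_eq, II_eq]; ring

theorem II_add_left (x y z : ZZ) : II (x + y) z = II x z + II y z := by
  simp only [II_eq, Pi.add_apply]; ring

theorem II_add_right (x y z : ZZ) : II x (y + z) = II x y + II x z := by
  simp only [II_eq, Pi.add_apply]; ring

theorem II_neg_left (x y : ZZ) : II (-x) y = -II x y := by
  simp only [II_eq, Pi.neg_apply]; ring

theorem II_neg_right (x y : ZZ) : II x (-y) = -II x y := by
  simp only [II_eq, Pi.neg_apply]; ring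

theorem II_smul_left (t : ℤ) (x y : ZZ) : II (t • x) y = t * II x y := by
  simp only [II_eq, Pi.smul_apply, smul_eq_mul]; ring

theorem II_smul_right (t : ℤ) (x y : ZZ) : II x (t • y) = t * II x y := by
  simp only [II_eq, Pi.smul_apply, smul_eq_mul]; ring

theorem II_lamv (c : Fin 5 → ℤ) (x : ZZ) : II (lamv c) x = 0 := by
  simp only [II_eq, lamv_at0, lamv_at1, lamv_at2, lamv_at3, lamv_at4, lamv_at5, lamv_at6,
    lamv_at7, lamv_at8, lamv_at9]
  ring

theorem II_cst (m : ℤ) (x : ZZ) : II (cst m) x = 2 * m * HL x := by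
  simp only [II_eq, HL_eq, cst]; ring

theorem HL_cst (m : ℤ) : HL (cst m) = 10 * m := by
  simp only [HL_eq, cst]; ring

theorem HA_cst (m : ℤ) : HA (cst m) = 12 * m := by
  simp only [HA_eq, cst]; ring

theorem HL_lamv (c : Fin 5 → ℤ) : HL (lamv c) = 0 := by
  simp only [HL_eq, lamv_at0, lamv_at1, lamv_at2, lamv_at3, lamv_at4, lamv_at5, lamv_at6,
    lamv_at7, lamv_at8, lamv_at9]
  ring

theorem HA_lamv (c : Fin 5 → ℤ) : HA (lamv c) = 0 := by
  simp only [HA_eq, lamv_at0, lamv_at1, lamv_at2, lamv_at3, lamv_at4, lamv_at5, lamv_at6,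
    lamv_at7, lamv_at8]
  ring

theorem cst_lamv_inj {m m' : ℤ} {c c' : Fin 5 → ℤ} (h : cst m + lamv c = cst m' + lamv c') :
    m = m' ∧ c = c' := by
  have h1 := congrArg HL h
  rw [map_add, map_add, HL_cst, HL_cst, HL_lamv, HL_lamv] at h1
  obtain rfl : m = m' := by omega
  have h2 := add_left_cancel h
  refine ⟨rfl, funext fun j => ?_⟩
  have e0 := congrFun h2 0
  have e1 := congrFun h2 2
  have e2 := congrFun h2 6
  have e3 := congrFun h2 7
  have e4 := congrFun h2 8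
  simp only [lamv_at0, lamv_at2, lamv_at6, lamv_at7, lamv_at8] at e0 e1 e2 e3 e4
  fin_cases j
  · exact e0
  · exact e1
  · exact e2
  · exact e3
  · exact e4

theorem HA_eq_II (x : ZZ) : HA x = II ![1, 1, 1, 1, 1, 1, 0, 0, 0, 0] x := by
  simp [II_eq, HA_eq]; ring

theorem HA_bsh (n : ℕ) : HA (bsh n) = 6 * n := by
  simp [HA_eq, bsh]; ring

/-- Hodge index inequality -/
theorem hodge (x : ZZ) : 6 * II x x ≤ HA x ^ 2 := by
  rw [II_eq, HA_eq]
  nlinarith [sq_nonneg (7 * (x 1 - (x 0 + x 2 + x 8)) + (x 3 + x 0 + x 6 + x 8) +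
      (x 4 + x 0 + x 2 + x 6 + x 7 + x 8) + (x 5 + x 2 + x 7 + x 8)),
    sq_nonneg (8 * (x 3 + x 0 + x 6 + x 8) - 6 * (x 4 + x 0 + x 2 + x 6 + x 7 + x 8) +
      (x 5 + x 2 + x 7 + x 8)),
    sq_nonneg (2 * (x 4 + x 0 + x 2 + x 6 + x 7 + x 8) - 3 * (x 5 + x 2 + x 7 + x 8)),
    sq_nonneg (x 9 - x 6 - x 7 - x 8)]

theorem P0_add_lamv (n : ℕ) (w : ZZ) (c : Fin 5 → ℤ) : P0 n (w + lamv c) = P0 n w := by
  simp only [P0, II_add_left, II_add_right, II_lamv, II_comm w (lamv c), map_add, HL_lamv,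
    add_zero]

theorem RR_congr (n : ℕ) (r g : ℚ) {γ γ' : ZZ} (h : ∀ w, II γ w = II γ' w) (w : ZZ) :
    RR n r γ g w = RR n r γ' g w := by
  have h1 := h (cst 1)
  rw [II_comm, II_comm γ', II_cst, II_cst] at h1
  have h2 : HL γ = HL γ' := by omega
  simp only [RR, h w, h2]

theorem RR_add (n : ℕ) (r r' g g' : ℚ) (γ γ' w : ZZ) :
    RR n (r + r') (γ + γ') (g + g') w = RR n r γ g w + RR n r' γ' g' w := by
  simp only [RR, II_add_left, map_add]
  push_cast; ring

theorem P0_sub (n : ℕ) (w d : ZZ) :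
    P0 n (w - d) = RR n 1 (-d) ((n : ℚ) ^ 3 * II d d / 2) w := by
  simp only [RR, P0, sub_eq_add_neg w d, II_add_left, II_add_right, II_neg_left, II_neg_right,
    map_add, map_neg, II_comm w d]
  push_cast; ring

/-- `RR` is a quadratic polynomial along `cst` -/
theorem RR_third_diff (n : ℕ) (r g : ℚ) (γ w : ZZ) (t : ℤ) :
    RR n r γ g w = 3 * RR n r γ g (w + cst t) - 3 * RR n r γ g (w + cst (2 * t)) +
      RR n r γ g (w + cst (3 * t)) := by
  simp only [RR, P0, II_add_left, II_add_right, map_add, II_cst, II_comm w (cst _),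
    II_comm γ (cst _), HL_cst]
  push_cast; ring

/-- for each line there is a degree `cst m + lamv c` vanishing exactly at that line -/
theorem exists_chart_single (i : Fin 10) :
    ∃ c : Fin 5 → ℤ, 2 + lamv c i = 0 ∧ ∀ j, j ≠ i → 1 ≤ 2 + lamv c j := by
  refine ⟨![![-2, -1, -1, -1, 2], ![-1, -1, -1, 0, 0], ![-1, -2, -1, -1, 2],
    ![-1, -1, 0, -1, 3], ![-1, 0, 2, 1, 0], ![-1, -1, -1, 0, 3], ![-1, -1, -2, -1, 2],
    ![-1, -1, -1, -2, 2], ![-1, 2, 0, 1, -2], ![-1, 0, -1, -1, 0]] i, ?_⟩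
  revert i
  decide

section field

variable {k : Type} [Field k] {n : ℕ}

theorem algMap_inj : Function.Injective (algebraMap (MvPolynomial (Fin 2) k) (KK k)) :=
  IsFractionRing.injective _ _

theorem uu_ne_zero (j : Fin 5) : uu k j ≠ 0 := by
  have key : ∀ f : MvPolynomial (Fin 2) k, MvPolynomial.eval ![0, 1] f ≠ 0 ∨
      MvPolynomial.eval ![1, 0] f ≠ 0 → algebraMap (MvPolynomial (Fin 2) k) (KK k) f ≠ 0 := by
    intro f hf h0
    have : f = 0 := algMap_inj (by simpa using h0)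
    subst this
    simp at hf
  fin_cases j
  · exact key (MvPolynomial.X 0) (by simp)
  · exact key (MvPolynomial.X 1) (by simp)
  · have := key (1 - MvPolynomial.X 0) (by simp)
    rw [map_sub, map_one] at this
    exact this
  · have := key (1 - MvPolynomial.X 1) (by simp)
    rw [map_sub, map_one] at this
    exact this
  · have := key (MvPolynomial.X 0 - MvPolynomial.X 1) (by simp)
    rw [map_sub] at this
    exact this

theorem ss_ne_zero : ss k ≠ 0 := uu_ne_zero (k := k) 0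

theorem tt_ne_zero : tt k ≠ 0 := uu_ne_zero (k := k) 1

theorem umon_ne_zero (c : Fin 5 → ℤ) : umon k c ≠ 0 := by
  exact Finset.prod_ne_zero_iff.2 fun j _ => zpow_ne_zero _ (uu_ne_zero j)

theorem umon_zero : umon k 0 = 1 := by
  simp [umon]

theorem umon_add (c c' : Fin 5 → ℤ) : umon k (c + c') = umon k c * umon k c' := by
  simp only [umon, ← Finset.prod_mul_distrib, Pi.add_apply, zpow_add₀ (uu_ne_zero (k := k) _)]

theorem umon_neg (c : Fin 5 → ℤ) : umon k (-c) = (umon k c)⁻¹ := by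
  simp only [umon, ← Finset.prod_inv_distrib, Pi.neg_apply, zpow_neg]

theorem umon_eq (c : Fin 5 → ℤ) : umon k c = ss k ^ c 0 * tt k ^ c 1 * (1 - ss k) ^ c 2 *
    (1 - tt k) ^ c 3 * (ss k - tt k) ^ c 4 := by
  simp [umon, Fin.prod_univ_five, uu]

theorem smon_eq (m : ℤ × ℤ) : smon k m = umon k ![m.1, m.2, 0, 0, 0] := by
  simp [umon_eq, smon]

theorem smon_add (m m' : ℤ × ℤ) : smon k (m + m') = smon k m * smon k m' := by
  simp only [smon, Prod.fst_add, Prod.snd_add, zpow_add₀ (ss_ne_zero (k := k)),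
    zpow_add₀ (tt_ne_zero (k := k))]
  ring

theorem smon_indep : LinearIndependent k (smon k) := by
  classical
  rw [linearIndependent_iff']
  intro s g hg m0 hm0
  obtain ⟨N, hN⟩ := Finite.exists_le fun m : s => (-m.1.1).toNat + (-m.1.2).toNat
  let e : ℤ × ℤ → (Fin 2 →₀ ℕ) := fun m =>
    Finsupp.single 0 (m.1 + N).toNat + Finsupp.single 1 (m.2 + N).toNat
  have hb : ∀ m ∈ s, 0 ≤ m.1 + N ∧ 0 ≤ m.2 + N := fun m hm => by
    have := hN ⟨m, hm⟩
    simp only at this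
    omega
  have h1 : ∀ m ∈ s, algebraMap (MvPolynomial (Fin 2) k) (KK k)
      (MvPolynomial.monomial (e m) (g m)) = smon k (N, N) * (g m • smon k m) := by
    intro m hm
    have h2 : MvPolynomial.monomial (e m) (g m) = g m • (MvPolynomial.X 0 ^ (m.1 + N).toNat *
        MvPolynomial.X 1 ^ (m.2 + N).toNat) := by
      simp only [e, MvPolynomial.X_pow_eq_monomial, MvPolynomial.monomial_mul,
        MvPolynomial.smul_monomial, mul_one, smul_eq_mul]
    rw [h2, ← IsScalarTower.coe_toAlgHom' k, map_smul, IsScalarTower.coe_toAlgHom', mul_smul_comm,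
      ← smon_add]
    congr 1
    rw [map_mul, map_pow, map_pow, ← zpow_natCast, ← zpow_natCast, Int.toNat_of_nonneg (hb m hm).1,
      Int.toNat_of_nonneg (hb m hm).2]
    simp only [smon, ss, tt, Prod.fst_add, Prod.snd_add, add_comm]
  have h3 : ∑ m ∈ s, MvPolynomial.monomial (e m) (g m) = 0 := by
    apply algMap_inj
    rw [map_sum, Finset.sum_congr rfl h1, ← Finset.mul_sum, hg, mul_zero, map_zero]
  have h4 := congrArg (MvPolynomial.coeff (e m0)) h3
  rw [MvPolynomial.coeff_sum, Finset.sum_eq_single m0] at h4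
  · simpa using h4
  · intro m hm hne
    rw [MvPolynomial.coeff_monomial, if_neg]
    intro h5
    have h6 := DFunLike.congr_fun h5 0
    have h7 := DFunLike.congr_fun h5 1
    simp [e] at h6 h7
    have := hb m hm
    have := hb m0 hm0
    exact hne (Prod.ext (by omega) (by omega))
  · intro h5; exact absurd hm0 h5

/-- evaluation of Laurent polynomials as an algebra map -/
theorem exists_levHom : ∃ f : LL k →ₐ[k] KK k, (∀ F, f F = lev k F) ∧ Function.Injective f := by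
  let g : Multiplicative (ℤ × ℤ) →* KK k :=
    { toFun := fun m => smon k m.toAdd
      map_one' := by simp [smon]
      map_mul' := fun a b => smon_add _ _ }
  have h1 : ∀ F, AddMonoidAlgebra.lift k (KK k) (ℤ × ℤ) g F = lev k F := fun F =>
    AddMonoidAlgebra.lift_apply g F
  refine ⟨AddMonoidAlgebra.lift k (KK k) (ℤ × ℤ) g, h1, fun F G h => ?_⟩
  rw [h1, h1] at h
  apply AddMonoidAlgebra.coeff_injective
  apply smon_indep (k := k)
  simpa [Finsupp.linearCombination_apply, lev] using h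

theorem lev_single (m : ℤ × ℤ) (c : k) :
    lev k (AddMonoidAlgebra.single m c) = c • smon k m := by
  simp [lev, AddMonoidAlgebra.coeff_single]

theorem umon_mem_BB {a : ZZ} {c : Fin 5 → ℤ} (h : ∀ i, 0 ≤ a i + n * lamv c i) :
    umon k c ∈ BB k n a := by
  exact Submodule.subset_span ⟨c, h, rfl⟩

theorem BB_mono {a a' : ZZ} (h : ∀ i, a i ≤ a' i) : BB k n a ≤ BB k n a' := by
  refine Submodule.span_mono ?_
  rintro _ ⟨c, hc, rfl⟩
  exact ⟨c, fun i => (hc i).trans (by linarith [h i]), rfl⟩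

theorem mul_mem_BB {a b : ZZ} {φ ψ : KK k} (hφ : φ ∈ BB k n a) (hψ : ψ ∈ BB k n b) :
    φ * ψ ∈ BB k n (a + b) := by
  have h := Submodule.mul_mem_mul hφ hψ
  rw [BB, BB, Submodule.span_mul_span] at h
  refine Submodule.span_mono ?_ h
  rintro _ ⟨_, ⟨c, hc, rfl⟩, _, ⟨c', hc', rfl⟩, rfl⟩
  refine ⟨c + c', fun i => ?_, (umon_add c c').symm⟩
  rw [lamv_add, Pi.add_apply, Pi.add_apply]
  linarith [hc i, hc' i]

theorem umon_neg_mem_BB (c : Fin 5 → ℤ) : umon k (-c) ∈ BB k n ((n : ℤ) • lamv c) :=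
  umon_mem_BB fun i => by simp [lamv_neg]

theorem umon_mem_BB_neg (c : Fin 5 → ℤ) : umon k c ∈ BB k n (-((n : ℤ) • lamv c)) :=
  umon_mem_BB fun i => by simp

theorem mem_BB_iff_unit (a : ZZ) (c : Fin 5 → ℤ) (φ : KK k) :
    φ ∈ BB k n a ↔ umon k (-c) * φ ∈ BB k n (a + (n : ℤ) • lamv c) := by
  constructor
  · intro h
    rw [add_comm]
    exact mul_mem_BB (umon_neg_mem_BB c) h
  · intro h
    have := mul_mem_BB (umon_mem_BB_neg c) h
    rwa [← mul_assoc, ← umon_add, add_neg_cancel, umon_zero, one_mul, add_comm a,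
      neg_add_cancel_left] at this

theorem HL_nonneg_of {a : ZZ} {c : Fin 5 → ℤ} (h : ∀ i, 0 ≤ a i + n * lamv c i) : 0 ≤ HL a := by
  have h1 : 0 ≤ HL (a + (n : ℤ) • lamv c) :=
    Finset.sum_nonneg (s := Finset.univ) (f := a + (n : ℤ) • lamv c) fun i _ => h i
  rwa [map_add, map_zsmul, HL_lamv, smul_zero, add_zero] at h1

theorem BB_eq_bot {a : ZZ} (h : HL a < 0) : BB k n a = ⊥ := by
  rw [BB, Submodule.span_eq_bot]
  rintro _ ⟨c, hc, rfl⟩
  exact absurd (HL_nonneg_of hc) (not_le.2 h)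

theorem BB_le_update (a : ZZ) : BB k n a ≤ BB k n (Function.update a 9 (a 6 + a 7 + a 8)) := by
  refine Submodule.span_mono ?_
  rintro _ ⟨c, hc, rfl⟩
  refine ⟨c, fun i => ?_, rfl⟩
  by_cases hi : i = 9
  · subst hi
    have h6 := hc 6
    have h7 := hc 7
    have h8 := hc 8
    rw [lamv_at6] at h6
    rw [lamv_at7] at h7
    rw [lamv_at8] at h8
    rw [Function.update_self, lamv_at9]
    linarith
  · rw [Function.update_of_ne hi]; exact hc i

theorem finite_monomials (hn : 0 < n) (a : ZZ) :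
    {c : Fin 5 → ℤ | ∀ i, 0 ≤ a i + n * lamv c i}.Finite := by
  have hn' : (1 : ℤ) ≤ n := by exact_mod_cast hn
  refine (Set.finite_Icc (fun _ => -∑ i, |a i|) (fun _ => 5 * ∑ i, |a i|)).subset fun c hc => ?_
  have key : ∀ i, -∑ i, |a i| ≤ lamv c i := by
    intro i
    have h1 := hc i
    have h2 : |a i| ≤ ∑ i, |a i| :=
      Finset.single_le_sum (f := fun i => |a i|) (fun _ _ => abs_nonneg _) (Finset.mem_univ i)
    have h3 := le_abs_self (a i)
    have h4 := abs_nonneg (a i)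
    by_contra h5
    nlinarith
  have h0 := key 0
  have h2 := key 2
  have h4 := key 4
  have h6 := key 6
  have h7 := key 7
  have h8 := key 8
  rw [lamv_at0] at h0
  rw [lamv_at2] at h2
  rw [lamv_at4] at h4
  rw [lamv_at6] at h6
  rw [lamv_at7] at h7
  rw [lamv_at8] at h8
  constructor <;> intro j <;> fin_cases j <;> simp <;> linarith

theorem sum_periodic {ι : Type} [Fintype ι] [DecidableEq ι] (hn : 0 < n) (g : (ι → ℤ) → ℕ)
    (hg : ∀ c e, g (c + (n : ℤ) • e) = g c) (σ : (ι → ZMod n) ≃ (ι → ZMod n))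
    (T : (ι → ℤ) → ι → ℤ) (hT : ∀ c j, (T c j : ZMod n) = σ (fun j => (c j : ZMod n)) j) :
    ∑ c : ι → Fin n, g (T fun j => (c j : ℤ)) = ∑ c : ι → Fin n, g fun j => (c j : ℤ) := by
  obtain ⟨m, rfl⟩ : ∃ m, n = m + 1 := ⟨n - 1, by omega⟩
  have h1 : ∀ c c' : ι → ℤ, (∀ j, (c j : ZMod (m + 1)) = c' j) → g c = g c' := by
    intro c c' h
    choose e he using fun j => (ZMod.intCast_eq_intCast_iff_dvd_sub _ _ _).1 (h j)
    rw [← hg c e]
    congr 1
    funext j
    simp only [Pi.add_apply, Pi.smul_apply, smul_eq_mul, ← he]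
    ring
  have h2 : ∀ z : ZMod (m + 1), (((show Fin (m + 1) from z : ℕ) : ℤ) : ZMod (m + 1)) = z :=
    fun z => by
      rw [Int.cast_natCast]
      exact ZMod.natCast_zmod_val z
  refine Fintype.sum_equiv σ _ _ fun c => h1 _ _ fun j => ?_
  rw [hT, h2]
  exact congrFun (congrArg σ (funext fun j => h2 (c j))) j

namespace DP

variable (D : DP k n)

theorem v_mul (P : D.S.Pl) {φ ψ : KK k} (hφ : φ ≠ 0) (hψ : ψ ≠ 0) :
    D.v P (φ * ψ) = D.v P φ + D.v P ψ := by
  have h := D.S.val_mul P 0 0 φ ψ hφ hψ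
  by_cases hP : P ∈ Set.range D.sp
  · obtain ⟨i, rfl⟩ := hP
    simp only [D.val_sp, add_zero, Pi.zero_apply, ← mul_add] at h
    exact mul_left_cancel₀ (by exact_mod_cast D.n_pos.ne') h
  · simpa only [D.val_ns P hP] using h

theorem val_umon_sp (i : Fin 10) (a : ZZ) (c : Fin 5 → ℤ) :
    D.S.val (D.sp i) a (umon k c) = a i + n * lamv c i := by
  rw [D.val_sp, D.v_umon_sp, add_comm]

theorem val_umon_ns {P : D.S.Pl} (hP : P ∉ Set.range D.sp) (a : ZZ) (c : Fin 5 → ℤ) :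
    D.S.val P a (umon k c) = 0 := by
  rw [D.val_ns P hP, D.v_umon_ns P hP]

theorem val_one_sp (i : Fin 10) (a : ZZ) : D.S.val (D.sp i) a 1 = a i := by
  have := D.val_umon_sp i a 0
  simpa [umon_zero, lamv_zero] using this

theorem val_one_ns {P : D.S.Pl} (hP : P ∉ Set.range D.sp) (a : ZZ) : D.S.val P a 1 = 0 := by
  have := D.val_umon_ns hP a 0
  simpa [umon_zero] using this

theorem one_mem {a : ZZ} (h : ∀ i, 0 ≤ a i) : (1 : KK k) ∈ D.S.B a := by
  rw [D.hB, ← umon_zero]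
  exact umon_mem_BB fun i => by simpa [lamv_zero] using h i

theorem eff_iff (a : ZZ) : D.S.Eff a ↔ ∃ c, ∀ i, 0 ≤ a i + n * lamv c i := by
  constructor
  · rintro ⟨φ, h1, h2⟩
    by_contra h3
    rw [D.hB, BB, Submodule.span_eq_bot.2] at h2
    · exact h1 h2
    · rintro _ ⟨c, hc, rfl⟩
      exact absurd ⟨c, hc⟩ h3
  · rintro ⟨c, hc⟩
    exact ⟨umon k c, umon_ne_zero c, by rw [D.hB]; exact umon_mem_BB hc⟩

theorem unitDeg_iff (a : ZZ) : D.S.UnitDeg a ↔ ∃ c, a = (n : ℤ) • lamv c := by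
  constructor
  · intro h
    obtain ⟨c, hc⟩ := (D.eff_iff a).1 h.eff
    obtain ⟨c', hc'⟩ := (D.eff_iff _).1 h.neg.eff
    have h1 := HL_nonneg_of hc
    have h2 := HL_nonneg_of hc'
    rw [map_neg] at h2
    have h3 : HL (a + (n : ℤ) • lamv c) = 0 := by
      rw [map_add, map_zsmul, HL_lamv, smul_zero, add_zero]; omega
    have h4 := (Finset.sum_eq_zero_iff_of_nonneg (s := Finset.univ) (f := a + (n : ℤ) • lamv c)
      fun i _ => hc i).1 h3
    refine ⟨-c, funext fun i => ?_⟩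
    have := h4 i (Finset.mem_univ i)
    simp only [lamv_neg, Pi.add_apply, Pi.smul_apply, Pi.neg_apply, smul_eq_mul] at this ⊢
    linarith
  · rintro ⟨c, rfl⟩
    refine ⟨umon k (-c), umon_ne_zero _, fun P => ?_⟩
    by_cases hP : P ∈ Set.range D.sp
    · obtain ⟨i, rfl⟩ := hP
      simp [D.val_umon_sp, lamv_neg]
    · exact D.val_umon_ns hP _ _

theorem eff_HA : ∀ a, D.S.Eff a → 0 ≤ HA a := by
  intro a ha
  obtain ⟨c, hc⟩ := (D.eff_iff a).1 ha
  have h1 : 0 ≤ HA (a + (n : ℤ) • lamv c) := by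
    rw [HA_eq]
    simp only [Pi.add_apply, Pi.smul_apply, smul_eq_mul]
    linarith [hc 0, hc 1, hc 2, hc 3, hc 4, hc 5, hc 6, hc 7, hc 8]
  rwa [map_add, map_zsmul, HA_lamv, smul_zero, add_zero] at h1

theorem eff_HL : ∀ a, D.S.Eff a → 0 ≤ HL a := by
  intro a ha
  obtain ⟨c, hc⟩ := (D.eff_iff a).1 ha
  exact HL_nonneg_of hc

theorem II_eq_of_unitDeg {γ γ' : ZZ} (h : D.S.UnitDeg (γ - γ')) (w : ZZ) : II γ w = II γ' w := by
  obtain ⟨c, hc⟩ := (D.unitDeg_iff _).1 h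
  rw [sub_eq_iff_eq_add.1 hc, II_add_left, II_smul_left, II_lamv, mul_zero, zero_add]

/-- moving lemma -/
theorem move (P : D.S.Pl) (a : ZZ) : ∃ (ε : ZZ) (m : ℤ) (c : Fin 5 → ℤ), (∀ i, 0 ≤ ε i) ∧
    D.S.val P ε 1 = 0 ∧ ε + a = cst m + lamv c := by
  have hb : ∀ i, |a i| ≤ ∑ i, |a i| := fun i =>
    Finset.single_le_sum (f := fun i => |a i|) (fun _ _ => abs_nonneg _) (Finset.mem_univ i)
  by_cases hP : P ∈ Set.range D.sp
  · obtain ⟨i, rfl⟩ := hP
    obtain ⟨c, h1, h2⟩ := exists_chart_single i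
    set T := 2 * ∑ i, |a i| with hT
    refine ⟨T • (cst 2 + lamv c) + cst (a i) - a, T * 2 + a i, T • c, fun j => ?_, ?_, ?_⟩
    · simp only [Pi.sub_apply, Pi.add_apply, Pi.smul_apply, smul_eq_mul, cst]
      by_cases hj : j = i
      · subst hj; rw [h1]; simp
      · have h3 := h2 j hj
        have h4 := abs_le.1 (hb i)
        have h5 := abs_le.1 (hb j)
        have h6 : 0 ≤ T := by linarith [h4.1, h4.2]
        nlinarith [h4.1, h5.2]
    · rw [D.val_one_sp]
      simp only [Pi.sub_apply, Pi.add_apply, Pi.smul_apply, smul_eq_mul, cst, h1]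
      ring
    · rw [sub_add_cancel, lamv_smul, cst_add, smul_add, cst_smul]
      abel
  · refine ⟨cst (∑ i, |a i|) - a, ∑ i, |a i|, 0, fun j => ?_, D.val_one_ns hP _, ?_⟩
    · simp only [Pi.sub_apply, cst]
      linarith [(abs_le.1 (hb j)).2]
    · rw [sub_add_cancel, lamv_zero, add_zero]

variable {D}
variable {V : Type} [AddCommGroup V] [Module (KK k) V] [Module k V] [IsScalarTower k (KK k) V]

omit [IsScalarTower k (KK k) V] in
theorem fam_mono (U : Fam D.S V) {a a' : ZZ} (h : ∀ i, a i ≤ a' i) : U.U a ≤ U.U a' := by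
  intro v hv
  have := U.smul_mem (a' - a) a 1 v (D.one_mem fun i => sub_nonneg.2 (h i)) hv
  rwa [one_smul, sub_add_cancel] at this

omit [IsScalarTower k (KK k) V] in
theorem mem_fam_iff_unit (U : Fam D.S V) (a : ZZ) (c : Fin 5 → ℤ) (v : V) :
    v ∈ U.U a ↔ umon k (-c) • v ∈ U.U (a + (n : ℤ) • lamv c) := by
  constructor
  · intro h
    rw [add_comm]
    exact U.smul_mem _ _ _ _ (by rw [D.hB]; exact umon_neg_mem_BB c) h
  · intro h
    have := U.smul_mem _ _ _ _ (by rw [D.hB]; exact umon_mem_BB_neg c) h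
    rwa [smul_smul, ← umon_add, add_neg_cancel, umon_zero, one_smul, add_comm a,
      neg_add_cancel_left] at this

omit [IsScalarTower k (KK k) V] in
theorem locMem_of_cst {U U' : Fam D.S V}
    (h : ∀ m c, U.U (cst m + lamv c) ≤ U'.U (cst m + lamv c)) (P : D.S.Pl) (a : ZZ) (v : V)
    (hv : v ∈ U.U a) : U'.LocMem P a v := by
  obtain ⟨ε, m, c, h1, h2, h3⟩ := D.move P a
  refine ⟨ε, 1, one_ne_zero, D.one_mem h1, h2, ?_⟩
  have := U.smul_mem ε a 1 v (D.one_mem h1) hv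
  rw [h3] at this ⊢
  exact h m c this

theorem finrank_periodic (U : Fam D.S V) (w : ZZ) (c e : Fin 5 → ℤ) :
    finrank k (U.U (w + lamv (c + (n : ℤ) • e))) = finrank k (U.U (w + lamv c)) := by
  rw [lamv_add, lamv_smul, ← add_assoc]
  exact U.finrank_unit ((D.unitDeg_iff _).2 ⟨e, rfl⟩) _

theorem hh_add_lamv (U : Fam D.S V) (w : ZZ) (c : Fin 5 → ℤ) :
    hh n U (w + lamv c) = hh n U w := by
  have := sum_periodic D.n_pos (fun e => finrank k (U.U (w + lamv e))) (finrank_periodic U w)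
    (Equiv.addLeft fun j => (c j : ZMod n)) (fun e => c + e) (fun e j => by simp)
  refine Eq.trans (Finset.sum_congr rfl fun e _ => ?_) this
  rw [lamv_add, add_assoc]

theorem hh_eq_sum_neg (U : Fam D.S V) (w : ZZ) :
    ∑ c : Fin 5 → Fin n, finrank k (U.U (w - lamv fun j => (c j : ℤ))) = hh n U w := by
  have := sum_periodic D.n_pos (fun e => finrank k (U.U (w + lamv e))) (finrank_periodic U w)
    (Equiv.neg _) (fun e => -e) (fun e j => by simp)
  refine Eq.trans (Finset.sum_congr rfl fun e _ => ?_) this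
  rw [lamv_neg, sub_eq_add_neg]

omit [IsScalarTower k (KK k) V] in
theorem hh_eq_sum_h2 (U : Fam D.S V) (w : ZZ) :
    hh n U w = ∑ c : Fin 3 → Fin n, h2 n U (w + lamv ![0, 0, (c 0 : ℤ), (c 1 : ℤ), (c 2 : ℤ)]) := by
  simp only [hh, h2]
  rw [← Fintype.sum_prod_type']
  let e : (Fin 5 → Fin n) ≃ (Fin 3 → Fin n) × (Fin n × Fin n) :=
    { toFun := fun c => (![c 2, c 3, c 4], (c 0, c 1))
      invFun := fun q => ![q.2.1, q.2.2, q.1 0, q.1 1, q.1 2]
      left_inv := fun c => by funext j; fin_cases j <;> rfl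
      right_inv := fun q => by
        refine Prod.ext ?_ rfl
        funext j; fin_cases j <;> rfl }
  refine Fintype.sum_equiv e _ _ fun c => ?_
  rw [add_assoc, ← lamv_add]
  have : (fun j => (c j : ℤ)) = ![0, 0, ((e c).1 0 : ℤ), ((e c).1 1 : ℤ), ((e c).1 2 : ℤ)] +
      ![((e c).2.1 : ℤ), ((e c).2.2 : ℤ), 0, 0, 0] := by
    funext j; fin_cases j <;> simp [e]
  rw [this]

theorem hh_mono {U U' : Fam D.S V} (hU' : U'.FG) (h : U ≤ U') (w : ZZ) :
    hh n U w ≤ hh n U' w := by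
  refine Finset.sum_le_sum fun c _ => ?_
  have := hU'.fd (w + lamv fun j => (c j : ℤ))
  exact Submodule.finrank_mono (h _)

/-- a finitely generated family vanishes in very negative degrees -/
theorem fam_eq_bot {U : Fam D.S V} (hU : U.FG) : ∃ t : ℤ, ∀ a, HL a < t → U.U a = ⊥ := by
  obtain ⟨G, hG, rfl⟩ := hU
  obtain ⟨t, ht⟩ := (hG.image fun p => HL p.1).bddBelow
  refine ⟨t, fun a ha => Submodule.span_eq_bot.2 ?_⟩
  rintro _ ⟨p, hp, φ, hφ, rfl⟩
  have h1 : t ≤ HL p.1 := ht ⟨p, hp, rfl⟩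
  rw [D.hB, BB_eq_bot (by rw [map_sub]; omega)] at hφ
  rw [(Submodule.mem_bot k).1 hφ, zero_smul]

/-- uniformity in the character -/
theorem eventually_forall_char (hn : 0 < n) (Q : ZZ → Prop)
    (hQ : ∀ a c, Q a → Q (a + (n : ℤ) • lamv c))
    (h : ∀ w : ZZ, ∀ᶠ m : ℤ in atTop, Q (w + cst m)) (w : ZZ) :
    ∀ᶠ m : ℤ in atTop, ∀ c : Fin 5 → ℤ, Q (w + lamv c + cst m) := by
  have hn' : (0 : ℤ) < n := by exact_mod_cast hn
  have h1 := eventually_all.2 fun c : Fin 5 → Fin n => h (w + lamv fun j => (c j : ℤ))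
  filter_upwards [h1] with m hm c
  have h2 := hQ _ (fun j => c j / n) (hm fun j => ⟨(c j % n).toNat, by
    have := Int.emod_lt_of_pos (c j) hn'
    have := Int.emod_nonneg (c j) hn'.ne'
    omega⟩)
  convert h2 using 1
  rw [add_right_comm _ (cst m), ← lamv_smul, add_assoc w (lamv _) (lamv _), ← lamv_add]
  congr 3
  funext j
  simp only [Pi.add_apply, Pi.smul_apply, smul_eq_mul,
    Int.toNat_of_nonneg (Int.emod_nonneg (c j) hn'.ne')]
  exact (Int.emod_add_mul_ediv (c j) n).symm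

end DP

end field

end Vale.Agent.P190
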