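import Vale.Agent.P190.D0

/-! P190, part D1a: construction of the valuations of `k(s,t)`. -/

namespace Vale.Agent.P190

namespace D1a

open MvPolynomial

/-- a valuation of the function field -/
structure PV (K : Type) [Field K] where
  v : K → ℤ
  mul : ∀ φ ψ : K, φ ≠ 0 → ψ ≠ 0 → v (φ * ψ) = v φ + v ψ
  add : ∀ φ ψ : K, φ ≠ 0 → ψ ≠ 0 → φ + ψ ≠ 0 → min (v φ) (v ψ) ≤ v (φ + ψ)

namespace PV

variable {K : Type} [Field K] (w : PV K)

theorem one : w.v 1 = 0 := by
  have := w.mul 1 1 one_ne_zero one_ne_zero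
  rw [mul_one] at this; omega

theorem div {φ ψ : K} (h1 : φ ≠ 0) (h2 : ψ ≠ 0) : w.v (φ / ψ) = w.v φ - w.v ψ := by
  have := w.mul (φ / ψ) ψ (div_ne_zero h1 h2) h2
  rw [div_mul_cancel₀ _ h2] at this; omega

theorem zpow {φ : K} (h : φ ≠ 0) (z : ℤ) : w.v (φ ^ z) = z * w.v φ := by
  induction z using Int.induction_on with
  | zero => simpa using w.one
  | succ i ih => rw [zpow_add_one₀ h, w.mul _ _ (zpow_ne_zero _ h) h, ih]; ring
  | pred i ih => rw [zpow_sub_one₀ h, ← div_eq_mul_inv, w.div (zpow_ne_zero _ h) h, ih]; ring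

end PV

theorem exists_ext {A K : Type} [CommRing A] [IsDomain A] [Field K] (f : A →+* K)
    (hf : Function.Injective f) (hs : ∀ φ : K, ∃ a b, b ≠ 0 ∧ φ = f a / f b) (μ : A → ℤ)
    (hm : ∀ a b, a ≠ 0 → b ≠ 0 → μ (a * b) = μ a + μ b)
    (ha : ∀ a b, a ≠ 0 → b ≠ 0 → a + b ≠ 0 → min (μ a) (μ b) ≤ μ (a + b)) :
    ∃ w : PV K, ∀ a, a ≠ 0 → w.v (f a) = μ a := by
  choose nu de hde hφ using hs
  have h0 : ∀ {a}, a ≠ 0 → f a ≠ 0 := fun h => (map_ne_zero_iff f hf).2 h
  have hnu : ∀ {φ}, φ ≠ 0 → nu φ ≠ 0 := fun {φ} h h' => h (by rw [hφ φ, h', map_zero, zero_div])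
  have key : ∀ a b, a ≠ 0 → b ≠ 0 → μ (nu (f a / f b)) - μ (de (f a / f b)) = μ a - μ b := by
    intro a b h1 h2
    have e := hφ (f a / f b)
    rw [div_eq_div_iff (h0 h2) (h0 (hde _)), ← map_mul, ← map_mul] at e
    have e2 := congrArg μ (hf e)
    rw [hm _ _ h1 (hde _), hm _ _ (hnu (div_ne_zero (h0 h1) (h0 h2))) h2] at e2
    omega
  refine ⟨⟨fun φ => μ (nu φ) - μ (de φ), fun φ ψ h1 h2 => ?_, fun φ ψ h1 h2 h3 => ?_⟩,
    fun a h => ?_⟩
  · have e : φ * ψ = f (nu φ * nu ψ) / f (de φ * de ψ) := by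
      rw [map_mul, map_mul, ← div_mul_div_comm, ← hφ, ← hφ]
    rw [e, key _ _ (mul_ne_zero (hnu h1) (hnu h2)) (mul_ne_zero (hde _) (hde _)),
      hm _ _ (hnu h1) (hnu h2), hm _ _ (hde _) (hde _)]
    ring
  · have e : φ + ψ = f (nu φ * de ψ + de φ * nu ψ) / f (de φ * de ψ) := by
      rw [map_add, map_mul, map_mul, map_mul, ← div_add_div _ _ (h0 (hde _)) (h0 (hde _)),
        ← hφ, ← hφ]
    have n1 : nu φ * de ψ + de φ * nu ψ ≠ 0 := fun h => h3 (by rw [e, h, map_zero, zero_div])
    have := ha _ _ (mul_ne_zero (hnu h1) (hde ψ)) (mul_ne_zero (hde φ) (hnu h2)) n1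
    rw [e, key _ _ n1 (mul_ne_zero (hde _) (hde _)), hm _ _ (hde _) (hde _)]
    rw [hm _ _ (hnu h1) (hde _), hm _ _ (hde _) (hnu h2)] at this
    omega
  · have h1 := hm 1 1 one_ne_zero one_ne_zero
    rw [mul_one] at h1
    have := key a 1 h one_ne_zero
    rw [map_one, div_one] at this
    change μ _ - μ _ = _
    omega

theorem exists_mult {A B K : Type} [CommRing A] [IsDomain A] [CommRing B] [IsDomain B]
    [WfDvdMonoid B] [Field K] (f : A →+* K)
    (hf : Function.Injective f) (hs : ∀ φ : K, ∃ a b, b ≠ 0 ∧ φ = f a / f b) (θ : A →+* B)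
    (hθ : Function.Injective θ) {p : B} (hp : Prime p) :
    ∃ w : PV K, ∀ a, a ≠ 0 → w.v (f a) = multiplicity p (θ a) := by
  have h0 : ∀ {a}, a ≠ 0 → FiniteMultiplicity p (θ a) := fun h =>
    FiniteMultiplicity.of_prime_left hp ((map_ne_zero_iff θ hθ).2 h)
  refine exists_ext f hf hs (fun a => multiplicity p (θ a)) (fun a b h1 h2 => ?_)
    fun a b h1 h2 h3 => ?_
  · have := h0 (mul_ne_zero h1 h2)
    rw [map_mul] at this ⊢
    rw [multiplicity_mul hp this]; push_cast; rfl
  · have : min (multiplicity p (θ a)) (multiplicity p (θ b)) ≤ multiplicity p (θ (a + b)) := by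
      rw [← (h0 h3).pow_dvd_iff_le_multiplicity, map_add]
      exact dvd_add ((h0 h1).pow_dvd_iff_le_multiplicity.2 (min_le_left _ _))
        ((h0 h2).pow_dvd_iff_le_multiplicity.2 (min_le_right _ _))
    exact_mod_cast this

variable (k : Type) [Field k]

/-- the polynomial ring -/
abbrev RR : Type := MvPolynomial (Fin 2) k

/-- evaluation of Laurent polynomials -/
noncomputable def lv : LL k →ₐ[k] KK k := (exists_levHom (k := k)).choose

theorem lv_eq (F : LL k) : lv k F = lev k F := (exists_levHom (k := k)).choose_spec.1 F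

theorem lv_inj : Function.Injective (lv k) := (exists_levHom (k := k)).choose_spec.2

/-- the monomials -/
noncomputable def mon (m : ℤ × ℤ) : LL k := AddMonoidAlgebra.single m 1

theorem mon_add (m m' : ℤ × ℤ) : mon k (m + m') = mon k m * mon k m' := by
  simp [mon, AddMonoidAlgebra.single_mul_single]

theorem mon_zero : mon k 0 = 1 := rfl

theorem lv_mon (m : ℤ × ℤ) : lv k (mon k m) = ss k ^ m.1 * tt k ^ m.2 := by
  rw [lv_eq, mon, lev_single, one_smul, smon]

theorem single_eq (m : ℤ × ℤ) (c : k) : AddMonoidAlgebra.single m c = c • mon k m := by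
  simp [mon]

/-- polynomials as Laurent polynomials -/
noncomputable def inc : RR k →ₐ[k] LL k := aeval ![mon k (1, 0), mon k (0, 1)]

theorem lv_inc (a : RR k) : lv k (inc k a) = algebraMap (RR k) (KK k) a := by
  have : (lv k).comp (inc k) = IsScalarTower.toAlgHom k (RR k) (KK k) := by
    refine MvPolynomial.algHom_ext fun i => ?_
    fin_cases i <;> simp [inc, lv_mon, ss, tt]
  exact DFunLike.congr_fun this a

theorem surjR (φ : KK k) : ∃ a b : RR k, b ≠ 0 ∧
    φ = algebraMap (RR k) (KK k) a / algebraMap (RR k) (KK k) b := by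
  obtain ⟨a, b, hb, rfl⟩ := IsFractionRing.div_surjective (A := RR k) φ
  exact ⟨a, b, nonZeroDivisors.ne_zero hb, rfl⟩

theorem surjL (φ : KK k) : ∃ a b : LL k, b ≠ 0 ∧
    φ = (lv k).toRingHom a / (lv k).toRingHom b := by
  obtain ⟨a, b, hb, rfl⟩ := surjR k φ
  refine ⟨inc k a, inc k b, fun h => hb ?_, by simp [lv_inc]⟩
  have := lv_inc k b
  rw [h, map_zero] at this
  exact (map_eq_zero_iff _ (IsFractionRing.injective (RR k) (KK k))).1 this.symm

/-! ### monomial valuations -/

/-- grading by a linear form -/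
noncomputable def gr (r : ℤ × ℤ) : LL k →+* HahnSeries ℤ (LL k) :=
  AddMonoidAlgebra.liftNCRingHom (HahnSeries.C.comp (algebraMap k (LL k)))
    { toFun := fun m => HahnSeries.single (r.1 * m.toAdd.1 + r.2 * m.toAdd.2) (mon k m.toAdd)
      map_one' := by simp [mon_zero]
      map_mul' := fun m m' => by
        rw [HahnSeries.single_mul_single, toAdd_mul, mon_add]
        congr 2
        simp only [Prod.fst_add, Prod.snd_add]; ring } fun _ _ => Commute.all _ _

theorem gr_coeff (r : ℤ × ℤ) (F : LL k) (i : ℤ) (m : ℤ × ℤ) :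
    ((gr k r F).coeff i).coeff m = if r.1 * m.1 + r.2 * m.2 = i then F.coeff m else 0 := by
  induction F using AddMonoidAlgebra.induction_linear with
  | zero => simp
  | add F G h1 h2 =>
    rw [map_add, HahnSeries.coeff_add, AddMonoidAlgebra.coeff_add, Finsupp.add_apply, h1, h2,
      AddMonoidAlgebra.coeff_add, Finsupp.add_apply]
    split_ifs <;> simp
  | single a c =>
    rw [gr, AddMonoidAlgebra.liftNCRingHom_single]
    change ((HahnSeries.single 0 (algebraMap k (LL k) c) *
      HahnSeries.single (r.1 * a.1 + r.2 * a.2) (mon k a)).coeff i).coeff m = _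
    rw [HahnSeries.single_mul_single, zero_add, ← Algebra.smul_def, HahnSeries.coeff_single]
    by_cases h : a = m
    · subst h
      by_cases h2 : r.1 * a.1 + r.2 * a.2 = i
      · simp [h2, mon]
      · simp [h2, Ne.symm h2]
    · split_ifs <;> simp [mon, h]

theorem gr_inj (r : ℤ × ℤ) : Function.Injective (gr k r) := by
  refine (injective_iff_map_eq_zero _).2 fun F h => ?_
  ext m
  have := gr_coeff k r F (r.1 * m.1 + r.2 * m.2) m
  rw [h, if_pos rfl] at this
  simpa using this.symm

theorem exists_hex (r : ℤ × ℤ) : ∃ w : PV (KK k), ∀ F : LL k, F ≠ 0 → ∀ j : ℤ,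
    j ≤ w.v (lev k F) ↔ ∀ m ∈ F.coeff.support, j ≤ r.1 * m.1 + r.2 * m.2 := by
  have h0 : ∀ {a}, a ≠ 0 → gr k r a ≠ 0 := fun h => (map_ne_zero_iff _ (gr_inj k r)).2 h
  obtain ⟨w, hw⟩ := exists_ext (lv k).toRingHom (lv_inj k) (surjL k) (fun F => (gr k r F).order)
    (fun a b h1 h2 => by rw [map_mul, HahnSeries.order_mul (h0 h1) (h0 h2)])
    (fun a b h1 h2 h3 => by
      have := h0 h3
      rw [map_add] at this ⊢
      exact HahnSeries.min_order_le_order_add this)
  refine ⟨w, fun F hF j => ?_⟩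
  rw [← lv_eq]
  have := hw F hF
  change w.v (lv k F) = _ at this
  rw [this, HahnSeries.le_order_iff_forall (h0 hF)]
  constructor
  · intro h m hm
    by_contra hlt
    have h1 := gr_coeff k r F (r.1 * m.1 + r.2 * m.2) m
    rw [h _ (not_le.1 hlt), if_pos rfl] at h1
    exact Finsupp.mem_support_iff.1 hm (by simpa using h1.symm)
  · intro h i hi
    ext m
    rw [gr_coeff]
    split_ifs with h1
    · by_contra h2
      have := h m (Finsupp.mem_support_iff.2 (by simpa using h2))
      omega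
    · simp

/-! ### the point valuation -/

theorem isUnit_pt (i : Fin 2) :
    IsUnit (1 + PowerSeries.X * PowerSeries.C (X i : RR k) : PowerSeries (RR k)) := by
  rw [PowerSeries.isUnit_iff_constantCoeff]; simp

/-- expansion at the point `(1,1)` -/
noncomputable def th : LL k →ₐ[k] PowerSeries (RR k) :=
  AddMonoidAlgebra.lift k (PowerSeries (RR k)) (ℤ × ℤ)
    { toFun := fun m => (((isUnit_pt k 0).unit ^ m.toAdd.1 * (isUnit_pt k 1).unit ^ m.toAdd.2 :
        (PowerSeries (RR k))ˣ) : PowerSeries (RR k))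
      map_one' := by simp
      map_mul' := fun m m' => by
        rw [← Units.val_mul, toAdd_mul, Prod.fst_add, Prod.snd_add, zpow_add, zpow_add,
          mul_mul_mul_comm] }

theorem th_mon (m : ℤ × ℤ) : th k (mon k m) =
    (((isUnit_pt k 0).unit ^ m.1 * (isUnit_pt k 1).unit ^ m.2 :
        (PowerSeries (RR k))ˣ) : PowerSeries (RR k)) := by
  rw [th, mon, AddMonoidAlgebra.lift_single, one_smul]; rfl

theorem th_x : th k (mon k (1, 0) - 1) = PowerSeries.X * PowerSeries.C (X 0 : RR k) := by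
  rw [map_sub, th_mon]; simp

theorem th_y : th k (mon k (0, 1) - 1) = PowerSeries.X * PowerSeries.C (X 1 : RR k) := by
  rw [map_sub, th_mon]; simp

theorem mOne_eq : mOne k = Ideal.span {mon k (1, 0) - 1, mon k (0, 1) - 1} := rfl

theorem x_mem : mon k (1, 0) - 1 ∈ mOne k := Ideal.subset_span (by simp [mon])

theorem y_mem : mon k (0, 1) - 1 ∈ mOne k := Ideal.subset_span (by simp [mon])

theorem mon_sub_one (m : ℤ × ℤ) : mon k m - 1 ∈ mOne k := by
  set q := Ideal.Quotient.mk (mOne k)
  have key : ∀ e : ℤ × ℤ, q (mon k e) = 1 → ∀ z : ℤ, q (mon k (z • e)) = 1 := by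
    intro e he z
    induction z using Int.induction_on with
    | zero => rw [zero_smul, mon_zero, map_one]
    | succ i ih => rw [add_smul, one_smul, mon_add, map_mul, ih, he, mul_one]
    | pred i ih =>
      have : (-(i : ℤ)) • e = (-(i : ℤ) - 1) • e + e := by rw [sub_smul, one_smul, sub_add_cancel]
      rwa [this, mon_add, map_mul, he, mul_one] at ih
  have h1 : q (mon k (1, 0)) = 1 := by
    rw [← map_one q]; exact Ideal.Quotient.eq.2 (x_mem k)
  have h2 : q (mon k (0, 1)) = 1 := by
    rw [← map_one q]; exact Ideal.Quotient.eq.2 (y_mem k)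
  have e : m = m.1 • ((1 : ℤ), (0 : ℤ)) + m.2 • ((0 : ℤ), (1 : ℤ)) := by ext <;> simp
  rw [← Ideal.Quotient.eq, map_one, e, mon_add, map_mul, key _ h1, key _ h2, mul_one]

theorem exists_const (F : LL k) : ∃ c : k, F - algebraMap k (LL k) c ∈ mOne k := by
  induction F using AddMonoidAlgebra.induction_linear with
  | zero => exact ⟨0, by simp⟩
  | add F G h1 h2 =>
    obtain ⟨c, hc⟩ := h1
    obtain ⟨d, hd⟩ := h2
    refine ⟨c + d, ?_⟩
    rw [map_add, add_sub_add_comm]; exact Ideal.add_mem _ hc hd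
  | single a c =>
    refine ⟨c, ?_⟩
    rw [single_eq, Algebra.smul_def, ← mul_sub_one]
    exact Ideal.mul_mem_left _ _ (mon_sub_one k a)

theorem lead (j : ℕ) : ∀ F ∈ mOne k ^ j, ∃ (G : LL k) (P : RR k),
    th k G = PowerSeries.X ^ j * PowerSeries.C P ∧ (P = 0 → G = 0) ∧
      G = aeval ![mon k (1, 0) - 1, mon k (0, 1) - 1] P ∧ F - G ∈ mOne k ^ (j + 1) := by
  induction j with
  | zero =>
    intro F _
    obtain ⟨c, hc⟩ := exists_const k F
    refine ⟨algebraMap k _ c, C c, ?_, fun h => ?_, by simp, by simpa using hc⟩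
    · rw [AlgHom.commutes, pow_zero, one_mul, PowerSeries.algebraMap_apply]; rfl
    · rw [C_eq_zero.1 h, map_zero]
  | succ j ih =>
    intro F hF
    rw [pow_succ] at hF
    suffices h : ∃ P : RR k, th k (aeval ![mon k (1, 0) - 1, mon k (0, 1) - 1] P) =
        PowerSeries.X ^ (j + 1) * PowerSeries.C P ∧
        F - aeval ![mon k (1, 0) - 1, mon k (0, 1) - 1] P ∈ mOne k ^ (j + 1 + 1) by
      obtain ⟨P, h1, h2⟩ := h
      exact ⟨_, P, h1, fun h => by rw [h, map_zero], rfl, h2⟩
    refine Submodule.mul_induction_on hF (fun A hA B hB => ?_) fun A B h1 h2 => ?_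
    · rw [mOne_eq, Ideal.mem_span_pair] at hB
      obtain ⟨a, b, rfl⟩ := hB
      obtain ⟨G1, P1, e1, -, rfl, r1⟩ := ih (a * A) (Ideal.mul_mem_left _ _ hA)
      obtain ⟨G2, P2, e2, -, rfl, r2⟩ := ih (b * A) (Ideal.mul_mem_left _ _ hA)
      refine ⟨P1 * X 0 + P2 * X 1, ?_, ?_⟩
      · simp only [map_add, map_mul, aeval_X, Matrix.cons_val_zero, Matrix.cons_val_one,
          Matrix.cons_val_fin_one, e1, e2, th_x, th_y]
        ring
      · have := Ideal.add_mem _ (Ideal.mul_mem_mul r1 (x_mem k)) (Ideal.mul_mem_mul r2 (y_mem k))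
        rw [← pow_succ] at this
        convert this using 1
        simp only [map_add, map_mul, aeval_X, Matrix.cons_val_zero, Matrix.cons_val_one,
          Matrix.cons_val_fin_one]
        ring
    · obtain ⟨P1, e1, r1⟩ := h1
      obtain ⟨P2, e2, r2⟩ := h2
      refine ⟨P1 + P2, by simp only [map_add, e1, e2]; ring, ?_⟩
      rw [map_add, add_sub_add_comm]; exact Ideal.add_mem _ r1 r2

theorem dvd_of_mem (j : ℕ) : ∀ F ∈ mOne k ^ j, PowerSeries.X ^ j ∣ th k F := by
  induction j with
  | zero => intro F _; simp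
  | succ j ih =>
    intro F hF
    rw [pow_succ] at hF
    refine Submodule.mul_induction_on hF (fun A hA B hB => ?_) fun A B h1 h2 => ?_
    · rw [mOne_eq, Ideal.mem_span_pair] at hB
      obtain ⟨a, b, rfl⟩ := hB
      rw [map_mul, pow_succ]
      refine mul_dvd_mul (ih A hA) ?_
      rw [map_add, map_mul, map_mul, th_x, th_y]
      exact dvd_add (Dvd.dvd.mul_left (dvd_mul_right _ _) _) (Dvd.dvd.mul_left (dvd_mul_right _ _) _)
    · rw [map_add]; exact dvd_add h1 h2

theorem mem_of_dvd (F : LL k) (j : ℕ) (h : PowerSeries.X ^ j ∣ th k F) : F ∈ mOne k ^ j := by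
  induction j with
  | zero => simp
  | succ j ih =>
    obtain ⟨G, P, e, h0, -, r⟩ := lead k j F (ih ((pow_dvd_pow _ (Nat.le_succ j)).trans h))
    have h1 := dvd_sub h (dvd_of_mem k _ _ r)
    rw [← map_sub, sub_sub_cancel, e, pow_succ,
      mul_dvd_mul_iff_left (pow_ne_zero _ PowerSeries.X_ne_zero), PowerSeries.X_dvd_iff,
      PowerSeries.constantCoeff_C] at h1
    rwa [h0 h1, sub_zero] at r

theorem th_inj : Function.Injective (th k) := by
  refine (injective_iff_map_eq_zero _).2 fun F h => ?_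
  have : IsNoetherianRing (LL k) := Algebra.FiniteType.isNoetherianRing k (LL k)
  have h1 : mOne k ≠ ⊤ := fun h1 => by
    have := dvd_of_mem k 1 1 (by rw [pow_one, h1]; trivial)
    rw [pow_one, map_one, PowerSeries.X_dvd_iff] at this
    simp at this
  rw [← Ideal.mem_bot, ← Ideal.iInf_pow_eq_bot_of_isDomain _ h1, Ideal.mem_iInf]
  exact fun j => mem_of_dvd k F j (by rw [h]; exact dvd_zero _)

theorem exists_pt : ∃ w : PV (KK k), ∀ F : LL k, F ≠ 0 →
    w.v (lev k F) = multiplicity PowerSeries.X (th k F) := by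
  obtain ⟨w, hw⟩ := exists_mult (lv k).toRingHom (lv_inj k) (surjL k) (th k).toRingHom (th_inj k)
    PowerSeries.X_prime
  exact ⟨w, fun F hF => by rw [← lv_eq]; exact hw F hF⟩

/-! ### prime places -/

/-- the five linear forms -/
noncomputable def ff : Fin 5 → RR k := ![X 0, X 1, 1 - X 0, 1 - X 1, X 0 - X 1]

theorem uu_eq (j : Fin 5) : uu k j = algebraMap (RR k) (KK k) (ff k j) := by
  fin_cases j <;> simp [uu, ff, ss, tt]

theorem prime_of_inv (g : Fin 2 → RR k) (h : ∀ i, aeval g (g i) = X i) (i : Fin 2) :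
    Prime (g i) := by
  have hh : (aeval g).comp (aeval g) = AlgHom.id k (RR k) :=
    MvPolynomial.algHom_ext fun i => by rw [AlgHom.comp_apply, aeval_X, h]; rfl
  have := (MulEquiv.prime_iff (AlgEquiv.ofAlgHom (aeval g) (aeval g) hh hh)).2
    (X_prime (i := i) (R := k))
  simpa using this

theorem ff_prime (j : Fin 5) : Prime (ff k j) := by
  fin_cases j
  · exact X_prime
  · exact X_prime
  · exact prime_of_inv k ![1 - X 0, X 1] (fun i => by fin_cases i <;> simp) 0
  · exact prime_of_inv k ![X 0, 1 - X 1] (fun i => by fin_cases i <;> simp) 1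
  · exact prime_of_inv k ![X 0, X 0 - X 1] (fun i => by fin_cases i <;> simp) 1

theorem ff_dvd {i j : Fin 5} (h : ff k i ∣ ff k j) : i = j := by
  have key : ∀ p : Fin 2 → k, eval p (ff k i) = 0 → eval p (ff k j) = 0 := by
    intro p hp
    obtain ⟨c, hc⟩ := h
    rw [hc, map_mul, hp, zero_mul]
  have h1 := key ![0, 0]
  have h2 := key ![0, 1]
  have h3 := key ![1, 0]
  have h4 := key ![1, 1]
  fin_cases i <;> fin_cases j <;> simp [ff] at h1 h2 h3 h4 ⊢

/-- the prime places -/
abbrev Pr : Type := {P : Associates (RR k) //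
  Prime (Quot.out P : RR k) ∧ P ≠ Associates.mk (ff k 0) ∧ P ≠ Associates.mk (ff k 1)}

theorem out_assoc (f : RR k) : Associated (Quot.out (Associates.mk f) : RR k) f :=
  Associates.mk_quot_out _

theorem exists_pr (P : Pr k) : ∃ w : PV (KK k), ∀ a : RR k, a ≠ 0 →
    w.v (algebraMap (RR k) (KK k) a) = multiplicity (Quot.out P.1 : RR k) a :=
  exists_mult (algebraMap (RR k) (KK k)) (IsFractionRing.injective _ _) (surjR k) (RingHom.id _)
    Function.injective_id P.2.1

open Classical in
theorem mult_prime (P : Pr k) {f : RR k} (hf : Prime f) :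
    multiplicity (Quot.out P.1 : RR k) f = if P.1 = Associates.mk f then 1 else 0 := by
  split_ifs with h
  · have : Associated (Quot.out P.1 : RR k) f := by rw [h]; exact out_assoc k f
    rw [← multiplicity_eq_of_associated_right this, multiplicity_self]
  · rw [multiplicity_eq_zero]
    intro hd
    exact h (by
      rw [← Associates.mk_eq_mk_iff_associated.2 (P.2.1.associated_of_dvd hf hd)]
      exact (Associates.quot_out _).symm)

theorem mk_ff_inj {i j : Fin 5} (h : Associates.mk (ff k i) = Associates.mk (ff k j)) : i = j :=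
  ff_dvd k (Associates.mk_eq_mk_iff_associated.1 h).dvd

/-- the places of the three non-toric lines -/
noncomputable def pl (j : Fin 5) (h0 : j ≠ 0) (h1 : j ≠ 1) : Pr k :=
  ⟨Associates.mk (ff k j), (out_assoc k _).symm.prime (ff_prime k j),
    fun h => h0 (mk_ff_inj k h), fun h => h1 (mk_ff_inj k h)⟩

/-- all places -/
abbrev Pl : Type := Option (Fin 6) ⊕ Pr k

/-- the special places -/
noncomputable def sp : Fin 10 → Pl k :=
  ![.inl (some 0), .inl (some 1), .inl (some 2), .inl (some 3), .inl (some 4), .inl (some 5),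
    .inr (pl k 2 (by decide) (by decide)), .inr (pl k 3 (by decide) (by decide)),
    .inr (pl k 4 (by decide) (by decide)), .inl none]

/-- the valuations -/
noncomputable def W : Pl k → PV (KK k)
  | .inl (some g) => (exists_hex k (rho g)).choose
  | .inl none => (exists_pt k).choose
  | .inr P => (exists_pr k P).choose

theorem W_hex (g : Fin 6) : ∀ F : LL k, F ≠ 0 → ∀ j : ℤ,
    j ≤ (W k (.inl (some g))).v (lev k F) ↔
      ∀ m ∈ F.coeff.support, j ≤ (rho g).1 * m.1 + (rho g).2 * m.2 :=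
  (exists_hex k (rho g)).choose_spec

theorem W_pt : ∀ F : LL k, F ≠ 0 →
    (W k (.inl none)).v (lev k F) = multiplicity PowerSeries.X (th k F) :=
  (exists_pt k).choose_spec

theorem W_pr (P : Pr k) : ∀ a : RR k, a ≠ 0 →
    (W k (.inr P)).v (algebraMap (RR k) (KK k) a) = multiplicity (Quot.out P.1 : RR k) a :=
  (exists_pr k P).choose_spec

theorem sp_hex (g : Fin 6) : sp k (g.castLE (by norm_num)) = .inl (some g) := by
  fin_cases g <;> rfl

theorem pl_eq {i j : Fin 5} (a b c d) : pl k i a b = pl k j c d ↔ i = j :=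
  ⟨fun h => mk_ff_inj k (congrArg Subtype.val h), fun h => by subst h; rfl⟩

theorem sp_inj : Function.Injective (sp k) := by
  intro i j h
  fin_cases i <;> fin_cases j <;> simp [sp, pl_eq] at h ⊢

theorem inl_mem (o : Option (Fin 6)) : (.inl o : Pl k) ∈ Set.range (sp k) := by
  cases o with
  | none => exact ⟨9, rfl⟩
  | some g => exact ⟨_, sp_hex k g⟩

theorem hex_single (g : Fin 6) (m : ℤ × ℤ) {c : k} (hc : c ≠ 0) :
    (W k (.inl (some g))).v (lev k (AddMonoidAlgebra.single m c)) =
      (rho g).1 * m.1 + (rho g).2 * m.2 := by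
  refine eq_of_forall_le_iff fun j => ?_
  rw [W_hex k g _ (by simpa using hc)]
  simp [Finsupp.support_single _ hc]

theorem hex_pair (g : Fin 6) {m m' : ℤ × ℤ} (h : m ≠ m') :
    (W k (.inl (some g))).v (lev k (mon k m - mon k m')) =
      min ((rho g).1 * m.1 + (rho g).2 * m.2) ((rho g).1 * m'.1 + (rho g).2 * m'.2) := by
  have hs : ∀ x, x ∈ (mon k m - mon k m').coeff.support ↔ x = m ∨ x = m' := by
    intro x
    rw [Finsupp.mem_support_iff]
    by_cases h1 : x = m
    · subst h1; simp [mon, h]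
    · by_cases h2 : x = m'
      · subst h2; simp [mon, h1]
      · simp [mon, h1, h2]
  refine eq_of_forall_le_iff fun j => ?_
  rw [W_hex k g _ (fun h0 => by simpa [h0] using (hs m).2 (Or.inl rfl))]
  simp only [hs, forall_eq_or_imp, forall_eq, le_min_iff]

/-- the five units as Laurent polynomials -/
theorem uu_lev : uu k 0 = lev k (mon k (1, 0)) ∧ uu k 1 = lev k (mon k (0, 1)) ∧
    uu k 2 = lev k (mon k (0, 0) - mon k (1, 0)) ∧ uu k 3 = lev k (mon k (0, 0) - mon k (0, 1)) ∧
    uu k 4 = lev k (mon k (1, 0) - mon k (0, 1)) := by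
  simp [← lv_eq, lv_mon, uu]

theorem W_hex_uu (g : Fin 6) (j : Fin 5) :
    (W k (.inl (some g))).v (uu k j) = lam j (g.castLE (by norm_num)) := by
  obtain ⟨h0, h1, h2, h3, h4⟩ := uu_lev k
  fin_cases j
  · refine (congrArg _ h0).trans ((hex_single k g _ one_ne_zero).trans ?_)
    fin_cases g <;> decide
  · refine (congrArg _ h1).trans ((hex_single k g _ one_ne_zero).trans ?_)
    fin_cases g <;> decide
  · refine (congrArg _ h2).trans ((hex_pair k g (by decide)).trans ?_)
    fin_cases g <;> decide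
  · refine (congrArg _ h3).trans ((hex_pair k g (by decide)).trans ?_)
    fin_cases g <;> decide
  · refine (congrArg _ h4).trans ((hex_pair k g (by decide)).trans ?_)
    fin_cases g <;> decide

theorem pt_unit {F : LL k} (h : IsUnit F) : (W k (.inl none)).v (lev k F) = 0 := by
  rw [W_pt k F h.ne_zero, multiplicity_eq_zero.2, Nat.cast_zero]
  exact fun hd => PowerSeries.X_prime.not_isUnit (isUnit_of_dvd_unit hd (h.map (th k)))

theorem pt_one {F : LL k} {a : RR k} (ha : a ≠ 0) (h : th k F = PowerSeries.X * PowerSeries.C a) :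
    (W k (.inl none)).v (lev k F) = 1 := by
  have h0 : (PowerSeries.X * PowerSeries.C a : PowerSeries (RR k)) ≠ 0 :=
    mul_ne_zero PowerSeries.X_ne_zero
      ((map_ne_zero_iff _ PowerSeries.C_injective).2 ha)
  rw [W_pt k F fun hF => h0 (by rw [← h, hF, map_zero]), h,
    multiplicity_mul PowerSeries.X_prime (FiniteMultiplicity.of_prime_left PowerSeries.X_prime h0),
    multiplicity_self, multiplicity_eq_zero.2]
  · rfl
  · rw [PowerSeries.X_dvd_iff, PowerSeries.constantCoeff_C]; exact ha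

theorem mon_unit (m : ℤ × ℤ) : IsUnit (mon k m) :=
  IsUnit.of_mul_eq_one (mon k (-m)) (by rw [← mon_add, add_neg_cancel, mon_zero])

theorem W_pt_uu (j : Fin 5) : (W k (.inl none)).v (uu k j) = lam j 9 := by
  obtain ⟨h0, h1, h2, h3, h4⟩ := uu_lev k
  have z : mon k (0, 0) = 1 := rfl
  fin_cases j
  · exact (congrArg _ h0).trans (pt_unit k (mon_unit k _))
  · exact (congrArg _ h1).trans (pt_unit k (mon_unit k _))
  · refine (congrArg _ h2).trans (pt_one k (a := -X 0) (by simp) ?_)
    rw [z, ← neg_sub, map_neg, th_x]; simp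
  · refine (congrArg _ h3).trans (pt_one k (a := -X 1) (by simp) ?_)
    rw [z, ← neg_sub, map_neg, th_y]; simp
  · refine (congrArg _ h4).trans (pt_one k (a := ff k 4) (ff_prime k 4).ne_zero ?_)
    rw [← sub_sub_sub_cancel_right _ _ 1, map_sub, th_x, th_y, ← mul_sub, ← map_sub]; rfl

open Classical in
theorem W_pr_uu (P : Pr k) (j : Fin 5) :
    (W k (.inr P)).v (uu k j) = if P.1 = Associates.mk (ff k j) then 1 else 0 := by
  rw [uu_eq, W_pr k P _ (ff_prime k j).ne_zero, mult_prime k P (ff_prime k j)]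
  split_ifs <;> rfl

theorem W_pl_uu (i : Fin 5) (a b) (j : Fin 5) :
    (W k (.inr (pl k i a b))).v (uu k j) = if i = j then 1 else 0 := by
  rw [W_pr_uu]
  by_cases h : i = j
  · subst h; rw [if_pos rfl]; exact if_pos rfl
  · rw [if_neg h]; exact if_neg fun h' => h (mk_ff_inj k h')

theorem W_sp_uu (i : Fin 10) (j : Fin 5) : (W k (sp k i)).v (uu k j) = lam j i := by
  fin_cases i
  · exact W_hex_uu k 0 j
  · exact W_hex_uu k 1 j
  · exact W_hex_uu k 2 j
  · exact W_hex_uu k 3 j
  · exact W_hex_uu k 4 j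
  · exact W_hex_uu k 5 j
  · refine (W_pl_uu k 2 (by decide) (by decide) j).trans ?_
    fin_cases j <;> decide
  · refine (W_pl_uu k 3 (by decide) (by decide) j).trans ?_
    fin_cases j <;> decide
  · refine (W_pl_uu k 4 (by decide) (by decide) j).trans ?_
    fin_cases j <;> decide
  · exact W_pt_uu k j

theorem v_umon (w : PV (KK k)) (c : Fin 5 → ℤ) :
    w.v (umon k c) = ∑ j, c j * w.v (uu k j) := by
  have h := fun j => zpow_ne_zero (c j) (uu_ne_zero (k := k) j)
  rw [umon, Fin.prod_univ_five, Fin.sum_univ_five,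
    w.mul _ _ (mul_ne_zero (mul_ne_zero (mul_ne_zero (h 0) (h 1)) (h 2)) (h 3)) (h 4),
    w.mul _ _ (mul_ne_zero (mul_ne_zero (h 0) (h 1)) (h 2)) (h 3),
    w.mul _ _ (mul_ne_zero (h 0) (h 1)) (h 2), w.mul _ _ (h 0) (h 1)]
  simp only [w.zpow (uu_ne_zero _)]

theorem W_const (P : Pl k) (c : k) (hc : c ≠ 0) : (W k P).v (algebraMap k (KK k) c) = 0 := by
  have e : algebraMap k (KK k) c = lev k (AddMonoidAlgebra.single 0 c) := by
    rw [← lv_eq]; exact ((lv k).commutes c).symm
  match P with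
  | .inl (some g) => rw [e, hex_single k g 0 hc]; simp
  | .inl none => rw [e]; exact pt_unit k ((IsUnit.mk0 c hc).map (algebraMap k (LL k)))
  | .inr P =>
    have hu : IsUnit (C c : RR k) := (IsUnit.mk0 c hc).map C
    have e2 : algebraMap k (KK k) c = algebraMap (RR k) (KK k) (C c) :=
      IsScalarTower.algebraMap_apply k (RR k) (KK k) c
    rw [e2, W_pr k P _ hu.ne_zero, multiplicity_eq_zero.2, Nat.cast_zero]
    exact fun hd => P.2.1.not_isUnit (isUnit_of_dvd_unit hd hu)

theorem am_ne {a : RR k} (h : a ≠ 0) : algebraMap (RR k) (KK k) a ≠ 0 :=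
  (map_ne_zero_iff _ (IsFractionRing.injective (RR k) (KK k))).2 h

theorem W_pr_div (P : Pr k) {a b : RR k} (ha : a ≠ 0) (hb : b ≠ 0) :
    (W k (.inr P)).v (algebraMap (RR k) (KK k) a / algebraMap (RR k) (KK k) b) =
      (multiplicity (Quot.out P.1 : RR k) a : ℤ) - multiplicity (Quot.out P.1 : RR k) b := by
  rw [PV.div _ (am_ne k ha) (am_ne k hb), W_pr k P a ha, W_pr k P b hb]

theorem fin_supp (φ : KK k) (hφ : φ ≠ 0) : {P | (W k P).v φ ≠ 0}.Finite := by
  classical
  obtain ⟨a, b, hb, rfl⟩ := surjR k φ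
  have ha : a ≠ 0 := fun h => hφ (by rw [h, map_zero, zero_div])
  have h1 : {P : Pr k | P.1 ∈ (UniqueFactorizationMonoid.factors (a * b)).toFinset.image
      Associates.mk}.Finite :=
    Set.Finite.preimage Subtype.val_injective.injOn (Finset.finite_toSet _)
  refine ((Set.finite_range Sum.inl).union (h1.image Sum.inr)).subset ?_
  rintro (o | P) hP
  · exact Or.inl ⟨o, rfl⟩
  · refine Or.inr ⟨P, ?_, rfl⟩
    have hd : (Quot.out P.1 : RR k) ∣ a * b := by
      by_contra hd
      refine hP ?_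
      rw [W_pr_div k P ha hb, multiplicity_eq_zero.2 fun h => hd (h.mul_right _),
        multiplicity_eq_zero.2 fun h => hd (h.mul_left _), sub_self]
    obtain ⟨q, hq, hq'⟩ := UniqueFactorizationMonoid.exists_mem_factors_of_dvd
      (mul_ne_zero ha hb) P.2.1.irreducible hd
    refine Finset.mem_image.2 ⟨q, Multiset.mem_toFinset.2 hq, ?_⟩
    rw [← Associates.mk_eq_mk_iff_associated.2 hq']
    exact Associates.quot_out _

theorem laurent (φ : KK k) (hφ : φ ≠ 0) (h : ∀ P : Pr k, 0 ≤ (W k (.inr P)).v φ) :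
    ∃ F : LL k, lev k F = φ := by
  have e := IsFractionRing.mk'_num_den' (RR k) φ
  have hc := IsFractionRing.num_den_reduced (RR k) φ
  set a := IsFractionRing.num (RR k) φ
  have hb := nonZeroDivisors.ne_zero (IsFractionRing.den (RR k) φ).2
  set b := (IsFractionRing.den (RR k) φ).1
  have ha : a ≠ 0 := fun h0 => hφ (by rw [← e, h0, map_zero, zero_div])
  have key : ∀ d : RR k, d ∣ b → IsUnit (inc k d) := by
    intro d
    induction d using UniqueFactorizationMonoid.induction_on_prime with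
    | h₁ => intro hd; exact absurd (zero_dvd_iff.1 hd) hb
    | h₂ x hx => exact fun _ => hx.map _
    | h₃ x p _ hp ih =>
      intro hd
      rw [map_mul]
      refine IsUnit.mul ?_ (ih ((dvd_mul_left _ _).trans hd))
      by_cases h0 : Associates.mk p = Associates.mk (ff k 0)
      · refine ((Associates.mk_eq_mk_iff_associated.1 h0).map (inc k)).isUnit_iff.2 ?_
        simpa [inc, ff] using mon_unit k (1, 0)
      by_cases h1 : Associates.mk p = Associates.mk (ff k 1)
      · refine ((Associates.mk_eq_mk_iff_associated.1 h1).map (inc k)).isUnit_iff.2 ?_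
        simpa [inc, ff] using mon_unit k (0, 1)
      exfalso
      have as := out_assoc k p
      let P : Pr k := ⟨Associates.mk p, as.symm.prime hp, h0, h1⟩
      have h2 := h P
      rw [← e, W_pr_div k P ha hb] at h2
      have d1 : (Quot.out P.1 : RR k) ∣ b := as.dvd.trans ((dvd_mul_right _ _).trans hd)
      have d2 : (Quot.out P.1 : RR k) ∣ a := by
        by_contra hn
        rw [multiplicity_eq_zero.2 hn] at h2
        have : multiplicity (Quot.out P.1 : RR k) b = 0 := by omega
        exact multiplicity_eq_zero.1 this d1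
      exact P.2.1.not_isUnit (hc d2 d1)
  obtain ⟨u, hu⟩ := key b dvd_rfl
  refine ⟨inc k a * ↑u⁻¹, ?_⟩
  rw [← lv_eq, ← e, eq_div_iff (am_ne k hb), ← lv_inc, ← lv_inc, ← map_mul, ← hu, mul_assoc,
    Units.inv_mul, mul_one]

theorem pr_lev (P : Pr k) (F : LL k) : lev k F = 0 ∨ 0 ≤ (W k (.inr P)).v (lev k F) := by
  induction F using AddMonoidAlgebra.induction_linear with
  | zero => left; rw [← lv_eq, map_zero]
  | add F G h1 h2 =>
    rw [← lv_eq] at h1 h2 ⊢
    rw [map_add]
    by_cases a1 : lv k F = 0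
    · rwa [a1, zero_add]
    by_cases a2 : lv k G = 0
    · rwa [a2, add_zero]
    by_cases a3 : lv k F + lv k G = 0
    · exact Or.inl a3
    exact Or.inr ((le_min (h1.resolve_left a1) (h2.resolve_left a2)).trans
      ((W k (.inr P)).add _ _ a1 a2 a3))
  | single m c =>
    by_cases hc : c = 0
    · left; rw [lev_single, hc, zero_smul]
    right
    rw [lev_single, Algebra.smul_def, smon_eq,
      (W k _).mul _ _ ((map_ne_zero _).2 hc) (umon_ne_zero _), W_const k _ c hc, v_umon,
      Fin.sum_univ_five, W_pr_uu, W_pr_uu, if_neg P.2.2.1, if_neg P.2.2.2]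
    simp

end D1a

open D1a in
theorem exists_vals (k : Type) [Field k] : Nonempty (Vals k) := by
  refine ⟨{
    Pl := Pl k
    sp := sp k
    sp_inj := sp_inj k
    v := fun P => (W k P).v
    v_mul := fun P => (W k P).mul
    v_add := fun P => (W k P).add
    v_const := W_const k
    prime := ?_
    fin_supp := fin_supp k
    v_umon_sp := fun i c => ?_
    v_umon_ns := ?_
    laurent := fun φ hφ h => laurent k φ hφ fun P => h _ (fun g => ?_) ?_
    v_lev := ?_
    v_hex := fun F hF g j => ?_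
    v_pt := fun F hF j => ?_ }⟩
  · rintro (o | P) hP
    · exact absurd (inl_mem k o) hP
    refine ⟨_, am_ne k P.2.1.ne_zero, ?_, ?_⟩
    · rw [W_pr k P _ P.2.1.ne_zero, multiplicity_self]; rfl
    · rintro (o | Q) hQ hne
      · exact absurd (inl_mem k o) hQ
      rw [W_pr k Q _ P.2.1.ne_zero, mult_prime k Q P.2.1, if_neg, Nat.cast_zero]
      rw [Associates.quot_out]
      exact fun h => hne (congrArg _ (Subtype.ext h))
  · rw [v_umon]; simp only [W_sp_uu, lamv]
  · rintro (o | P) hP c
    · exact absurd (inl_mem k o) hP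
    rw [v_umon]
    refine Finset.sum_eq_zero fun j _ => ?_
    rw [W_pr_uu, if_neg, mul_zero]
    intro h
    fin_cases j
    · exact P.2.2.1 h
    · exact P.2.2.2 h
    · exact hP ⟨6, congrArg Sum.inr (Subtype.ext h.symm)⟩
    · exact hP ⟨7, congrArg Sum.inr (Subtype.ext h.symm)⟩
    · exact hP ⟨8, congrArg Sum.inr (Subtype.ext h.symm)⟩
  · rw [sp_hex]; exact Sum.inr_ne_inl
  · exact Sum.inr_ne_inl
  · rintro F hF ((_ | g) | P) hP
    · rw [W_pt k F hF]; exact Nat.cast_nonneg _
    · exact absurd (sp_hex k g).symm (hP g)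
    · refine (pr_lev k P F).resolve_left ?_
      rw [← lv_eq]; exact (map_ne_zero_iff _ (lv_inj k)).2 hF
  · rw [sp_hex]; exact W_hex k g F hF j
  · change (j : ℤ) ≤ (W k (.inl none)).v _ ↔ _
    rw [W_pt k F hF, Nat.cast_le, ← (FiniteMultiplicity.of_prime_left PowerSeries.X_prime
      ((map_ne_zero_iff _ (th_inj k)).2 hF)).pow_dvd_iff_le_multiplicity]
    exact ⟨mem_of_dvd k F j, dvd_of_mem k j F⟩

end Vale.Agent.P190
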