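import Vale.Agent.P190.D1a

/-! P190, part D2a: Riemann-Roch on the del Pezzo surface for deep degrees. -/

namespace Vale.Agent.P190

open Module Filter

namespace D2a

open D1a AddMonoidAlgebra

/-- lattice points of a triangle -/
def tri (u : ℕ) : Finset (ℕ × ℕ) := (Finset.range u).biUnion Finset.HasAntidiagonal.antidiagonal

theorem mem_tri {u : ℕ} {p : ℕ × ℕ} : p ∈ tri u ↔ p.1 + p.2 < u := by simp [tri]

theorem card_tri (u : ℕ) : 2 * (tri u).card = u * (u + 1) := by
  rw [tri, Finset.card_biUnion]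
  · simp only [Finset.Nat.card_antidiagonal]
    induction u with
    | zero => simp
    | succ u ih => rw [Finset.sum_range_succ, mul_add, ih]; ring
  · intro a _ b _ hab
    refine Finset.disjoint_left.2 fun p h1 h2 => hab ?_
    rw [Finset.HasAntidiagonal.mem_antidiagonal] at h1 h2
    omega

theorem card_corner (s : Finset (ℤ × ℤ)) (x y e u : ℤ) (hu : 0 ≤ u) (he : e = 1 ∨ e = -1)
    (h : ∀ m : ℤ × ℤ, m ∈ s ↔ 0 ≤ e * (m.1 - x) ∧ 0 ≤ e * (m.2 - y) ∧
      e * (m.1 - x) + e * (m.2 - y) < u) : 2 * (s.card : ℤ) = u * (u + 1) := by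
  lift u to ℕ using hu
  have h1 : (tri u).card = s.card := by
    refine Finset.card_nbij' (fun p => (x + e * p.1, y + e * p.2))
      (fun m => ((e * (m.1 - x)).toNat, (e * (m.2 - y)).toNat)) ?_ ?_ ?_ ?_
    · intro p hp
      rw [Finset.mem_coe, mem_tri] at hp
      rw [Finset.mem_coe, h]
      rcases he with rfl | rfl <;> simp only <;> omega
    · intro m hm
      rw [Finset.mem_coe, h] at hm
      rw [Finset.mem_coe, mem_tri]
      simp only
      omega
    · intro p _
      rcases he with rfl | rfl <;> ext <;> simp only <;> omega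
    · intro m hm
      rw [Finset.mem_coe, h] at hm
      rcases he with rfl | rfl <;> ext <;> simp only <;> omega
  rw [← h1]
  exact_mod_cast card_tri u

/-- lattice points of the hexagon -/
noncomputable def hex (d : ZZ) : Finset (ℤ × ℤ) :=
  ((Finset.Icc (-d 0) (d 3) ×ˢ Finset.Icc (-d 2) (d 5)).filter
    fun m => ¬ m.1 + m.2 < -d 1).filter fun m => ¬ d 4 < m.1 + m.2

theorem mem_hex {d : ZZ} {m : ℤ × ℤ} : m ∈ hex d ↔ -d 0 ≤ m.1 ∧ -d 1 ≤ m.1 + m.2 ∧ -d 2 ≤ m.2 ∧
    m.1 ≤ d 3 ∧ m.1 + m.2 ≤ d 4 ∧ m.2 ≤ d 5 := by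
  simp only [hex, Finset.mem_filter, Finset.mem_product, Finset.mem_Icc]
  omega

theorem card_hex (d : ZZ) (h1 : d 1 ≤ d 0 + d 2) (h2 : d 4 ≤ d 3 + d 5)
    (h3 : 0 ≤ d 1 + d 4) (h4 : d 2 ≤ d 1 + d 3) (h5 : d 0 ≤ d 1 + d 5)
    (h6 : d 5 ≤ d 0 + d 4) (h7 : d 3 ≤ d 2 + d 4) :
    2 * ((hex d).card : ℤ) = 2 * ((d 0 + d 3 + 1) * (d 2 + d 5 + 1)) -
      (d 0 + d 2 - d 1) * (d 0 + d 2 - d 1 + 1) - (d 3 + d 5 - d 4) * (d 3 + d 5 - d 4 + 1) := by
  set R := Finset.Icc (-d 0) (d 3) ×ˢ Finset.Icc (-d 2) (d 5) with hR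
  have e1 := Finset.card_filter_add_card_filter_not (s := R) fun m => m.1 + m.2 < -d 1
  have e2 := Finset.card_filter_add_card_filter_not
    (s := R.filter fun m => ¬ m.1 + m.2 < -d 1) fun m => d 4 < m.1 + m.2
  have e3 := card_corner (R.filter fun m => m.1 + m.2 < -d 1) (-d 0) (-d 2) 1
    (d 0 + d 2 - d 1) (by omega) (Or.inl rfl) fun m => by
      simp only [hR, Finset.mem_filter, Finset.mem_product, Finset.mem_Icc]
      omega
  have e4 := card_corner ((R.filter fun m => ¬ m.1 + m.2 < -d 1).filter fun m => d 4 < m.1 + m.2)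
    (d 3) (d 5) (-1) (d 3 + d 5 - d 4) (by omega) (Or.inr rfl) fun m => by
      simp only [hR, Finset.mem_filter, Finset.mem_product, Finset.mem_Icc]
      omega
  have e5 : (R.card : ℤ) = (d 0 + d 3 + 1) * (d 2 + d 5 + 1) := by
    rw [hR, Finset.card_product, Int.card_Icc, Int.card_Icc]
    push_cast
    rw [Int.toNat_of_nonneg (by omega), Int.toNat_of_nonneg (by omega)]
    ring
  have e6 : ((R.filter fun m => ¬ m.1 + m.2 < -d 1).filter fun m => ¬ d 4 < m.1 + m.2) = hex d :=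
    rfl
  rw [e6] at e2
  omega

variable (k : Type) [Field k]

/-- monomials in the local coordinates at `(1,1)` -/
noncomputable def ee (p : ℕ × ℕ) : LL k := (mon k (1, 0) - 1) ^ p.1 * (mon k (0, 1) - 1) ^ p.2

theorem span_ee (j : ℕ) (F : LL k) :
    ∃ G ∈ Submodule.span k (ee k '' {p | p.1 + p.2 < j}), F - G ∈ mOne k ^ j := by
  induction j generalizing F with
  | zero => exact ⟨0, Submodule.zero_mem _, by simp⟩
  | succ j ih =>
    obtain ⟨c, hc⟩ := exists_const k F
    rw [mOne_eq, Ideal.mem_span_pair] at hc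
    obtain ⟨a, b, hc⟩ := hc
    obtain ⟨A, hA, rA⟩ := ih a
    obtain ⟨B, hB, rB⟩ := ih b
    have key : ∀ q : ℕ × ℕ, q.1 + q.2 = 1 → ∀ G ∈ Submodule.span k (ee k '' {p | p.1 + p.2 < j}),
        G * ee k q ∈ Submodule.span k (ee k '' {p | p.1 + p.2 < j + 1}) := by
      intro q hq G hG
      induction hG using Submodule.span_induction with
      | mem x hx =>
        obtain ⟨p, hp, rfl⟩ := hx
        refine Submodule.subset_span ⟨p + q, ?_, ?_⟩
        · simp only [Set.mem_setOf_eq, Prod.fst_add, Prod.snd_add] at hp ⊢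
          omega
        · simp only [ee, Prod.fst_add, Prod.snd_add]
          ring
      | zero => simp
      | add x y _ _ hx hy => rw [add_mul]; exact Submodule.add_mem _ hx hy
      | smul c x _ hx => rw [smul_mul_assoc]; exact Submodule.smul_mem _ c hx
    refine ⟨c • ee k (0, 0) + A * ee k (1, 0) + B * ee k (0, 1), Submodule.add_mem _
      (Submodule.add_mem _ (Submodule.smul_mem _ _ (Submodule.subset_span ⟨_, by simp, rfl⟩))
        (key _ rfl A hA)) (key _ rfl B hB), ?_⟩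
    have := Ideal.add_mem _ (Ideal.mul_mem_mul rA (x_mem k)) (Ideal.mul_mem_mul rB (y_mem k))
    rw [← pow_succ] at this
    convert this using 1
    simp only [ee, pow_zero, pow_one, mul_one, one_mul, ← Algebra.algebraMap_eq_smul_one]
    linear_combination -hc

theorem indep_ee (μ : ℕ) (g : tri μ → k) (h : ∑ p, g p • ee k p.1 ∈ mOne k ^ μ) (p : tri μ) :
    g p = 0 := by
  have h1 := PowerSeries.X_pow_dvd_iff.1 (dvd_of_mem k μ _ h) _ (mem_tri.1 p.2)
  have h2 : ∀ q : ℕ × ℕ, th k (ee k q) = PowerSeries.C (MvPolynomial.monomial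
      (Finsupp.single 0 q.1 + Finsupp.single 1 q.2) (1 : k)) * PowerSeries.X ^ (q.1 + q.2) := by
    intro q
    rw [ee, map_mul, map_pow, map_pow, th_x, th_y, ← mul_one (1 : k), ← MvPolynomial.monomial_mul,
      ← MvPolynomial.X_pow_eq_monomial, ← MvPolynomial.X_pow_eq_monomial, map_mul, map_pow, map_pow]
    ring
  have h3 := congrArg (MvPolynomial.coeff (Finsupp.single 0 p.1.1 + Finsupp.single 1 p.1.2)) h1
  simp only [map_sum, map_smul, h2, PowerSeries.coeff_smul, PowerSeries.coeff_C_mul_X_pow,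
    MvPolynomial.coeff_sum, MvPolynomial.coeff_smul] at h3
  rw [Finset.sum_eq_single p] at h3
  · simpa using h3
  · intro q _ hq
    split_ifs
    · rw [MvPolynomial.coeff_monomial, if_neg, smul_zero]
      intro h5
      have h6 := DFunLike.congr_fun h5 0
      have h7 := DFunLike.congr_fun h5 1
      simp at h6 h7
      exact hq (Subtype.ext (Prod.ext h6 h7))
    · simp
  · intro h5; exact absurd (Finset.mem_univ _) h5

theorem supp_step {F : LL k} {a m : ℤ × ℤ} (h : (F * (mon k a - 1)).coeff m ≠ 0) :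
    F.coeff (m - a) ≠ 0 ∨ F.coeff m ≠ 0 := by
  by_contra h1
  rw [not_or, not_not, not_not] at h1
  apply h
  rw [mul_sub, mul_one, coeff_sub, Finsupp.sub_apply, mon, coeff_mul_single_apply,
    ← sub_eq_add_neg, h1.1, h1.2, zero_mul, sub_zero]

theorem supp_ee (x : ℤ × ℤ) (i j : ℕ) : ∀ m, (mon k x * ee k (i, j)).coeff m ≠ 0 →
    x.1 ≤ m.1 ∧ m.1 ≤ x.1 + i ∧ x.2 ≤ m.2 ∧ m.2 ≤ x.2 + j := by
  induction j with
  | zero =>
    induction i with
    | zero =>
      intro m hm
      have : x = m := by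
        by_contra h
        exact hm (by simp [ee, mon, h])
      subst this
      simp
    | succ i ih =>
      intro m hm
      have e : mon k x * ee k (i + 1, 0) = mon k x * ee k (i, 0) * (mon k (1, 0) - 1) := by
        simp only [ee]; ring
      rw [e] at hm
      rcases supp_step k hm with h | h <;> have := ih _ h <;> simp at this ⊢ <;> omega
  | succ j ih =>
    intro m hm
    have e : mon k x * ee k (i, j + 1) = mon k x * ee k (i, j) * (mon k (0, 1) - 1) := by
      simp only [ee]; ring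
    rw [e] at hm
    rcases supp_step k hm with h | h <;> have := ih _ h <;> simp at this ⊢ <;> omega

theorem finrank_inf (H : Finset (ℤ × ℤ)) (μ : ℕ) (x : ℤ × ℤ)
    (hH : ∀ m : ℤ × ℤ, x.1 ≤ m.1 → x.2 ≤ m.2 → m.1 + m.2 < x.1 + x.2 + μ → m ∈ H) :
    finrank k (supported k k (H : Set (ℤ × ℤ)) ⊓ (mOne k ^ μ).restrictScalars k :
      Submodule k (LL k)) + (tri μ).card = H.card := by
  set V := supported k k (H : Set (ℤ × ℤ)) with hV
  have hfd : FiniteDimensional k V :=
    (supportedEquivFinsupp (R := k) (S := k) (H : Set (ℤ × ℤ))).symm.finiteDimensional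
  have hr : finrank k V = H.card := by
    rw [(supportedEquivFinsupp (R := k) (S := k) (H : Set (ℤ × ℤ))).finrank_eq,
      finrank_finsupp_self]
    simp
  let b : tri μ → LL k := fun p => mon k x * ee k p.1
  have hu : mon k (-x) * mon k x = 1 := by rw [← mon_add, neg_add_cancel, mon_zero]
  have key : ∀ g : tri μ → k, ∑ p, g p • b p ∈ mOne k ^ μ → ∀ p, g p = 0 := by
    intro g hg
    refine indep_ee k μ g ?_
    have := Ideal.mul_mem_left _ (mon k (-x)) hg
    simpa only [b, Finset.mul_sum, mul_smul_comm, ← mul_assoc, hu, one_mul] using this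
  have hb : LinearIndependent k b :=
    Fintype.linearIndependent_iff.2 fun g hg => key g (by rw [hg]; exact Ideal.zero_mem _)
  have hE : Submodule.span k (Set.range b) ≤ V := by
    rw [Submodule.span_le]
    rintro _ ⟨p, rfl⟩ m hm
    have h1 := supp_ee k x p.1.1 p.1.2 m (Finsupp.mem_support_iff.1 hm)
    have h2 := mem_tri.1 p.2
    exact hH m h1.1 h1.2.2.1 (by omega)
  have hsup : (V ⊓ (mOne k ^ μ).restrictScalars k) ⊔ Submodule.span k (Set.range b) = V := by
    refine le_antisymm (sup_le inf_le_left hE) fun F hF => ?_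
    obtain ⟨G, hG, r⟩ := span_ee k μ (mon k (-x) * F)
    have h1 : mon k x * G ∈ Submodule.span k (Set.range b) := by
      have := Submodule.mem_map_of_mem (f := LinearMap.mulLeft k (mon k x)) hG
      rw [Submodule.map_span] at this
      refine Submodule.span_mono ?_ this
      rintro _ ⟨_, ⟨p, hp, rfl⟩, rfl⟩
      exact ⟨⟨p, mem_tri.2 hp⟩, rfl⟩
    have h2 := Ideal.mul_mem_left _ (mon k x) r
    rw [mul_sub, ← mul_assoc, mul_comm (mon k x) (mon k (-x)), hu, one_mul] at h2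
    rw [← sub_add_cancel F (mon k x * G)]
    exact Submodule.add_mem_sup ⟨V.sub_mem hF (hE h1), h2⟩ h1
  have hinf : (V ⊓ (mOne k ^ μ).restrictScalars k) ⊓ Submodule.span k (Set.range b) = ⊥ := by
    rw [eq_bot_iff]
    rintro F ⟨⟨-, h1⟩, h2⟩
    obtain ⟨g, rfl⟩ := (Submodule.mem_span_range_iff_exists_fun k).1 h2
    simp [key g h1]
  have : FiniteDimensional k (V ⊓ (mOne k ^ μ).restrictScalars k : Submodule k (LL k)) :=
    Submodule.finiteDimensional_of_le inf_le_left
  have : FiniteDimensional k (Submodule.span k (Set.range b)) :=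
    Submodule.finiteDimensional_of_le hE
  have h3 := Submodule.finrank_sup_add_finrank_inf_eq (V ⊓ (mOne k ^ μ).restrictScalars k)
    (Submodule.span k (Set.range b))
  rw [hsup, hinf, finrank_bot, finrank_span_eq_card hb, hr, Fintype.card_coe] at h3
  exact h3.symm

variable {k} {n : ℕ}

theorem B_eq (D : DP k n) (a d : ZZ) (μ : ℕ) (hd : ∀ i, a i / n = d i) (h6 : d 6 = 0)
    (h7 : d 7 = 0) (h8 : d 8 = 0) (h9 : d 9 = -μ) :
    D.S.B a = (supported k k (hex d : Set (ℤ × ℤ)) ⊓ (mOne k ^ μ).restrictScalars k :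
      Submodule k (LL k)).map (lv k).toLinearMap := by
  have hn : (0 : ℤ) < n := by exact_mod_cast D.n_pos
  have hv : ∀ i φ, 0 ≤ D.S.val (D.sp i) a φ ↔ -d i ≤ D.v (D.sp i) φ := by
    intro i φ
    rw [D.val_sp, neg_le, ← hd, Int.le_ediv_iff_mul_le hn]
    constructor <;> intro h <;> linarith
  have hi : ∀ i : Fin 10, (∃ g : Fin 6, i = g.castLE (by norm_num)) ∨
      ((∀ g : Fin 6, i ≠ g.castLE (by norm_num)) ∧ (i = 6 ∨ i = 7 ∨ i = 8)) ∨ i = 9 := by decide
  have hz : ∀ i : Fin 10, i = 6 ∨ i = 7 ∨ i = 8 → d i = 0 := by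
    rintro i (rfl | rfl | rfl) <;> assumption
  have hh : ∀ m : ℤ × ℤ, m ∈ hex d ↔
      ∀ g : Fin 6, -d (g.castLE (by norm_num)) ≤ (rho g).1 * m.1 + (rho g).2 * m.2 := by
    intro m
    rw [mem_hex]
    simp only [Fin.forall_fin_succ, rho]
    simp
    omega
  ext φ
  by_cases hφ : φ = 0
  · simp [hφ]
  rw [D.S.mem_iff a φ hφ, Submodule.mem_map]
  constructor
  · intro h
    obtain ⟨F, rfl⟩ := D.laurent φ hφ fun P h1 h2 => by
      by_cases hP : P ∈ Set.range D.sp
      · obtain ⟨i, rfl⟩ := hP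
        rcases hi i with ⟨g, rfl⟩ | ⟨-, h3⟩ | rfl
        · exact absurd rfl (h1 g)
        · simpa [hz i h3] using (hv i φ).1 (h _)
        · exact absurd rfl h2
      · simpa only [D.val_ns P hP] using h P
    have hF : F ≠ 0 := fun h0 => hφ (by rw [h0, ← lv_eq, map_zero])
    refine ⟨F, ⟨fun m hm => (hh m).2 fun g => (D.v_hex F hF g _).1 ((hv _ _).1 (h _)) m hm, ?_⟩,
      lv_eq k F⟩
    refine (D.v_pt F hF μ).1 ?_
    simpa [h9] using (hv 9 _).1 (h _)
  · rintro ⟨F, ⟨h1, h2⟩, rfl⟩ P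
    have hF : F ≠ 0 := fun h0 => hφ (by rw [h0, map_zero])
    change 0 ≤ D.S.val P a (lv k F)
    rw [lv_eq]
    by_cases hP : P ∈ Set.range D.sp
    · obtain ⟨i, rfl⟩ := hP
      rw [hv]
      rcases hi i with ⟨g, rfl⟩ | ⟨h4, h3⟩ | rfl
      · exact (D.v_hex F hF g _).2 fun m hm => (hh m).1 (h1 hm) g
      · rw [hz i h3, neg_zero]
        exact D.v_lev F hF _ fun g h => h4 g (D.sp_inj h)
      · rw [h9, neg_neg]
        exact (D.v_pt F hF μ).2 h2
    · rw [D.val_ns P hP]
      exact D.v_lev F hF _ fun g h => hP ⟨_, h.symm⟩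

end D2a

variable {k : Type} [Field k] {n : ℕ}

theorem DP.finrank_deep (D : DP k n) (C : ℤ) : ∀ᶠ M : ℤ in atTop, ∀ a : ZZ,
    (∀ i, |a i / n - M| ≤ C) → (finrank k (D.S.B a) : ℚ) =
      1 + ((II (fun i => a i / n) (fun i => a i / n) : ℚ) + HL (fun i => a i / n)) / 2 := by
  have hn : (n : ℤ) ≠ 0 := by exact_mod_cast D.n_pos.ne'
  filter_upwards [eventually_ge_atTop (10 * C)] with M hM a ha
  set δ : ZZ := fun i => a i / n with hδ
  set c : Fin 5 → ℤ := ![0, 0, -δ 6, -δ 7, -δ 8] with hc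
  have hb : ∀ i, M - C ≤ δ i ∧ δ i ≤ M + C := fun i => by
    have := abs_le.1 (ha i)
    constructor <;> linarith [this.1, this.2]
  have b0 := hb 0
  have b1 := hb 1
  have b2 := hb 2
  have b3 := hb 3
  have b4 := hb 4
  have b5 := hb 5
  have b6 := hb 6
  have b7 := hb 7
  have b8 := hb 8
  have b9 := hb 9
  have e0 : (δ + lamv c) 0 = δ 0 := by simp [lamv_at0, hc]
  have e1 : (δ + lamv c) 1 = δ 1 - δ 8 := by simp [lamv_at1, hc]; ring
  have e2 : (δ + lamv c) 2 = δ 2 := by simp [lamv_at2, hc]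
  have e3 : (δ + lamv c) 3 = δ 3 + δ 6 + δ 8 := by simp [lamv_at3, hc]; ring
  have e4 : (δ + lamv c) 4 = δ 4 + δ 6 + δ 7 + δ 8 := by simp [lamv_at4, hc]; ring
  have e5 : (δ + lamv c) 5 = δ 5 + δ 7 + δ 8 := by simp [lamv_at5, hc]; ring
  have e6 : (δ + lamv c) 6 = 0 := by simp [lamv_at6, hc]
  have e7 : (δ + lamv c) 7 = 0 := by simp [lamv_at7, hc]
  have e8 : (δ + lamv c) 8 = 0 := by simp [lamv_at8, hc]
  have e9 : (δ + lamv c) 9 = δ 9 - δ 6 - δ 7 - δ 8 := by simp [lamv_at9, hc]; ring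
  obtain ⟨μ, hμ⟩ := Int.eq_ofNat_of_zero_le (a := δ 6 + δ 7 + δ 8 - δ 9) (by omega)
  have h1 := D2a.B_eq D (a + (n : ℤ) • lamv c) (δ + lamv c) μ (fun i => by
    simp only [Pi.add_apply, Pi.smul_apply, smul_eq_mul, hδ]
    exact Int.add_mul_ediv_left _ _ hn) e6 e7 e8 (by omega)
  have h2 : finrank k (D.S.B (a + (n : ℤ) • lamv c)) = finrank k (D.S.B a) :=
    D.S.fam.finrank_unit ((D.unitDeg_iff _).2 ⟨c, rfl⟩) a
  have h3 := D2a.finrank_inf k (D2a.hex (δ + lamv c)) μ (δ 8 - δ 1, 0) fun m m1 m2 m3 => by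
    rw [D2a.mem_hex]
    simp only at m1 m2 m3
    omega
  have h4 := D2a.card_hex (δ + lamv c) (by omega) (by omega) (by omega) (by omega) (by omega)
    (by omega) (by omega)
  have h5 := D2a.card_tri μ
  rw [(Submodule.equivMapOfInjective (D1a.lv k).toLinearMap (D1a.lv_inj k) _).finrank_eq, ← h1,
    h2] at h3
  rw [e0, e1, e2, e3, e4, e5] at h4
  have h6 : (2 * finrank k (D.S.B a) : ℤ) = 2 + (II δ δ + HL δ) := by
    have h7 : (2 * (D2a.tri μ).card : ℤ) = μ * (μ + 1) := by exact_mod_cast h5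
    have h8 : (finrank k (D.S.B a) : ℤ) + (D2a.tri μ).card = (D2a.hex (δ + lamv c)).card := by
      exact_mod_cast h3
    rw [← hμ] at h7
    rw [II_eq, HL_eq]
    linear_combination 2 * h8 - h7 + h4
  have h9 : (2 * finrank k (D.S.B a) : ℚ) = 2 + (II δ δ + HL δ) := by exact_mod_cast h6
  linarith

end Vale.Agent.P190
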