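import Vale.Agent.P190.D2a

/-! P190, part D2b: the Hilbert function of the cover. -/

namespace Vale.Agent.P190

open Module Filter

theorem sum_shift {n : ℕ} {ι : Type} [Fintype ι] [DecidableEq ι] (hn : 0 < n) (g : (ι → ℤ) → ℚ)
    (hg : ∀ c e, g (c + (n : ℤ) • e) = g c) (e : ι → ℤ) :
    ∑ c : ι → Fin n, g ((fun j => (c j : ℤ)) + e) = ∑ c : ι → Fin n, g fun j => (c j : ℤ) := by
  obtain ⟨m, rfl⟩ : ∃ m, n = m + 1 := ⟨n - 1, by omega⟩
  have h1 : ∀ c c' : ι → ℤ, (∀ j, (c j : ZMod (m + 1)) = c' j) → g c = g c' := by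
    intro c c' h
    choose e he using fun j => (ZMod.intCast_eq_intCast_iff_dvd_sub _ _ _).1 (h j)
    rw [← hg c e]
    congr 1
    funext j
    simp only [Pi.add_apply, Pi.smul_apply, smul_eq_mul, ← he]
    ring
  have h2 : ∀ z : ZMod (m + 1), (((show Fin (m + 1) from z : ℕ) : ℤ) : ZMod (m + 1)) = z :=
    fun z => by
      rw [Int.cast_natCast]
      exact ZMod.natCast_zmod_val z
  refine Fintype.sum_equiv (Equiv.addRight (G := ι → ZMod (m + 1)) fun j => (e j : ZMod (m + 1)))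
    _ _ fun c => h1 _ _ fun j => ?_
  rw [h2, Pi.add_apply, Int.cast_add, h2]
  rfl

theorem sum_shift_one {n : ℕ} (hn : 0 < n) (g : ℤ → ℚ) (u : ℤ) :
    ∑ x : Fin n, g ((u + x) % n) = ∑ x : Fin n, g x := by
  have h := sum_shift (ι := Unit) hn (fun c => g (c () % n))
    (fun c e => by simp) (fun _ => u)
  rw [← (Equiv.funUnique Unit (Fin n)).sum_comp, ← (Equiv.funUnique Unit (Fin n)).sum_comp]
  refine Eq.trans (Finset.sum_congr rfl fun c _ => ?_) (h.trans (Finset.sum_congr rfl fun c _ => ?_))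
  · simp [add_comm]
  · rw [Int.emod_eq_of_lt (by positivity) (Int.ofNat_lt.2 (c ()).2)]
    rfl

theorem exists_dir : ∀ i j : Fin 10, imat i j = 1 → ∃ c ∈ ([![1, -1, 0, 0, 0], ![1, 0, 0, 0, 0],
    ![0, 0, 0, 0, 1], ![0, 1, 0, 0, 0], ![-1, 1, 0, 0, 0], ![-1, 0, 0, 0, 0], ![-1, 0, 0, 1, 0],
    ![0, -1, 0, 0, 0], ![0, -1, 1, 0, 0], ![0, 0, 1, 0, 0], ![0, 0, 1, -1, 0], ![0, 0, 0, 1, 0],
    ![0, 0, -1, 1, 0], ![-1, 0, 0, 0, 1], ![0, 0, -1, 0, 1]] : List (Fin 5 → ℤ)),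
    lamv c i = 1 ∧ lamv c j = 0 := by
  simp only [lamv_eq]
  decide

theorem imat_cases : ∀ i j : Fin 10, (i = j ∧ imat i j = -1) ∨
    (i ≠ j ∧ (imat i j = 0 ∨ (imat i j = 1 ∧ imat j i = 1))) := by
  decide

theorem imat_adj : ∀ i : Fin 10, ∃ j, imat i j = 1 ∧ imat j i = 1 := by
  decide

theorem imat_row : ∀ i : Fin 10, ∑ j, imat i j = 2 := by
  decide

theorem pair_sum {n : ℕ} (hn : 0 < n) (w : ZZ) {i j : Fin 10} (h : imat i j = 1)
    (h' : imat j i = 1) (g₁ g₂ : ℤ → ℚ) :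
    ∑ c : Fin 5 → Fin n, g₁ ((w + lamv fun l => (c l : ℤ)) i % n) *
      g₂ ((w + lamv fun l => (c l : ℤ)) j % n) =
      (n : ℚ) ^ 3 * ((∑ x : Fin n, g₁ x) * ∑ x : Fin n, g₂ x) := by
  obtain ⟨a, -, ha1, ha2⟩ := exists_dir i j h
  obtain ⟨b, -, hb1, hb2⟩ := exists_dir j i h'
  have hn' : (n : ℚ) ≠ 0 := by positivity
  have h1 := fun x y : Fin n => sum_shift hn
    (fun c => g₁ ((w + lamv c) i % n) * g₂ ((w + lamv c) j % n))
    (fun c e => by rw [lamv_add, lamv_smul]; simp [← add_assoc]) ((x : ℤ) • a + (y : ℤ) • b)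
  have h2 := Finset.sum_congr (rfl : (Finset.univ : Finset (Fin n)) = _) fun x _ =>
    Finset.sum_congr (rfl : (Finset.univ : Finset (Fin n)) = _) fun y _ => h1 x y
  simp only [lamv_add, lamv_smul, ← add_assoc, Pi.add_apply, Pi.smul_apply, ha1, ha2, hb1, hb2,
    smul_eq_mul, mul_one, mul_zero, add_zero, Finset.sum_const, Finset.card_univ,
    Fintype.card_fin, nsmul_eq_mul] at h2
  have h3 : ∑ x : Fin n, ∑ y : Fin n, ∑ c : Fin 5 → Fin n,
      g₁ ((w i + lamv (fun l => (c l : ℤ)) i + x) % n) *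
        g₂ ((w j + lamv (fun l => (c l : ℤ)) j + y) % n) =
      (n : ℚ) ^ 5 * ((∑ x : Fin n, g₁ x) * ∑ x : Fin n, g₂ x) := by
    rw [Finset.sum_congr rfl fun x _ => Finset.sum_comm, Finset.sum_comm,
      Finset.sum_congr rfl fun c _ => (Finset.sum_mul_sum _ _ _ _).symm]
    simp only [sum_shift_one hn]
    simp
  rw [h3] at h2
  simp only [Pi.add_apply]
  refine mul_left_cancel₀ hn' (mul_left_cancel₀ hn' ?_)
  rw [← h2]
  ring

theorem sum_fin_id (n : ℕ) : ∑ x : Fin n, (((x : ℕ) : ℤ) : ℚ) = n * (n - 1) / 2 := by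
  induction n with
  | zero => simp
  | succ n ih => rw [Fin.sum_univ_castSucc]; simp only [Fin.val_castSucc, ih]; simp; ring

theorem sum_fin_sq (n : ℕ) :
    ∑ x : Fin n, (((x : ℕ) : ℤ) : ℚ) * ((x : ℕ) : ℤ) = (n - 1) * n * (2 * n - 1) / 6 := by
  induction n with
  | zero => simp
  | succ n ih => rw [Fin.sum_univ_castSucc]; simp only [Fin.val_castSucc, ih]; simp; ring

/-- averaging over the characters -/
theorem sum_char_floor {n : ℕ} (hn : 0 < n) (w : ZZ) :
    ∑ c : Fin 5 → Fin n,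
      (1 + ((II (fun i => (w + lamv fun j => (c j : ℤ)) i / n)
          (fun i => (w + lamv fun j => (c j : ℤ)) i / n) : ℚ) +
        HL (fun i => (w + lamv fun j => (c j : ℤ)) i / n)) / 2) = P0 n w := by
  have hn' : (n : ℚ) ≠ 0 := by positivity
  obtain ⟨θ, hθ⟩ : ∃ θ : (Fin 5 → Fin n) → ZZ,
      ∀ c i, θ c i = (w + lamv fun j => (c j : ℤ)) i % n := ⟨_, fun _ _ => rfl⟩
  have hA : ∀ i, ∑ c, (θ c i : ℚ) = n ^ 5 * (n - 1) / 2 := by
    intro i
    obtain ⟨j, h, h'⟩ := imat_adj i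
    have := pair_sum hn w h h' (fun x => x) (fun _ => 1)
    simp only [← hθ, mul_one, sum_fin_id] at this
    rw [this]
    simp
    ring
  have hB : ∀ i, ∑ c, (θ c i : ℚ) * θ c i = n ^ 5 * (n - 1) * (2 * n - 1) / 6 := by
    intro i
    obtain ⟨j, h, h'⟩ := imat_adj i
    have := pair_sum hn w h h' (fun x => x * x) (fun _ => 1)
    simp only [← hθ, mul_one, sum_fin_sq] at this
    rw [this]
    simp
    ring
  have hC : ∀ i j, ∑ c, (θ c i : ℚ) * imat i j * θ c j = imat i j * (n ^ 5 * (n - 1) ^ 2 / 4) +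
      if i = j then (n : ℚ) ^ 5 * (n - 1) ^ 2 / 4 - n ^ 5 * (n - 1) * (2 * n - 1) / 6 else 0 := by
    intro i j
    rcases imat_cases i j with ⟨rfl, h⟩ | ⟨hij, h | ⟨h, h'⟩⟩
    · rw [h, if_pos rfl, ← hB i]
      simp
      ring
    · simp [h, hij]
    · have := pair_sum hn w h h' (fun x => x) (fun x => x)
      simp only [← hθ, sum_fin_id] at this
      simp only [h, if_neg hij, Int.cast_one, mul_one, this]
      ring
  have h1 : ∑ c, (II (θ c) (θ c) : ℚ) =
      30 * (n ^ 5 * (n - 1) ^ 2 / 4) - 10 * (n ^ 5 * (n - 1) * (2 * n - 1) / 6) := by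
    simp only [II, Int.cast_sum, Int.cast_mul]
    rw [Finset.sum_comm, Finset.sum_congr rfl fun i _ => Finset.sum_comm]
    simp only [hC, Finset.sum_add_distrib, ← Finset.sum_mul, ← Int.cast_sum, imat_row]
    simp
    ring
  have h2 : ∑ c, (II w (θ c) : ℚ) = HL w * (n ^ 5 * (n - 1)) := by
    simp only [II, Int.cast_sum, Int.cast_mul]
    rw [Finset.sum_comm, Finset.sum_congr rfl fun i _ => Finset.sum_comm]
    simp only [← Finset.mul_sum, hA, ← Finset.sum_mul, ← Int.cast_sum, imat_row]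
    rw [show HL w = ∑ i, w i from rfl]
    push_cast
    ring
  have h3 : ∑ c, (HL (θ c) : ℚ) = 10 * (n ^ 5 * (n - 1) / 2) := by
    simp only [HL_eq, Int.cast_add, Finset.sum_add_distrib, hA]
    ring
  have h4 : ∀ c : Fin 5 → Fin n, (1 + ((II (fun i => (w + lamv fun j => (c j : ℤ)) i / n)
          (fun i => (w + lamv fun j => (c j : ℤ)) i / n) : ℚ) +
        HL (fun i => (w + lamv fun j => (c j : ℤ)) i / n)) / 2) =
      1 + II w w / (2 * n ^ 2) + HL w / (2 * n) - II w (θ c) / n ^ 2 +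
        II (θ c) (θ c) / (2 * n ^ 2) - HL (θ c) / (2 * n) := by
    intro c
    set δ : ZZ := fun i => (w + lamv fun j => (c j : ℤ)) i / n with hδ
    have e0 : (n : ℤ) • δ = w + lamv (fun j => (c j : ℤ)) + -θ c := by
      funext i
      rw [Pi.smul_apply, Pi.add_apply, Pi.neg_apply, hθ, smul_eq_mul, Int.emod_def]
      ring
    have e1 : (n : ℤ) * HL δ = HL w - HL (θ c) := by
      rw [← smul_eq_mul, ← map_zsmul, e0, map_add, map_add, HL_lamv, map_neg]
      ring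
    have e2 : (n : ℤ) * (n * II δ δ) = II w w - 2 * II w (θ c) + II (θ c) (θ c) := by
      rw [← II_smul_left, ← II_smul_right, e0]
      simp only [II_add_left, II_add_right, II_neg_left, II_neg_right, II_lamv,
        II_comm _ (lamv _), II_comm (θ c) w]
      ring
    have e1' : (HL δ : ℚ) = (HL w - HL (θ c)) / n := by
      rw [eq_div_iff hn', mul_comm]; exact_mod_cast e1
    have e2' : (II δ δ : ℚ) = (II w w - 2 * II w (θ c) + II (θ c) (θ c)) / n ^ 2 := by
      rw [eq_div_iff (pow_ne_zero 2 hn'), mul_comm, sq, mul_assoc]; exact_mod_cast e2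
    rw [e1', e2']
    field_simp
    ring
  rw [Finset.sum_congr rfl fun c _ => h4 c]
  simp only [Finset.sum_add_distrib, Finset.sum_sub_distrib, ← Finset.sum_div, h1, h2, h3]
  simp only [Finset.sum_const, Finset.card_univ, Fintype.card_fun, Fintype.card_fin, nsmul_eq_mul,
    P0]
  push_cast
  field_simp
  ring

variable {k : Type} [Field k] {n : ℕ}

theorem DP.hh_fam (D : DP k n) (w : ZZ) :
    ∀ᶠ m : ℤ in atTop, (hh n D.S.fam (w + cst m) : ℚ) = P0 n (w + cst m) := by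
  have hn : (0 : ℤ) < n := by exact_mod_cast D.n_pos
  have ht : Tendsto (fun m : ℤ => m / n) atTop atTop :=
    tendsto_atTop_atTop.2 fun b => ⟨b * n, fun a ha => (Int.le_ediv_iff_mul_le hn).2 ha⟩
  have h1 := eventually_all.2 fun c : Fin 5 → Fin n =>
    ht.eventually (D.finrank_deep (∑ i, |(w + lamv fun j => (c j : ℤ)) i|))
  filter_upwards [h1] with m hm
  rw [← sum_char_floor D.n_pos, hh, Nat.cast_sum]
  refine Finset.sum_congr rfl fun c _ => hm c _ fun i => ?_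
  set C := ∑ i, |(w + lamv fun j => (c j : ℤ)) i|
  have h2 : |(w + lamv fun j => (c j : ℤ)) i| ≤ C :=
    Finset.single_le_sum (f := fun i => |(w + lamv fun j => (c j : ℤ)) i|)
      (fun _ _ => abs_nonneg _) (Finset.mem_univ i)
  have h3 : 0 ≤ C := (abs_nonneg _).trans h2
  rw [abs_le] at h2 ⊢
  simp only [Pi.add_apply, cst] at h2 ⊢
  have h4 : C ≤ C * n := le_mul_of_one_le_right h3 hn
  have h5 := Int.ediv_le_ediv hn (show m + -C * n ≤ w i + m + lamv (fun j => (c j : ℤ)) i by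
    linarith [h2.1])
  have h6 := Int.ediv_le_ediv hn (show w i + m + lamv (fun j => (c j : ℤ)) i ≤ m + C * n by
    linarith [h2.2])
  rw [Int.add_mul_ediv_right _ _ hn.ne'] at h5 h6
  constructor <;> linarith

end Vale.Agent.P190
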