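import Vale.Agent.P190.D3aA

/-! P190, part D3a: charts and the combinatorics of primes. -/

namespace Vale.Agent.P190

open Module Filter

/-- the fifteen adjacent pairs -/
def d3aPairs : List (Fin 10 × Fin 10) :=
  [(0, 1), (0, 5), (0, 7), (1, 2), (1, 8), (2, 3), (2, 6), (3, 4), (3, 7), (4, 5), (4, 8), (5, 6),
    (6, 9), (7, 9), (8, 9)]

theorem exists_chart (i j : Fin 10) (h : imat i j = 1) :
    ∃ (c₀ cσ cτ c₁ c₂ c₃ : Fin 5 → ℤ) (e f e₁ e₂ e₃ : ℤ),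
      (1 + lamv c₀ i = 0 ∧ 1 + lamv c₀ j = 0 ∧ ∀ l, l ≠ i → l ≠ j → 1 ≤ 1 + lamv c₀ l) ∧
      (lamv cσ i = 1 ∧ lamv cσ j = 0 ∧ lamv cτ i = 0 ∧ lamv cτ j = 1) ∧
      (lamv c₁ i = 0 ∧ lamv c₁ j = 0 ∧ lamv c₂ i = 0 ∧ lamv c₂ j = 0 ∧ lamv c₃ i = 0 ∧
        lamv c₃ j = 0) ∧
      (e * e = 1 ∧ f * f = 1 ∧ e₁ * e₁ = 1 ∧ e₂ * e₂ = 1 ∧ e₃ * e₃ = 1) ∧
      (∀ c : Fin 5 → ℤ, ∃ x y z₁ z₂ z₃ : ℤ, c = x • cσ + y • cτ + z₁ • c₁ + z₂ • c₂ + z₃ • c₃) ∧
      ∀ (k : Type) [Field k], 1 - (e : KK k) * umon k cσ = e₁ * umon k c₁ ∧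
        1 - (f : KK k) * umon k cτ = e₂ * umon k c₂ ∧
        1 - (e : KK k) * umon k cσ * (f * umon k cτ) = e₃ * umon k c₃ := by
  have key : ∀ i j : Fin 10, imat i j = 1 →
      (i, j) ∈ d3aPairs ∨ (j, i) ∈ d3aPairs := by decide
  have hall : ∀ q ∈ d3aPairs, ChartP q.1 q.2 := by
    simp only [d3aPairs, List.mem_cons, List.not_mem_nil, or_false, forall_eq_or_imp, forall_eq]
    exact ⟨chart_0_1, chart_0_5, chart_0_7, chart_1_2, chart_1_8, chart_2_3, chart_2_6, chart_3_4,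
      chart_3_7, chart_4_5, chart_4_8, chart_5_6, chart_6_9, chart_7_9, chart_8_9⟩
  change ChartP i j
  rcases key i j h with h1 | h1
  · exact hall _ h1
  · exact (hall _ h1).symm

variable {k : Type} [Field k] {n : ℕ} {D : DP k n}

theorem d3a_umon_mem_iff (p : Fam D.S (KK k)) (a : ZZ) (c : Fin 5 → ℤ) :
    umon k c ∈ p.U a ↔ (1 : KK k) ∈ p.U (a + (n : ℤ) • lamv c) := by
  rw [DP.mem_fam_iff_unit p a c, smul_eq_mul, umon_neg, inv_mul_cancel₀ (umon_ne_zero c)]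

theorem d3a_one_mem_prime {p : Fam D.S (KK k)} (hp : p.IsPrime) (N : ℕ) :
    ∀ ε : ZZ, (∀ i, 0 ≤ ε i) → ∑ i, ε i = N → (1 : KK k) ∈ p.U ε →
      ∃ l, 0 < ε l ∧ (1 : KK k) ∈ p.U (Pi.single l 1) := by
  induction N with
  | zero =>
    intro ε h0 hs h1
    have : ε = 0 := by
      funext i
      exact (Finset.sum_eq_zero_iff_of_nonneg (fun i _ => h0 i)).1 (by simpa using hs) i
        (Finset.mem_univ i)
    subst this
    exact absurd h1 hp.2.1
  | succ N ih =>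
    intro ε h0 hs h1
    obtain ⟨l, hl⟩ : ∃ l, 0 < ε l := by
      by_contra hc
      push Not at hc
      have : ∑ i, ε i ≤ 0 := Finset.sum_nonpos fun i _ => hc i
      push_cast at hs
      omega
    have hnn : ∀ i, 0 ≤ (ε - Pi.single l 1 : ZZ) i := by
      intro i
      by_cases hi : i = l
      · subst hi; simp; omega
      · simp [hi, h0 i]
    have hs1 : ∀ i, 0 ≤ (Pi.single l 1 : ZZ) i := by
      intro i
      by_cases hi : i = l
      · subst hi; simp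
      · simp [hi]
    have h2 : (1 : KK k) * 1 ∈ p.U (Pi.single l 1 + (ε - Pi.single l 1)) := by
      rw [mul_one, add_sub_cancel]; exact h1
    rcases hp.2.2 _ _ _ _ (D.one_mem hs1) (D.one_mem hnn) h2 with h3 | h3
    · exact ⟨l, hl, h3⟩
    · obtain ⟨l', hl', h4⟩ := ih _ hnn (by
        simp only [Pi.sub_apply, Finset.sum_sub_distrib, hs]
        simp) h3
      refine ⟨l', ?_, h4⟩
      have := hs1 l'
      simp only [Pi.sub_apply] at hl'
      omega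

theorem umon_mem_prime_iff {p : Fam D.S (KK k)} (hp : p.IsPrime) {a : ZZ} {c : Fin 5 → ℤ}
    (h : ∀ i, 0 ≤ a i + n * lamv c i) :
    umon k c ∈ p.U a ↔ ∃ l, 0 < a l + n * lamv c l ∧ (1 : KK k) ∈ p.U (Pi.single l 1) := by
  rw [d3a_umon_mem_iff]
  constructor
  · intro h1
    have hs : 0 ≤ ∑ i, (a + (n : ℤ) • lamv c) i := Finset.sum_nonneg fun i _ => h i
    exact d3a_one_mem_prime hp (∑ i, (a + (n : ℤ) • lamv c) i).toNat _ h
      (Int.toNat_of_nonneg hs).symm h1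
  · rintro ⟨l, hl, h1⟩
    refine DP.fam_mono p (fun i => ?_) h1
    by_cases hi : i = l
    · subst hi
      simp only [Pi.single_eq_same, Pi.add_apply, Pi.smul_apply, smul_eq_mul]
      omega
    · simp only [Pi.single_eq_of_ne hi, Pi.add_apply, Pi.smul_apply, smul_eq_mul]
      exact h i

theorem d3a_pair {p : Fam D.S (KK k)} (hp : p.IsPrime) (a : ZZ) (c : Fin 5 → ℤ) (i j : Fin 10)
    (h : ∀ l, a l + lamv c l = if l = i ∨ l = j then 1 else 0) :
    umon k c ∈ p.U ((n : ℤ) • a) ↔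
      ((1 : KK k) ∈ p.U (Pi.single i 1) ∨ (1 : KK k) ∈ p.U (Pi.single j 1)) := by
  have hn : (0 : ℤ) < n := by exact_mod_cast D.n_pos
  have he : ∀ l, ((n : ℤ) • a) l + n * lamv c l = if l = i ∨ l = j then (n : ℤ) else 0 := by
    intro l
    rw [Pi.smul_apply, smul_eq_mul, ← mul_add, h l]
    split_ifs <;> simp
  rw [umon_mem_prime_iff hp (fun l => by rw [he l]; split_ifs <;> omega)]
  constructor
  · rintro ⟨l, hl, h1⟩
    rw [he l] at hl
    by_cases hlij : l = i ∨ l = j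
    · rcases hlij with rfl | rfl
      · exact Or.inl h1
      · exact Or.inr h1
    · rw [if_neg hlij] at hl; omega
  · rintro (h1 | h1)
    · exact ⟨i, by rw [he i, if_pos (Or.inl rfl)]; exact hn, h1⟩
    · exact ⟨j, by rw [he j, if_pos (Or.inr rfl)]; exact hn, h1⟩

/-- two out of three -/
def Two3 (A B C : Prop) : Prop := (A → B → C) ∧ (A → C → B) ∧ (B → C → A)

theorem d3a_rel {p : Fam D.S (KK k)} (hp : p.IsPrime) (a : ZZ) (c c' c'' : Fin 5 → ℤ)
    (i j i' j' i'' j'' : Fin 10)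
    (h : ∀ l, a l + lamv c l = if l = i ∨ l = j then 1 else 0)
    (h' : ∀ l, a l + lamv c' l = if l = i' ∨ l = j' then 1 else 0)
    (h'' : ∀ l, a l + lamv c'' l = if l = i'' ∨ l = j'' then 1 else 0)
    (hr : umon k c = umon k c' + umon k c'') :
    Two3 ((1 : KK k) ∈ p.U (Pi.single i 1) ∨ (1 : KK k) ∈ p.U (Pi.single j 1))
      ((1 : KK k) ∈ p.U (Pi.single i' 1) ∨ (1 : KK k) ∈ p.U (Pi.single j' 1))
      ((1 : KK k) ∈ p.U (Pi.single i'' 1) ∨ (1 : KK k) ∈ p.U (Pi.single j'' 1)) := by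
  rw [← d3a_pair hp a c i j h, ← d3a_pair hp a c' i' j' h', ← d3a_pair hp a c'' i'' j'' h'']
  refine ⟨fun h1 h2 => ?_, fun h1 h2 => ?_, fun h1 h2 => ?_⟩
  · have := Submodule.sub_mem _ h1 h2
    rwa [hr, add_sub_cancel_left] at this
  · have := Submodule.sub_mem _ h1 h2
    rwa [hr, add_sub_cancel_right] at this
  · rw [hr]; exact Submodule.add_mem _ h1 h2

/-- Boolean two out of three -/
def two3 (a b c : Bool) : Bool := (!a || !b || c) && (!a || !c || b) && (!b || !c || a)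

/-- the conclusion of the finite check -/
def d3aGoal (z : Fin 10 → Bool) : Prop :=
  (∃ i j : Fin 10, imat i j = 1 ∧ ∀ l, z l = true → l = i ∨ l = j) ∨
    ∃ i j : Fin 10, ∀ l, z l = false → imat i l + imat j l ≤ 0

instance (z : Fin 10 → Bool) : Decidable (d3aGoal z) := by
  unfold d3aGoal; infer_instance

/-- the hypothesis of the finite check -/
def d3aHyp (z0 z1 z2 z3 z4 z5 z6 z7 z8 z9 : Bool) : Bool :=
  two3 (z3 || z4) (z0 || z1) (z6 || z9) && two3 (z4 || z5) (z1 || z2) (z7 || z9) &&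
    two3 (z0 || z5) (z2 || z3) (z8 || z9) && two3 (z3 || z7) (z5 || z6) (z1 || z8) &&
    two3 (z0 || z7) (z4 || z8) (z2 || z6)

theorem d3a_fin0 : ∀ z0 z1 z2 z3 z4 z5 z6 z7 z8 z9 : Bool,
    d3aHyp z0 z1 z2 z3 z4 z5 z6 z7 z8 z9 = true →
      d3aGoal ![z0, z1, z2, z3, z4, z5, z6, z7, z8, z9] := by
  decide +kernel

theorem d3a_fin (z0 z1 z2 z3 z4 z5 z6 z7 z8 z9 : Bool)
    (h1 : two3 (z3 || z4) (z0 || z1) (z6 || z9) = true)
    (h2 : two3 (z4 || z5) (z1 || z2) (z7 || z9) = true)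
    (h3 : two3 (z0 || z5) (z2 || z3) (z8 || z9) = true)
    (h4 : two3 (z3 || z7) (z5 || z6) (z1 || z8) = true)
    (h5 : two3 (z0 || z7) (z4 || z8) (z2 || z6) = true) :
    d3aGoal ![z0, z1, z2, z3, z4, z5, z6, z7, z8, z9] :=
  d3a_fin0 _ _ _ _ _ _ _ _ _ _ (by simp only [d3aHyp, h1, h2, h3, h4, h5, Bool.and_self])

theorem d3a_two3 {A B C : Prop} [Decidable A] [Decidable B] [Decidable C] (h : Two3 A B C)
    {a b c : Bool} (ha : a = true ↔ A) (hb : b = true ↔ B) (hc : c = true ↔ C) :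
    two3 a b c = true := by
  obtain ⟨h1, h2, h3⟩ := h
  rw [← ha, ← hb, ← hc] at h1 h2 h3
  cases a <;> cases b <;> cases c <;> simp_all [two3]

theorem d3a_II_single (η : ZZ) (l : Fin 10) : II η (Pi.single l 1) = ∑ i, η i * imat i l := by
  unfold II
  refine Finset.sum_congr rfl fun i _ => ?_
  rw [Finset.sum_eq_single l]
  · simp
  · intro b _ hb; simp [hb]
  · simp

theorem d3a_II_single' (i l : Fin 10) : II (Pi.single i 1) (Pi.single l 1) = imat i l := by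
  rw [d3a_II_single, Finset.sum_eq_single i]
  · simp
  · intro b _ hb; simp [hb]
  · simp

theorem prime_zero_cases {p : Fam D.S (KK k)} (hp : p.IsPrime) :
    (∃ i j, imat i j = 1 ∧ ∀ l, (1 : KK k) ∈ p.U (Pi.single l 1) → l = i ∨ l = j) ∨
      ∃ η : ZZ, 0 < HL η ∧ ∀ l, (1 : KK k) ∉ p.U (Pi.single l 1) → II η (Pi.single l 1) ≤ 0 := by
  classical
  obtain ⟨h0, h1, h2, h3, h4⟩ := uu_facts k
  have r1 := d3a_rel hp ![0, 0, 0, 1, 1, 0, 0, 0, 0, 0] ![0, 0, 0, 0, 0] ![1, 0, 0, 0, 0]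
    ![0, 0, 1, 0, 0] 3 4 0 1 6 9 (by decide) (by decide) (by decide) (by simp [umon_vec])
  have r2 := d3a_rel hp ![0, 0, 0, 0, 1, 1, 0, 0, 0, 0] ![0, 0, 0, 0, 0] ![0, 1, 0, 0, 0]
    ![0, 0, 0, 1, 0] 4 5 1 2 7 9 (by decide) (by decide) (by decide) (by simp [umon_vec])
  have r3 := d3a_rel hp ![1, 0, 0, 0, 0, 1, 0, 0, 0, 0] ![0, 0, 0, 0, 0] ![-1, 1, 0, 0, 0]
    ![-1, 0, 0, 0, 1] 0 5 2 3 8 9 (by decide) (by decide) (by decide)
    (by simp [umon_vec]; field_simp; ring)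
  have r4 := d3a_rel hp ![0, 0, 0, 0, 0, 1, 1, 0, 0, 0] ![0, 0, -1, 1, 0] ![0, 0, 0, 0, 0]
    ![0, 0, -1, 0, 1] 3 7 5 6 1 8 (by decide) (by decide) (by decide)
    (by simp [umon_vec]; field_simp; ring)
  have r5 := d3a_rel hp ![0, 0, 0, 0, 1, 0, 0, 0, 1, 0] ![1, 0, 0, 1, -1] ![0, 0, 0, 0, 0]
    ![0, 1, 1, 0, -1] 0 7 4 8 2 6 (by decide) (by decide) (by decide)
    (by simp [umon_vec]; field_simp; ring)
  set z : Fin 10 → Bool := fun l => decide ((1 : KK k) ∈ p.U (Pi.single l 1)) with hz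
  have hzz : ∀ l, z l = true ↔ (1 : KK k) ∈ p.U (Pi.single l 1) := fun l => by simp [hz]
  have hor : ∀ i j, (z i || z j) = true ↔
      ((1 : KK k) ∈ p.U (Pi.single i 1) ∨ (1 : KK k) ∈ p.U (Pi.single j 1)) := fun i j => by
    rw [Bool.or_eq_true, hzz, hzz]
  have hv : ∀ l, ![z 0, z 1, z 2, z 3, z 4, z 5, z 6, z 7, z 8, z 9] l = z l := by
    intro l; fin_cases l <;> rfl
  rcases d3a_fin (z 0) (z 1) (z 2) (z 3) (z 4) (z 5) (z 6) (z 7) (z 8) (z 9)
    (d3a_two3 r1 (hor _ _) (hor _ _) (hor _ _)) (d3a_two3 r2 (hor _ _) (hor _ _) (hor _ _))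
    (d3a_two3 r3 (hor _ _) (hor _ _) (hor _ _)) (d3a_two3 r4 (hor _ _) (hor _ _) (hor _ _))
    (d3a_two3 r5 (hor _ _) (hor _ _) (hor _ _)) with ⟨i, j, hij, h⟩ | ⟨i, j, h⟩
  · exact Or.inl ⟨i, j, hij, fun l hl => h l (by rw [hv, hzz]; exact hl)⟩
  · refine Or.inr ⟨Pi.single i 1 + Pi.single j 1, ?_, fun l hl => ?_⟩
    · rw [map_add]
      simp [HL]
    · rw [II_add_left, d3a_II_single', d3a_II_single']
      refine h l ?_
      rw [hv]
      simpa [hz] using hl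

theorem d3a_II_expand (η ε : ZZ) : II η ε = ∑ l, ε l * II η (Pi.single l 1) := by
  simp only [d3a_II_single, Finset.mul_sum]
  unfold II
  rw [Finset.sum_comm]
  exact Finset.sum_congr rfl fun l _ => Finset.sum_congr rfl fun i _ => by ring

theorem irrelevant_le (J : Fam D.S (KK k)) (q : ℕ) (Z : Set (Fin 10))
    (hJ : ∀ l ∈ Z, (1 : KK k) ∈ J.U (q • Pi.single l 1)) (η : ZZ) (hη : 0 < HL η)
    (h : ∀ l, l ∉ Z → II η (Pi.single l 1) ≤ 0) (w : ZZ) :
    ∀ᶠ m : ℤ in atTop, D.S.B (w + cst m) ≤ J.U (w + cst m) := by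
  filter_upwards [eventually_gt_atTop (∑ l, (q : ℤ) * |II η (Pi.single l 1)| + |II η w|),
    eventually_ge_atTop (0 : ℤ)] with m hm hm0
  rw [D.hB, BB, Submodule.span_le]
  rintro _ ⟨c, hc, rfl⟩
  rw [SetLike.mem_coe, d3a_umon_mem_iff]
  set ε : ZZ := w + cst m + (n : ℤ) • lamv c with hε
  have hε0 : ∀ i, 0 ≤ ε i := hc
  by_cases hex : ∃ l ∈ Z, (q : ℤ) ≤ ε l
  · obtain ⟨l, hl, hq⟩ := hex
    refine DP.fam_mono J (fun i => ?_) (hJ l hl)
    by_cases hi : i = l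
    · subst hi; simpa using hq
    · simpa [hi] using hε0 i
  · exfalso
    push Not at hex
    have h1 : II η ε ≤ ∑ l, (q : ℤ) * |II η (Pi.single l 1)| := by
      rw [d3a_II_expand]
      refine Finset.sum_le_sum fun l _ => ?_
      have ha := abs_nonneg (II η (Pi.single l 1))
      have hb := le_abs_self (II η (Pi.single l 1))
      by_cases hl : l ∈ Z
      · have := hex l hl
        have := hε0 l
        nlinarith
      · have := h l hl
        have := hε0 l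
        have : (0 : ℤ) ≤ q := Int.natCast_nonneg q
        nlinarith
    have h2 : II η ε = II η w + 2 * m * HL η := by
      rw [hε, II_add_right, II_add_right, II_smul_right, II_comm η (lamv c), II_lamv,
        II_comm η (cst m), II_cst]
      ring
    have h3 := neg_abs_le (II η w)
    nlinarith

end Vale.Agent.P190
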