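import Vale.Agent.P190.D0
import Vale.Agent.P190.G3

/-! P190, part D3a (helper file): the fifteen charts. -/

namespace Vale.Agent.P190

open Module Filter

/-- chart data for the pair `(i, j)` -/
def ChartP (i j : Fin 10) : Prop :=
    ∃ (c₀ cσ cτ c₁ c₂ c₃ : Fin 5 → ℤ) (e f e₁ e₂ e₃ : ℤ),
      (1 + lamv c₀ i = 0 ∧ 1 + lamv c₀ j = 0 ∧ ∀ l, l ≠ i → l ≠ j → 1 ≤ 1 + lamv c₀ l) ∧
      (lamv cσ i = 1 ∧ lamv cσ j = 0 ∧ lamv cτ i = 0 ∧ lamv cτ j = 1) ∧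
      (lamv c₁ i = 0 ∧ lamv c₁ j = 0 ∧ lamv c₂ i = 0 ∧ lamv c₂ j = 0 ∧ lamv c₃ i = 0 ∧
        lamv c₃ j = 0) ∧
      (e * e = 1 ∧ f * f = 1 ∧ e₁ * e₁ = 1 ∧ e₂ * e₂ = 1 ∧ e₃ * e₃ = 1) ∧
      (∀ c : Fin 5 → ℤ, ∃ x y z₁ z₂ z₃ : ℤ, c = x • cσ + y • cτ + z₁ • c₁ + z₂ • c₂ + z₃ • c₃) ∧
      ∀ (k : Type) [Field k], 1 - (e : KK k) * umon k cσ = e₁ * umon k c₁ ∧
        1 - (f : KK k) * umon k cτ = e₂ * umon k c₂ ∧
        1 - (e : KK k) * umon k cσ * (f * umon k cτ) = e₃ * umon k c₃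

theorem ChartP.symm {i j : Fin 10} (h : ChartP i j) : ChartP j i := by
  obtain ⟨c₀, cσ, cτ, c₁, c₂, c₃, e, f, e₁, e₂, e₃, ⟨a1, a2, a3⟩, ⟨b1, b2, b3, b4⟩,
    ⟨d1, d2, d3, d4, d5, d6⟩, ⟨s1, s2, s3, s4, s5⟩, hc, hk⟩ := h
  refine ⟨c₀, cτ, cσ, c₂, c₁, c₃, f, e, e₂, e₁, e₃, ⟨a2, a1, fun l h1 h2 => a3 l h2 h1⟩,
    ⟨b4, b3, b2, b1⟩, ⟨d4, d3, d2, d1, d6, d5⟩, ⟨s2, s1, s4, s3, s5⟩, fun c => ?_, fun k _ => ?_⟩
  · obtain ⟨x, y, z₁, z₂, z₃, rfl⟩ := hc c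
    exact ⟨y, x, z₂, z₁, z₃, by abel⟩
  · obtain ⟨h1, h2, h3⟩ := hk k
    exact ⟨h2, h1, by rw [← h3]; ring⟩

theorem uu_facts (k : Type) [Field k] : ss k ≠ 0 ∧ tt k ≠ 0 ∧ 1 - ss k ≠ 0 ∧ 1 - tt k ≠ 0 ∧
    ss k - tt k ≠ 0 :=
  ⟨uu_ne_zero (k := k) 0, uu_ne_zero (k := k) 1, uu_ne_zero (k := k) 2, uu_ne_zero (k := k) 3,
    uu_ne_zero (k := k) 4⟩

theorem umon_vec (k : Type) [Field k] (a b c d e : ℤ) : umon k ![a, b, c, d, e] =
    ss k ^ a * tt k ^ b * (1 - ss k) ^ c * (1 - tt k) ^ d * (ss k - tt k) ^ e := by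
  rw [umon_eq]; rfl

theorem chart_0_1 : ChartP 0 1 := by
  refine ⟨![-1, 0, 0, 0, 0], ![1, -1, -1, 1, 0], ![0, 1, 0, -1, 0], ![0, -1, -1, 0, 1], ![0, 0, 0, -1, 0], ![0, 0, -1, 0, 0],
    1, -1, -1, 1, 1, by decide, by decide, by decide, by decide, fun c => ?_, fun k _ => ?_⟩
  · refine ⟨(1) * c 0, (1) * c 0 + (1) * c 1 + (1) * c 4,
      (1) * c 4, (-1) * c 1 + (-1) * c 3 + (-1) * c 4,
      (-1) * c 0 + (-1) * c 2 + (-1) * c 4, ?_⟩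
    funext l
    fin_cases l <;> simp <;> ring
  · obtain ⟨h0, h1, h2, h3, h4⟩ := uu_facts k
    simp only [umon_vec]
    generalize ss k = s at *
    generalize tt k = t at *
    refine ⟨?_, ?_, ?_⟩ <;> simp <;> field_simp <;> ring

theorem chart_0_5 : ChartP 0 5 := by
  refine ⟨![-1, 0, 0, 0, 1], ![1, -1, -1, 1, 0], ![0, 0, 1, -1, 0], ![0, -1, -1, 0, 1], ![0, 0, 0, -1, 1], ![0, -1, 0, 0, 1],
    1, 1, -1, 1, -1, by decide, by decide, by decide, by decide, fun c => ?_, fun k _ => ?_⟩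
  · refine ⟨(1) * c 0, (-1) * c 1 + (-1) * c 3 + (-1) * c 4,
      (-1) * c 0 + (-1) * c 1 + (-1) * c 2 + (-1) * c 3 + (-1) * c 4, (1) * c 0 + (1) * c 1 + (1) * c 4,
      (1) * c 2 + (1) * c 3 + (1) * c 4, ?_⟩
    funext l
    fin_cases l <;> simp <;> ring
  · obtain ⟨h0, h1, h2, h3, h4⟩ := uu_facts k
    simp only [umon_vec]
    generalize ss k = s at *
    generalize tt k = t at *
    refine ⟨?_, ?_, ?_⟩ <;> simp <;> field_simp <;> ring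

theorem chart_0_7 : ChartP 0 7 := by
  refine ⟨![-1, 0, 0, -1, 1], ![1, -1, 0, 0, 0], ![0, 0, -1, 1, 0], ![0, -1, 0, 0, 1], ![0, 0, -1, 0, 1], ![0, -1, -1, 0, 1],
    1, 1, -1, -1, -1, by decide, by decide, by decide, by decide, fun c => ?_, fun k _ => ?_⟩
  · refine ⟨(1) * c 0, (1) * c 3,
      (1) * c 2 + (1) * c 3 + (1) * c 4, (1) * c 0 + (1) * c 1 + (1) * c 4,
      (-1) * c 0 + (-1) * c 1 + (-1) * c 2 + (-1) * c 3 + (-1) * c 4, ?_⟩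
    funext l
    fin_cases l <;> simp <;> ring
  · obtain ⟨h0, h1, h2, h3, h4⟩ := uu_facts k
    simp only [umon_vec]
    generalize ss k = s at *
    generalize tt k = t at *
    refine ⟨?_, ?_, ?_⟩ <;> simp <;> field_simp <;> ring

theorem chart_1_2 : ChartP 1 2 := by
  refine ⟨![0, -1, 0, 0, 0], ![0, 0, -1, 0, 1], ![0, 1, 1, 0, -1], ![0, 0, -1, 1, 0], ![1, 0, 0, 1, -1], ![0, 0, 0, 1, 0],
    -1, -1, 1, 1, 1, by decide, by decide, by decide, by decide, fun c => ?_, fun k _ => ?_⟩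
  · refine ⟨(1) * c 0 + (1) * c 1 + (1) * c 4, (1) * c 1,
      (-1) * c 0 + (-1) * c 2 + (-1) * c 4, (1) * c 0,
      (1) * c 2 + (1) * c 3 + (1) * c 4, ?_⟩
    funext l
    fin_cases l <;> simp <;> ring
  · obtain ⟨h0, h1, h2, h3, h4⟩ := uu_facts k
    simp only [umon_vec]
    generalize ss k = s at *
    generalize tt k = t at *
    refine ⟨?_, ?_, ?_⟩ <;> simp <;> field_simp <;> ring

theorem chart_1_8 : ChartP 1 8 := by
  refine ⟨![0, 0, 0, 1, -1], ![0, 1, 0, -1, 0], ![0, -1, 0, 0, 1], ![0, 0, 0, -1, 0], ![1, -1, 0, 0, 0], ![0, 0, 1, -1, 0],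
    -1, -1, 1, 1, 1, by decide, by decide, by decide, by decide, fun c => ?_, fun k _ => ?_⟩
  · refine ⟨(1) * c 0 + (1) * c 1 + (1) * c 4, (1) * c 4,
      (-1) * c 0 + (-1) * c 1 + (-1) * c 2 + (-1) * c 3 + (-1) * c 4, (1) * c 0,
      (1) * c 2, ?_⟩
    funext l
    fin_cases l <;> simp <;> ring
  · obtain ⟨h0, h1, h2, h3, h4⟩ := uu_facts k
    simp only [umon_vec]
    generalize ss k = s at *
    generalize tt k = t at *
    refine ⟨?_, ?_, ?_⟩ <;> simp <;> field_simp <;> ring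

theorem chart_2_3 : ChartP 2 3 := by
  refine ⟨![0, -1, 0, 0, 1], ![-1, 1, 1, -1, 0], ![0, 0, -1, 1, 0], ![-1, 0, 0, -1, 1], ![0, 0, -1, 0, 1], ![-1, 0, 0, 0, 1],
    1, 1, 1, -1, 1, by decide, by decide, by decide, by decide, fun c => ?_, fun k _ => ?_⟩
  · refine ⟨(1) * c 1, (-1) * c 0 + (-1) * c 2 + (-1) * c 4,
      (-1) * c 0 + (-1) * c 1 + (-1) * c 2 + (-1) * c 3 + (-1) * c 4, (1) * c 0 + (1) * c 1 + (1) * c 4,
      (1) * c 2 + (1) * c 3 + (1) * c 4, ?_⟩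
    funext l
    fin_cases l <;> simp <;> ring
  · obtain ⟨h0, h1, h2, h3, h4⟩ := uu_facts k
    simp only [umon_vec]
    generalize ss k = s at *
    generalize tt k = t at *
    refine ⟨?_, ?_, ?_⟩ <;> simp <;> field_simp <;> ring

theorem chart_2_6 : ChartP 2 6 := by
  refine ⟨![0, -1, -1, 0, 1], ![-1, 1, 0, 0, 0], ![0, 0, 1, -1, 0], ![-1, 0, 0, 0, 1], ![0, 0, 0, -1, 1], ![-1, 0, 0, -1, 1],
    1, 1, 1, 1, 1, by decide, by decide, by decide, by decide, fun c => ?_, fun k _ => ?_⟩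
  · refine ⟨(1) * c 1, (1) * c 2,
      (1) * c 2 + (1) * c 3 + (1) * c 4, (1) * c 0 + (1) * c 1 + (1) * c 4,
      (-1) * c 0 + (-1) * c 1 + (-1) * c 2 + (-1) * c 3 + (-1) * c 4, ?_⟩
    funext l
    fin_cases l <;> simp <;> ring
  · obtain ⟨h0, h1, h2, h3, h4⟩ := uu_facts k
    simp only [umon_vec]
    generalize ss k = s at *
    generalize tt k = t at *
    refine ⟨?_, ?_, ?_⟩ <;> simp <;> field_simp <;> ring

theorem chart_3_4 : ChartP 3 4 := by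
  refine ⟨![0, 0, 1, 0, 0], ![-1, 1, 0, 0, 0], ![0, -1, 0, 0, 0], ![-1, 0, 0, 0, 1], ![0, -1, 0, 1, 0], ![-1, 0, 1, 0, 0],
    1, 1, 1, -1, -1, by decide, by decide, by decide, by decide, fun c => ?_, fun k _ => ?_⟩
  · refine ⟨(-1) * c 0 + (-1) * c 2 + (-1) * c 4, (-1) * c 0 + (-1) * c 1 + (-1) * c 2 + (-1) * c 3 + (-1) * c 4,
      (1) * c 4, (1) * c 3,
      (1) * c 2, ?_⟩
    funext l
    fin_cases l <;> simp <;> ring
  · obtain ⟨h0, h1, h2, h3, h4⟩ := uu_facts k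
    simp only [umon_vec]
    generalize ss k = s at *
    generalize tt k = t at *
    refine ⟨?_, ?_, ?_⟩ <;> simp <;> field_simp <;> ring

theorem chart_3_7 : ChartP 3 7 := by
  refine ⟨![0, 0, 0, -1, 1], ![-1, 0, 0, 0, 0], ![1, 0, 0, 1, -1], ![-1, 0, 1, 0, 0], ![0, 1, 1, 0, -1], ![0, 0, 1, 0, -1],
    1, 1, -1, -1, -1, by decide, by decide, by decide, by decide, fun c => ?_, fun k _ => ?_⟩
  · refine ⟨(-1) * c 0 + (-1) * c 2 + (-1) * c 4, (1) * c 3,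
      (1) * c 2 + (1) * c 3 + (1) * c 4, (1) * c 1,
      (-1) * c 1 + (-1) * c 3 + (-1) * c 4, ?_⟩
    funext l
    fin_cases l <;> simp <;> ring
  · obtain ⟨h0, h1, h2, h3, h4⟩ := uu_facts k
    simp only [umon_vec]
    generalize ss k = s at *
    generalize tt k = t at *
    refine ⟨?_, ?_, ?_⟩ <;> simp <;> field_simp <;> ring

theorem chart_4_5 : ChartP 4 5 := by
  refine ⟨![0, 0, 0, 1, 0], ![-1, 0, 0, -1, 1], ![1, 0, 0, 0, -1], ![-1, 1, 1, -1, 0], ![0, 1, 0, 0, -1], ![0, 1, 0, -1, 0],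
    1, 1, 1, -1, -1, by decide, by decide, by decide, by decide, fun c => ?_, fun k _ => ?_⟩
  · refine ⟨(-1) * c 0 + (-1) * c 1 + (-1) * c 2 + (-1) * c 3 + (-1) * c 4, (-1) * c 1 + (-1) * c 3 + (-1) * c 4,
      (1) * c 2, (-1) * c 0 + (-1) * c 2 + (-1) * c 4,
      (1) * c 0 + (1) * c 1 + (1) * c 4, ?_⟩
    funext l
    fin_cases l <;> simp <;> ring
  · obtain ⟨h0, h1, h2, h3, h4⟩ := uu_facts k
    simp only [umon_vec]
    generalize ss k = s at *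
    generalize tt k = t at *
    refine ⟨?_, ?_, ?_⟩ <;> simp <;> field_simp <;> ring

theorem chart_4_8 : ChartP 4 8 := by
  refine ⟨![0, 1, 1, 0, -1], ![-1, 0, 0, 0, 0], ![0, 0, 0, -1, 1], ![-1, 0, 1, 0, 0], ![0, 0, 1, -1, 0], ![-1, 1, 1, -1, 0],
    1, 1, -1, 1, 1, by decide, by decide, by decide, by decide, fun c => ?_, fun k _ => ?_⟩
  · refine ⟨(-1) * c 0 + (-1) * c 1 + (-1) * c 2 + (-1) * c 3 + (-1) * c 4, (1) * c 4,
      (1) * c 2 + (1) * c 3 + (1) * c 4, (-1) * c 1 + (-1) * c 3 + (-1) * c 4,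
      (1) * c 1, ?_⟩
    funext l
    fin_cases l <;> simp <;> ring
  · obtain ⟨h0, h1, h2, h3, h4⟩ := uu_facts k
    simp only [umon_vec]
    generalize ss k = s at *
    generalize tt k = t at *
    refine ⟨?_, ?_, ?_⟩ <;> simp <;> field_simp <;> ring

theorem chart_5_6 : ChartP 5 6 := by
  refine ⟨![0, 0, -1, 0, 1], ![0, -1, 0, 0, 0], ![0, 1, 1, 0, -1], ![0, -1, 0, 1, 0], ![1, 0, 0, 1, -1], ![0, 0, 0, 1, -1],
    1, -1, -1, 1, 1, by decide, by decide, by decide, by decide, fun c => ?_, fun k _ => ?_⟩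
  · refine ⟨(-1) * c 1 + (-1) * c 3 + (-1) * c 4, (1) * c 2,
      (1) * c 2 + (1) * c 3 + (1) * c 4, (1) * c 0,
      (-1) * c 0 + (-1) * c 2 + (-1) * c 4, ?_⟩
    funext l
    fin_cases l <;> simp <;> ring
  · obtain ⟨h0, h1, h2, h3, h4⟩ := uu_facts k
    simp only [umon_vec]
    generalize ss k = s at *
    generalize tt k = t at *
    refine ⟨?_, ?_, ?_⟩ <;> simp <;> field_simp <;> ring

theorem chart_6_9 : ChartP 6 9 := by
  refine ⟨![0, 0, -1, 0, 0], ![-1, 1, 1, -1, 0], ![0, -1, 0, 1, 0], ![-1, 0, 0, -1, 1], ![0, -1, 0, 0, 0], ![-1, 0, 0, 0, 0],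
    1, -1, 1, 1, 1, by decide, by decide, by decide, by decide, fun c => ?_, fun k _ => ?_⟩
  · refine ⟨(1) * c 2, (1) * c 2 + (1) * c 3 + (1) * c 4,
      (1) * c 4, (-1) * c 1 + (-1) * c 3 + (-1) * c 4,
      (-1) * c 0 + (-1) * c 2 + (-1) * c 4, ?_⟩
    funext l
    fin_cases l <;> simp <;> ring
  · obtain ⟨h0, h1, h2, h3, h4⟩ := uu_facts k
    simp only [umon_vec]
    generalize ss k = s at *
    generalize tt k = t at *
    refine ⟨?_, ?_, ?_⟩ <;> simp <;> field_simp <;> ring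

theorem chart_7_9 : ChartP 7 9 := by
  refine ⟨![0, 0, 0, -1, 0], ![0, 0, -1, 1, 0], ![0, 0, 1, 0, 0], ![0, 0, -1, 0, 1], ![1, 0, 0, 0, 0], ![0, 1, 0, 0, 0],
    1, 1, -1, 1, 1, by decide, by decide, by decide, by decide, fun c => ?_, fun k _ => ?_⟩
  · refine ⟨(1) * c 3, (1) * c 2 + (1) * c 3 + (1) * c 4,
      (1) * c 4, (1) * c 0,
      (1) * c 1, ?_⟩
    funext l
    fin_cases l <;> simp <;> ring
  · obtain ⟨h0, h1, h2, h3, h4⟩ := uu_facts k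
    simp only [umon_vec]
    generalize ss k = s at *
    generalize tt k = t at *
    refine ⟨?_, ?_, ?_⟩ <;> simp <;> field_simp <;> ring

theorem chart_8_9 : ChartP 8 9 := by
  refine ⟨![0, 1, 0, 0, -1], ![-1, 0, 0, -1, 1], ![0, 0, 0, 1, 0], ![-1, 1, 1, -1, 0], ![0, 1, 0, 0, 0], ![-1, 1, 0, 0, 0],
    1, 1, 1, 1, 1, by decide, by decide, by decide, by decide, fun c => ?_, fun k _ => ?_⟩
  · refine ⟨(1) * c 4, (1) * c 2 + (1) * c 3 + (1) * c 4,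
      (1) * c 2, (1) * c 0 + (1) * c 1 + (1) * c 4,
      (-1) * c 0 + (-1) * c 2 + (-1) * c 4, ?_⟩
    funext l
    fin_cases l <;> simp <;> ring
  · obtain ⟨h0, h1, h2, h3, h4⟩ := uu_facts k
    simp only [umon_vec]
    generalize ss k = s at *
    generalize tt k = t at *
    refine ⟨?_, ?_, ?_⟩ <;> simp <;> field_simp <;> ring

end Vale.Agent.P190
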