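import Vale.Agent.P190.D3a
import Vale.Agent.P190.D2b

/-! P190, part D3b: Hilbert function of small primes. -/

namespace Vale.Agent.P190

open Module Filter

variable {k : Type} [Field k] {n : ℕ} {D : DP k n}

theorem d3b_mul {p : Fam D.S (KK k)} (hp : p.IsPrime) {e : ZZ} {x : KK k} (hx : x ∈ D.S.B e)
    (hxp : x ∉ p.U e) (a : ZZ) :
    p.U (a + e) ⊔ (D.S.B a).map (smulL x) ≤ D.S.B (a + e) ∧
    (finrank k (p.U (a + e) ⊔ (D.S.B a).map (smulL x) : Submodule k (KK k)) : ℤ) =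
      finrank k (p.U (a + e)) + (finrank k (D.S.B a) - finrank k (p.U a)) := by
  have hx0 : x ≠ 0 := by rintro rfl; exact hxp (Submodule.zero_mem _)
  have hinj : Function.Injective (smulL x : KK k →ₗ[k] KK k) := fun u v h =>
    mul_left_cancel₀ hx0 h
  have h1 : (D.S.B a).map (smulL x) ≤ D.S.B (a + e) := by
    rintro _ ⟨φ, hφ, rfl⟩
    rw [add_comm]
    exact D.S.mul_mem hx hφ
  have h2 : p.U (a + e) ⊓ (D.S.B a).map (smulL x) = (p.U a).map (smulL x) := by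
    apply le_antisymm
    · rintro _ ⟨h3, φ, hφ, rfl⟩
      rw [add_comm] at h3
      exact ⟨φ, (hp.2.2 e a x φ hx hφ h3).resolve_left hxp, rfl⟩
    · rintro _ ⟨φ, hφ, rfl⟩
      refine ⟨?_, φ, hp.1 a hφ, rfl⟩
      rw [add_comm]
      exact p.smul_mem e a x φ hx hφ
  refine ⟨sup_le (hp.1 _) h1, ?_⟩
  haveI := D.S.fd a
  haveI := D.S.fd (a + e)
  haveI : FiniteDimensional k (p.U (a + e)) :=
    Submodule.finiteDimensional_of_le (show p.U (a + e) ≤ D.S.B (a + e) from hp.1 (a + e))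
  have h4 := Submodule.finrank_sup_add_finrank_inf_eq (p.U (a + e)) ((D.S.B a).map (smulL x))
  rw [h2, ← (Submodule.equivMapOfInjective _ hinj (p.U a)).finrank_eq,
    ← (Submodule.equivMapOfInjective _ hinj (D.S.B a)).finrank_eq] at h4
  omega

theorem d3b_le {p : Fam D.S (KK k)} (hp : p.IsPrime) {e : ZZ} {x : KK k} (hx : x ∈ D.S.B e)
    (hxp : x ∉ p.U e) (a : ZZ) : (finrank k (D.S.B a) : ℤ) - finrank k (p.U a) ≤
      finrank k (D.S.B (a + e)) - finrank k (p.U (a + e)) := by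
  obtain ⟨h1, h2⟩ := d3b_mul hp hx hxp a
  haveI := D.S.fd (a + e)
  have := Submodule.finrank_mono h1
  omega

theorem hq_eq_sum (p : Fam D.S (KK k)) (w : ZZ) : hq n p w = ∑ c : Fin 5 → Fin n,
    ((finrank k (D.S.B (w + lamv fun j => (c j : ℤ))) : ℤ) -
      finrank k (p.U (w + lamv fun j => (c j : ℤ)))) := by
  rw [hq, hh, hh, Finset.sum_sub_distrib, Nat.cast_sum, Nat.cast_sum]
  rfl

theorem hq_add_lamv (p : Fam D.S (KK k)) (w : ZZ) (c : Fin 5 → ℤ) :
    hq n p (w + lamv c) = hq n p w := by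
  rw [hq, hq, DP.hh_add_lamv, DP.hh_add_lamv]

theorem d3b_hq_le {p : Fam D.S (KK k)} (hp : p.IsPrime) {e : ZZ} {x : KK k} (hx : x ∈ D.S.B e)
    (hxp : x ∉ p.U e) (w : ZZ) : hq n p w ≤ hq n p (w + e) := by
  rw [hq_eq_sum, hq_eq_sum]
  refine Finset.sum_le_sum fun c _ => ?_
  rw [add_right_comm w e]
  exact d3b_le hp hx hxp _

theorem d3b_P0 (w a b : ZZ) :
    P0 n w - P0 n (w - a) - P0 n (w - b) + P0 n (w - a - b) = (n : ℚ) ^ 3 * II a b := by
  simp only [P0, sub_eq_add_neg, II_add_left, II_add_right, II_neg_left, II_neg_right, map_add,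
    map_neg, II_comm a w, II_comm b w, II_comm b a]
  push_cast
  ring

theorem d3b_bound {p : Fam D.S (KK k)} (hp : p.IsPrime) (hs : p.IsSmall) :
    ∃ C : ℤ, ∀ w : ZZ, ∀ᶠ m : ℤ in atTop, hq n p (w + cst m) ≤ C := by
  obtain ⟨b₀, g₀, hg₀, hg₀p, -⟩ := hs (D.sp 0)
  obtain ⟨P, a, f, hf, h1, h0, hfp⟩ := hp.exists_prime_elt ⟨b₀, g₀, hg₀, hg₀p⟩
  obtain ⟨b, g, hg, hgp, hg0⟩ := hs P
  refine ⟨n ^ 3 * II a b, fun w => ?_⟩
  filter_upwards [D.hh_fam w, D.hh_fam (w - a), D.hh_fam (w - b), D.hh_fam (w - a - b)]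
    with m e1 e2 e3 e4
  have key : hq n p (w + cst m) ≤ (hh n D.S.fam (w + cst m) : ℤ) - hh n D.S.fam (w - a + cst m) -
      hh n D.S.fam (w - b + cst m) + hh n D.S.fam (w - a - b + cst m) := by
    rw [hq_eq_sum]
    simp only [hh, Nat.cast_sum]
    rw [← Finset.sum_sub_distrib, ← Finset.sum_sub_distrib, ← Finset.sum_add_distrib]
    refine Finset.sum_le_sum fun c _ => ?_
    have := Fam.codim_le hp.1 hf h1 h0 hfp hg hg0 hgp (w + cst m + lamv fun j => (c j : ℤ))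
    rw [show w - a + cst m + (lamv fun j => (c j : ℤ)) =
        w + cst m + (lamv fun j => (c j : ℤ)) - a by abel,
      show w - b + cst m + (lamv fun j => (c j : ℤ)) =
        w + cst m + (lamv fun j => (c j : ℤ)) - b by abel,
      show w - a - b + cst m + (lamv fun j => (c j : ℤ)) =
        w + cst m + (lamv fun j => (c j : ℤ)) - a - b by abel]
    exact this
  have h2 := (Int.cast_le (R := ℚ)).2 key
  have h3 := d3b_P0 (n := n) (w + cst m) a b
  rw [show w - a + cst m = w + cst m - a by abel] at e2 h2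
  rw [show w - b + cst m = w + cst m - b by abel] at e3 h2
  rw [show w - a - b + cst m = w + cst m - a - b by abel] at e4 h2
  push_cast at h2
  rw [e1, e2, e3, e4, h3] at h2
  exact_mod_cast h2

theorem d3b_one_not_mem {p : Fam D.S (KK k)} (hp : p.IsPrime) {i j : Fin 10}
    (hZ : ∀ l, (1 : KK k) ∈ p.U (Pi.single l 1) → l = i ∨ l = j) {ε : ZZ} (h : ∀ l, 0 ≤ ε l)
    (hi : ε i = 0) (hj : ε j = 0) : (1 : KK k) ∉ p.U ε := by
  intro h1
  rw [← umon_zero] at h1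
  obtain ⟨l, hl, hl'⟩ := (umon_mem_prime_iff hp (by simpa [lamv_zero] using h)).1 h1
  rcases hZ l hl' with rfl | rfl <;> simp [lamv_zero, hi, hj] at hl

theorem small_const {p : Fam D.S (KK k)} (hp : p.IsPrime) (hs : p.IsSmall) :
    ∃ c₀ : ℤ, ∀ w : ZZ, ∀ᶠ m : ℤ in atTop, hq n p (w + cst m) = c₀ := by
  rcases prime_zero_cases hp with ⟨i, j, hij, hZ⟩ | ⟨η, hη, h⟩
  swap
  · refine ⟨0, fun w => ?_⟩
    have := fun c : Fin 5 → Fin n => irrelevant_le p 1 {l | (1 : KK k) ∈ p.U (Pi.single l 1)}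
      (fun l hl => by rwa [one_smul]) η hη h (w + lamv fun j => (c j : ℤ))
    filter_upwards [eventually_all.2 this] with m hm
    rw [hq_eq_sum]
    refine Finset.sum_eq_zero fun c _ => ?_
    rw [add_right_comm, le_antisymm (hm c) (hp.1 _), sub_self]
  obtain ⟨c₀, cσ, cτ, -, -, -, -, -, -, -, -, ⟨h0i, h0j, h0⟩, ⟨hσi, hσj, hτi, hτj⟩, -⟩ :=
    exists_chart i j hij
  obtain ⟨C, hC⟩ := d3b_bound hp hs
  have hstep : ∀ w w' : ZZ, ∃ T : ℤ, 0 ≤ T ∧ ∀ t, T ≤ t → hq n p w ≤ hq n p (w' + cst t) := by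
    intro w w'
    let δ := w' - w + lamv (-(w' - w) i • cσ + -(w' - w) j • cτ)
    have hδi : δ i = 0 := by
      simp only [δ, lamv_add, lamv_smul, Pi.add_apply, Pi.smul_apply, hσi, hτi, smul_eq_mul]; ring
    have hδj : δ j = 0 := by
      simp only [δ, lamv_add, lamv_smul, Pi.add_apply, Pi.smul_apply, hσj, hτj, smul_eq_mul]; ring
    obtain ⟨T, hT⟩ := (Set.finite_range fun l => -δ l).bddAbove
    have hT' : ∀ l, -δ l ≤ T := fun l => hT ⟨l, rfl⟩
    refine ⟨T, by simpa [hδi] using hT' i, fun t ht => ?_⟩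
    have ht0 : 0 ≤ t := by have := hT' i; omega
    let ε := δ + t • (cst 1 + lamv c₀)
    have hε : ∀ l, ε l = δ l + t * (1 + lamv c₀ l) := fun l => rfl
    have hε0 : ∀ l, 0 ≤ ε l := by
      intro l
      rw [hε]
      by_cases hi : l = i
      · rw [hi, hδi, h0i]; simp
      by_cases hj : l = j
      · rw [hj, hδj, h0j]; simp
      have := h0 l hi hj
      have := hT' l
      nlinarith
    have := d3b_hq_le hp (D.one_mem hε0)
      (d3b_one_not_mem hp hZ hε0 (by rw [hε, hδi, h0i]; simp) (by rw [hε, hδj, h0j]; simp)) w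
    have e : w + ε = w' + cst t + lamv (-(w' - w) i • cσ + -(w' - w) j • cτ + t • c₀) := by
      rw [lamv_add _ (t • c₀), lamv_smul t c₀]
      simp only [ε, δ, smul_add, cst_smul, mul_one]
      abel
    rwa [e, hq_add_lamv] at this
  have hbd : ∀ w, hq n p w ≤ C := by
    intro w
    obtain ⟨T, -, hT⟩ := hstep w w
    obtain ⟨m, h1, h2⟩ := ((hC w).and (eventually_ge_atTop T)).exists
    exact (hT m h2).trans h1
  obtain ⟨c, ⟨w₀, rfl⟩, hc⟩ := Int.exists_greatest_of_bdd (P := fun z => ∃ w, hq n p w = z)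
    ⟨C, by rintro _ ⟨w, rfl⟩; exact hbd w⟩ ⟨_, 0, rfl⟩
  refine ⟨hq n p w₀, fun w => ?_⟩
  obtain ⟨T, -, hT⟩ := hstep w₀ w
  filter_upwards [eventually_ge_atTop T] with m hm
  exact le_antisymm (hc _ ⟨_, rfl⟩) (hT m hm)

theorem small_surj {p : Fam D.S (KK k)} (hp : p.IsPrime) (hs : p.IsSmall) {e : ZZ} {x : KK k}
    (hx : x ∈ D.S.B e) (hxp : x ∉ p.U e) (w : ZZ) : ∀ᶠ m : ℤ in atTop,
      D.S.B (w + cst m + e) ≤ p.U (w + cst m + e) ⊔ (D.S.B (w + cst m)).map (smulL x) := by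
  obtain ⟨c₀, hc⟩ := small_const hp hs
  filter_upwards [hc w, hc (w + e)] with m h1 h2
  rw [add_right_comm, ← h1, hq_eq_sum, hq_eq_sum] at h2
  have h3 := (Finset.sum_eq_sum_iff_of_le (s := Finset.univ) fun (c : Fin 5 → Fin n) _ => by
    have := d3b_le hp hx hxp (w + cst m + lamv fun j => (c j : ℤ))
    rw [add_right_comm _ _ e] at this
    exact this).1 h2.symm (fun _ => ⟨0, D.n_pos⟩) (Finset.mem_univ _)
  have e0 : (lamv fun _ : Fin 5 => (((⟨0, D.n_pos⟩ : Fin n) : ℕ) : ℤ)) = 0 := lamv_zero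
  rw [e0, add_zero, add_zero] at h3
  obtain ⟨h4, h5⟩ := d3b_mul hp hx hxp (w + cst m)
  haveI := D.S.fd (w + cst m + e)
  refine (Submodule.eq_of_le_of_finrank_eq h4 ?_).ge
  omega

theorem prime_cases_irrelevant {p : Fam D.S (KK k)} (hp : p.IsPrime) :
    (∀ w : ZZ, ∀ᶠ m : ℤ in atTop, D.S.B (w + cst m) ≤ p.U (w + cst m)) ∨
      ¬ D.S.B (cst n) ≤ p.U (cst n) := by
  rcases prime_zero_cases hp with ⟨i, j, hij, hZ⟩ | ⟨η, hη, h⟩
  · right
    obtain ⟨c₀, -, -, -, -, -, -, -, -, -, -, ⟨h0i, h0j, h0⟩, -⟩ := exists_chart i j hij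
    have e : ∀ l, cst n l + n * lamv c₀ l = n * (1 + lamv c₀ l) := fun l => by
      simp only [cst]; ring
    have h1 : ∀ l, 0 ≤ cst n l + n * lamv c₀ l := by
      intro l
      rw [e]
      refine mul_nonneg (Int.natCast_nonneg n) ?_
      by_cases hi : l = i
      · rw [hi, h0i]
      by_cases hj : l = j
      · rw [hj, h0j]
      have := h0 l hi hj
      omega
    intro hle
    have h2 := hle (show umon k c₀ ∈ D.S.B (cst n) from D.hB ▸ umon_mem_BB h1)
    obtain ⟨l, hl, hl'⟩ := (umon_mem_prime_iff hp h1).1 h2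
    rw [e] at hl
    rcases hZ l hl' with rfl | rfl
    · simp [h0i] at hl
    · simp [h0j] at hl
  · exact Or.inl fun w => irrelevant_le p 1 {l | (1 : KK k) ∈ p.U (Pi.single l 1)}
      (fun l hl => by rwa [one_smul]) η hη h w

end Vale.Agent.P190
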