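import Vale.Agent.P190.D3b

/-! P190, part D3c: Frobenius powers of small primes. -/

namespace Vale.Agent.P190

open Module Filter

section generic

variable {k K Γ : Type} [Field k] [Field K] [Algebra k K] [AddCommGroup Γ] {S : Sys k K Γ}

theorem d3c_mul_notMem {p : Fam S K} (hp : p.IsPrime) {a b : Γ} {u v : K} (hu : u ∈ S.B a)
    (hv : v ∈ S.B b) (hu' : u ∉ p.U a) (hv' : v ∉ p.U b) : u * v ∉ p.U (a + b) :=
  fun h => (hp.2.2 a b u v hu hv h).elim hu' hv'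

theorem d3c_mul_mem (J : Fam S K) {a b c : Γ} {u v w : K} (hu : u ∈ S.B a) (hv : v ∈ J.U b)
    (hc : c = a + b) (hw : w = u * v) : w ∈ J.U c := by
  subst hc hw
  exact J.smul_mem a b u v hu hv

/-- localisation of a family at a prime -/
def d3cLoc {p : Fam S K} (hp : p.IsPrime) (J : Fam S K) (a : Γ) : Submodule k K where
  carrier := {φ | ∃ b, ∃ u ∈ S.B b, u ∉ p.U b ∧ u * φ ∈ J.U (b + a)}
  zero_mem' := ⟨0, 1, S.one_mem, hp.2.1, by simp⟩
  add_mem' := by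
    rintro x y ⟨b, u, hu, hu', hx⟩ ⟨b', v, hv, hv', hy⟩
    refine ⟨b + b', u * v, S.mul_mem hu hv, d3c_mul_notMem hp hu hv hu' hv', ?_⟩
    rw [mul_add]
    exact Submodule.add_mem _ (d3c_mul_mem J hv hx (by abel) (by ring))
      (d3c_mul_mem J hu hy (by abel) (by ring))
  smul_mem' := by
    rintro c x ⟨b, u, hu, hu', hx⟩
    refine ⟨b, u, hu, hu', ?_⟩
    rw [mul_smul_comm]
    exact Submodule.smul_mem _ c hx

variable {p : Fam S K} (hp : p.IsPrime)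

theorem d3cLoc_mono {J J' : Fam S K} (h : J ≤ J') (a : Γ) : d3cLoc hp J a ≤ d3cLoc hp J' a := by
  rintro x ⟨b, u, hu, hu', hx⟩
  exact ⟨b, u, hu, hu', h _ hx⟩

theorem d3cLoc_of_mem {J : Fam S K} {a : Γ} {x : K} (h : x ∈ J.U a) : x ∈ d3cLoc hp J a :=
  ⟨0, 1, S.one_mem, hp.2.1, by simpa using h⟩

theorem d3cLoc_mul {J : Fam S K} {a a' : Γ} {x y : K} (hx : x ∈ d3cLoc hp S.fam a)
    (hy : y ∈ d3cLoc hp J a') : x * y ∈ d3cLoc hp J (a + a') := by
  obtain ⟨b, u, hu, hu', hx⟩ := hx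
  obtain ⟨b', v, hv, hv', hy⟩ := hy
  exact ⟨b + b', u * v, S.mul_mem hu hv, d3c_mul_notMem hp hu hv hu' hv',
    d3c_mul_mem J hx hy (by abel) (by ring)⟩

theorem d3cLoc_mul0 {J : Fam S K} {x y : K} (hx : x ∈ d3cLoc hp S.fam 0)
    (hy : y ∈ d3cLoc hp J 0) : x * y ∈ d3cLoc hp J 0 := by
  simpa using d3cLoc_mul hp hx hy

theorem d3cLoc_one : (1 : K) ∉ d3cLoc hp p 0 := by
  rintro ⟨b, u, -, hu', hx⟩
  exact hu' (by simpa using hx)

theorem d3cLoc_const {κ : k} (h : algebraMap k K κ ∈ d3cLoc hp p 0) : κ = 0 := by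
  by_contra h0
  have := (d3cLoc hp p 0).smul_mem κ⁻¹ h
  rw [Algebra.smul_def, ← map_mul, inv_mul_cancel₀ h0, map_one] at this
  exact d3cLoc_one hp this

theorem d3cLoc_prime {x y : K} (hx : x ∈ d3cLoc hp S.fam 0) (hy : y ∈ d3cLoc hp S.fam 0)
    (h : x * y ∈ d3cLoc hp p 0) : x ∈ d3cLoc hp p 0 ∨ y ∈ d3cLoc hp p 0 := by
  obtain ⟨b, u, hu, hu', hx⟩ := hx
  obtain ⟨b', v, hv, hv', hy⟩ := hy
  obtain ⟨b'', w, hw, hw', h⟩ := h
  have h1 : w * ((u * x) * (v * y)) ∈ p.U (b'' + ((b + 0) + (b' + 0))) :=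
    d3c_mul_mem p (S.mul_mem hu hv) h (by abel) (by ring)
  rcases hp.2.2 _ _ _ _ hw (S.mul_mem hx hy) h1 with h2 | h2
  · exact absurd h2 hw'
  rcases hp.2.2 _ _ _ _ hx hy h2 with h3 | h3
  · exact Or.inl ⟨b, u, hu, hu', h3⟩
  · exact Or.inr ⟨b', v, hv, hv', h3⟩

/-- the local ring -/
def d3cO : Subalgebra k K :=
  (d3cLoc hp S.fam 0).toSubalgebra (d3cLoc_of_mem hp S.one_mem) fun _ _ hx hy =>
    d3cLoc_mul0 hp hx hy

theorem d3c_root [IsAlgClosed k] {x : K} (hx : x ∈ d3cLoc hp S.fam 0) (P : Polynomial k)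
    (hP : P ≠ 0) (h : Polynomial.aeval x P ∈ d3cLoc hp p 0) :
    ∃ α : k, x - algebraMap k K α ∈ d3cLoc hp p 0 := by
  induction hd : P.natDegree using Nat.strong_induction_on generalizing P with
  | _ N ih =>
  by_cases h0 : P.degree = 0
  · rw [Polynomial.eq_C_of_degree_eq_zero h0] at h hP
    rw [Polynomial.aeval_C] at h
    rw [d3cLoc_const hp h] at hP
    simp at hP
  obtain ⟨α, hα⟩ := IsAlgClosed.exists_root P h0
  obtain ⟨Q, rfl⟩ := Polynomial.dvd_iff_isRoot.2 hα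
  have hQ : Q ≠ 0 := right_ne_zero_of_mul hP
  have hO : ∀ R : Polynomial k, Polynomial.aeval x R ∈ d3cLoc hp S.fam 0 := fun R =>
    (Algebra.adjoin_le (S := d3cO hp) (Set.singleton_subset_iff.2 hx))
      (Polynomial.aeval_mem_adjoin_singleton k x)
  rw [map_mul] at h
  rcases d3cLoc_prime hp (hO _) (hO _) h with h1 | h1
  · exact ⟨α, by simpa using h1⟩
  · refine ih Q.natDegree ?_ Q hQ h1 rfl
    rw [← hd, Polynomial.natDegree_mul (Polynomial.X_sub_C_ne_zero α) hQ,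
      Polynomial.natDegree_X_sub_C]
    omega

/-- constants plus the localised ideal -/
def d3cR {I : Fam S K} (hI : I ≤ p) : Subalgebra k K where
  carrier := {φ | ∃ κ : k, φ - algebraMap k K κ ∈ d3cLoc hp I 0}
  mul_mem' := by
    rintro x y ⟨κ, hx⟩ ⟨κ', hy⟩
    refine ⟨κ * κ', ?_⟩
    have h1 := d3cLoc_mul0 hp (d3cLoc_mono hp (hI.trans hp.1) 0 hx) hy
    have h2 := Submodule.add_mem _ (Submodule.add_mem _ h1 (Submodule.smul_mem _ κ hy))
      (Submodule.smul_mem _ κ' hx)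
    convert h2 using 1
    simp only [Algebra.smul_def, map_mul]
    ring
  add_mem' := by
    rintro x y ⟨κ, hx⟩ ⟨κ', hy⟩
    refine ⟨κ + κ', ?_⟩
    convert Submodule.add_mem _ hx hy using 1
    rw [map_add]
    ring
  algebraMap_mem' := fun κ => ⟨κ, by simp⟩

theorem d3cR_inv {I : Fam S K} (hI : I ≤ p) {x : K} (hx : x ∈ d3cR hp hI) (h0 : x ≠ 0)
    (hi : x⁻¹ ∈ d3cLoc hp S.fam 0) : x⁻¹ ∈ d3cR hp hI := by
  obtain ⟨κ, hx⟩ := hx
  have h1 := d3cLoc_mul0 hp hi hx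
  have hκ : κ ≠ 0 := by
    rintro rfl
    rw [map_zero, sub_zero, inv_mul_cancel₀ h0] at h1
    exact d3cLoc_one hp (d3cLoc_mono hp hI 0 h1)
  have hκ' : algebraMap k K κ ≠ 0 := (map_ne_zero _).2 hκ
  refine ⟨κ⁻¹, ?_⟩
  convert Submodule.smul_mem _ (-κ⁻¹) h1 using 1
  simp only [Algebra.smul_def, map_neg, map_inv₀]
  field_simp
  ring

theorem d3c_exists_poly {P B : Submodule k K} [FiniteDimensional k B] (hPB : P ≤ B) (x : K) (N : ℕ)
    (hx : ∀ r < N, x ^ r ∈ B) (hN : (finrank k B : ℤ) - finrank k P < N) :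
    ∃ Q : Polynomial k, Q ≠ 0 ∧ Polynomial.aeval x Q ∈ P := by
  by_contra hc
  push Not at hc
  let L : Polynomial.degreeLT k N →ₗ[k] K :=
    (Polynomial.aeval x).toLinearMap.comp (Polynomial.degreeLT k N).subtype
  have hL : ∀ Q : Polynomial.degreeLT k N, L Q ∈ P → Q = 0 := fun Q hQ => by
    by_contra h0
    exact hc Q (fun h => h0 (Subtype.ext h)) hQ
  have hinj : Function.Injective L :=
    (injective_iff_map_eq_zero L).2 fun Q hQ => hL Q (hQ ▸ P.zero_mem)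
  have hr : LinearMap.range L ≤ B := by
    rintro _ ⟨Q, rfl⟩
    change Polynomial.aeval x (Q : Polynomial k) ∈ B
    by_cases hQ : (Q : Polynomial k) = 0
    · simp [hQ]
    have hd : (Q : Polynomial k).natDegree < N :=
      (Polynomial.natDegree_lt_iff_degree_lt hQ).2 (Polynomial.mem_degreeLT.1 Q.2)
    rw [Polynomial.aeval_eq_sum_range' hd]
    exact Submodule.sum_mem _ fun r hr => Submodule.smul_mem _ _ (hx r (Finset.mem_range.1 hr))
  have hf : finrank k (Polynomial.degreeLT k N) = N := by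
    rw [(Polynomial.degreeLTEquiv k N).finrank_eq]
    simp
  haveI : FiniteDimensional k P := Submodule.finiteDimensional_of_le hPB
  haveI : FiniteDimensional k (LinearMap.range L) := Submodule.finiteDimensional_of_le hr
  have h1 := Submodule.finrank_sup_add_finrank_inf_eq (LinearMap.range L) P
  have h2 : LinearMap.range L ⊓ P = ⊥ := by
    rw [eq_bot_iff]
    rintro _ ⟨⟨Q, rfl⟩, hQ⟩
    rw [hL Q hQ]
    simp
  have h3 : finrank k (LinearMap.range L ⊔ P : Submodule k K) ≤ finrank k B :=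
    Submodule.finrank_mono (sup_le hr hPB)
  rw [h2, finrank_bot, LinearMap.finrank_range_of_inj hinj, hf] at h1
  omega

theorem d3c_finrank_mono {J J' : Fam S K} (h : J ≤ J') (h' : J' ≤ S.fam) (a : Γ) :
    finrank k (J.U a) ≤ finrank k (J'.U a) := by
  haveI := (Fam.fam_FG.of_le h').fd a
  exact Submodule.finrank_mono (h a)

/-- the codimension is bounded through the filtration by powers of one element -/
theorem d3c_codim {J : Fam S K} {d : Γ} {f : K} (hf : f ∈ S.B d) (q : ℕ) :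
    ∀ J' : Fam S K, J ≤ J' → J' ≤ S.fam → f ^ q ∈ J'.U (q • d) → ∀ c,
      (finrank k (S.B c) : ℤ) - finrank k (J'.U c) ≤ ∑ α ∈ Finset.range q,
        ((finrank k (S.B (c - α • d)) : ℤ) -
          finrank k ((J.add (Fam.gen S {(d, f)})).U (c - α • d))) := by
  have hg : Fam.gen S {(d, f)} ≤ S.fam := Fam.gen_le.2 (by
    rintro z rfl
    exact hf)
  induction q with
  | zero =>
    intro J' _ h2 h3 c
    have : S.fam ≤ J' := fun a x hx => d3c_mul_mem J' hx h3 (by simp) (by simp)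
    have := d3c_finrank_mono this h2 c
    simp only [Finset.range_zero, Finset.sum_empty, sub_nonpos, Nat.cast_le]
    exact this
  | succ q ih =>
    intro J' h1 h2 h3 c
    have e1 := Fam.finrank_add_gen (Fam.fam_FG.of_le h2) d f c
    have e2 := ih (J'.ann d f) (fun a x hx => ⟨h2 a (h1 a hx),
      d3c_mul_mem J' hf (h1 a hx) (add_comm _ _) (by rw [smul_eq_mul, mul_comm])⟩)
      (Fam.ann_le_fam _ _ _) ⟨S.pow_mem hf q, by rwa [smul_eq_mul, ← pow_succ, ← succ_nsmul]⟩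
      (c - d)
    have e3 : finrank k ((J.add (Fam.gen S {(d, f)})).U c) ≤
        finrank k ((J'.add (Fam.gen S {(d, f)})).U c) :=
      d3c_finrank_mono (Fam.add_le.2 ⟨h1.trans (Fam.le_add_left _ _), Fam.le_add_right _ _⟩)
        (Fam.add_le.2 ⟨h2, hg⟩) c
    have e4 : ∀ α : ℕ, c - (α + 1) • d = c - d - α • d := fun α => by
      rw [succ_nsmul]
      abel
    rw [Finset.sum_range_succ', zero_smul, sub_zero,
      Finset.sum_congr rfl fun α _ => by rw [e4 α]]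
    omega

theorem d3c_pow_mem {p' : Fam S K} (hp' : p'.IsPrime) {b : Γ} {g : K} (hg : g ∈ S.B b) (q : ℕ)
    (h : g ^ q ∈ p'.U (q • b)) : g ∈ p'.U b := by
  induction q with
  | zero => exact absurd (by simpa using h) hp'.2.1
  | succ q ih =>
    rw [pow_succ, succ_nsmul] at h
    exact (hp'.2.2 _ _ _ _ (S.pow_mem hg q) hg h).elim ih id

theorem d3c_common {I : Fam S K} (h : ∀ a g, g ∈ p.U a → g ∈ d3cLoc hp I a) :
    ∃ e, ∃ x ∈ S.B e, x ∉ p.U e ∧ ∀ a g, g ∈ p.U a → x * g ∈ I.U (e + a) := by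
  obtain ⟨G, hG, hpG⟩ := Fam.fam_FG.of_le hp.1
  have key : ∀ G' : Set (Γ × K), G'.Finite → G' ⊆ G →
      ∃ e, ∃ x ∈ S.B e, x ∉ p.U e ∧ ∀ z ∈ G', x * z.2 ∈ I.U (e + z.1) := by
    intro G' hG'
    induction G', hG' using Set.Finite.induction_on with
    | empty => exact fun _ => ⟨0, 1, S.one_mem, hp.2.1, by simp⟩
    | @insert z G' _ _ ih =>
      intro hs
      obtain ⟨e, x, hx, hx', hh⟩ := ih ((Set.subset_insert _ _).trans hs)
      obtain ⟨b, u, hu, hu', hz⟩ := h z.1 z.2 (hpG ▸ Fam.mem_gen (hs (Set.mem_insert _ _)))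
      refine ⟨e + b, x * u, S.mul_mem hx hu, d3c_mul_notMem hp hx hu hx' hu', ?_⟩
      rintro z' (rfl | hz')
      · exact d3c_mul_mem I hx hz (by abel) (by ring)
      · exact d3c_mul_mem I hu (hh z' hz') (by abel) (by ring)
  obtain ⟨e, x, hx, hx', hh⟩ := key G hG subset_rfl
  refine ⟨e, x, hx, hx', fun a g hg => ?_⟩
  have : Fam.gen S G ≤ (I.shift e).comap (LinearMap.lsmul K K x) :=
    Fam.gen_le.2 fun z hz => by
      have := hh z hz
      rw [add_comm] at this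
      exact this
  have := this a (hpG ▸ hg)
  rw [add_comm]
  exact this

theorem d3c_final {I : Fam S K} (hIp : I ≤ p) {a : Γ} {u g : K} (hu0 : u ≠ 0)
    (hu : u ∈ d3cLoc hp S.fam a) (h1 : g * u⁻¹ ∈ d3cR hp hIp) {b : Γ} (hb : u ∈ S.B b)
    (hb' : u ∉ p.U b) (hg : g ∈ p.U b) : g ∈ d3cLoc hp I a := by
  have hcan : u * (g * u⁻¹) = g := by field_simp
  obtain ⟨κ, hκ⟩ := h1
  have hm : g * u⁻¹ ∈ d3cLoc hp p 0 := ⟨b, u, hb, hb', by rwa [hcan, add_zero]⟩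
  have hκ0 : κ = 0 := d3cLoc_const hp (by
    simpa using Submodule.sub_mem _ hm (d3cLoc_mono hp hIp 0 hκ))
  rw [hκ0, map_zero, sub_zero] at hκ
  have := d3cLoc_mul hp hu hκ
  rwa [hcan, add_zero] at this

theorem d3c_span (R : Subalgebra k K) {s : Set K} {u g : K} (h : ∀ x ∈ s, x * u ∈ R)
    (hg : g ∈ Submodule.span k s) : g * u ∈ R :=
  (Submodule.span_le (p := R.toSubmodule.comap (LinearMap.mulRight k u))).2 h hg

theorem d3c_sign (R : Subalgebra k K) {e z : ℤ} (hz : z * z = 1) {x y : K} (hx : x ∈ R)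
    (h : 1 - (e : K) * x = z * y) : y ∈ R := by
  have h1 : (z : K) * y ∈ R := h ▸ sub_mem (one_mem _) (mul_mem (intCast_mem _ e) hx)
  have := mul_mem (intCast_mem R z) h1
  rwa [← mul_assoc, ← Int.cast_mul, hz, Int.cast_one, one_mul] at this

theorem d3c_sign' (R : Subalgebra k K) {e f z : ℤ} (hz : z * z = 1) {x x' y : K} (hx : x ∈ R)
    (hx' : x' ∈ R) (h : 1 - (e : K) * x * (f * x') = z * y) : y ∈ R :=
  d3c_sign R (e := e) hz (mul_mem hx (mul_mem (intCast_mem R f) hx')) (by rw [← h, mul_assoc])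

end generic

variable {k : Type} [Field k] {n : ℕ} {D : DP k n}

theorem d3c_hq_eq (J : Fam D.S (KK k)) (w : ZZ) : hq n J w = ∑ c : Fin 5 → Fin n,
    ((finrank k (D.S.B (w + lamv fun j => (c j : ℤ))) : ℤ) -
      finrank k (J.U (w + lamv fun j => (c j : ℤ)))) := by
  simp only [hq, hh, Finset.sum_sub_distrib, Nat.cast_sum]
  rfl

theorem d3c_hq_codim {J : Fam D.S (KK k)} (hJ : J ≤ D.S.fam) {d : ZZ} {f : KK k}
    (hf : f ∈ D.S.B d) {q : ℕ} (h : f ^ q ∈ J.U (q • d)) (w : ZZ) :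
    hq n J w ≤ ∑ α ∈ Finset.range q, hq n (J.add (Fam.gen D.S {(d, f)})) (w - α • d) := by
  simp only [d3c_hq_eq]
  rw [Finset.sum_comm]
  refine Finset.sum_le_sum fun c _ => ?_
  refine (d3c_codim hf q J le_rfl hJ h (w + lamv fun j => (c j : ℤ))).trans (le_of_eq ?_)
  exact Finset.sum_congr rfl fun α _ => by rw [sub_add_eq_add_sub]

/-- large multiples of the chart degree dominate everything away from the chart -/
theorem d3c_big {i j : Fin 10} {ε : ZZ} (hε : ε i = 0 ∧ ε j = 0 ∧ ∀ l, l ≠ i → l ≠ j → 1 ≤ ε l)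
    {a : ZZ} (hi : 0 ≤ a i) (hj : 0 ≤ a j) : ∀ᶠ T : ℤ in atTop, ∀ l, 0 ≤ T * ε l + a l := by
  rw [eventually_all]
  intro l
  by_cases h1 : l = i
  · simp [h1, hε.1, hi]
  by_cases h2 : l = j
  · simp [h2, hε.2.1, hj]
  filter_upwards [eventually_ge_atTop |a l|] with T hT
  nlinarith [hε.2.2 l h1 h2, abs_nonneg (a l), neg_abs_le (a l)]

section chart

variable {p : Fam D.S (KK k)} (hp : p.IsPrime) {i j : Fin 10}
  (hZ : ∀ l, (1 : KK k) ∈ p.U (Pi.single l 1) → l = i ∨ l = j) {ε : ZZ}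
  (hε : ε i = 0 ∧ ε j = 0 ∧ ∀ l, l ≠ i → l ≠ j → 1 ≤ ε l)

include hp hZ hε

theorem d3c_one_notMem {T : ℤ} (hT : 0 ≤ T) : (1 : KK k) ∈ D.S.B (T • ε) ∧ (1 : KK k) ∉ p.U (T • ε) := by
  have h0 : ∀ l, 0 ≤ (T • ε) l := fun l => by
    by_cases h1 : l = i
    · simp [h1, hε.1]
    by_cases h2 : l = j
    · simp [h2, hε.2.1]
    exact mul_nonneg hT (by linarith [hε.2.2 l h1 h2])
  refine ⟨D.one_mem h0, fun h => ?_⟩
  rw [← umon_zero, umon_mem_prime_iff hp (by simpa [lamv_zero] using h0)] at h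
  obtain ⟨l, h1, h2⟩ := h
  rcases hZ l h2 with rfl | rfl
  · simp [lamv_zero, hε.1] at h1
  · simp [lamv_zero, hε.2.1] at h1

theorem d3c_umon_loc {a : ZZ} {c : Fin 5 → ℤ} (hi : 0 ≤ a i + n * lamv c i)
    (hj : 0 ≤ a j + n * lamv c j) : umon k c ∈ d3cLoc hp D.S.fam a := by
  obtain ⟨T, h1, h2⟩ := ((eventually_ge_atTop 0).and
    (d3c_big hε (a := fun l => a l + n * lamv c l) hi hj)).exists
  obtain ⟨h3, h4⟩ := d3c_one_notMem hp hZ hε h1
  refine ⟨T • ε, 1, h3, h4, ?_⟩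
  rw [one_mul]
  change _ ∈ D.S.B _
  rw [D.hB]
  refine umon_mem_BB fun l => ?_
  have := h2 l
  simp only [Pi.add_apply, Pi.smul_apply, smul_eq_mul]
  linarith

theorem d3c_alg [IsAlgClosed k] (hs : p.IsSmall) {c₀ : Fin 5 → ℤ} (hc₀ : ε = cst 1 + lamv c₀)
    {c : Fin 5 → ℤ} (hi : 0 ≤ lamv c i) (hj : 0 ≤ lamv c j) :
    ∃ α : k, umon k c - algebraMap k (KK k) α ∈ d3cLoc hp p 0 := by
  obtain ⟨C, hC⟩ := small_const hp hs
  have hn : (0 : ℤ) ≤ n := Int.natCast_nonneg n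
  have h1 : ∀ᶠ T : ℤ in atTop, ∀ r : Fin (C.toNat + 1), ∀ l,
      0 ≤ T * ε l + n * lamv (((r : ℕ) : ℤ) • c) l := by
    rw [eventually_all]
    intro r
    refine d3c_big hε (a := fun l => n * lamv (((r : ℕ) : ℤ) • c) l) ?_ ?_
    · simp only [lamv_smul, Pi.smul_apply, smul_eq_mul]
      positivity
    · simp only [lamv_smul, Pi.smul_apply, smul_eq_mul]
      positivity
  obtain ⟨T, ⟨h2, h3⟩, h4⟩ := (((eventually_ge_atTop 0).and h1).and (hC 0)).exists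
  obtain ⟨h5, h6⟩ := d3c_one_notMem hp hZ hε h2
  have hT : T • ε = 0 + cst T + lamv (T • c₀) := by
    rw [hc₀, smul_add, cst_smul, lamv_smul, mul_one, zero_add]
  have h7 : hq n p (T • ε) = C := by
    rw [← h4, hT]
    simp only [hq, DP.hh_add_lamv]
  have h8 : (finrank k (D.S.B (T • ε)) : ℤ) - finrank k (p.U (T • ε)) ≤ C := by
    rw [← h7, d3c_hq_eq]
    have := Finset.single_le_sum (s := Finset.univ) (f := fun c : Fin 5 → Fin n =>
      (finrank k (D.S.B (T • ε + lamv fun j => (c j : ℤ))) : ℤ) -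
        finrank k (p.U (T • ε + lamv fun j => (c j : ℤ))))
      (fun c _ => sub_nonneg.2 (Nat.cast_le.2 (d3c_finrank_mono hp.1 le_rfl _)))
      (Finset.mem_univ fun _ => ⟨0, D.n_pos⟩)
    have e : (lamv fun _ : Fin 5 => (((⟨0, D.n_pos⟩ : Fin n) : ℕ) : ℤ)) = 0 := lamv_zero
    rw [e, add_zero] at this
    exact this
  haveI := D.S.fd (T • ε)
  obtain ⟨Q, hQ, h9⟩ := d3c_exists_poly (P := p.U (T • ε)) (B := D.S.B (T • ε)) (hp.1 _)
    (umon k c) (C.toNat + 1) (fun r hr => by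
      have : umon k c ^ r = umon k ((r : ℤ) • c) := by
        induction r with
        | zero => simp [umon_zero]
        | succ r ih => rw [pow_succ, ih (by omega), ← umon_add, Nat.cast_succ, add_smul, one_smul]
      rw [this, D.hB]
      exact umon_mem_BB fun l => h3 ⟨r, hr⟩ l) (by push_cast; omega)
  exact d3c_root hp (d3c_umon_loc hp hZ hε (by simp only [Pi.zero_apply]; positivity)
    (by simp only [Pi.zero_apply]; positivity)) Q hQ ⟨T • ε, 1, h5, h6, by simpa using h9⟩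

theorem d3c_gen [IsAlgClosed k] (hs : p.IsSmall) {c₀ : Fin 5 → ℤ} (hc₀ : ε = cst 1 + lamv c₀)
    (hij : i ≠ j) {c : Fin 5 → ℤ} (hi : lamv c i = 1) (hj : lamv c j = 0) :
    ∃ (d : ZZ) (f : KK k), f ∈ p.U d ∧
      (∃ α : k, umon k c - algebraMap k (KK k) α ∈ d3cLoc hp (Fam.gen D.S {(d, f)}) 0) ∧
      ((1 : KK k) ∈ p.U (Pi.single i 1) → (d, f) = (Pi.single i 1, 1)) := by
  by_cases h : (1 : KK k) ∈ p.U (Pi.single i 1)
  · refine ⟨Pi.single i 1, 1, h, ⟨0, ?_⟩, fun _ => rfl⟩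
    have h1 : umon k c ∈ d3cLoc hp D.S.fam (-Pi.single i 1) := by
      refine d3c_umon_loc hp hZ hε ?_ ?_
      · have := D.n_pos
        simp only [Pi.neg_apply, Pi.single_eq_same, hi]
        omega
      · simp [hj, Pi.single_eq_of_ne hij.symm]
    have h2 := d3cLoc_mul hp h1 (d3cLoc_of_mem hp (J := Fam.gen D.S {(Pi.single i 1, 1)})
      (Fam.mem_gen (p := (Pi.single i 1, 1)) rfl))
    simpa using h2
  · obtain ⟨α, b, u, hu, hu', hα⟩ := d3c_alg hp hZ hε hs hc₀ (c := c) (by omega) (by omega)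
    exact ⟨b + 0, _, hα, ⟨α, b, u, hu, hu', Fam.mem_gen (p := (b + 0, _)) rfl⟩,
      fun h' => absurd h' h⟩

omit hp hZ hε in
theorem d3c_nat (R : Subalgebra k (KK k)) {c : Fin 5 → ℤ} (hc : umon k c ∈ R) {x : ℤ}
    (hx : 0 ≤ x) : umon k (x • c) ∈ R := by
  induction x, hx using Int.le_induction with
  | base =>
    rw [zero_smul, umon_zero]
    exact one_mem _
  | succ x _ ih =>
    rw [add_smul, one_smul, umon_add]
    exact mul_mem ih hc

theorem d3c_unit {I : Fam D.S (KK k)} (hIp : I ≤ p) {c : Fin 5 → ℤ} (hc : umon k c ∈ d3cR hp hIp)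
    (hi : lamv c i = 0) (hj : lamv c j = 0) (x : ℤ) : umon k (x • c) ∈ d3cR hp hIp := by
  rcases le_total 0 x with hx | hx
  · exact d3c_nat _ hc hx
  · have : umon k (-c) ∈ d3cR hp hIp := by
      rw [umon_neg]
      refine d3cR_inv hp hIp hc (umon_ne_zero c) ?_
      rw [← umon_neg]
      exact d3c_umon_loc hp hZ hε (by simp [lamv_neg, hi]) (by simp [lamv_neg, hj])
    have h2 := d3c_nat _ this (x := -x) (by omega)
    rwa [neg_smul_neg] at h2

/-- the main case of the local generation -/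
theorem d3c_main {I : Fam D.S (KK k)} (hIp : I ≤ p)
    (hall : ∀ c : Fin 5 → ℤ, 0 ≤ lamv c i → 0 ≤ lamv c j → umon k c ∈ d3cR hp hIp)
    {a : ZZ} {g : KK k} (hg : g ∈ p.U a) {c' : Fin 5 → ℤ} (θi : a i + n * lamv c' i = a i % n)
    (θj : a j + n * lamv c' j = a j % n)
    (k1 : ¬(0 < a i % n ∧ (1 : KK k) ∈ p.U (Pi.single i 1)))
    (k2 : ¬(0 < a j % n ∧ (1 : KK k) ∈ p.U (Pi.single j 1))) : g ∈ d3cLoc hp I a := by
  have hgB : g ∈ D.S.B a := hp.1 a hg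
  have hn : (0 : ℤ) < n := by exact_mod_cast D.n_pos
  have ni : 0 ≤ a i + n * lamv c' i := θi.symm ▸ Int.emod_nonneg (a i) hn.ne'
  have nj : 0 ≤ a j + n * lamv c' j := θj.symm ▸ Int.emod_nonneg (a j) hn.ne'
  have hdiv : g * (umon k c')⁻¹ ∈ d3cR hp hIp := by
    rw [D.hB] at hgB
    refine d3c_span _ ?_ hgB
    rintro _ ⟨c, hc, rfl⟩
    rw [← umon_neg, ← umon_add]
    refine hall _ ?_ ?_
    · simp only [lamv_add, lamv_neg, Pi.add_apply, Pi.neg_apply]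
      by_contra hh
      nlinarith [hc i, Int.emod_lt_of_pos (a i) hn]
    · simp only [lamv_add, lamv_neg, Pi.add_apply, Pi.neg_apply]
      by_contra hh
      nlinarith [hc j, Int.emod_lt_of_pos (a j) hn]
  obtain ⟨T, h1, h2⟩ := ((eventually_ge_atTop 0).and
    (d3c_big hε (a := fun l => a l + n * lamv c' l) ni nj)).exists
  have h3 : ∀ l, 0 ≤ (T • ε + a) l + n * lamv c' l := fun l => by
    have := h2 l
    simp only [Pi.add_apply, Pi.smul_apply, smul_eq_mul]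
    linarith
  refine d3c_final hp hIp (umon_ne_zero c') (d3c_umon_loc hp hZ hε ni nj) hdiv (b := T • ε + a)
    ?_ (fun h => ?_) (d3c_mul_mem p (d3c_one_notMem hp hZ hε h1).1 hg rfl (one_mul _).symm)
  · rw [D.hB]
    exact umon_mem_BB h3
  · obtain ⟨l, h4, h5⟩ := (umon_mem_prime_iff hp h3).1 h
    simp only [Pi.add_apply, Pi.smul_apply, smul_eq_mul] at h4
    rcases hZ l h5 with rfl | rfl
    · exact k1 ⟨by rw [hε.1] at h4; linarith, h5⟩
    · exact k2 ⟨by rw [hε.2.1] at h4; linarith, h5⟩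

end chart

theorem d3c_drop {a : ZZ} {i : Fin 10} (h : 0 < a i % n) :
    D.S.B a ≤ D.S.B (a - Pi.single i 1) := by
  rw [D.hB]
  refine Submodule.span_le.2 ?_
  rintro _ ⟨c, hc, rfl⟩
  refine umon_mem_BB fun l => ?_
  by_cases hl : l = i
  · subst hl
    have h1 := hc l
    have h2 : (a l + n * lamv c l) % n = a l % n := Int.add_mul_emod_self_left _ _ _
    have h3 : a l + n * lamv c l ≠ 0 := fun h0 => by
      rw [h0, Int.zero_emod] at h2
      omega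
    simp only [Pi.sub_apply, Pi.single_eq_same]
    omega
  · simpa [Pi.single_eq_of_ne hl] using hc l

/-- local generation by two elements -/
theorem small_two_gen [IsAlgClosed k] {p : Fam D.S (KK k)} (hp : p.IsPrime) (hs : p.IsSmall)
    {i j : Fin 10} (hij : imat i j = 1)
    (hZ : ∀ l, (1 : KK k) ∈ p.U (Pi.single l 1) → l = i ∨ l = j) :
    ∃ (d₁ d₂ : ZZ) (f₁ f₂ : KK k), f₁ ∈ p.U d₁ ∧ f₂ ∈ p.U d₂ ∧ ∀ a g, g ∈ p.U a →
      ∃ b, ∃ u ∈ D.S.B b, u ∉ p.U b ∧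
        u * g ∈ (Fam.gen D.S {(d₁, f₁), (d₂, f₂)}).U (b + a) := by
  have hne : i ≠ j := by
    rintro rfl
    exact absurd hij ((by decide : ∀ l, imat l l ≠ 1) i)
  obtain ⟨c₀, cσ, cτ, c₁, c₂, c₃, e, f, e₁, e₂, e₃, h0, ⟨s1, s2, t1, t2⟩, ⟨u1, u2, u3, u4, u5, u6⟩,
    ⟨-, -, q1, q2, q3⟩, hspan, hid⟩ := exists_chart i j hij
  obtain ⟨id1, id2, id3⟩ := hid k
  set ε : ZZ := cst 1 + lamv c₀ with hc₀
  have hε : ε i = 0 ∧ ε j = 0 ∧ ∀ l, l ≠ i → l ≠ j → 1 ≤ ε l := h0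
  have hZ' : ∀ l, (1 : KK k) ∈ p.U (Pi.single l 1) → l = j ∨ l = i := fun l h => (hZ l h).symm
  have hε' : ε j = 0 ∧ ε i = 0 ∧ ∀ l, l ≠ j → l ≠ i → 1 ≤ ε l :=
    ⟨hε.2.1, hε.1, fun l h1 h2 => hε.2.2 l h2 h1⟩
  obtain ⟨d₁, f₁, hf₁, ⟨α, hα⟩, g₁⟩ := d3c_gen hp hZ hε hs hc₀ hne s1 s2
  obtain ⟨d₂, f₂, hf₂, ⟨β, hβ⟩, g₂⟩ := d3c_gen hp hZ' hε' hs hc₀ hne.symm t2 t1
  refine ⟨d₁, d₂, f₁, f₂, hf₁, hf₂, fun a g hg => ?_⟩
  set I : Fam D.S (KK k) := Fam.gen D.S {(d₁, f₁), (d₂, f₂)} with hI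
  change g ∈ d3cLoc hp I a
  have hIp : I ≤ p := Fam.gen_le.2 (by
    rintro z (rfl | rfl)
    exacts [hf₁, hf₂])
  have l1 : Fam.gen D.S {(d₁, f₁)} ≤ I := Fam.gen_le.2 (by
    rintro z rfl
    exact Fam.mem_gen (by simp))
  have l2 : Fam.gen D.S {(d₂, f₂)} ≤ I := Fam.gen_le.2 (by
    rintro z rfl
    exact Fam.mem_gen (by simp))
  have hgB : g ∈ D.S.B a := hp.1 a hg
  have hn : (0 : ℤ) < n := by exact_mod_cast D.n_pos
  by_cases k1 : 0 < a i % n ∧ (1 : KK k) ∈ p.U (Pi.single i 1)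
  · rw [g₁ k1.2] at l1
    exact d3cLoc_of_mem hp (l1 a (Fam.mem_gen_singleton.2 ⟨g, d3c_drop k1.1 hgB, by simp⟩))
  by_cases k2 : 0 < a j % n ∧ (1 : KK k) ∈ p.U (Pi.single j 1)
  · rw [g₂ k2.2] at l2
    exact d3cLoc_of_mem hp (l2 a (Fam.mem_gen_singleton.2 ⟨g, d3c_drop k2.1 hgB, by simp⟩))
  -- all chart monomials are constants modulo the ideal
  have rσ : umon k cσ ∈ d3cR hp hIp := ⟨α, d3cLoc_mono hp l1 0 hα⟩
  have rτ : umon k cτ ∈ d3cR hp hIp := ⟨β, d3cLoc_mono hp l2 0 hβ⟩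
  have r1 := d3c_sign _ q1 rσ id1
  have r2 := d3c_sign _ q2 rτ id2
  have r3 := d3c_sign' _ q3 rσ rτ id3
  have hall : ∀ c : Fin 5 → ℤ, 0 ≤ lamv c i → 0 ≤ lamv c j → umon k c ∈ d3cR hp hIp := by
    intro c hi hj
    obtain ⟨x, y, z₁, z₂, z₃, rfl⟩ := hspan c
    simp only [lamv_add, lamv_smul, Pi.add_apply, Pi.smul_apply, smul_eq_mul, s1, s2, t1, t2, u1,
      u2, u3, u4, u5, u6, mul_one, mul_zero, add_zero, zero_add] at hi hj
    rw [umon_add, umon_add, umon_add, umon_add]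
    exact mul_mem (mul_mem (mul_mem (mul_mem (d3c_nat _ rσ hi) (d3c_nat _ rτ hj))
      (d3c_unit hp hZ hε hIp r1 u1 u2 _)) (d3c_unit hp hZ hε hIp r2 u3 u4 _))
      (d3c_unit hp hZ hε hIp r3 u5 u6 _)
  set c' : Fin 5 → ℤ := (-(a i / n)) • cσ + (-(a j / n)) • cτ with hc'
  have θi : a i + n * lamv c' i = a i % n := by
    simp only [hc', lamv_add, lamv_smul, Pi.add_apply, Pi.smul_apply, smul_eq_mul, s1, t1]
    linarith [Int.emod_add_mul_ediv (a i) n]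
  have θj : a j + n * lamv c' j = a j % n := by
    simp only [hc', lamv_add, lamv_smul, Pi.add_apply, Pi.smul_apply, smul_eq_mul, s2, t2]
    linarith [Int.emod_add_mul_ediv (a j) n]
  exact d3c_main hp hZ hε hIp hall hg θi θj k1 k2

theorem small_frob [IsAlgClosed k] {p : Fam D.S (KK k)} (hp : p.IsPrime) (hs : p.IsSmall) {c₀ : ℤ}
    (hc : ∀ w : ZZ, ∀ᶠ m : ℤ in atTop, hq n p (w + cst m) = c₀) {q : ℕ} (hq0 : 0 < q) (w : ZZ) :
    ∀ᶠ m : ℤ in atTop, hq n (p.frobI q) (w + cst m) ≤ q ^ 2 * c₀ := by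
  set J := p.frobI q with hJ
  have hJm : ∀ a v, v ∈ p.U a → v ^ q ∈ J.U (q • a) := fun a v hv =>
    Fam.mem_gen (p := (q • a, v ^ q)) ⟨a, v, hv, rfl⟩
  have hJp : J ≤ p := Fam.gen_le.2 (by
    rintro _ ⟨a, v, hv, rfl⟩
    obtain ⟨q, rfl⟩ := Nat.exists_eq_succ_of_ne_zero hq0.ne'
    exact d3c_mul_mem p (D.S.pow_mem (hp.1 a hv) q) hv (succ_nsmul _ _) (pow_succ _ _))
  have hJf : J ≤ D.S.fam := hJp.trans hp.1
  rcases prime_zero_cases hp with ⟨i, j, hij, hZ⟩ | ⟨η, hη, h⟩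
  swap
  · have h0 : 0 ≤ c₀ := by
      obtain ⟨m, hm⟩ := (hc 0).exists
      rw [← hm]
      exact sub_nonneg.2 (Nat.cast_le.2 (DP.hh_mono Fam.fam_FG hp.1 _))
    have h1 : ∀ᶠ m : ℤ in atTop, ∀ c : Fin 5 → Fin n,
        D.S.B (w + (lamv fun j => (c j : ℤ)) + cst m) ≤ J.U (w + (lamv fun j => (c j : ℤ)) + cst m) :=
      eventually_all.2 fun c => irrelevant_le J q {l | (1 : KK k) ∈ p.U (Pi.single l 1)}
        (fun l hl => by simpa using hJm _ _ hl) η hη h _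
    filter_upwards [h1] with m hm
    refine le_trans ?_ (mul_nonneg (sq_nonneg _) h0)
    rw [d3c_hq_eq]
    refine Finset.sum_nonpos fun c _ => ?_
    rw [add_right_comm, le_antisymm (hm c) (hJf _), sub_self]
  obtain ⟨d₁, d₂, f₁, f₂, hf₁, hf₂, hg⟩ := small_two_gen hp hs hij hZ
  set J₁ := J.add (Fam.gen D.S {(d₁, f₁)}) with hJ₁
  set I := J₁.add (Fam.gen D.S {(d₂, f₂)}) with hI
  have hJ₁p : J₁ ≤ p := Fam.add_le.2 ⟨hJp, Fam.gen_le.2 (by simpa using hf₁)⟩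
  have hIp : I ≤ p := Fam.add_le.2 ⟨hJ₁p, Fam.gen_le.2 (by simpa using hf₂)⟩
  have hJI : J ≤ I := (Fam.le_add_left _ _).trans (Fam.le_add_left _ _)
  have hGI : Fam.gen D.S {(d₁, f₁), (d₂, f₂)} ≤ I := Fam.gen_le.2 (by
    rintro z (rfl | rfl)
    · exact ((Fam.le_add_right _ _).trans (Fam.le_add_left _ _) :
        Fam.gen D.S {(d₁, f₁)} ≤ I) _ (Fam.mem_gen rfl)
    · exact (Fam.le_add_right _ _ : Fam.gen D.S {(d₂, f₂)} ≤ I) _ (Fam.mem_gen rfl))
  obtain ⟨e, x, hx, hx', hxp⟩ := d3c_common hp (I := I) fun a g h =>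
    d3cLoc_mono hp hGI a (hg a g h)
  have hpFG : p.FG := Fam.fam_FG.of_le hp.1
  have key : ∀ w : ZZ, ∀ᶠ m : ℤ in atTop,
      finrank k (I.U (w + cst m)) = finrank k (p.U (w + cst m)) := by
    refine Fam.induction_prime hIp hpFG (fun U U' => ∀ w : ZZ, ∀ᶠ m : ℤ in atTop,
      finrank k (U.U (w + cst m)) = finrank k (U'.U (w + cst m))) (fun U w => by simp)
      (fun U U' U'' h1 h2 w => ?_) fun U a v h1 h2 h3 w => ?_
    · filter_upwards [h1 w, h2 w] with m e1 e2 using e1.trans e2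
    have hv : v ∈ p.U a := ((Fam.le_add_right _ _).trans h2) _ (Fam.mem_gen (p := (a, v)) rfl)
    have hU : U.FG := hpFG.of_le ((Fam.le_add_left _ _).trans h2)
    have hpp : p ≤ U.ann a v := fun b g hgb =>
      d3c_pow_mem h3 (hp.1 b hgb) q ⟨D.S.pow_mem (hp.1 b hgb) q,
        d3c_mul_mem U (hp.1 a hv) (h1 _ (hJI _ (hJm b g hgb))) (add_comm _ _)
          (by rw [smul_eq_mul, mul_comm])⟩
    have hxa : x ∈ (U.ann a v).U e := ⟨hx, h1 _ (hxp a v hv)⟩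
    filter_upwards [small_surj hp hs hx hx' (w - a - e)] with m hm
    have e1 := Fam.finrank_add_gen hU a v (w + cst m)
    have e2 : D.S.B (w + cst m - a) = (U.ann a v).U (w + cst m - a) := by
      refine le_antisymm ?_ (Fam.ann_le_fam _ _ _ _)
      rw [show w + cst m - a = w - a - e + cst m + e by abel]
      refine hm.trans (sup_le (hpp _) ?_)
      rintro _ ⟨y, hy, rfl⟩
      exact d3c_mul_mem _ hy hxa rfl (mul_comm x y)
    rw [← e2] at e1
    omega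
  have key2 : ∀ w : ZZ, ∀ᶠ m : ℤ in atTop, hq n I (w + cst m) = c₀ := fun w => by
    filter_upwards [hc w, eventually_all.2 fun c : Fin 5 → Fin n =>
      key (w + lamv fun j => (c j : ℤ))] with m h1 h2
    rw [← h1, d3c_hq_eq, d3c_hq_eq]
    refine Finset.sum_congr rfl fun c _ => ?_
    rw [add_right_comm, h2 c]
  filter_upwards [(eventually_all_finset (Finset.range q)).2 fun α _ =>
    (eventually_all_finset (Finset.range q)).2 fun β _ => key2 (w - α • d₁ - β • d₂)] with m hm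
  refine (d3c_hq_codim hJf (hp.1 _ hf₁) (hJm _ _ hf₁) _).trans ?_
  have : ∀ α ∈ Finset.range q, hq n J₁ (w + cst m - α • d₁) ≤ q * c₀ := fun α hα => by
    refine (d3c_hq_codim (hJ₁p.trans hp.1) (hp.1 _ hf₂)
      (Fam.le_add_left _ _ _ (hJm _ _ hf₂)) _).trans (le_of_eq ?_)
    rw [Finset.sum_congr rfl (g := fun _ => c₀) fun β hβ => by
      rw [← hm α hα β hβ]
      congr 1
      abel]
    simp
  refine (Finset.sum_le_sum this).trans (le_of_eq ?_)
  simp only [Finset.sum_const, Finset.card_range, nsmul_eq_mul]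
  ring

end Vale.Agent.P190
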