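import Mathlib

/-!
Definitions for the disproof of the small Cohen-Macaulay module conjecture (P190).
Generic part: graded factorial systems and filtered families.
-/

namespace Vale.Agent.P190

open Module

/-- A graded factorial system: a `Γ`-indexed family of finite-dimensional `k`-subspaces `B a` of a
field `K`, cut out by a family of integer valuations on homogeneous elements `(a, φ)`. -/
structure Sys (k K Γ : Type) [Field k] [Field K] [Algebra k K] [AddCommGroup Γ] where
  B : Γ → Submodule k K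
  Pl : Type
  val : Pl → Γ → K → ℤ
  val_mul : ∀ P a b (φ ψ : K), φ ≠ 0 → ψ ≠ 0 → val P (a + b) (φ * ψ) = val P a φ + val P b ψ
  val_add : ∀ P a (φ ψ : K), φ ≠ 0 → ψ ≠ 0 → φ + ψ ≠ 0 →
    min (val P a φ) (val P a ψ) ≤ val P a (φ + ψ)
  val_const : ∀ P (c : k), c ≠ 0 → val P 0 (algebraMap k K c) = 0
  mem_iff : ∀ a (φ : K), φ ≠ 0 → (φ ∈ B a ↔ ∀ P, 0 ≤ val P a φ)
  prime : ∀ P, ∃ a, ∃ f : K, f ≠ 0 ∧ val P a f = 1 ∧ ∀ Q, Q ≠ P → val Q a f = 0
  fin_supp : ∀ a (φ : K), φ ≠ 0 → {P | val P a φ ≠ 0}.Finite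
  fd : ∀ a, FiniteDimensional k (B a)
  gens : ∃ (N : ℕ) (dg : Fin N → Γ) (ev : Fin N → K), (∀ i, ev i ∈ B (dg i)) ∧
    ∀ a, B a ≤ Submodule.span k {φ | ∃ e : Fin N → ℕ, ∑ i, e i • dg i = a ∧ φ = ∏ i, ev i ^ e i}

section generic

variable {k K Γ : Type} [Field k] [Field K] [Algebra k K] [AddCommGroup Γ]

namespace Sys

variable (S : Sys k K Γ)

/-- `φ = 0` or the valuation of `(a, φ)` at `P` is at least `t`. -/
def Ge (P : S.Pl) (a : Γ) (φ : K) (t : ℤ) : Prop := φ = 0 ∨ t ≤ S.val P a φ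

/-- effective degree -/
def Eff (a : Γ) : Prop := ∃ φ : K, φ ≠ 0 ∧ φ ∈ S.B a

/-- degree of a unit -/
def UnitDeg (a : Γ) : Prop := ∃ φ : K, φ ≠ 0 ∧ ∀ P, S.val P a φ = 0

end Sys

/-- A family of `k`-subspaces of a `K`-vector space, stable under the system. -/
@[ext] structure Fam (S : Sys k K Γ) (V : Type) [AddCommGroup V] [Module K V] [Module k V] where
  U : Γ → Submodule k V
  smul_mem : ∀ a b (φ : K) (v : V), φ ∈ S.B a → v ∈ U b → φ • v ∈ U (a + b)

namespace Sys

variable (S : Sys k K Γ)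

theorem val_one (P : S.Pl) : S.val P 0 1 = 0 := by
  simpa using S.val_const P 1 one_ne_zero

theorem one_mem : (1 : K) ∈ S.B 0 :=
  (S.mem_iff 0 1 one_ne_zero).2 fun P => (S.val_one P).ge

theorem mul_mem {a b : Γ} {φ ψ : K} (hφ : φ ∈ S.B a) (hψ : ψ ∈ S.B b) : φ * ψ ∈ S.B (a + b) := by
  by_cases h1 : φ = 0
  · simp [h1]
  by_cases h2 : ψ = 0
  · simp [h2]
  rw [S.mem_iff _ _ (mul_ne_zero h1 h2)]
  intro P
  rw [S.val_mul P a b φ ψ h1 h2]
  exact add_nonneg ((S.mem_iff _ _ h1).1 hφ P) ((S.mem_iff _ _ h2).1 hψ P)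

/-- The system itself as a family in `K`. -/
def fam : Fam S K where
  U := S.B
  smul_mem := fun _ _ _ _ h1 h2 => S.mul_mem h1 h2

end Sys

namespace Fam

variable {S : Sys k K Γ}
variable {V : Type} [AddCommGroup V] [Module K V] [Module k V] [IsScalarTower k K V]
variable {W : Type} [AddCommGroup W] [Module K W] [Module k W] [IsScalarTower k K W]

instance : PartialOrder (Fam S V) where
  le U U' := ∀ a, U.U a ≤ U'.U a
  le_refl _ _ := le_rfl
  le_trans _ _ _ h1 h2 a := (h1 a).trans (h2 a)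
  le_antisymm _ _ h1 h2 := Fam.ext (funext fun a => le_antisymm (h1 a) (h2 a))

omit [IsScalarTower k K V] in
theorem le_def {U U' : Fam S V} : U ≤ U' ↔ ∀ a, U.U a ≤ U'.U a := Iff.rfl

/-- The family generated by a set of homogeneous vectors. -/
def gen (S : Sys k K Γ) (G : Set (Γ × V)) : Fam S V where
  U a := Submodule.span k {x | ∃ p ∈ G, ∃ φ ∈ S.B (a - p.1), x = φ • p.2}
  smul_mem := by
    intro a b φ v hφ hv
    induction hv using Submodule.span_induction with
    | mem x hx =>
      obtain ⟨p, hp, ψ, hψ, rfl⟩ := hx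
      refine Submodule.subset_span ⟨p, hp, φ * ψ, ?_, (mul_smul φ ψ p.2).symm⟩
      have := S.mul_mem hφ hψ
      rwa [show a + (b - p.1) = a + b - p.1 by abel] at this
    | zero => simp
    | add x y _ _ hx hy => rw [smul_add]; exact Submodule.add_mem _ hx hy
    | smul c x _ hx => rw [smul_comm]; exact Submodule.smul_mem _ c hx

/-- finitely generated family -/
def FG (U : Fam S V) : Prop := ∃ G : Set (Γ × V), G.Finite ∧ U = gen S G

/-- the family spans the ambient space over `K` -/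
def Spans (U : Fam S V) : Prop := Submodule.span K {v | ∃ a, v ∈ U.U a} = ⊤

/-- sum of two families -/
def add (U U' : Fam S V) : Fam S V where
  U a := U.U a ⊔ U'.U a
  smul_mem := by
    intro a b φ v hφ hv
    obtain ⟨x, hx, y, hy, rfl⟩ := Submodule.mem_sup.1 hv
    rw [smul_add]
    exact Submodule.add_mem_sup (U.smul_mem a b φ x hφ hx) (U'.smul_mem a b φ y hφ hy)

/-- preimage of a family -/
def comap (f : W →ₗ[K] V) (U : Fam S V) : Fam S W where
  U a := (U.U a).comap (f.restrictScalars k)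
  smul_mem := by
    intro a b φ v hφ hv
    simp only [Submodule.mem_comap, LinearMap.restrictScalars_apply, map_smul] at hv ⊢
    exact U.smul_mem a b φ _ hφ hv

/-- image of a family -/
def map (f : V →ₗ[K] W) (U : Fam S V) : Fam S W where
  U a := (U.U a).map (f.restrictScalars k)
  smul_mem := by
    rintro a b φ _ hφ ⟨v, hv, rfl⟩
    exact ⟨φ • v, U.smul_mem a b φ v hφ hv, by simp⟩

/-- shifted family `a ↦ U (a + w)` -/
def shift (w : Γ) (U : Fam S V) : Fam S V where
  U a := U.U (a + w)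
  smul_mem := by
    intro a b φ v hφ hv
    rw [add_assoc]
    exact U.smul_mem a (b + w) φ v hφ hv

/-- local membership at the place `P` -/
def LocMem (U : Fam S V) (P : S.Pl) (a : Γ) (v : V) : Prop :=
  ∃ b, ∃ h : K, h ≠ 0 ∧ h ∈ S.B b ∧ S.val P b h = 0 ∧ h • v ∈ U.U (b + a)

/-- the reflexive hull: vectors lying locally in `U` at every place -/
def hull (U : Fam S V) : Fam S V where
  U a :=
    { carrier := {v | ∀ P, U.LocMem P a v}
      zero_mem' := fun P => ⟨0, 1, one_ne_zero, S.one_mem, S.val_one P, by simp⟩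
      add_mem' := by
        intro x y hx hy P
        obtain ⟨b, h, h0, hB, hv, hm⟩ := hx P
        obtain ⟨b', h', h0', hB', hv', hm'⟩ := hy P
        refine ⟨b + b', h * h', mul_ne_zero h0 h0', S.mul_mem hB hB', ?_, ?_⟩
        · rw [S.val_mul P b b' h h' h0 h0', hv, hv']; rfl
        · rw [smul_add]
          refine Submodule.add_mem _ ?_ ?_
          · have := U.smul_mem b' (b + a) h' _ hB' hm
            rw [smul_smul, mul_comm h' h, show b' + (b + a) = b + b' + a by abel] at this
            exact this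
          · have := U.smul_mem b (b' + a) h _ hB hm'
            rw [smul_smul, ← add_assoc] at this
            exact this
      smul_mem' := by
        intro c x hx P
        obtain ⟨b, h, h0, hB, hv, hm⟩ := hx P
        exact ⟨b, h, h0, hB, hv, by rw [smul_comm]; exact Submodule.smul_mem _ c hm⟩ }
  smul_mem := by
    intro a b φ v hφ hv P
    obtain ⟨b', h, h0, hB, hval, hm⟩ := hv P
    refine ⟨b', h, h0, hB, hval, ?_⟩
    have := U.smul_mem a (b' + b) φ _ hφ hm
    rw [smul_comm, show a + (b' + b) = b' + (a + b) by abel] at this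
    exact this

/-- the free family on a basis `e` placed in degrees `d` -/
def free (S : Sys k K Γ) {ι : Type} (e : Basis ι K V) (d : ι → Γ) : Fam S V :=
  gen S (Set.range fun i => (d i, e i))

/-- annihilator of the homogeneous vector `(a, v)` modulo `U` -/
def ann (U : Fam S V) (a : Γ) (v : V) : Fam S K where
  U b :=
    { carrier := {φ | φ ∈ S.B b ∧ φ • v ∈ U.U (b + a)}
      zero_mem' := ⟨Submodule.zero_mem _, by simp⟩
      add_mem' := fun hx hy => ⟨Submodule.add_mem _ hx.1 hy.1, by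
        rw [add_smul]; exact Submodule.add_mem _ hx.2 hy.2⟩
      smul_mem' := fun c x hx => ⟨Submodule.smul_mem _ c hx.1, by
        rw [smul_assoc]; exact Submodule.smul_mem _ c hx.2⟩ }
  smul_mem := by
    intro b b' φ ψ hφ hψ
    refine ⟨S.mul_mem hφ hψ.1, ?_⟩
    have := U.smul_mem b (b' + a) φ _ hφ hψ.2
    rw [smul_smul, ← add_assoc] at this
    exact this

/-- homogeneous prime ideal of the system -/
def IsPrime (p : Fam S K) : Prop :=
  p ≤ S.fam ∧ (1 : K) ∉ p.U 0 ∧
    ∀ a b (φ ψ : K), φ ∈ S.B a → ψ ∈ S.B b → φ * ψ ∈ p.U (a + b) → φ ∈ p.U a ∨ ψ ∈ p.U b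

/-- the principal prime of a place: elements vanishing at `P` -/
def IsCurve (p : Fam S K) (P : S.Pl) : Prop :=
  ∀ a (φ : K), φ ∈ p.U a ↔ φ ∈ S.B a ∧ S.Ge P a φ 1

/-- a homogeneous ideal contained in no curve prime -/
def IsSmall (p : Fam S K) : Prop :=
  ∀ P, ∃ b, ∃ h : K, h ≠ 0 ∧ h ∈ p.U b ∧ S.val P b h = 0

/-- `b` (in degrees `d`) is a local basis of `U` at the place `P` -/
def IsOpt (U : Fam S V) (P : S.Pl) {ι : Type} (b : Basis ι K V) (d : ι → Γ) : Prop :=
  (∀ i, b i ∈ U.U (d i)) ∧ ∀ a v, v ∈ U.U a → ∀ i, S.Ge P (a - d i) (b.repr v i) 0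

/-- `γ` is the first Chern class (determinant degree) of `U` -/
def IsClass (U : Fam S V) [FiniteDimensional K V] (γ : Γ) : Prop :=
  ∃ (e : Basis (Fin (finrank K V)) K V) (c : K), c ≠ 0 ∧
    ∀ P, ∃ (b : Basis (Fin (finrank K V)) K V) (d : Fin (finrank K V) → Γ),
      U.IsOpt P b d ∧ S.val P (∑ i, d i + γ) (c * e.det b) = 0

open Classical in
/-- a chosen first Chern class -/
noncomputable def cl (U : Fam S V) [FiniteDimensional K V] : Γ :=
  if h : ∃ γ, U.IsClass γ then h.choose else 0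

/-- `H`-degree of the subspace `X` -/
noncomputable def sdeg (H : Γ →+ ℤ) (U : Fam S V) [FiniteDimensional K V] (X : Submodule K V) : ℤ :=
  H (U.comap X.subtype).cl

/-- all subspaces have slope at most `σ` -/
def MaxLe (H : Γ →+ ℤ) (U : Fam S V) [FiniteDimensional K V] (σ : ℚ) : Prop :=
  ∀ X : Submodule K V, (U.sdeg H X : ℚ) ≤ σ * finrank K X

/-- all quotients have slope at least `σ` -/
def MinGe (H : Γ →+ ℤ) (U : Fam S V) [FiniteDimensional K V] (σ : ℚ) : Prop :=
  ∀ X : Submodule K V, σ * ((finrank K V : ℚ) - finrank K X) ≤ (H U.cl : ℚ) - U.sdeg H X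

/-- the dual family, inside the dual space -/
def dual (U : Fam S V) : Fam S (Module.Dual K V) where
  U a :=
    { carrier := {f | ∀ b v, v ∈ U.U b → f v ∈ S.B (a + b)}
      zero_mem' := fun b v _ => by simp
      add_mem' := fun hx hy b v hv => Submodule.add_mem _ (hx b v hv) (hy b v hv)
      smul_mem' := fun c x hx b v hv => Submodule.smul_mem _ c (hx b v hv) }
  smul_mem := by
    intro a a' φ f hφ hf b v hv
    have := S.mul_mem hφ (hf b v hv)
    rw [← add_assoc] at this
    exact this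

/-- coordinatewise Frobenius pull-back of a family in `ι → K` -/
def frob {ι : Type} (p : ℕ) (U : Fam S (ι → K)) : Fam S (ι → K) :=
  gen S {q | ∃ a v, v ∈ U.U a ∧ q = (p • a, fun i => v i ^ p)}

/-- Frobenius power of a homogeneous ideal -/
def frobI (p : ℕ) (U : Fam S K) : Fam S K :=
  gen S {q | ∃ a v, v ∈ U.U a ∧ q = (p • a, v ^ p)}

end Fam

end generic

end Vale.Agent.P190
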