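import Vale.Agent.P190.DDefs

/-! Further definitions for P190. -/

namespace Vale.Agent.P190

open Module Filter

/-- the algebraic closure of the rationals -/
abbrev QQ : Type := AlgebraicClosure ℚ

/-- The bare valuations of the function field `k(s,t)`. -/
structure Vals (k : Type) [Field k] where
  Pl : Type
  sp : Fin 10 → Pl
  sp_inj : Function.Injective sp
  v : Pl → KK k → ℤ
  v_mul : ∀ P (φ ψ : KK k), φ ≠ 0 → ψ ≠ 0 → v P (φ * ψ) = v P φ + v P ψ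
  v_add : ∀ P (φ ψ : KK k), φ ≠ 0 → ψ ≠ 0 → φ + ψ ≠ 0 → min (v P φ) (v P ψ) ≤ v P (φ + ψ)
  v_const : ∀ P (c : k), c ≠ 0 → v P (algebraMap k (KK k) c) = 0
  prime : ∀ P, P ∉ Set.range sp →
    ∃ f : KK k, f ≠ 0 ∧ v P f = 1 ∧ ∀ Q, Q ∉ Set.range sp → Q ≠ P → v Q f = 0
  fin_supp : ∀ φ : KK k, φ ≠ 0 → {P | v P φ ≠ 0}.Finite
  v_umon_sp : ∀ i c, v (sp i) (umon k c) = lamv c i
  v_umon_ns : ∀ P, P ∉ Set.range sp → ∀ c, v P (umon k c) = 0
  laurent : ∀ φ : KK k, φ ≠ 0 →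
    (∀ P, (∀ g : Fin 6, P ≠ sp (g.castLE (by norm_num))) → P ≠ sp 9 → 0 ≤ v P φ) →
      ∃ F : LL k, lev k F = φ
  v_lev : ∀ F : LL k, F ≠ 0 → ∀ P, (∀ g : Fin 6, P ≠ sp (g.castLE (by norm_num))) →
    0 ≤ v P (lev k F)
  v_hex : ∀ F : LL k, F ≠ 0 → ∀ (g : Fin 6) (j : ℤ),
    j ≤ v (sp (g.castLE (by norm_num))) (lev k F) ↔
      ∀ m ∈ F.coeff.support, j ≤ (rho g).1 * m.1 + (rho g).2 * m.2
  v_pt : ∀ F : LL k, F ≠ 0 → ∀ j : ℕ, (j : ℤ) ≤ v (sp 9) (lev k F) ↔ F ∈ mOne k ^ j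

/-- the bound for the number of sections -/
def Phi (n : ℕ) (Y : ℚ) : ℚ :=
  if Y < 0 then 0 else (n : ℚ) ^ 3 * (Y + 1) + (n : ℚ) ^ 2 * (Y + 7) ^ 3 / 216

/-- the bound for the sum of the Euler characteristics -/
def XX (n : ℕ) (M : ℕ) : ℚ :=
  (2 * M + 1) * ((n : ℚ) ^ 3 * (7 / 12 * (n : ℚ) ^ 2 - 5 / 2 * n + 35 / 12) -
      (n : ℚ) ^ 3 * 20 * ((n : ℚ) / 2 - 1) ^ 2 / 8 + 12 * (n : ℚ) ^ 3) +
    10 * (n : ℚ) ^ 3 * M * (M + 1) * (2 * M + 1) / 3

/-- degree shift of the logarithmic derivations -/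
def bsh (n : ℕ) : ZZ := ![0, 0, 0, 0, 0, 0, n, n, n, n]

/-- the indices `6, 7, 8` -/
def mid (i : Fin 3) : Fin 10 := ![6, 7, 8] i

/-- the indices `0, ..., 5` -/
def hex (g : Fin 6) : Fin 10 := g.castLE (by norm_num)

variable {k : Type} [Field k] {n : ℕ}

section fams

variable {S : Sys k (KK k) ZZ}
variable {V : Type} [AddCommGroup V] [Module (KK k) V] [Module k V] [IsScalarTower k (KK k) V]

/-- codimension of a homogeneous ideal in Picard degree `w` -/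
noncomputable def hq (n : ℕ) (p : Fam S (KK k)) (w : ZZ) : ℤ :=
  (hh n S.fam w : ℤ) - hh n p w

/-- total dimension over the `n ^ 2` toric characters -/
noncomputable def h2 (n : ℕ) (U : Fam S V) (a : ZZ) : ℕ :=
  ∑ c : Fin n × Fin n, finrank k (U.U (a + lamv ![(c.1 : ℤ), (c.2 : ℤ), 0, 0, 0]))

end fams

section kernel

variable {N N' : ℕ}

/-- a polynomial matrix viewed over the function field -/
noncomputable def matK (M : Matrix (Fin N') (Fin N) (MvPolynomial (Fin 2) k)) :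
    Matrix (Fin N') (Fin N) (KK k) :=
  M.map (algebraMap (MvPolynomial (Fin 2) k) (KK k))

/-- its kernel -/
noncomputable def kerV (M : Matrix (Fin N') (Fin N) (MvPolynomial (Fin 2) k)) :
    Submodule (KK k) (Fin N → KK k) :=
  LinearMap.ker (matK M).mulVecLin

/-- the kernel family -/
noncomputable def kerF (S : Sys k (KK k) ZZ) (b : Fin N → ZZ)
    (M : Matrix (Fin N') (Fin N) (MvPolynomial (Fin 2) k)) : Fam S (kerV M) :=
  (Fam.free S (Pi.basisFun (KK k) (Fin N)) fun l => -b l).comap (kerV M).subtype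

/-- the graded piece of the kernel, as a subspace of `Fin N → KK k` -/
noncomputable def kerP (n : ℕ) (b : Fin N → ZZ)
    (M : Matrix (Fin N') (Fin N) (MvPolynomial (Fin 2) k)) (a : ZZ) :
    Submodule k (Fin N → KK k) :=
  Submodule.pi Set.univ (fun l => BB k n (a + b l)) ⊓ (kerV M).restrictScalars k

/-- rank of the matrix on the graded piece of degree `a` -/
noncomputable def rkP (n : ℕ) (b : Fin N → ZZ)
    (M : Matrix (Fin N') (Fin N) (MvPolynomial (Fin 2) k)) (a : ZZ) : ℤ :=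
  (∑ l, (finrank k (BB k n (a + b l)) : ℤ)) - finrank k (kerP n b M a)

/-- normalised Pluecker data of a subspace of the kernel of class at least `γ` -/
def Sol (n : ℕ) (b : Fin N → ZZ) (M : Matrix (Fin N') (Fin N) (MvPolynomial (Fin 2) k))
    {x : ℕ} (I₀ : Fin x → Fin N) (γ : ZZ) : Prop :=
  ∃ (w : Fin x → Fin N → KK k) (ψ : (Fin x → Fin N) → KK k),
    (∀ l j, w l j ∈ BB k n (∑ l', b (I₀ l') - b (I₀ l) + b j - γ)) ∧
    (∀ I, ψ I ∈ BB k n (∑ l', b (I l') - γ)) ∧ ψ I₀ ≠ 0 ∧ (∀ l, w l ∈ kerV M) ∧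
    ∀ I : Fin x → Fin N,
      Matrix.det (Matrix.of fun l l' => w l' (I l)) * ψ I₀ = ψ I₀ ^ x * ψ I

end kernel

theorem DP.one_mem_cst (D : DP k n) {m : ℤ} (hm : 0 ≤ m) : (1 : KK k) ∈ D.S.B (cst m) := by
  rw [D.hB]
  refine Submodule.subset_span ⟨0, fun i => ?_, by simp [umon]⟩
  simpa [lamv, cst] using hm

theorem Hs.emb_algebraMap {D : DP k n} (h : Hs D) (f : MvPolynomial (Fin 2) k) :
    h.emb (algebraMap (MvPolynomial (Fin 2) k) (KK k) f) = MvPolynomial.aeval ![h.x, h.y] f :=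
  IsFractionRing.lift_algebraMap
    (g := (MvPolynomial.aeval ![h.x, h.y] : MvPolynomial (Fin 2) k →ₐ[k] KK k).toRingHom) h.indep f

theorem Hs.emb_ss {D : DP k n} (h : Hs D) : h.emb (ss k) = h.x := by
  rw [ss, h.emb_algebraMap]; simp

theorem Hs.emb_tt {D : DP k n} (h : Hs D) : h.emb (tt k) = h.y := by
  rw [tt, h.emb_algebraMap]; simp

theorem Sys.pow_mem {K Γ : Type} [Field K] [Algebra k K] [AddCommGroup Γ] (S : Sys k K Γ)
    {a : Γ} {φ : K} (hφ : φ ∈ S.B a) (j : ℕ) : φ ^ j ∈ S.B (j • a) := by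
  induction j with
  | zero => simpa using S.one_mem
  | succ j ih => rw [pow_succ, succ_nsmul]; exact S.mul_mem ih hφ

theorem Hs.emb_mem {D : DP k n} (h : Hs D) {j : ℤ} {f : KK k} (hf : f ∈ AA k j) :
    h.emb f ∈ D.S.B (cst (n * j)) := by
  induction hf using Submodule.span_induction with
  | mem φ hφ =>
    obtain ⟨a, b, hab, rfl⟩ := hφ
    have h1 := D.S.mul_mem (D.S.mul_mem (D.S.pow_mem h.hx a) (D.S.pow_mem h.hy b))
      (D.one_mem_cst (m := n * (j - a - b)) (mul_nonneg (Int.natCast_nonneg n) (by omega)))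
    rw [mul_one] at h1
    rw [map_mul, map_pow, map_pow, h.emb_ss, h.emb_tt]
    convert h1 using 2
    funext i
    simp only [Pi.add_apply, Pi.smul_apply]
    simp only [cst, nsmul_eq_mul]
    ring
  | zero => simp
  | add x y _ _ hx hy => rw [map_add]; exact Submodule.add_mem _ hx hy
  | smul c x _ hx => rw [map_smul]; exact Submodule.smul_mem _ c hx

/-- the family `j ↦ U (cst (n * j) - a)` over the polynomial system -/
def resFam {D : DP k n} (h : Hs D) (SA : Sys k (KK k) ℤ) (hA : SA.B = AA k)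
    {V : Type} [AddCommGroup V] [Module (KK k) V] [Module k V] [IsScalarTower k (KK k) V]
    (U : Fam D.S V) (a : ZZ) : Fam SA (Res h V) where
  U j := (U.U (cst (n * j) - a)).map (toRes h V).toLinearMap
  smul_mem := by
    rintro i j f _ hf ⟨v, hv, rfl⟩
    refine ⟨h.emb f • v, ?_, rfl⟩
    have := U.smul_mem _ _ _ v (h.emb_mem (hA ▸ hf)) hv
    have e : cst (n * i) + (cst (n * j) - a) = cst (n * (i + j)) - a := by
      funext l
      simp only [cst, Pi.add_apply, Pi.sub_apply]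
      ring
    rw [e] at this
    exact this

/-- An ambient space for lattices attached to the module `M`. -/
structure Amb {D : DP k n} (h : Hs D) (M : Type) [AddCommGroup M] [Module (PS k) M]
    [Module k M] (W : Type) [AddCommGroup W] [Module (KK k) W] [Module k W] where
  χ : ℤ → (Fin 5 → ℤ) → M →ₗ[k] W
  T : W ≃ₗ[KK k] W
  χ_succ : ∀ m c μ, T (χ (m + 1) c μ) = χ m c μ
  χ_X : ∀ m c (i : Fin 3) μ, χ (m + n) c ((MvPowerSeries.X i : PS k) • μ) =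
    (![h.x, h.y, 1] : Fin 3 → KK k) i • χ m c μ
  mul : ∀ m' c', ∀ φ ∈ D.S.B (cst m' + lamv c'), ∀ μ : M, ∃ μ' : M,
    ∀ m c, χ (m' + m) (c' + c) μ' = φ • χ m c μ
  Λ₀ : Submodule (KK k) W
  T_mem : ∀ w ∈ Λ₀, T w ∈ Λ₀
  top : ∀ c μ, χ 0 c μ ∈ Λ₀
  le_span : Λ₀ ≤ Submodule.span (KK k) {w | ∃ m c μ, w = χ m c μ}
  sep : ∃ C : ℤ, ∀ (j : ℕ) c μ, χ (n * j + C) c μ ∈ Λ₀ →
    μ ∈ IsLocalRing.maximalIdeal (PS k) ^ j • (⊤ : Submodule (PS k) M)

namespace Amb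

variable {D : DP k n} {h : Hs D} {M : Type} [AddCommGroup M] [Module (PS k) M] [Module k M]
  {W : Type} [AddCommGroup W] [Module (KK k) W] [Module k W] [IsScalarTower k (KK k) W]
  (A : Amb h M W)

/-- lattices -/
def IsLat (Λ : Submodule (KK k) W) : Prop :=
  (∀ w ∈ Λ, A.T w ∈ Λ) ∧
    ∃ N : ℕ, (∀ w ∈ A.Λ₀, (A.T ^ N) w ∈ Λ) ∧ ∀ w ∈ Λ, (A.T ^ N) w ∈ A.Λ₀

/-- the fibre `Λ / T Λ` -/
abbrev Fib (Λ : Submodule (KK k) W) : Type :=
  Λ ⧸ (Λ.map A.T.toLinearMap).submoduleOf Λ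

/-- the family of a lattice -/
noncomputable def fam (Λ : Submodule (KK k) W) : Fam D.S (A.Fib Λ) :=
  Fam.gen D.S {q | ∃ m c μ, ∃ hμ : A.χ m c μ ∈ Λ,
    q = (cst m + lamv c, Submodule.Quotient.mk ⟨A.χ m c μ, hμ⟩)}

end Amb

end Vale.Agent.P190
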