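import Vale.Agent.P190.Defs

/-! P190, part G1: Noetherian property and prime filtrations for families. -/

namespace Vale.Agent.P190

open Module

variable {k K Γ : Type} [Field k] [Field K] [Algebra k K] [AddCommGroup Γ]
variable {S : Sys k K Γ}
variable {V : Type} [AddCommGroup V] [Module K V] [Module k V] [IsScalarTower k K V]
variable {W : Type} [AddCommGroup W] [Module K W] [Module k W] [IsScalarTower k K W]

namespace Fam

theorem gen_le {G : Set (Γ × V)} {U : Fam S V} : gen S G ≤ U ↔ ∀ p ∈ G, p.2 ∈ U.U p.1 := by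
  refine ⟨fun h p hp => h p.1 (Submodule.subset_span ⟨p, hp, 1, ?_, (one_smul K p.2).symm⟩),
    fun h a => Submodule.span_le.2 ?_⟩
  · rw [sub_self]; exact S.one_mem
  · rintro _ ⟨p, hp, φ, hφ, rfl⟩
    have := U.smul_mem _ _ φ p.2 hφ (h p hp)
    rwa [sub_add_cancel] at this

theorem mem_gen {G : Set (Γ × V)} {p : Γ × V} (hp : p ∈ G) : p.2 ∈ (gen S G).U p.1 := by
  exact gen_le.1 le_rfl p hp

theorem mem_gen_singleton {a b : Γ} {v x : V} :
    x ∈ (gen S {(a, v)}).U b ↔ ∃ φ ∈ S.B (b - a), x = φ • v := by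
  constructor
  · intro hx
    induction hx using Submodule.span_induction with
    | mem x hx =>
      obtain ⟨p, rfl, φ, hφ, rfl⟩ := hx
      exact ⟨φ, hφ, rfl⟩
    | zero => exact ⟨0, Submodule.zero_mem _, (zero_smul K v).symm⟩
    | add x y _ _ hx hy =>
      obtain ⟨φ, hφ, rfl⟩ := hx
      obtain ⟨ψ, hψ, rfl⟩ := hy
      exact ⟨φ + ψ, Submodule.add_mem _ hφ hψ, (add_smul φ ψ v).symm⟩
    | smul c x _ hx =>
      obtain ⟨φ, hφ, rfl⟩ := hx
      exact ⟨c • φ, Submodule.smul_mem _ c hφ, (smul_assoc c φ v).symm⟩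
  · rintro ⟨φ, hφ, rfl⟩
    exact Submodule.subset_span ⟨(a, v), rfl, φ, hφ, rfl⟩

theorem le_add_left (U U' : Fam S V) : U ≤ U.add U' := by
  exact fun _ => le_sup_left

theorem le_add_right (U U' : Fam S V) : U' ≤ U.add U' := by
  exact fun _ => le_sup_right

theorem add_le {U U' X : Fam S V} : U.add U' ≤ X ↔ U ≤ X ∧ U' ≤ X := by
  exact ⟨fun h => ⟨(le_add_left U U').trans h, (le_add_right U U').trans h⟩,
    fun h a => sup_le (h.1 a) (h.2 a)⟩

theorem gen_union (G G' : Set (Γ × V)) : gen S (G ∪ G') = (gen S G).add (gen S G') := by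
  refine le_antisymm (gen_le.2 ?_) (add_le.2 ⟨gen_le.2 fun p hp => mem_gen (Or.inl hp),
    gen_le.2 fun p hp => mem_gen (Or.inr hp)⟩)
  rintro p (hp | hp)
  · exact le_add_left (gen S G) (gen S G') p.1 (mem_gen hp)
  · exact le_add_right (gen S G) (gen S G') p.1 (mem_gen hp)

theorem FG.fd {U : Fam S V} (hU : U.FG) (a : Γ) : FiniteDimensional k (U.U a) := by
  obtain ⟨G, hG, rfl⟩ := hU
  haveI := hG.to_subtype
  haveI := S.fd
  refine Submodule.finiteDimensional_of_le (S₂ := ⨆ p : G,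
    (S.B (a - p.1.1)).map ((LinearMap.toSpanSingleton K V p.1.2).restrictScalars k)) ?_
  refine Submodule.span_le.2 ?_
  rintro _ ⟨p, hp, φ, hφ, rfl⟩
  exact Submodule.mem_iSup_of_mem (⟨p, hp⟩ : G) ⟨φ, hφ, rfl⟩

/-- maximal elements exist below a finitely generated family -/
theorem FG.exists_maximal {U : Fam S V} (hU : U.FG) (A : Set (Fam S V)) (hne : A.Nonempty)
    (hle : ∀ X ∈ A, X ≤ U) : ∃ X ∈ A, ∀ X' ∈ A, X ≤ X' → X' ≤ X := by
  classical
  obtain ⟨G, hG, rfl⟩ := hU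
  haveI := hG.fintype
  obtain ⟨N, dg, ev, hev, hB⟩ := S.gens
  let θ : MvPolynomial (Fin N) k →ₐ[k] AddMonoidAlgebra K Γ :=
    MvPolynomial.aeval fun i => AddMonoidAlgebra.single (dg i) (ev i)
  let π : Γ → (G → MvPolynomial (Fin N) k) → V :=
    fun c r => ∑ g : G, (θ (r g)).coeff (c - g.1.1) • g.1.2
  have hadd : ∀ c r r', π c (r + r') = π c r + π c r' := fun c r r' => by
    simp only [π, Pi.add_apply, map_add, AddMonoidAlgebra.coeff_add, Finsupp.add_apply, add_smul,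
      Finset.sum_add_distrib]
  have hzero : ∀ c, π c 0 = 0 := fun c => by simp [π]
  have hC : ∀ c (x : k) r, π c ((MvPolynomial.C x : MvPolynomial (Fin N) k) • r) = x • π c r :=
    fun c x r => by
      simp only [π, Pi.smul_apply, smul_eq_mul, MvPolynomial.C_mul', map_smul,
        AddMonoidAlgebra.coeff_smul_apply, smul_assoc, Finset.smul_sum]
  have hX : ∀ c i r, π c ((MvPolynomial.X i : MvPolynomial (Fin N) k) • r)
      = ev i • π (c - dg i) r := fun c i r => by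
    simp only [π, θ, Pi.smul_apply, smul_eq_mul, map_mul, MvPolynomial.aeval_X,
      AddMonoidAlgebra.coeff_single_mul_apply, mul_smul, Finset.smul_sum]
    refine Finset.sum_congr rfl fun g _ => ?_
    rw [show -dg i + (c - g.1.1) = c - dg i - g.1.1 by abel]
  let M : Fam S V → Submodule (MvPolynomial (Fin N) k) (G → MvPolynomial (Fin N) k) := fun X =>
    { carrier := {r | ∀ c, π c r ∈ X.U c}
      zero_mem' := fun c => by rw [hzero]; exact Submodule.zero_mem _
      add_mem' := fun hx hy c => by rw [hadd]; exact Submodule.add_mem _ (hx c) (hy c)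
      smul_mem' := by
        intro p
        induction p using MvPolynomial.induction_on with
        | C x => intro r hr c; rw [hC]; exact Submodule.smul_mem _ x (hr c)
        | add p q hp hq =>
          intro r hr c
          rw [add_smul, hadd]; exact Submodule.add_mem _ (hp hr c) (hq hr c)
        | mul_X p i hp =>
          intro r hr
          rw [mul_smul]
          refine hp fun c => ?_
          have := X.smul_mem _ _ _ _ (hev i) (hr (c - dg i))
          rwa [add_sub_cancel, ← hX] at this }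
  have hθ : ∀ b, ∀ φ ∈ S.B b, ∃ p, θ p = AddMonoidAlgebra.single b φ := by
    intro b φ hφ
    replace hφ := hB b hφ
    induction hφ using Submodule.span_induction with
    | mem x hx =>
      obtain ⟨e, rfl, rfl⟩ := hx
      refine ⟨∏ i, MvPolynomial.X i ^ e i, ?_⟩
      simp only [θ, map_prod, map_pow, MvPolynomial.aeval_X, AddMonoidAlgebra.single_pow,
        AddMonoidAlgebra.prod_single]
    | zero => exact ⟨0, by simp⟩
    | add x y _ _ hx hy =>
      obtain ⟨p, hp⟩ := hx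
      obtain ⟨q, hq⟩ := hy
      exact ⟨p + q, by rw [map_add, hp, hq, AddMonoidAlgebra.single_add]⟩
    | smul c x _ hx =>
      obtain ⟨p, hp⟩ := hx
      exact ⟨c • p, by rw [map_smul, hp, AddMonoidAlgebra.smul_single]⟩
  have hlift : ∀ c, ∀ x ∈ (gen S G).U c, ∃ r, π c r = x ∧ ∀ c', c' ≠ c → π c' r = 0 := by
    intro c x hx
    induction hx using Submodule.span_induction with
    | mem x hx =>
      obtain ⟨g, hg, φ, hφ, rfl⟩ := hx
      obtain ⟨p, hp⟩ := hθ _ φ hφ
      have key : ∀ c', π c' (Pi.single ⟨g, hg⟩ p) = (θ p).coeff (c' - g.1) • g.2 := fun c' => by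
        refine (Fintype.sum_eq_single (⟨g, hg⟩ : G) fun g' hg' => ?_).trans ?_
        · simp [Pi.single_eq_of_ne hg']
        · simp
      refine ⟨Pi.single ⟨g, hg⟩ p, by rw [key, hp]; simp, fun c' hc' => ?_⟩
      rw [key, hp, AddMonoidAlgebra.coeff_single, Finsupp.single_eq_of_ne, zero_smul]
      exact fun h => hc' (sub_left_injective h)
    | zero => exact ⟨0, hzero c, fun c' _ => hzero c'⟩
    | add x y _ _ hx hy =>
      obtain ⟨r, rfl, hr⟩ := hx
      obtain ⟨r', rfl, hr'⟩ := hy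
      exact ⟨r + r', hadd _ _ _, fun c' h => by rw [hadd, hr c' h, hr' c' h, add_zero]⟩
    | smul a x _ hx =>
      obtain ⟨r, rfl, hr⟩ := hx
      exact ⟨_, hC c a r, fun c' h => by rw [hC, hr c' h, smul_zero]⟩
  obtain ⟨_, ⟨X, hX, rfl⟩, hmax⟩ := set_has_maximal_iff_noetherian.2
    (inferInstance : IsNoetherian (MvPolynomial (Fin N) k) (G → MvPolynomial (Fin N) k))
    (M '' A) (hne.image M)
  refine ⟨X, hX, fun X' hX' hXX' c x hx => ?_⟩
  have h1 : M X ≤ M X' := fun r hr c => hXX' c (hr c)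
  have h2 : M X' ≤ M X := by
    by_contra h
    exact hmax _ ⟨X', hX', rfl⟩ (lt_of_le_not_ge h1 h)
  obtain ⟨r, rfl, hr⟩ := hlift c x (hle X' hX' c hx)
  refine h2 (fun c' => ?_) c
  by_cases h : c' = c
  · rw [h]; exact hx
  · rw [hr c' h]; exact Submodule.zero_mem _

/-- Noetherian property. -/
theorem FG.of_le {U U' : Fam S V} (hU : U.FG) (h : U' ≤ U) : U'.FG := by
  obtain ⟨X, ⟨⟨G, hG, rfl⟩, hX⟩, hmax⟩ := hU.exists_maximal {X | X.FG ∧ X ≤ U'}
    ⟨gen S ∅, ⟨∅, Set.finite_empty, rfl⟩, gen_le.2 (by simp)⟩ fun X hX => hX.2.trans h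
  refine ⟨G, hG, le_antisymm (fun a v hv => ?_) hX⟩
  refine hmax (gen S (G ∪ {(a, v)})) ⟨⟨_, hG.union (Set.finite_singleton _), rfl⟩, ?_⟩
    (gen_le.2 fun p hp => mem_gen (Or.inl hp)) a (mem_gen (p := (a, v)) (Or.inr rfl))
  rw [gen_union]
  exact add_le.2 ⟨hX, gen_le.2 (by rintro p rfl; exact hv)⟩

theorem FG.add {U U' : Fam S V} (hU : U.FG) (hU' : U'.FG) : (U.add U').FG := by
  obtain ⟨G, hG, rfl⟩ := hU
  obtain ⟨G', hG', rfl⟩ := hU'
  exact ⟨G ∪ G', hG.union hG', (gen_union G G').symm⟩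

theorem map_gen (G : Set (Γ × V)) (f : V →ₗ[K] W) :
    (gen S G).map f = gen S ((fun p : Γ × V => (p.1, f p.2)) '' G) := by
  refine le_antisymm (fun a => Submodule.map_le_iff_le_comap.2 (Submodule.span_le.2 ?_))
    (gen_le.2 ?_)
  · rintro _ ⟨p, hp, φ, hφ, rfl⟩
    exact Submodule.subset_span ⟨_, ⟨p, hp, rfl⟩, φ, hφ, map_smul f φ p.2⟩
  · rintro _ ⟨p, hp, rfl⟩
    exact ⟨p.2, mem_gen hp, rfl⟩

theorem FG.map {U : Fam S V} (hU : U.FG) (f : V →ₗ[K] W) : (U.map f).FG := by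
  obtain ⟨G, hG, rfl⟩ := hU
  exact ⟨_, hG.image _, map_gen G f⟩

theorem FG.comap {U : Fam S V} (hU : U.FG) (f : W →ₗ[K] V) (hf : Function.Injective f) :
    (U.comap f).FG := by
  obtain ⟨g, hg⟩ := f.exists_leftInverse_of_injective (LinearMap.ker_eq_bot.2 hf)
  refine (hU.map g).of_le fun a w hw => ⟨f w, hw, ?_⟩
  exact LinearMap.congr_fun hg w

theorem FG.shift {U : Fam S V} (hU : U.FG) (w : Γ) : (U.shift w).FG := by
  obtain ⟨G, hG, rfl⟩ := hU
  refine FG.of_le (U := gen S ((fun p : Γ × V => (p.1 - w, p.2)) '' G)) ⟨_, hG.image _, rfl⟩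
    fun a => Submodule.span_le.2 ?_
  rintro _ ⟨p, hp, φ, hφ, rfl⟩
  refine Submodule.subset_span ⟨_, ⟨p, hp, rfl⟩, φ, ?_, rfl⟩
  rwa [show a - (p.1 - w) = a + w - p.1 by abel]

theorem gen_FG {G : Set (Γ × V)} (hG : G.Finite) : (gen S G).FG := ⟨G, hG, rfl⟩

theorem fam_eq_gen : S.fam = gen S {((0 : Γ), (1 : K))} := by
  refine le_antisymm (fun a φ hφ => mem_gen_singleton.2 ⟨φ, ?_, by simp⟩) (gen_le.2 ?_)
  · rw [sub_zero]; exact hφ
  · rintro p rfl
    exact S.one_mem

theorem fam_FG : S.fam.FG := by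
  exact ⟨_, Set.finite_singleton _, fam_eq_gen⟩

theorem fam_spans : S.fam.Spans := by
  refine eq_top_iff.2 fun x _ => ?_
  have := Submodule.smul_mem (Submodule.span K {v | ∃ a, v ∈ S.fam.U a}) x
    (Submodule.subset_span ⟨0, S.one_mem⟩)
  rwa [smul_eq_mul, mul_one] at this

theorem ann_le_fam (U : Fam S V) (a : Γ) (v : V) : U.ann a v ≤ S.fam := by
  exact fun _ _ h => h.1

theorem finrank_map_of_injective (U : Fam S V) (f : V →ₗ[K] W) (hf : Function.Injective f)
    (a : Γ) : finrank k ((U.map f).U a) = finrank k (U.U a) := by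
  exact ((U.U a).equivMapOfInjective (f.restrictScalars k) hf).finrank_eq.symm

/-- additivity of dimensions along an exact sequence -/
theorem finrank_exact {V₁ : Type} [AddCommGroup V₁] [Module K V₁] [Module k V₁]
    [IsScalarTower k K V₁] {U : Fam S V} (hU : U.FG) (α : V₁ →ₗ[K] V) (β : V →ₗ[K] W)
    (hα : Function.Injective α) (hex : Function.Exact α β) (a : Γ) :
    finrank k (U.U a) = finrank k ((U.comap α).U a) + finrank k ((U.map β).U a) := by
  haveI := hU.fd a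
  have h1 := ((β.restrictScalars k).domRestrict (U.U a)).finrank_range_add_finrank_ker
  rw [LinearMap.range_domRestrict] at h1
  have h2 : (LinearMap.ker ((β.restrictScalars k).domRestrict (U.U a))).map (U.U a).subtype
      = ((U.comap α).map α).U a := by
    ext v
    constructor
    · rintro ⟨x, hx, rfl⟩
      obtain ⟨y, hy⟩ := (hex x).1 hx
      exact ⟨y, by change α y ∈ U.U a; rw [hy]; exact x.2, hy⟩
    · rintro ⟨y, hy, rfl⟩
      exact ⟨⟨α y, hy⟩, (hex (α y)).2 ⟨y, rfl⟩, rfl⟩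
  rw [← finrank_map_of_injective (U.comap α) α hα a, ← h2, Submodule.finrank_map_subtype_eq,
    ← h1, add_comm]
  rfl

/-- dimension jump when one homogeneous generator is added -/
theorem finrank_add_gen {U : Fam S V} (hU : U.FG) (a : Γ) (v : V) (c : Γ) :
    (finrank k ((U.add (gen S {(a, v)})).U c) : ℤ) =
      finrank k (U.U c) + finrank k (S.B (c - a)) - finrank k ((U.ann a v).U (c - a)) := by
  haveI := hU.fd c
  haveI := S.fd (c - a)
  haveI := (gen_FG (S := S) (Set.finite_singleton (a, v))).fd c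
  let T : K →ₗ[k] V := (LinearMap.toSpanSingleton K V v).restrictScalars k
  have h1 := Submodule.finrank_sup_add_finrank_inf_eq (U.U c) ((gen S {(a, v)}).U c)
  have e1 : (gen S {(a, v)}).U c = (S.B (c - a)).map T := by
    ext x
    rw [mem_gen_singleton]
    exact ⟨fun ⟨φ, h, e⟩ => ⟨φ, h, e.symm⟩, fun ⟨φ, h, e⟩ => ⟨φ, h, e.symm⟩⟩
  have e2 : U.U c ⊓ (gen S {(a, v)}).U c = ((U.ann a v).U (c - a)).map T := by
    ext x
    rw [Submodule.mem_inf, mem_gen_singleton]
    constructor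
    · rintro ⟨h, φ, hφ, rfl⟩
      exact ⟨φ, ⟨hφ, by rwa [sub_add_cancel]⟩, rfl⟩
    · rintro ⟨φ, ⟨h, h'⟩, rfl⟩
      rw [sub_add_cancel] at h'
      exact ⟨h', φ, h, rfl⟩
  change (finrank k ↥(U.U c ⊔ (gen S {(a, v)}).U c) : ℤ) = _
  by_cases hv : v = 0
  · have e3 : (U.ann a v).U (c - a) = S.B (c - a) := by
      ext φ
      exact ⟨fun h => h.1, fun h => ⟨h, by rw [hv, smul_zero]; exact Submodule.zero_mem _⟩⟩
    have e4 : (gen S {(a, v)}).U c ≤ U.U c := by
      intro x hx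
      obtain ⟨φ, -, rfl⟩ := mem_gen_singleton.1 hx
      rw [hv, smul_zero]; exact Submodule.zero_mem _
    rw [e3, sup_eq_left.2 e4]
    ring
  · have hT : Function.Injective T := smul_left_injective K hv
    rw [e2, ← ((U.ann a v).U (c - a)).equivMapOfInjective T hT |>.finrank_eq] at h1
    have h2 := ((S.B (c - a)).equivMapOfInjective T hT).finrank_eq
    rw [← e1] at h2
    omega

/-- Induction along a prime filtration. -/
theorem induction_prime {U₀ U₁ : Fam S V} (h : U₀ ≤ U₁) (hU₁ : U₁.FG)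
    (Pr : Fam S V → Fam S V → Prop) (hrefl : ∀ U, Pr U U)
    (htrans : ∀ U U' U'', Pr U U' → Pr U' U'' → Pr U U'')
    (hstep : ∀ U a v, U₀ ≤ U → U.add (gen S {(a, v)}) ≤ U₁ → (U.ann a v).IsPrime →
      Pr U (U.add (gen S {(a, v)}))) : Pr U₀ U₁ := by
  obtain ⟨U, ⟨h0, h1, hP⟩, hmax⟩ := hU₁.exists_maximal {U | U₀ ≤ U ∧ U ≤ U₁ ∧ Pr U₀ U}
    ⟨U₀, le_rfl, h, hrefl U₀⟩ fun U hU => hU.2.1
  by_cases hle : U₁ ≤ U
  · rw [le_antisymm hle h1]; exact hP
  exfalso
  have hne : ∃ a v, v ∈ U₁.U a ∧ v ∉ U.U a := by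
    by_contra hn
    exact hle fun a v hv => by_contra fun hv' => hn ⟨a, v, hv, hv'⟩
  obtain ⟨a0, v0, hv0⟩ := hne
  obtain ⟨_, ⟨a, v, ⟨hv1, hv2⟩, rfl⟩, hm⟩ := (fam_FG (S := S)).exists_maximal
    {p | ∃ a v, (v ∈ U₁.U a ∧ v ∉ U.U a) ∧ p = U.ann a v} ⟨_, a0, v0, hv0, rfl⟩
    (by rintro _ ⟨a, v, -, rfl⟩; exact ann_le_fam U a v)
  have hprime : (U.ann a v).IsPrime := by
    refine ⟨ann_le_fam U a v, fun h1 => hv2 ?_, fun b b' φ ψ hφ hψ hφψ => ?_⟩
    · have := h1.2
      rwa [one_smul, zero_add] at this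
    · by_contra hn
      rw [not_or] at hn
      have h2 : ψ • v ∉ U.U (b' + a) := fun h => hn.2 ⟨hψ, h⟩
      have h3 := hm (U.ann (b' + a) (ψ • v)) ⟨_, _, ⟨U₁.smul_mem b' a ψ v hψ hv1, h2⟩, rfl⟩
        fun c χ hχ => ⟨hχ.1, by
          have := U.smul_mem b' (c + a) ψ _ hψ hχ.2
          rwa [smul_comm, show b' + (c + a) = c + (b' + a) by abel] at this⟩
      refine hn.1 (h3 b ⟨hφ, ?_⟩)
      have := hφψ.2
      rwa [mul_smul, add_assoc] at this
  have h4 : U.add (gen S {(a, v)}) ≤ U₁ := add_le.2 ⟨h1, gen_le.2 (by rintro p rfl; exact hv1)⟩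
  have h5 := hmax _ ⟨h0.trans (le_add_left _ _), h4, htrans _ _ _ hP (hstep U a v h0 h4 hprime)⟩
    (le_add_left _ _)
  exact hv2 (h5 a (le_add_right U _ a (mem_gen (p := (a, v)) rfl)))

end Fam

end Vale.Agent.P190
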