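import Vale.Agent.P190.G2a

/-! P190, part G2: local bases and the class of a family. -/

namespace Vale.Agent.P190

open Module

variable {k K Γ : Type} [Field k] [Field K] [Algebra k K] [AddCommGroup Γ]

namespace Sys

variable {S : Sys k K Γ}

theorem val_zpow (P : S.Pl) (a : Γ) {φ : K} (h : φ ≠ 0) (j : ℤ) :
    S.val P (j • a) (φ ^ j) = j * S.val P a φ := by
  obtain ⟨n, rfl | rfl⟩ := j.eq_nat_or_neg
  · rw [natCast_zsmul, zpow_natCast, val_pow P a h]
  · rw [neg_zsmul, zpow_neg, natCast_zsmul, zpow_natCast, val_inv P _ (pow_ne_zero n h),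
      val_pow P a h, neg_mul]

theorem val_div (P : S.Pl) (a b : Γ) {φ ψ : K} (h : φ ≠ 0) (h' : ψ ≠ 0) :
    S.val P (a - b) (φ / ψ) = S.val P a φ - S.val P b ψ := by
  rw [sub_eq_add_neg, div_eq_mul_inv, S.val_mul P _ _ _ _ h (inv_ne_zero h'), val_inv P b h',
    sub_eq_add_neg]

/-- every finitely supported divisor is principal -/
theorem exists_val_eq (n : S.Pl → ℤ) (hn : {P | n P ≠ 0}.Finite) :
    ∃ γ, ∃ c : K, c ≠ 0 ∧ ∀ P, S.val P γ c = n P := by
  classical
  have key : ∀ T : Finset S.Pl, ∃ γ, ∃ c : K, c ≠ 0 ∧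
      ∀ P, S.val P γ c = if P ∈ T then n P else 0 := by
    intro T
    induction T using Finset.induction_on with
    | empty => exact ⟨0, 1, one_ne_zero, fun R => by simpa using S.val_one R⟩
    | insert Q T hQ ih =>
      obtain ⟨b, f, hf, h1⟩ := ih
      obtain ⟨a, g, hg, h2, h3⟩ := S.prime Q
      refine ⟨n Q • a + b, g ^ n Q * f, mul_ne_zero (zpow_ne_zero _ hg) hf, fun R => ?_⟩
      rw [S.val_mul R _ _ _ _ (zpow_ne_zero _ hg) hf, val_zpow R a hg, h1]
      by_cases hR : R = Q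
      · subst hR; simp [h2, hQ]
      · simp [h3 R hR, hR]
  obtain ⟨γ, c, hc, h⟩ := key hn.toFinset
  refine ⟨γ, c, hc, fun P => ?_⟩
  rw [h]
  split_ifs with h1
  · rfl
  · simpa [eq_comm] using h1

end Sys

namespace Fam

variable {S : Sys k K Γ}
variable {V : Type} [AddCommGroup V] [Module K V] [Module k V] [IsScalarTower k K V]
variable {W : Type} [AddCommGroup W] [Module K W] [Module k W] [IsScalarTower k K W]

omit [Module k V] [IsScalarTower k K V] in
theorem basis_det_ne {ι : Type} [Fintype ι] [DecidableEq ι] (e b : Basis ι K V) : e.det b ≠ 0 :=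
  (e.isUnit_det b).ne_zero

omit [Module k V] [IsScalarTower k K V] in
/-- Cramer's rule -/
theorem det_update_eq {ι : Type} [Fintype ι] [DecidableEq ι] (e b : Basis ι K V) (i : ι) (v : V) :
    e.det (Function.update b i v) = e.det b * b.repr v i := by
  have h := LinearMap.congr_fun (e.det_smul_mk_coord_eq_det_update b.linearIndependent
    b.span_eq.ge i) v
  have hb : Basis.mk b.linearIndependent b.span_eq.ge = b := by ext; simp
  rw [hb] at h
  simpa using h.symm

omit [IsScalarTower k K V] in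
/-- comparison of determinants with an optimal basis -/
theorem IsOpt.val_le {U : Fam S V} {P : S.Pl} {ι : Type} [Fintype ι] [DecidableEq ι]
    {b' : Basis ι K V} {d' : ι → Γ} (hb : U.IsOpt P b' d') (e b : Basis ι K V) (d : ι → Γ)
    (h : ∀ j, U.LocMem P (d j) (b j)) (γ : Γ) {c : K} (hc : c ≠ 0) :
    S.val P (∑ i, d' i + γ) (c * e.det b') ≤ S.val P (∑ i, d i + γ) (c * e.det b) := by
  have h1 := Sys.ge_det P (b'.toMatrix b) d' d (fun _ => 0)
    fun i j => (hb.locMem_iff (d j) (b j)).1 (h j) i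
  rw [← Basis.det_apply] at h1
  have h2 := h1.resolve_left (basis_det_ne b' b)
  have h3 := S.val_mul P (∑ i, d' i + γ) (∑ j, d j - ∑ i, d' i) _ _
    (mul_ne_zero hc (basis_det_ne e b')) (basis_det_ne b' b)
  rw [mul_assoc, Basis.det_mul_det,
    show ∑ i, d' i + γ + (∑ j, d j - ∑ i, d' i) = ∑ i, d i + γ by abel] at h3
  simp only [Finset.sum_const_zero] at h2
  omega

omit [IsScalarTower k K V] in
theorem IsOpt.val_eq {U : Fam S V} {P : S.Pl} {ι : Type} [Fintype ι] [DecidableEq ι]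
    {b b' : Basis ι K V} {d d' : ι → Γ} (hb : U.IsOpt P b d) (hb' : U.IsOpt P b' d')
    (e : Basis ι K V) (γ : Γ) {c : K} (hc : c ≠ 0) :
    S.val P (∑ i, d i + γ) (c * e.det b) = S.val P (∑ i, d' i + γ) (c * e.det b') :=
  le_antisymm (hb.val_le e b' d' (fun j => locMem_of_mem P (hb'.1 j)) γ hc)
    (hb'.val_le e b d (fun j => locMem_of_mem P (hb.1 j)) γ hc)

omit [IsScalarTower k K V] in
theorem IsOpt.reindex {U : Fam S V} {P : S.Pl} {ι ι' : Type} {b : Basis ι K V} {d : ι → Γ}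
    (hb : U.IsOpt P b d) (σ : ι ≃ ι') : U.IsOpt P (b.reindex σ) (fun i => d (σ.symm i)) :=
  ⟨fun i => by simpa using hb.1 (σ.symm i), fun a v hv i => by
    rw [Basis.repr_reindex_apply]; exact hb.2 a v hv _⟩

theorem exists_opt_gen {G : Set (Γ × V)} (hG : G.Finite) (hs : (gen S G).Spans) (P : S.Pl)
    {ι : Type} [Fintype ι] (e : Basis ι K V) : ∃ (x : ι → G) (b : Basis ι K V),
      (∀ i, b i = (x i).1.2) ∧ (gen S G).IsOpt P b fun i => (x i).1.1 := by
  classical
  have := hG.to_subtype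
  have hsp : ⊤ ≤ Submodule.span K (Prod.snd '' G) := by
    rw [← hs, Submodule.span_le]
    rintro v ⟨a, hv⟩
    induction hv using Submodule.span_induction with
    | mem x hx =>
      obtain ⟨p, hp, φ, -, rfl⟩ := hx
      exact Submodule.smul_mem _ φ (Submodule.subset_span ⟨p, hp, rfl⟩)
    | zero => exact Submodule.zero_mem _
    | add x y _ _ hx hy => exact Submodule.add_mem _ hx hy
    | smul c x _ hx => exact Submodule.smul_of_tower_mem _ c hx
  have hne : {x : ι → G | e.det (fun i => (x i).1.2) ≠ 0}.Nonempty := by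
    let b0 := (Basis.ofSpan hsp).reindex ((Basis.ofSpan hsp).indexEquiv e)
    have h1 : ∀ i, ∃ g : G, g.1.2 = b0 i := by
      intro i
      obtain ⟨g, hg, h2⟩ := Basis.ofSpan_subset hsp ⟨((Basis.ofSpan hsp).indexEquiv e).symm i, rfl⟩
      exact ⟨⟨g, hg⟩, by simp [b0, h2]⟩
    choose x hx using h1
    refine ⟨x, ?_⟩
    simp only [Set.mem_setOf_eq, hx]
    exact basis_det_ne e b0
  obtain ⟨x, hx, hmin⟩ := Set.exists_min_image _
    (fun x : ι → G => S.val P (∑ i, (x i).1.1) (e.det fun i => (x i).1.2)) (Set.toFinite _) hne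
  obtain ⟨h1, h2⟩ := e.is_basis_iff_det.2 (isUnit_iff_ne_zero.2 hx)
  let b : Basis ι K V := Basis.mk h1 h2.ge
  have hb : ⇑b = fun i => (x i).1.2 := Basis.coe_mk _ _
  refine ⟨x, b, fun i => congrFun hb i, fun i => ?_, fun a v hv i => ?_⟩
  · rw [hb]; exact mem_gen (x i).2
  have key : ∀ g : G, S.Ge P (g.1.1 - (x i).1.1) (b.repr g.1.2 i) 0 := by
    intro g
    by_cases h0 : b.repr g.1.2 i = 0
    · exact Or.inl h0
    have e1 : (fun j => (Function.update x i g j).1.2) = Function.update b i g.1.2 := by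
      funext j
      by_cases hj : j = i
      · subst hj; simp
      · simp [hj, hb]
    have e2 : ∑ j, (Function.update x i g j).1.1 = ∑ j, (x j).1.1 + (g.1.1 - (x i).1.1) := by
      have : (fun j => (Function.update x i g j).1.1) =
          Function.update (fun j => (x j).1.1) i g.1.1 := by
        funext j
        by_cases hj : j = i
        · subst hj; simp
        · simp [hj]
      rw [this, Finset.sum_update_of_mem (Finset.mem_univ i),
        ← Finset.add_sum_erase _ _ (Finset.mem_univ i), Finset.sdiff_singleton_eq_erase]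
      abel
    have h3 := hmin (Function.update x i g) (by
      simp only [Set.mem_setOf_eq, e1, det_update_eq]
      exact mul_ne_zero (basis_det_ne e b) h0)
    simp only [e1, e2, det_update_eq] at h3
    rw [S.val_mul P _ _ _ _ (basis_det_ne e b) h0, ← hb] at h3
    exact Or.inr (by omega)
  induction hv using Submodule.span_induction with
  | mem y hy =>
    obtain ⟨p, hp, φ, h4, rfl⟩ := hy
    have h5 := (Sys.mem_iff_ge.1 h4 P).mul (key ⟨p, hp⟩)
    rw [map_smul, Finsupp.smul_apply, smul_eq_mul]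
    simpa using h5
  | zero => exact Or.inl (by simp)
  | add y z _ _ hy hz => rw [map_add, Finsupp.add_apply]; exact hy.add hz
  | smul c y _ hy =>
    rw [← algebraMap_smul K c y, map_smul, Finsupp.smul_apply, smul_eq_mul, ← Algebra.smul_def]
    exact hy.smul c

variable [FiniteDimensional K V] [FiniteDimensional K W]

theorem exists_opt {U : Fam S V} (hU : U.FG) (hs : U.Spans) (P : S.Pl) {ι : Type} [Fintype ι]
    (hι : Fintype.card ι = finrank K V) : ∃ (b : Basis ι K V) (d : ι → Γ), U.IsOpt P b d := by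
  obtain ⟨G, hG, rfl⟩ := hU
  obtain ⟨x, b, -, h⟩ := exists_opt_gen hG hs P
    ((Module.finBasis K V).reindex (Fintype.equivFinOfCardEq hι).symm)
  exact ⟨b, _, h⟩

omit [IsScalarTower k K V] in
theorem isClass_of {U : Fam S V} {γ : Γ} {ι : Type} [Fintype ι] [DecidableEq ι]
    (e : Basis ι K V) (c : K) (hc : c ≠ 0)
    (h : ∀ P, ∃ (b : Basis ι K V) (d : ι → Γ),
      U.IsOpt P b d ∧ S.val P (∑ i, d i + γ) (c * e.det b) = 0) : U.IsClass γ := by
  let σ := e.indexEquiv (Module.finBasis K V)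
  refine ⟨e.reindex σ, c, hc, fun P => ?_⟩
  obtain ⟨b, d, h1, h2⟩ := h P
  refine ⟨b.reindex σ, _, h1.reindex σ, ?_⟩
  rw [Equiv.sum_comp σ.symm d, Basis.det_reindex]
  convert h2 using 4
  ext i; simp

omit [IsScalarTower k K V] in
theorem IsClass.exists_norm {U : Fam S V} {γ : Γ} (hγ : U.IsClass γ) {ι : Type} [Fintype ι]
    [DecidableEq ι] (e : Basis ι K V) :
    ∃ c : K, c ≠ 0 ∧ ∀ P (b : Basis ι K V) (d : ι → Γ), U.IsOpt P b d →
      S.val P (∑ i, d i + γ) (c * e.det b) = 0 := by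
  obtain ⟨e0, c0, hc0, h⟩ := hγ
  let σ := e.indexEquiv e0
  refine ⟨c0 * e0.det (e.reindex σ), mul_ne_zero hc0 (basis_det_ne _ _), fun P b d hb => ?_⟩
  obtain ⟨b1, d1, h1, h2⟩ := h P
  have h3 := (hb.reindex σ).val_eq h1 e0 γ hc0
  rw [Equiv.sum_comp σ.symm d, h2, ← Basis.det_mul_det e0 (e.reindex σ), ← mul_assoc,
    Basis.det_reindex e] at h3
  convert h3 using 4
  ext i; simp

theorem isClass_cl {U : Fam S V} (hU : U.FG) (hs : U.Spans) : U.IsClass U.cl := by
  have hex : ∃ γ, U.IsClass γ := by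
    obtain ⟨G, hG, rfl⟩ := hU
    have := hG.to_subtype
    let e := Module.finBasis K V
    choose x b h1 h2 using fun P => exists_opt_gen hG hs P e
    obtain ⟨γ, c, hc, h3⟩ := Sys.exists_val_eq (S := S)
      (fun P => -S.val P (∑ i, (x P i).1.1) (e.det (b P))) (by
        refine (Set.finite_iUnion fun y : {y : Fin (finrank K V) → G //
          e.det (fun i => (y i).1.2) ≠ 0} => S.fin_supp (∑ i, (y.1 i).1.1) _ y.2).subset ?_
        intro P hP
        have h4 : ⇑(b P) = fun i => (x P i).1.2 := funext (h1 P)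
        refine Set.mem_iUnion.2 ⟨⟨x P, h4 ▸ basis_det_ne e (b P)⟩, ?_⟩
        simpa [h4] using hP)
    refine ⟨γ, e, c, hc, fun P => ⟨b P, _, h2 P, ?_⟩⟩
    rw [add_comm, S.val_mul P _ _ _ _ hc (basis_det_ne e (b P)), h3, neg_add_cancel]
  unfold cl
  rw [dif_pos hex]
  exact hex.choose_spec

omit [IsScalarTower k K V] in
theorem IsClass.unique {U : Fam S V} {γ γ' : Γ} (h : U.IsClass γ) (h' : U.IsClass γ') :
    S.UnitDeg (γ - γ') := by
  obtain ⟨e, c, hc, h1⟩ := h
  obtain ⟨c', hc', h2⟩ := h'.exists_norm e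
  refine ⟨c / c', div_ne_zero hc hc', fun P => ?_⟩
  obtain ⟨b, d, h3, h4⟩ := h1 P
  have h5 := Sys.val_div P (∑ i, d i + γ) (∑ i, d i + γ') (mul_ne_zero hc (basis_det_ne e b))
    (mul_ne_zero hc' (basis_det_ne e b))
  rwa [h4, h2 P b d h3, sub_zero, mul_div_mul_right _ _ (basis_det_ne e b),
    add_sub_add_left_eq_sub] at h5

omit [IsScalarTower k K V] in
theorem IsClass.add_unit {U : Fam S V} {γ δ : Γ} (h : U.IsClass γ) (hδ : S.UnitDeg δ) :
    U.IsClass (γ + δ) := by
  obtain ⟨e, c, hc, h1⟩ := h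
  obtain ⟨u, hu, h2⟩ := hδ
  refine ⟨e, c * u, mul_ne_zero hc hu, fun P => ?_⟩
  obtain ⟨b, d, h3, h4⟩ := h1 P
  refine ⟨b, d, h3, ?_⟩
  rw [← add_assoc, mul_right_comm, S.val_mul P _ _ _ _ (mul_ne_zero hc (basis_det_ne e b)) hu,
    h4, h2, add_zero]

theorem isClass_free {ι : Type} [Fintype ι] (e : Basis ι K V) (d : ι → Γ) :
    (free S e d).IsClass (-∑ i, d i) := by
  classical
  exact isClass_of e 1 one_ne_zero fun P => ⟨e, d, free_isOpt e d P, by
    simpa [Basis.det_self] using S.val_one P⟩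

omit [IsScalarTower k K V] in
theorem IsClass.cmp {U U' : Fam S V} {γ γ' : Γ} (h : U.IsClass γ) (h' : U'.IsClass γ') :
    ∃ φ : K, φ ≠ 0 ∧ ∀ P, ((∀ a v, v ∈ U.U a → U'.LocMem P a v) → 0 ≤ S.val P (γ' - γ) φ) ∧
      ((∀ a v, v ∈ U'.U a → U.LocMem P a v) → S.val P (γ' - γ) φ ≤ 0) := by
  obtain ⟨e, c, hc, h1⟩ := h
  obtain ⟨c', hc', h2⟩ := h'.exists_norm e
  obtain ⟨e', c'', -, h1'⟩ := h'
  refine ⟨c' / c, div_ne_zero hc' hc, fun P => ?_⟩
  obtain ⟨b, d, h3, h4⟩ := h1 P
  obtain ⟨b', d', h3', -⟩ := h1' P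
  have h4' := h2 P b' d' h3'
  have h5 := Sys.val_div P (∑ i, d i + γ') (∑ i, d i + γ) (mul_ne_zero hc' (basis_det_ne e b))
    (mul_ne_zero hc (basis_det_ne e b))
  rw [h4, sub_zero, mul_div_mul_right _ _ (basis_det_ne e b), add_sub_add_left_eq_sub] at h5
  refine ⟨fun hl => ?_, fun hl => ?_⟩
  · have := h3'.val_le e b d (fun j => hl _ _ (h3.1 j)) γ' hc'
    omega
  · have := h3.val_le e b' d' (fun j => hl _ _ (h3'.1 j)) γ' hc'
    omega

theorem eff_of_locMem {U U' : Fam S V} (hU : U.FG) (hs : U.Spans) (hU' : U'.FG) (hs' : U'.Spans)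
    (h : ∀ P a v, v ∈ U.U a → U'.LocMem P a v) : S.Eff (U'.cl - U.cl) := by
  obtain ⟨φ, h1, h2⟩ := (isClass_cl hU hs).cmp (isClass_cl hU' hs')
  exact ⟨φ, h1, (S.mem_iff _ _ h1).2 fun P => (h2 P).1 (h P)⟩

theorem unitDeg_of_locMem {U U' : Fam S V} (hU : U.FG) (hs : U.Spans) (hU' : U'.FG)
    (hs' : U'.Spans) (h : ∀ P a v, v ∈ U.U a → U'.LocMem P a v)
    (h' : ∀ P a v, v ∈ U'.U a → U.LocMem P a v) : S.UnitDeg (U'.cl - U.cl) := by
  obtain ⟨φ, h1, h2⟩ := (isClass_cl hU hs).cmp (isClass_cl hU' hs')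
  exact ⟨φ, h1, fun P => le_antisymm ((h2 P).2 (h' P)) ((h2 P).1 (h P))⟩

theorem cl_map_equiv {U : Fam S V} (hU : U.FG) (hs : U.Spans) (e : V ≃ₗ[K] W) :
    S.UnitDeg ((U.map e.toLinearMap).cl - U.cl) := by
  refine (isClass_cl (hU.map _) (hs.map _ e.surjective)).unique ?_
  obtain ⟨e0, c, hc, h1⟩ := isClass_cl hU hs
  refine isClass_of (e0.map e) c hc fun P => ?_
  obtain ⟨b, d, h2, h3⟩ := h1 P
  refine ⟨b.map e, d, ⟨fun i => ⟨b i, h2.1 i, by simp⟩, ?_⟩, ?_⟩
  · rintro a _ ⟨v, hv, rfl⟩ i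
    simpa using h2.2 a v hv i
  · rw [Basis.det_map]
    convert h3 using 4
    ext i; simp

theorem cl_shift {U : Fam S V} (hU : U.FG) (hs : U.Spans) (w : Γ) :
    S.UnitDeg ((U.shift w).cl - (U.cl + finrank K V • w)) := by
  refine (isClass_cl (hU.shift w) (hs.shift w)).unique ?_
  obtain ⟨e0, c, hc, h1⟩ := isClass_cl hU hs
  refine ⟨e0, c, hc, fun P => ?_⟩
  obtain ⟨b, d, h2, h3⟩ := h1 P
  refine ⟨b, fun i => d i - w, ⟨fun i => ?_, fun a v hv i => ?_⟩, ?_⟩
  · simpa [shift] using h2.1 i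
  · have := h2.2 _ v hv i
    rwa [show a + w - d i = a - (d i - w) by abel] at this
  · convert h3 using 2
    simp

omit [IsScalarTower k K V] in
theorem cl_of_finrank_zero {U : Fam S V} (h : finrank K V = 0) : S.UnitDeg U.cl := by
  unfold cl
  split_ifs with hex
  · obtain ⟨e, c, hc, h1⟩ := hex.choose_spec
    have : IsEmpty (Fin (finrank K V)) := by rw [h]; infer_instance
    refine ⟨c, hc, fun P => ?_⟩
    obtain ⟨b, d, -, h2⟩ := h1 P
    simpa [Basis.det_isEmpty] using h2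
  · exact Sys.UnitDeg.zero

end Fam

end Vale.Agent.P190
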