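import Mathlib

/-! P190, part L1a: general commutative algebra. -/

namespace Vale.Agent.P190

open IsLocalRing

theorem L1a_ext {F L M : Type} [Field F] [Field L] [Field M] [IsAlgClosed M] (e : F →+* L)
    (g : F →+* M) (he : e.Finite) : ∃ j : L →+* M, j.comp e = g := by
  letI := e.toAlgebra
  letI := g.toAlgebra
  haveI : Module.Finite F L := he
  let j : L →ₐ[F] M := IsAlgClosed.lift
  exact ⟨j.toRingHom, j.comp_algebraMap⟩

theorem L1a_indep {k O : Type} [Field k] [Field O] [Algebra k O] (x : Fin 3 → O)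
    (hx : Function.Injective (MvPolynomial.aeval x : MvPolynomial (Fin 3) k →ₐ[k] O)) :
    Function.Injective
      (MvPolynomial.aeval ![x 0 / x 2, x 1 / x 2] : MvPolynomial (Fin 2) k →ₐ[k] O) := by
  let X2 : MvPolynomial (Fin 3) k := MvPolynomial.X 2
  let f : MvPolynomial (Fin 3) k →+* O :=
    (MvPolynomial.aeval x : MvPolynomial (Fin 3) k →ₐ[k] O).toRingHom
  have hf : Function.Injective f := hx
  have hfX : ∀ i, f (MvPolynomial.X i) = x i := fun i => by simp [f]
  have hfC : ∀ c, f (MvPolynomial.C c) = algebraMap k O c := fun c => by simp [f]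
  have h2 : x 2 ≠ 0 := by
    rw [← hfX, map_ne_zero_iff _ hf]
    exact MvPolynomial.X_ne_zero _
  have hu : IsUnit (f X2) := by
    rw [hfX]
    exact h2.isUnit
  let i : Localization.Away X2 →+* O := IsLocalization.Away.lift X2 hu
  have hi : Function.Injective i := by
    refine (IsLocalization.lift_injective_iff _).2 fun a b => ⟨fun h => ?_, fun h => ?_⟩
    · have := congrArg i h
      rwa [IsLocalization.Away.lift_eq, IsLocalization.Away.lift_eq] at this
    · rw [hf h]
  let g : MvPolynomial (Fin 3) k →+* MvPolynomial (Fin 2) k :=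
    MvPolynomial.eval₂Hom MvPolynomial.C ![MvPolynomial.X 0, MvPolynomial.X 1, 1]
  have hg : IsUnit (g X2) := by simp [g, X2]
  let ψ : Localization.Away X2 →+* MvPolynomial (Fin 2) k := IsLocalization.Away.lift X2 hg
  let ι : MvPolynomial (Fin 3) k →+* Localization.Away X2 := algebraMap _ _
  let w : Localization.Away X2 := IsLocalization.Away.invSelf X2
  have hw : ι X2 * w = 1 := IsLocalization.Away.mul_invSelf X2
  have hψ : ∀ a, ψ (ι a) = g a := fun a => IsLocalization.Away.lift_eq X2 hg a
  have hi' : ∀ a, i (ι a) = f a := fun a => IsLocalization.Away.lift_eq X2 hu a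
  have hψw : ψ w = 1 := by
    have := congrArg ψ hw
    rw [map_mul, hψ, map_one] at this
    simpa [g, X2] using this
  have hiw : i w = (x 2)⁻¹ := by
    have := congrArg i hw
    rw [map_mul, hi', map_one, hfX] at this
    exact (eq_inv_of_mul_eq_one_right this)
  let θ : MvPolynomial (Fin 2) k →+* Localization.Away X2 :=
    MvPolynomial.eval₂Hom (ι.comp MvPolynomial.C)
      ![ι (MvPolynomial.X 0) * w, ι (MvPolynomial.X 1) * w]
  have h3 : ψ.comp θ = RingHom.id _ := by
    refine MvPolynomial.ringHom_ext (fun c => ?_) fun l => ?_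
    · simp [θ, hψ, g]
    · fin_cases l <;> simp [θ, hψ, g, hψw]
  have h4 : i.comp θ = (MvPolynomial.aeval ![x 0 / x 2, x 1 / x 2] :
      MvPolynomial (Fin 2) k →ₐ[k] O).toRingHom := by
    refine MvPolynomial.ringHom_ext (fun c => ?_) fun l => ?_
    · simp [θ, hi', hfC]
    · fin_cases l <;> simp [θ, hi', hfX, hiw, div_eq_mul_inv]
  have h5 : Function.Injective θ :=
    Function.LeftInverse.injective (g := ψ) fun a => RingHom.congr_fun h3 a
  have h6 : Function.Injective (i.comp θ) := hi.comp h5
  rw [h4] at h6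
  exact h6

section integral

variable {A S : Type} [CommRing A] [CommRing S] [Algebra A S]

theorem L1a_comap_max [IsLocalRing A] [Algebra.IsIntegral A S] (M : Ideal S) [M.IsMaximal] :
    M.comap (algebraMap A S) = maximalIdeal A :=
  eq_maximalIdeal (Ideal.isMaximal_comap_of_isIntegral_of_isMaximal M)

theorem L1a_le_radical [IsLocalRing A] [IsLocalRing S] [Algebra.IsIntegral A S] (J : Ideal S)
    (hJ : ∀ P : Ideal S, P.IsPrime → J ≤ P → maximalIdeal A ≤ P.comap (algebraMap A S)) :
    maximalIdeal S ≤ J.radical := by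
  rw [Ideal.radical_eq_sInf]
  refine le_sInf ?_
  rintro P ⟨h1, h2⟩
  have h3 : P.comap (algebraMap A S) = maximalIdeal A :=
    ((maximalIdeal.isMaximal A).eq_of_le (Ideal.comap_ne_top _ h2.ne_top) (hJ P h2 h1)).symm
  have h4 : P.IsMaximal :=
    Ideal.isMaximal_of_isIntegral_of_isMaximal_comap (R := A) P (h3 ▸ maximalIdeal.isMaximal A)
  exact (eq_maximalIdeal h4).ge

theorem L1a_precomplete (I : Ideal A) [IsPrecomplete I A] (M : Type) [AddCommGroup M]
    [Module A M] [Module.Finite A M] : IsPrecomplete I M := by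
  rw [← AdicCompletion.of_surjective_iff]
  intro y
  obtain ⟨t, rfl⟩ := AdicCompletion.ofTensorProduct_surjective_of_finite I M y
  induction t using TensorProduct.induction_on with
  | zero => exact ⟨0, by simp⟩
  | add a b ha hb =>
    obtain ⟨a', ha'⟩ := ha
    obtain ⟨b', hb'⟩ := hb
    exact ⟨a' + b', by rw [map_add, map_add, ha', hb']⟩
  | tmul r x =>
    obtain ⟨a, rfl⟩ := AdicCompletion.of_surjective I A r
    refine ⟨a • x, ?_⟩
    rw [AdicCompletion.ofTensorProduct_tmul, map_smul]
    exact (algebraMap_smul (AdicCompletion I A) a _).symm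

theorem L1a_cofinal {J M : Ideal S} [IsPrecomplete J S] (h1 : J ≤ M) {N : ℕ} (h2 : M ^ N ≤ J) :
    IsPrecomplete M S := by
  refine ⟨fun f hf => ?_⟩
  have h3 : ∀ m, M ^ ((N + 1) * m) ≤ J ^ m := fun m => by
    rw [pow_mul]
    exact Ideal.pow_right_mono ((Ideal.pow_le_pow_right (Nat.le_succ N)).trans h2) m
  obtain ⟨L, hL⟩ := IsPrecomplete.prec' (I := J) (fun m => f ((N + 1) * m)) fun {m m'} hm =>
    (hf (Nat.mul_le_mul_left (N + 1) hm)).mono (Submodule.smul_mono_left (h3 m))
  refine ⟨L, fun m => (hf (Nat.le_mul_of_pos_left m (Nat.succ_pos N))).trans ?_⟩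
  exact (hL m).mono (Submodule.smul_mono_left (Ideal.pow_right_mono h1 m))

theorem L1a_complete [IsLocalRing A] [IsLocalRing S] [IsNoetherianRing S] [Module.Finite A S]
    [IsPrecomplete (maximalIdeal A) A] : IsAdicComplete (maximalIdeal S) S := by
  haveI h1 : IsPrecomplete (maximalIdeal A) S := L1a_precomplete _ S
  haveI h2 : IsPrecomplete ((maximalIdeal A).map (algebraMap A S)) S :=
    IsPrecomplete.map_algebraMap_iff.2 h1
  have h3 : (maximalIdeal A).map (algebraMap A S) ≤ maximalIdeal S :=
    Ideal.map_le_iff_le_comap.2 (L1a_comap_max (maximalIdeal S)).ge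
  obtain ⟨N, hN⟩ := Ideal.exists_pow_le_of_le_radical_of_fg
    (L1a_le_radical (A := A) ((maximalIdeal A).map (algebraMap A S))
      fun P _ hP => Ideal.map_le_iff_le_comap.1 hP) (IsNoetherian.noetherian _)
  haveI := L1a_cofinal h3 hN
  exact {}

theorem L1a_dim_le [Algebra.IsIntegral A S] (hinj : Function.Injective (algebraMap A S)) :
    ringKrullDim A ≤ ringKrullDim S := by
  refine iSup_le fun l => ?_
  obtain ⟨P, -, hP, hPl⟩ := Ideal.exists_ideal_over_prime_of_isIntegral (S := S) l.head.asIdeal ⊥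
    (by rw [← RingHom.ker_eq_comap_bot, (RingHom.injective_iff_ker_eq_bot _).1 hinj]; exact bot_le)
  haveI : P.LiesOver l.head.asIdeal := ⟨hPl.symm⟩
  obtain ⟨L, hL, -⟩ := Ideal.exists_ltSeries_of_hasGoingUp l P
  rw [← hL]
  exact Order.LTSeries.length_le_krullDim L

end integral

end Vale.Agent.P190
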