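import Vale.Agent.P190.A2
import Vale.Agent.P190.L1b
import Vale.Agent.P190.L1axA

/-! P190, part L1a: the complete local domain. -/

namespace Vale.Agent.P190

variable {k : Type} [Field k] {n : ℕ} {D : DP k n} {h : Hs D}

theorem L1a_inj (k : Type) [Field k] : Function.Injective (algebraMap (PS k) (OO k)) := by
  rw [IsScalarTower.algebraMap_eq (PS k) (FractionRing (PS k)) (OO k)]
  exact (algebraMap (FractionRing (PS k)) (OO k)).injective.comp
    (IsFractionRing.injective (PS k) (FractionRing (PS k)))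

theorem L1a_C (c : k) : algebraMap (PS k) (OO k) (MvPowerSeries.C c) = algebraMap k (OO k) c := by
  rw [IsScalarTower.algebraMap_apply k (PS k) (OO k)]
  rfl

theorem L1a_X_ne (i : Fin 3) : algebraMap (PS k) (OO k) (MvPowerSeries.X i) ≠ 0 := by
  rw [map_ne_zero_iff _ (L1a_inj k)]
  intro h0
  have := congrArg (MvPowerSeries.coeff (Finsupp.single i 1)) h0
  rw [MvPowerSeries.coeff_index_single_self_X, map_zero] at this
  exact one_ne_zero this

theorem Hs.exists_emb (h : Hs D) : Nonempty (Emb h) := by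
  let x : Fin 3 → OO k := fun i => algebraMap (PS k) (OO k) (MvPowerSeries.X i)
  have hx : Function.Injective (MvPolynomial.aeval x : MvPolynomial (Fin 3) k →ₐ[k] OO k) := by
    have : (MvPolynomial.aeval x : MvPolynomial (Fin 3) k →ₐ[k] OO k).toRingHom =
        (algebraMap (PS k) (OO k)).comp MvPolynomial.coeToMvPowerSeries.ringHom := by
      refine MvPolynomial.ringHom_ext (fun c => ?_) fun l => ?_
      · simp [L1a_C]
      · simp [x]
    change Function.Injective (MvPolynomial.aeval x : MvPolynomial (Fin 3) k →ₐ[k] OO k).toRingHom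
    rw [this]
    exact (L1a_inj k).comp (MvPolynomial.coe_injective (Fin 3) k)
  have hinj := L1a_indep x hx
  let j₀ : KK k →ₐ[k] OO k :=
    IsFractionRing.liftAlgHom (A := MvPolynomial (Fin 2) k) (K := KK k) (L := OO k)
      (g := MvPolynomial.aeval ![x 0 / x 2, x 1 / x 2]) hinj
  have hj₀ : ∀ f : MvPolynomial (Fin 2) k, j₀ (algebraMap _ (KK k) f) =
      MvPolynomial.aeval ![x 0 / x 2, x 1 / x 2] f := fun f =>
    IsFractionRing.lift_algebraMap (g := (MvPolynomial.aeval ![x 0 / x 2, x 1 / x 2] :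
      MvPolynomial (Fin 2) k →ₐ[k] OO k).toRingHom) hinj f
  have hfin : h.emb.toRingHom.Finite := Res.finiteDimensional h (V := KK k)
  obtain ⟨j, hj⟩ := L1a_ext h.emb.toRingHom j₀.toRingHom hfin
  have hj' : ∀ f, j (h.emb f) = j₀ f := fun f => RingHom.congr_fun hj f
  have hjc : ∀ c, j (algebraMap k (KK k) c) = algebraMap k (OO k) c := fun c => by
    have := hj' (algebraMap k (KK k) c)
    rwa [AlgHom.commutes, AlgHom.commutes] at this
  let j' : KK k →ₐ[k] OO k := { j with commutes' := hjc }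
  obtain ⟨τ, hτ⟩ := IsAlgClosed.exists_pow_nat_eq (x 2) D.n_pos
  choose ω hω using fun i => IsAlgClosed.exists_pow_nat_eq (j' (uu k i)) D.n_pos
  have h2 : x 2 ≠ 0 := L1a_X_ne 2
  refine ⟨⟨j', τ, ω, hτ, ?_, ?_, hω⟩⟩
  · have : j' h.x = x 0 / x 2 := by
      change j h.x = _
      rw [← h.emb_ss, hj', ss, hj₀]
      simp
    rw [this, hτ, div_mul_cancel₀ _ h2]
  · have : j' h.y = x 1 / x 2 := by
      change j h.y = _
      rw [← h.emb_tt, hj', tt, hj₀]
      simp
    rw [this, hτ, div_mul_cancel₀ _ h2]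

namespace Emb

variable (E : Emb h)

theorem tau_ne_zero : E.τ ≠ 0 := fun h0 => by
  have := E.τ_pow
  rw [h0, zero_pow D.n_pos.ne'] at this
  exact L1a_X_ne 2 this.symm

theorem omega_ne_zero (i : Fin 5) : E.ω i ≠ 0 := fun h0 => by
  have := E.ω_pow i
  rw [h0, zero_pow D.n_pos.ne'] at this
  exact uu_ne_zero i ((map_eq_zero_iff _ E.j.toRingHom.injective).1 this.symm)

theorem chi_ne_zero (m : ℤ) (c : Fin 5 → ℤ) : E.chi m c ≠ 0 :=
  mul_ne_zero (zpow_ne_zero _ E.tau_ne_zero)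
    (Finset.prod_ne_zero_iff.2 fun i _ => zpow_ne_zero _ (E.omega_ne_zero i))

theorem chi_add (m m' : ℤ) (c c' : Fin 5 → ℤ) :
    E.chi (m + m') (c + c') = E.chi m c * E.chi m' c' := by
  simp only [chi, Pi.add_apply, zpow_add₀ E.tau_ne_zero, zpow_add₀ (E.omega_ne_zero _),
    Finset.prod_mul_distrib]
  ring

theorem chi_zero : E.chi 0 0 = 1 := by simp [chi]

theorem chi_unit (c : Fin 5 → ℤ) : E.chi 0 ((n : ℤ) • c) = E.j (umon k c) := by
  simp only [chi, zpow_zero, one_mul, umon, map_prod, map_zpow₀, Pi.smul_apply, smul_eq_mul,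
    zpow_mul, zpow_natCast, E.ω_pow]

theorem chi_shift (m : ℤ) (c : Fin 5 → ℤ) : E.chi (m + n) c = E.chi m c * E.τ ^ n := by
  simp only [chi, zpow_add₀ E.tau_ne_zero, zpow_natCast]
  ring

theorem mem_SS {m : ℤ} {c : Fin 5 → ℤ} {φ : KK k} (hφ : φ ∈ D.S.B (cst m + lamv c)) :
    E.j φ * E.chi m c ∈ E.SS :=
  Algebra.subset_adjoin ⟨m, c, φ, hφ, rfl⟩

theorem step : ∃ m₀ : ℤ, ∀ m, m₀ ≤ m → ∀ c, ∀ φ ∈ D.S.B (cst (m + n) + lamv c),
    ∃ φ₀ ∈ D.S.B (cst m + lamv c), ∃ φ₁ ∈ D.S.B (cst m + lamv c),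
      ∃ φ₂ ∈ D.S.B (cst m + lamv c), E.j φ * E.chi (m + n) c =
        (MvPowerSeries.X 0 : PS k) • (E.j φ₀ * E.chi m c) +
        (MvPowerSeries.X 1 : PS k) • (E.j φ₁ * E.chi m c) +
        (MvPowerSeries.X 2 : PS k) • (E.j φ₂ * E.chi m c) := by
  obtain ⟨m₀, hm₀⟩ := Filter.eventually_atTop.1 (h.fin 0)
  refine ⟨m₀, fun m hm c φ hφ => ?_⟩
  have h1 := hm₀ m hm c
  rw [zero_add, add_comm (lamv c), add_comm (lamv c)] at h1
  obtain ⟨u, hu, φ₂, h₂, rfl⟩ := Submodule.mem_sup.1 (h1 hφ)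
  obtain ⟨_, ⟨φ₀, h₀, rfl⟩, _, ⟨φ₁, h₁, rfl⟩, rfl⟩ := Submodule.mem_sup.1 hu
  refine ⟨φ₀, h₀, φ₁, h₁, φ₂, h₂, ?_⟩
  simp only [Algebra.smul_def, ← E.j_x, ← E.j_y, ← E.τ_pow, E.chi_shift, smulL,
    LinearMap.restrictScalars_apply, LinearMap.lsmul_apply, map_add, map_mul, pow_one,
    Algebra.algebraMap_self, RingHom.id_apply]
  ring

theorem X_mem_max (i : Fin 3) :
    (MvPowerSeries.X i : PS k) ∈ IsLocalRing.maximalIdeal (PS k) := by
  rw [maximalIdeal_PS]
  refine Ideal.subset_span ?_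
  fin_cases i <;> simp

/-- elements of large degree lie in high powers of the maximal ideal of the power series ring -/
theorem exists_pow_mem : ∃ C : ℤ, ∀ (i : ℕ) (m : ℤ) (c : Fin 5 → ℤ) (φ : KK k)
    (hφ : φ ∈ D.S.B (cst m + lamv c)), n * i + C ≤ m →
      (⟨E.j φ * E.chi m c, E.mem_SS hφ⟩ : E.SS) ∈
        IsLocalRing.maximalIdeal (PS k) ^ i • (⊤ : Submodule (PS k) E.SS) := by
  obtain ⟨m₀, hm₀⟩ := E.step
  refine ⟨m₀, fun i => ?_⟩
  induction i with
  | zero =>
    intro m c φ hφ _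
    rw [pow_zero, Ideal.one_eq_top, Submodule.top_smul]
    exact Submodule.mem_top
  | succ i ih =>
    intro m c φ hφ hm
    obtain ⟨m, rfl⟩ : ∃ m', m = m' + n := ⟨m - n, by ring⟩
    have h0 : (0 : ℤ) ≤ n * i := by positivity
    have h1 : n * i + m₀ ≤ m := by push_cast at hm; linarith
    obtain ⟨φ₀, h₀, φ₁, h₁, φ₂, h₂, he⟩ := hm₀ m (by linarith) c φ hφ
    have h2 : (⟨E.j φ * E.chi (m + n) c, E.mem_SS hφ⟩ : E.SS) =
        (MvPowerSeries.X 0 : PS k) • ⟨E.j φ₀ * E.chi m c, E.mem_SS h₀⟩ +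
        (MvPowerSeries.X 1 : PS k) • ⟨E.j φ₁ * E.chi m c, E.mem_SS h₁⟩ +
        (MvPowerSeries.X 2 : PS k) • ⟨E.j φ₂ * E.chi m c, E.mem_SS h₂⟩ := Subtype.ext he
    rw [h2, pow_succ', Submodule.mul_smul]
    exact Submodule.add_mem _ (Submodule.add_mem _
      (Submodule.smul_mem_smul (X_mem_max 0) (ih m c φ₀ h₀ h1))
      (Submodule.smul_mem_smul (X_mem_max 1) (ih m c φ₁ h₁ h1)))
      (Submodule.smul_mem_smul (X_mem_max 2) (ih m c φ₂ h₂ h1))

theorem eq_zero_of_neg {m : ℤ} {c : Fin 5 → ℤ} {φ : KK k} (hφ : φ ∈ D.S.B (cst m + lamv c))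
    (hm : m < 0) : φ = 0 := by
  rw [D.hB, BB_eq_bot (by rw [map_add, HL_cst, HL_lamv]; omega)] at hφ
  exact hφ

/-- the graded piece inside the algebraic closure -/
noncomputable def piece (m : ℤ) (c : Fin 5 → ℤ) : Submodule (PS k) (OO k) :=
  Submodule.span (PS k) {z | ∃ φ ∈ D.S.B (cst m + lamv c), z = E.j φ * E.chi m c}

theorem piece_fg (m : ℤ) (c : Fin 5 → ℤ) : (E.piece m c).FG := by
  haveI := D.S.fd (cst m + lamv c)
  obtain ⟨s, hs⟩ : (D.S.B (cst m + lamv c)).FG := Module.Finite.iff_fg.1 inferInstance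
  refine Submodule.fg_def.2 ⟨(fun φ => E.j φ * E.chi m c) '' s, s.finite_toSet.image _,
    le_antisymm (Submodule.span_mono ?_) (Submodule.span_le.2 ?_)⟩
  · rintro _ ⟨φ, hφ, rfl⟩
    exact ⟨φ, hs ▸ Submodule.subset_span hφ, rfl⟩
  · rintro _ ⟨φ, hφ, rfl⟩
    rw [← hs] at hφ
    induction hφ using Submodule.span_induction with
    | mem φ hφ => exact Submodule.subset_span ⟨φ, hφ, rfl⟩
    | zero => simp
    | add a b _ _ ha hb => rw [map_add, add_mul]; exact Submodule.add_mem _ ha hb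
    | smul r a _ ha =>
      rw [map_smul, smul_mul_assoc, Algebra.smul_def, ← L1a_C, ← Algebra.smul_def]
      exact Submodule.smul_mem _ _ ha

theorem piece_le (m : ℤ) (c : Fin 5 → ℤ) :
    ∃ c₀ : Fin 5 → Fin n, E.piece m c ≤ E.piece m fun i => (c₀ i : ℤ) := by
  have hn : (0 : ℤ) < n := by exact_mod_cast D.n_pos
  let c₀ : Fin 5 → Fin n := fun i => ⟨(c i % n).toNat, by
    have := Int.emod_lt_of_pos (c i) hn
    have := Int.emod_nonneg (c i) hn.ne'
    omega⟩
  let c₁ : Fin 5 → ℤ := fun i => c i / n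
  have hc : c = (fun i => (c₀ i : ℤ)) + (n : ℤ) • c₁ := by
    funext i
    have h1 := Int.emod_nonneg (c i) hn.ne'
    have h2 := Int.emod_add_mul_ediv (c i) n
    simp only [c₀, c₁, Pi.add_apply, Pi.smul_apply, smul_eq_mul, Int.toNat_of_nonneg h1]
    exact h2.symm
  refine ⟨c₀, Submodule.span_mono ?_⟩
  rintro _ ⟨φ, hφ, rfl⟩
  refine ⟨umon k c₁ * φ, ?_, ?_⟩
  · rw [D.hB] at hφ ⊢
    have := (mem_BB_iff_unit _ (-c₁) φ).1 hφ
    rw [neg_neg] at this
    convert this using 2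
    conv_rhs => rw [hc, lamv_add, lamv_smul, lamv_neg, smul_neg]
    abel
  · conv_lhs => rw [hc, ← add_zero m, E.chi_add, E.chi_unit]
    rw [map_mul]
    ring

theorem toSubmodule_SS : Subalgebra.toSubmodule E.SS = Submodule.span (PS k)
    {z | ∃ m c, ∃ φ ∈ D.S.B (cst m + lamv c), z = E.j φ * E.chi m c} := by
  let G : Submonoid (OO k) :=
    { carrier := {z | ∃ m c, ∃ φ ∈ D.S.B (cst m + lamv c), z = E.j φ * E.chi m c}
      one_mem' := ⟨0, 0, 1, by rw [cst_zero, lamv_zero, add_zero]; exact D.S.one_mem,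
        by rw [map_one, E.chi_zero, one_mul]⟩
      mul_mem' := by
        rintro _ _ ⟨m, c, φ, hφ, rfl⟩ ⟨m', c', φ', hφ', rfl⟩
        refine ⟨m + m', c + c', φ * φ', ?_, by rw [E.chi_add, map_mul]; ring⟩
        have := D.S.mul_mem hφ hφ'
        rwa [show cst m + lamv c + (cst m' + lamv c') = cst (m + m') + lamv (c + c') by
          rw [cst_add, lamv_add]; abel] at this }
  have := Algebra.adjoin_eq_span (PS k) (G : Set (OO k))
  rw [Submonoid.closure_eq] at this
  exact this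

theorem finite : Module.Finite (PS k) E.SS := by
  obtain ⟨m₀, hm₀⟩ := E.step
  let M : ℕ := (m₀ + n).toNat
  let W : Submodule (PS k) (OO k) :=
    ⨆ p : Fin M × (Fin 5 → Fin n), E.piece p.1 fun i => (p.2 i : ℤ)
  have hW : W.FG := Submodule.fg_iSup _ fun p => E.piece_fg _ _
  have h1 : ∀ (m : ℕ) c, E.piece m c ≤ W := by
    intro m
    induction m using Nat.strong_induction_on with
    | _ m ih =>
      intro c
      by_cases hm : m < M
      · obtain ⟨c₀, hc₀⟩ := E.piece_le m c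
        exact hc₀.trans (le_iSup
          (fun p : Fin M × (Fin 5 → Fin n) => E.piece p.1 fun i => (p.2 i : ℤ)) (⟨m, hm⟩, c₀))
      · rw [piece, Submodule.span_le]
        rintro _ ⟨φ, hφ, rfl⟩
        obtain ⟨m', hm'⟩ : ∃ m' : ℤ, (m : ℤ) = m' + n := ⟨m - n, by ring⟩
        rw [hm'] at hφ ⊢
        obtain ⟨φ₀, h₀, φ₁, h₁, φ₂, h₂, he⟩ := hm₀ m' (by omega) c φ hφ
        have h3 : ∀ ψ ∈ D.S.B (cst m' + lamv c), E.j ψ * E.chi m' c ∈ W := by
          intro ψ hψ
          rcases lt_or_ge m' 0 with h | h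
          · rw [eq_zero_of_neg hψ h, map_zero, zero_mul]
            exact W.zero_mem
          · lift m' to ℕ using h
            have := D.n_pos
            exact ih m' (by omega) c (Submodule.subset_span ⟨ψ, hψ, rfl⟩)
        rw [he]
        exact W.add_mem (W.add_mem (W.smul_mem _ (h3 _ h₀)) (W.smul_mem _ (h3 _ h₁)))
          (W.smul_mem _ (h3 _ h₂))
  have h2 : Subalgebra.toSubmodule E.SS = W := by
    rw [E.toSubmodule_SS]
    refine le_antisymm (Submodule.span_le.2 ?_) (iSup_le fun p => Submodule.span_mono ?_)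
    · rintro _ ⟨m, c, φ, hφ, rfl⟩
      rcases lt_or_ge m 0 with h | h
      · rw [eq_zero_of_neg hφ h, map_zero, zero_mul]
        exact W.zero_mem
      · lift m to ℕ using h
        exact h1 m c (Submodule.subset_span ⟨φ, hφ, rfl⟩)
    · rintro _ ⟨φ, hφ, rfl⟩
      exact ⟨_, _, φ, hφ, rfl⟩
  rw [← h2] at hW
  exact Module.Finite.iff_fg.2 hW

theorem isNoetherianRing : IsNoetherianRing E.SS := by
  haveI := E.finite
  exact IsNoetherianRing.of_finite (PS k) E.SS

theorem deg_zero {c : Fin 5 → ℤ} {φ : KK k} (hφ : φ ∈ D.S.B (cst 0 + lamv c)) :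
    ∃ κ : k, E.j φ * E.chi 0 c = algebraMap k (OO k) κ := by
  rw [D.hB] at hφ
  induction hφ using Submodule.span_induction with
  | mem φ hφ =>
    obtain ⟨c', hc', rfl⟩ := hφ
    have h1 : ∀ i, 0 ≤ lamv (c + (n : ℤ) • c') i := fun i => by
      have := hc' i
      rw [lamv_add, lamv_smul]
      simpa [cst] using this
    have h2 : ∑ i, lamv (c + (n : ℤ) • c') i = 0 := HL_lamv _
    have h3 : cst 0 + lamv (c + (n : ℤ) • c') = cst 0 + lamv 0 := by
      rw [lamv_zero]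
      congr 1
      funext i
      exact (Finset.sum_eq_zero_iff_of_nonneg fun i _ => h1 i).1 h2 i (Finset.mem_univ i)
    refine ⟨1, ?_⟩
    rw [← E.chi_unit, ← E.chi_add, add_zero, add_comm, (cst_lamv_inj h3).2, E.chi_zero, map_one]
  | zero => exact ⟨0, by simp⟩
  | add a b _ _ ha hb =>
    obtain ⟨κ, hκ⟩ := ha
    obtain ⟨κ', hκ'⟩ := hb
    exact ⟨κ + κ', by rw [map_add, add_mul, hκ, hκ', map_add]⟩
  | smul r a _ ha =>
    obtain ⟨κ, hκ⟩ := ha
    exact ⟨r * κ, by rw [map_smul, smul_mul_assoc, hκ, map_mul, Algebra.smul_def]⟩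

theorem pow_gen {m : ℤ} {c : Fin 5 → ℤ} {φ : KK k} (N : ℕ) :
    (E.j φ * E.chi m c) ^ N = E.j (φ ^ N) * E.chi (N * m) ((N : ℤ) • c) := by
  induction N with
  | zero => simp [E.chi_zero]
  | succ N ih =>
    rw [pow_succ, ih, pow_succ, map_mul, Nat.cast_succ, add_mul, add_smul, one_mul, one_smul,
      E.chi_add]
    ring

theorem exists_const (x : E.SS) : ∃ κ : k, ∀ M : Ideal E.SS, M.IsMaximal →
    x - algebraMap (PS k) E.SS (MvPowerSeries.C κ) ∈ M := by
  haveI := E.finite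
  have hmax : ∀ M : Ideal E.SS, M.IsMaximal → ∀ a ∈ IsLocalRing.maximalIdeal (PS k),
      algebraMap (PS k) E.SS a ∈ M := fun M hM a ha => by
    rw [← L1a_comap_max (S := E.SS) M] at ha
    exact ha
  obtain ⟨x, hx⟩ := x
  induction hx using Algebra.adjoin_induction with
  | mem x hx =>
    obtain ⟨m, c, φ, hφ, rfl⟩ := hx
    rcases lt_trichotomy m 0 with hm | rfl | hm
    · refine ⟨0, fun M _ => ?_⟩
      have : (⟨E.j φ * E.chi m c, E.mem_SS hφ⟩ : E.SS) = 0 :=
        Subtype.ext (show E.j φ * E.chi m c = 0 by rw [eq_zero_of_neg hφ hm, map_zero, zero_mul])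
      rw [this, map_zero, map_zero, sub_zero]
      exact M.zero_mem
    · obtain ⟨κ, hκ⟩ := E.deg_zero hφ
      refine ⟨κ, fun M _ => ?_⟩
      have : (⟨E.j φ * E.chi 0 c, E.mem_SS hφ⟩ : E.SS) =
          algebraMap (PS k) E.SS (MvPowerSeries.C κ) :=
        Subtype.ext (hκ.trans (L1a_C κ).symm)
      rw [this, sub_self]
      exact M.zero_mem
    · refine ⟨0, fun M hM => ?_⟩
      rw [map_zero, map_zero, sub_zero]
      obtain ⟨C, hC⟩ := E.exists_pow_mem
      let N : ℕ := (n + C).toNat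
      have h1 : φ ^ N ∈ D.S.B (cst (N * m) + lamv ((N : ℤ) • c)) := by
        have := D.S.pow_mem hφ N
        rwa [← natCast_zsmul, smul_add, cst_smul, ← lamv_smul] at this
      have h2 := hC 1 _ _ _ h1 (by
        have h3 : (n : ℤ) + C ≤ N := Int.self_le_toNat _
        have h4 : (0 : ℤ) ≤ N := Int.natCast_nonneg _
        push_cast
        nlinarith)
      refine hM.isPrime.mem_of_pow_mem N ?_
      have h5 : (⟨E.j φ * E.chi m c, E.mem_SS hφ⟩ : E.SS) ^ N =
          ⟨E.j (φ ^ N) * E.chi (N * m) ((N : ℤ) • c), E.mem_SS h1⟩ := Subtype.ext (E.pow_gen N)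
      rw [h5]
      rw [pow_one] at h2
      refine Submodule.smul_induction_on (p := fun z => z ∈ M) h2 (fun a ha z _ => ?_)
        fun _ _ => M.add_mem
      rw [Algebra.smul_def]
      exact M.mul_mem_right _ (hmax M hM a ha)
  | algebraMap a =>
    refine ⟨MvPowerSeries.constantCoeff a, fun M hM => ?_⟩
    have : (⟨algebraMap (PS k) (OO k) a, Subalgebra.algebraMap_mem _ a⟩ : E.SS) =
        algebraMap (PS k) E.SS a := rfl
    erw [this]
    rw [← map_sub]
    refine hmax M hM _ ?_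
    rw [IsLocalRing.mem_maximalIdeal, mem_nonunits_iff, MvPowerSeries.isUnit_iff_constantCoeff]
    simp
  | add x y hx hy ihx ihy =>
    obtain ⟨κ, hκ⟩ := ihx
    obtain ⟨κ', hκ'⟩ := ihy
    refine ⟨κ + κ', fun M hM => ?_⟩
    have := M.add_mem (hκ M hM) (hκ' M hM)
    convert this using 1
    rw [map_add, map_add]
    change (⟨x, hx⟩ + ⟨y, hy⟩ : E.SS) - _ = _
    ring
  | mul x y hx hy ihx ihy =>
    obtain ⟨κ, hκ⟩ := ihx
    obtain ⟨κ', hκ'⟩ := ihy
    refine ⟨κ * κ', fun M hM => ?_⟩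
    have := M.add_mem (M.mul_mem_right ⟨y, hy⟩ (hκ M hM))
      (M.mul_mem_left (algebraMap (PS k) E.SS (MvPowerSeries.C κ)) (hκ' M hM))
    convert this using 1
    rw [map_mul, map_mul]
    change (⟨x, hx⟩ * ⟨y, hy⟩ : E.SS) - _ = _
    ring

theorem isLocalRing : IsLocalRing E.SS := by
  obtain ⟨M, hM⟩ := Ideal.exists_maximal E.SS
  refine IsLocalRing.of_unique_max_ideal ⟨M, hM, fun M' hM' => hM'.eq_of_le hM.ne_top ?_⟩
  intro x hx
  obtain ⟨κ, hκ⟩ := E.exists_const x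
  by_cases h0 : κ = 0
  · have := hκ M hM
    rwa [h0, map_zero, map_zero, sub_zero] at this
  · have h1 := M'.sub_mem hx (hκ M' hM')
    rw [sub_sub_cancel] at h1
    exact absurd (M'.eq_top_of_isUnit_mem h1 (((Ne.isUnit h0).map _).map _)) hM'.ne_top

theorem nilp [IsLocalRing E.SS] {f : E.SS} (hf : f ∈ IsLocalRing.maximalIdeal E.SS) {q : ℕ}
    (hq : 0 < q) : ∃ N : ℕ, f ^ N ∈ Ideal.span
      {algebraMap (PS k) E.SS (MvPowerSeries.X 0 ^ q), algebraMap (PS k) E.SS (MvPowerSeries.X 1 ^ q),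
        algebraMap (PS k) E.SS (MvPowerSeries.X 2 ^ q)} := by
  haveI := E.finite
  refine L1a_le_radical (A := PS k) _ (fun P hP hle => ?_) hf
  have key : ∀ a : PS k, algebraMap (PS k) E.SS (a ^ q) ∈ P → a ∈ P.comap (algebraMap _ _) :=
    fun a ha => by
      rw [map_pow] at ha
      exact hP.mem_of_pow_mem q ha
  rw [maximalIdeal_PS, Ideal.span_le]
  intro a ha
  simp only [Set.mem_insert_iff, Set.mem_singleton_iff] at ha
  rcases ha with rfl | rfl | rfl <;> exact key _ (hle (Ideal.subset_span (by simp)))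

theorem complete [IsLocalRing E.SS] : IsAdicComplete (IsLocalRing.maximalIdeal E.SS) E.SS := by
  haveI := E.finite
  haveI := E.isNoetherianRing
  haveI : IsPrecomplete (IsLocalRing.maximalIdeal (PS k)) (PS k) := by
    have h1 : IsLocalRing.maximalIdeal (PS k) = Ideal.span (Set.range MvPowerSeries.X) := by
      rw [maximalIdeal_PS]
      congr 1
      ext a
      simp only [Set.mem_insert_iff, Set.mem_singleton_iff, Set.mem_range, Fin.exists_fin_succ,
        Fin.exists_fin_zero_pi]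
      simp [eq_comm]
    rw [h1]
    infer_instance
  exact L1a_complete (A := PS k)

theorem three_le_dim : (3 : WithBot ℕ∞) ≤ ringKrullDim E.SS := by
  haveI := E.finite
  refine (three_le_dim_PS k).trans (L1a_dim_le fun a b hab => L1a_inj k ?_)
  exact congrArg Subtype.val hab

end Emb

end Vale.Agent.P190
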