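import Vale.Agent.P190.L1a

/-! P190, part L2a: the ambient space of a free module. -/

namespace Vale.Agent.P190

open nonZeroDivisors

theorem L2a_embed {S O M : Type} [CommRing S] [IsDomain S] [Field O] [Algebra S O]
    (hinj : Function.Injective (algebraMap S O)) [AddCommGroup M] [Module S M]
    (htf : ∀ s : S, s ≠ 0 → ∀ μ : M, s • μ = 0 → μ = 0) :
    ∃ (ι : Type) (e : M →ₗ[S] (ι → O)), Function.Injective e := by
  let F := FractionRing S
  let V := LocalizedModule S⁰ M
  let b := Module.Basis.ofVectorSpace F V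
  let l : F →ₐ[S] O := IsFractionRing.liftAlgHom (g := Algebra.ofId S O) hinj
  let f : M →ₗ[S] V := LocalizedModule.mkLinearMap S⁰ M
  have hf : Function.Injective f := by
    rw [IsLocalizedModule.injective_iff_isRegular S⁰]
    intro c x y hxy
    refine sub_eq_zero.1 (htf c (nonZeroDivisors.ne_zero c.2) _ ?_)
    rw [smul_sub]
    exact sub_eq_zero.2 hxy
  refine ⟨_, LinearMap.pi fun i =>
    l.toLinearMap ∘ₗ ((b.coord i).restrictScalars S) ∘ₗ f, ?_⟩
  rw [injective_iff_map_eq_zero]
  intro μ hμ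
  apply hf
  rw [map_zero]
  refine b.forall_coord_eq_zero_iff.1 fun i => ?_
  exact (map_eq_zero_iff _ l.toRingHom.injective).1 (congrFun hμ i)

variable {k : Type} [Field k] {n : ℕ} {D : DP k n} {h : Hs D}

theorem Emb.homog (E : Emb h) {d : ℕ} {g : MvPolynomial (Fin 2) k} (hg : g ≠ 0)
    (hd : g.totalDegree ≤ d) : ∃ G : PS k, G.order ≤ d ∧
      algebraMap (PS k) (OO k) G = E.j (MvPolynomial.aeval ![h.x, h.y] g) * (E.τ ^ n) ^ d := by
  classical
  let ex : (Fin 2 →₀ ℕ) → (Fin 3 →₀ ℕ) := fun s =>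
    Finsupp.single 0 (s 0) + Finsupp.single 1 (s 1) + Finsupp.single 2 (d - s 0 - s 1)
  have hs : ∀ s ∈ g.support, s 0 + s 1 ≤ d := fun s hs => by
    have := MvPolynomial.le_totalDegree hs
    rw [Finsupp.sum_fintype _ _ (fun _ => rfl), Fin.sum_univ_two] at this
    exact this.trans hd
  let G : PS k := ∑ s ∈ g.support, MvPowerSeries.monomial (ex s) (MvPolynomial.coeff s g)
  have hG : algebraMap (PS k) (OO k) G =
      E.j (MvPolynomial.aeval ![h.x, h.y] g) * (E.τ ^ n) ^ d := by
    rw [MvPolynomial.aeval_def, MvPolynomial.eval₂_eq', map_sum, map_sum, Finset.sum_mul]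
    refine Finset.sum_congr rfl fun s hs' => ?_
    have h1 : (MvPowerSeries.monomial (ex s) (MvPolynomial.coeff s g) : PS k) =
        MvPowerSeries.C (MvPolynomial.coeff s g) * MvPowerSeries.X 0 ^ s 0 *
          MvPowerSeries.X 1 ^ s 1 * MvPowerSeries.X 2 ^ (d - s 0 - s 1) := by
      simp only [MvPowerSeries.X_pow_eq, ← MvPowerSeries.monomial_zero_eq_C_apply,
        MvPowerSeries.monomial_mul_monomial, mul_one, zero_add, ex]
    obtain ⟨r, hr⟩ := Nat.exists_eq_add_of_le (hs s hs')
    have h2 : d - s 0 - s 1 = r := by omega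
    rw [h1, h2, hr]
    simp only [map_mul, map_pow, L1a_C, ← E.j_x, ← E.j_y, ← E.τ_pow, AlgHom.commutes,
      Fin.prod_univ_two, Matrix.cons_val_zero, Matrix.cons_val_one]
    ring
  refine ⟨G, ?_, hG⟩
  have hG0 : G ≠ 0 := by
    intro h0
    rw [h0, map_zero] at hG
    refine mul_ne_zero ?_ (pow_ne_zero _ (pow_ne_zero _ E.tau_ne_zero)) hG.symm
    rw [map_ne_zero]
    exact (map_ne_zero_iff _ h.indep).2 hg
  obtain ⟨e, he⟩ : ∃ e, MvPowerSeries.coeff e G ≠ 0 := by
    by_contra hcon
    push Not at hcon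
    exact hG0 (MvPowerSeries.ext fun e => by rw [hcon e, map_zero])
  refine (MvPowerSeries.order_le he).trans (le_of_eq ?_)
  rw [map_sum] at he
  obtain ⟨s, hs', hne⟩ := Finset.exists_ne_zero_of_sum_ne_zero he
  have h3 : e = ex s := by
    by_contra hcon
    exact hne (MvPowerSeries.coeff_monomial_ne hcon _)
  have h4 := hs s hs'
  rw [h3]
  simp only [ex, map_add, Finsupp.degree_single]
  congr 1
  omega

theorem L2a_cancel {M : Type} [AddCommGroup M] [Module (PS k) M] [Module.Free (PS k) M]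
    {G : PS k} {d j : ℕ} (hG : G.order ≤ d) {μ : M}
    (hμ : G • μ ∈ IsLocalRing.maximalIdeal (PS k) ^ (j + d) • (⊤ : Submodule (PS k) M)) :
    μ ∈ IsLocalRing.maximalIdeal (PS k) ^ j • (⊤ : Submodule (PS k) M) := by
  let b := Module.Free.chooseBasis (PS k) M
  have h1 : ∀ l, b.repr (G • μ) l ∈ IsLocalRing.maximalIdeal (PS k) ^ (j + d) := fun l => by
    refine Submodule.smul_induction_on
      (p := fun z => b.repr z l ∈ IsLocalRing.maximalIdeal (PS k) ^ (j + d)) hμ
      (fun a ha z _ => ?_) fun x y hx hy => ?_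
    · rw [map_smul, Finsupp.smul_apply, smul_eq_mul]
      exact Ideal.mul_mem_right _ _ ha
    · rw [map_add, Finsupp.add_apply]
      exact Ideal.add_mem _ hx hy
  have h2 : ∀ l, b.repr μ l ∈ IsLocalRing.maximalIdeal (PS k) ^ j := fun l => by
    have h3 := h1 l
    rw [map_smul, Finsupp.smul_apply, smul_eq_mul, mem_pow_iff_order,
      MvPowerSeries.order_mul] at h3
    rw [mem_pow_iff_order]
    have h4 : (j : ℕ∞) + d ≤ (b.repr μ l).order + d := by
      rw [← Nat.cast_add, add_comm (b.repr μ l).order]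
      exact h3.trans (add_le_add_left hG _)
    exact (ENat.add_le_add_iff_right (ENat.coe_ne_top d)).1 h4
  rw [← b.linearCombination_repr μ, Finsupp.linearCombination_apply, Finsupp.sum]
  exact Submodule.sum_mem _ fun l _ => Submodule.smul_mem_smul (h2 l) Submodule.mem_top

theorem Emb.amb_of_embed (E : Emb h) (M : Type) [AddCommGroup M] [Module E.SS M]
    [Module (PS k) M] [IsScalarTower (PS k) E.SS M] [Module k M] [IsScalarTower k (PS k) M]
    [Module.Free (PS k) M] {ι : Type} (e : M →ₗ[E.SS] (ι → OO k)) (he : Function.Injective e)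
    [Algebra (KK k) (OO k)] (hj : ∀ φ, algebraMap (KK k) (OO k) φ = E.j φ) :
    Nonempty (Amb h M (ι → OO k)) := by
  have hS : ∀ (s : E.SS) μ, e (s • μ) = (s : OO k) • e μ := fun s μ => by
    rw [map_smul]; rfl
  have hA : ∀ (a : PS k) μ, e (a • μ) = algebraMap (PS k) (OO k) a • e μ := fun a μ => by
    rw [← algebraMap_smul E.SS a μ, hS]; rfl
  have hK : ∀ (φ : KK k) (w : ι → OO k), φ • w = E.j φ • w := fun φ w => by
    rw [← hj, algebraMap_smul]
  let χ : ℤ → (Fin 5 → ℤ) → M →ₗ[k] (ι → OO k) := fun m c =>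
    { toFun := fun μ => (E.chi m c)⁻¹ • e μ
      map_add' := fun a b => by rw [map_add, smul_add]
      map_smul' := fun κ μ => by
        rw [← algebraMap_smul (PS k) κ μ, hA, ← IsScalarTower.algebraMap_apply, algebraMap_smul,
          smul_comm, RingHom.id_apply] }
  have hχ : ∀ m c μ, χ m c μ = (E.chi m c)⁻¹ • e μ := fun _ _ _ => rfl
  let T : (ι → OO k) ≃ₗ[KK k] (ι → OO k) :=
    (LinearEquiv.smulOfNeZero (OO k) (ι → OO k) E.τ E.tau_ne_zero).restrictScalars (KK k)
  have hT : ∀ w, T w = E.τ • w := fun _ => rfl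
  have hsucc : ∀ m c μ, T (χ (m + 1) c μ) = χ m c μ := fun m c μ => by
    have h1 : E.chi (m + 1) c = E.chi m c * E.τ := by
      have := E.chi_add m 1 c 0
      rw [add_zero] at this
      rw [this]
      simp [Emb.chi]
    rw [hT, hχ, hχ, smul_smul, h1]
    congr 1
    have := E.tau_ne_zero
    have := E.chi_ne_zero m c
    field_simp
  obtain ⟨C, hC⟩ := E.exists_pow_mem
  refine ⟨⟨χ, T, hsucc, fun m c i μ => ?_, fun m' c' φ hφ μ => ?_,
    Submodule.span (KK k) {w | ∃ m c μ, m ≤ 0 ∧ w = χ m c μ}, fun w hw => ?_,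
    fun c μ => Submodule.subset_span ⟨0, c, μ, le_rfl, rfl⟩, Submodule.span_mono ?_,
    C, fun j c μ hμ => ?_⟩⟩
  · have h1 : algebraMap (PS k) (OO k) (MvPowerSeries.X i) =
        E.j ((![h.x, h.y, 1] : Fin 3 → KK k) i) * E.τ ^ n := by
      fin_cases i
      · exact E.j_x.symm
      · exact E.j_y.symm
      · simpa using E.τ_pow.symm
    rw [hχ, hχ, hA, hK, smul_smul, smul_smul, h1, E.chi_shift]
    congr 1
    have := E.tau_ne_zero
    have := E.chi_ne_zero m c
    field_simp
  · refine ⟨(⟨E.j φ * E.chi m' c', E.mem_SS hφ⟩ : E.SS) • μ, fun m c => ?_⟩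
    rw [hχ, hχ, hS, hK, smul_smul, smul_smul, E.chi_add]
    congr 1
    have := E.chi_ne_zero m' c'
    have := E.chi_ne_zero m c
    field_simp
  · induction hw using Submodule.span_induction with
    | mem w hw =>
      obtain ⟨m, c, μ, hm, rfl⟩ := hw
      refine Submodule.subset_span ⟨m - 1, c, μ, by omega, ?_⟩
      rw [← hsucc (m - 1), sub_add_cancel]
    | zero => rw [map_zero]; exact Submodule.zero_mem _
    | add a b _ _ ha hb => rw [map_add]; exact Submodule.add_mem _ ha hb
    | smul r a _ ha => rw [map_smul]; exact Submodule.smul_mem _ _ ha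
  · rintro _ ⟨m, c, μ, -, rfl⟩
    exact ⟨m, c, μ, rfl⟩
  · obtain ⟨N, φ, w, hsum⟩ := Submodule.mem_span_set'.1 hμ
    choose m' c' μ' hm' hw using fun i => (w i).2
    obtain ⟨d, g, hg, hd, hmem⟩ := h.exists_poly_den
      (fun i => cst (n * j + C - m' i) + lamv (c - c' i)) φ
    obtain ⟨G, hG, hGe⟩ := E.homog hg hd
    have hmem' : ∀ i, MvPolynomial.aeval ![h.x, h.y] g * φ i ∈
        D.S.B (cst (n * j + C - m' i + n * d) + lamv (c - c' i)) := fun i => by
      have := hmem i
      rwa [add_right_comm, ← cst_add] at this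
    refine L2a_cancel hG (d := d) ?_
    have key : G • μ = ∑ i, (⟨_, E.mem_SS (hmem' i)⟩ : E.SS) • μ' i := by
      apply he
      have h1 : e μ = E.chi (n * j + C) c • χ (n * j + C) c μ := by
        rw [hχ, smul_inv_smul₀ (E.chi_ne_zero _ _)]
      rw [hA, hGe, h1, ← hsum, map_sum, Finset.smul_sum, Finset.smul_sum]
      refine Finset.sum_congr rfl fun i _ => ?_
      rw [hS, hw i, hχ, hK, smul_smul, smul_smul, smul_smul]
      congr 1
      have h2 : E.chi (n * j + C - m' i + n * d) (c - c' i) * E.chi (m' i) (c' i) =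
          E.chi (n * j + C) c * (E.τ ^ n) ^ d := by
        rw [← E.chi_add, sub_add_cancel,
          show (n * j + C - m' i + n * d + m' i : ℤ) = n * j + C + n * d by ring]
        have := E.chi_add (n * j + C) (n * d) c 0
        rw [add_zero] at this
        rw [this, ← pow_mul, ← zpow_natCast]
        simp [Emb.chi]
      rw [mul_inv_eq_iff_eq_mul₀ (E.chi_ne_zero _ _)]
      change _ = E.j _ * _ * _
      rw [mul_assoc (E.j (_ * _)), h2, map_mul]
      ring
    rw [key]
    refine Submodule.sum_mem _ fun i _ => ?_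
    have h3 := hC (j + d) _ _ _ (hmem' i) (by have := hm' i; push_cast; linarith)
    refine Submodule.smul_induction_on (p := fun z : E.SS => z • μ' i ∈
      IsLocalRing.maximalIdeal (PS k) ^ (j + d) • (⊤ : Submodule (PS k) M)) h3
      (fun a ha z _ => ?_) fun x y hx hy => ?_
    · rw [smul_assoc]
      exact Submodule.smul_mem_smul ha Submodule.mem_top
    · rw [add_smul]
      exact Submodule.add_mem _ hx hy

theorem Emb.exists_amb (E : Emb h) (M : Type) [AddCommGroup M] [Module E.SS M] [Module (PS k) M]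
    [IsScalarTower (PS k) E.SS M] [Module k M] [IsScalarTower k (PS k) M] [Module.Finite E.SS M]
    [Module.Free (PS k) M] :
    ∃ (W : Type) (_ : AddCommGroup W) (_ : Module (KK k) W) (_ : Module k W)
      (_ : IsScalarTower k (KK k) W), Nonempty (Amb h M W) := by
  haveI := E.finite
  obtain ⟨ι, e, he⟩ := L2a_embed (S := E.SS) (O := OO k) (M := M) Subtype.val_injective
    fun s hs μ hμ => by
      obtain ⟨r, hr, t, ht⟩ :=
        (Algebra.IsIntegral.isIntegral (R := PS k) s).isAlgebraic.exists_nonzero_dvd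
          (mem_nonZeroDivisors_of_ne_zero hs)
      have : r • μ = 0 := by
        rw [← algebraMap_smul E.SS r μ, ht, mul_comm, mul_smul, hμ, smul_zero]
      exact (smul_eq_zero_iff_right hr).1 this
  letI : Algebra (KK k) (OO k) := E.j.toRingHom.toAlgebra
  haveI : IsScalarTower k (KK k) (OO k) :=
    IsScalarTower.of_algebraMap_eq fun c => (E.j.commutes c).symm
  exact ⟨ι → OO k, inferInstance, inferInstance, inferInstance, inferInstance,
    E.amb_of_embed M e he fun _ => rfl⟩

end Vale.Agent.P190
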