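import Vale.Agent.P190.D0
import Vale.Agent.P190.L1b

/-! P190, part L2b: the family and the model attached to a lattice. -/

namespace Vale.Agent.P190

open Module

theorem Fam.exists_FG_cover {k K Γ : Type} [Field k] [Field K] [Algebra k K] [AddCommGroup Γ]
    {S : Sys k K Γ} {V : Type} [AddCommGroup V] [Module K V] [Module k V] [IsScalarTower k K V]
    (U : Fam S V) {ι : Type} [Finite ι] (a : ι → Γ)
    (h : ∀ i, FiniteDimensional k (U.U (a i))) :
    ∃ X : Fam S V, X.FG ∧ ∀ i, U.U (a i) ≤ X.U (a i) := by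
  choose s hs hs' using fun i =>
    Submodule.fg_def.1 ((Submodule.fg_iff_finiteDimensional _).2 (h i))
  refine ⟨Fam.gen S (⋃ i, (fun v => (a i, v)) '' s i),
    Fam.gen_FG (Set.finite_iUnion fun i => (hs i).image _), fun i => ?_⟩
  rw [← hs' i, Submodule.span_le]
  exact fun v hv => Fam.mem_gen (p := (a i, v)) (Set.mem_iUnion.2 ⟨i, v, hv, rfl⟩)

theorem mem_max_smul {k : Type} [Field k] {M : Type} [AddCommGroup M] [Module (PS k) M]
    {P : Submodule (PS k) M} {μ : M} (h : μ ∈ IsLocalRing.maximalIdeal (PS k) • P) :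
    ∃ y : Fin 3 → M, (∀ i, y i ∈ P) ∧ μ = ∑ i, (MvPowerSeries.X i : PS k) • y i := by
  refine Submodule.smul_induction_on h (fun f hf x hx => ?_) ?_
  · obtain ⟨g, rfl, -⟩ := exists_decomp f ((mem_max_iff f).1 hf)
    exact ⟨fun i => g i • x, fun i => P.smul_mem _ hx, by simp only [Finset.sum_smul, mul_smul]⟩
  · rintro _ _ ⟨y, hy, rfl⟩ ⟨z, hz, rfl⟩
    exact ⟨y + z, fun i => P.add_mem (hy i) (hz i), by
      simp only [Pi.add_apply, smul_add, Finset.sum_add_distrib]⟩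

theorem smul_decomp {k : Type} [Field k] {M : Type} [AddCommGroup M] [Module (PS k) M]
    [Module k M] [IsScalarTower k (PS k) M] (f : PS k) : ∃ (c : k) (g : Fin 3 → PS k),
      ∀ μ : M, f • μ = c • μ + ∑ i, g i • (MvPowerSeries.X i : PS k) • μ := by
  obtain ⟨g, hg, -⟩ := exists_decomp (f - algebraMap k (PS k) (MvPowerSeries.constantCoeff f))
    (by simp [MvPowerSeries.algebraMap_apply])
  refine ⟨MvPowerSeries.constantCoeff f, g, fun μ => ?_⟩
  rw [sub_eq_iff_eq_add'] at hg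
  conv_lhs => rw [hg]
  simp only [add_smul, algebraMap_smul, Finset.sum_smul, mul_comm _ (g _), mul_smul]

variable {k : Type} [Field k] {n : ℕ} {D : DP k n} {h : Hs D}
variable {M : Type} [AddCommGroup M] [Module (PS k) M] [Module k M] [IsScalarTower k (PS k) M]
  [Module.Finite (PS k) M]
variable {W : Type} [AddCommGroup W] [Module (KK k) W] [Module k W] [IsScalarTower k (KK k) W]
variable (A : Amb h M W)

theorem Hs.vec_mem (h : Hs D) (i : Fin 3) :
    (![h.x, h.y, 1] : Fin 3 → KK k) i ∈ D.S.B (cst n) := by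
  fin_cases i
  · exact h.hx
  · exact h.hy
  · exact D.one_mem_cst (Int.natCast_nonneg n)

namespace Amb

section basic

omit [IsScalarTower k (PS k) M] [Module.Finite (PS k) M] [IsScalarTower k (KK k) W]

theorem chi_pow (j : ℕ) (m : ℤ) (c : Fin 5 → ℤ) (μ : M) :
    (A.T ^ j) (A.χ (m + j) c μ) = A.χ m c μ := by
  induction j with
  | zero => simp
  | succ j ih => rw [pow_succ, LinearEquiv.mul_apply, Nat.cast_succ, ← add_assoc, A.χ_succ, ih]

variable {A}

theorem T_pow_mem {Λ : Submodule (KK k) W} (hT : ∀ w ∈ Λ, A.T w ∈ Λ) (j : ℕ) {w : W}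
    (hw : w ∈ Λ) : (A.T ^ j) w ∈ Λ := by
  induction j with
  | zero => simpa using hw
  | succ j ih => rw [pow_succ', LinearEquiv.mul_apply]; exact hT _ ih

theorem chi_mono {Λ : Submodule (KK k) W} (hT : ∀ w ∈ Λ, A.T w ∈ Λ) {m m' : ℤ} (hm : m ≤ m')
    {c : Fin 5 → ℤ} {μ : M} (hμ : A.χ m' c μ ∈ Λ) : A.χ m c μ ∈ Λ := by
  obtain ⟨j, rfl⟩ := Int.le.dest hm
  rw [← A.chi_pow j]
  exact T_pow_mem hT j hμ

theorem chi_X_mem {Λ : Submodule (KK k) W} {m : ℤ} {c : Fin 5 → ℤ} {μ : M}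
    (hμ : A.χ m c μ ∈ Λ) (i : Fin 3) :
    A.χ (m + n) c ((MvPowerSeries.X i : PS k) • μ) ∈ Λ := by
  rw [A.χ_X]; exact Λ.smul_mem _ hμ

theorem chi_max_mem {Λ : Submodule (KK k) W} {m : ℤ} {c : Fin 5 → ℤ} {P : Submodule (PS k) M}
    (hP : ∀ μ ∈ P, A.χ m c μ ∈ Λ) {μ : M} (hμ : μ ∈ IsLocalRing.maximalIdeal (PS k) • P) :
    A.χ (m + n) c μ ∈ Λ := by
  obtain ⟨y, hy, rfl⟩ := mem_max_smul hμ
  rw [map_sum]
  exact Λ.sum_mem fun i _ => chi_X_mem (hP _ (hy i)) i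

theorem chi_pow_mem {Λ : Submodule (KK k) W} {m : ℤ} {c : Fin 5 → ℤ}
    (hm : ∀ μ, A.χ m c μ ∈ Λ) (J : ℕ) :
    ∀ μ ∈ IsLocalRing.maximalIdeal (PS k) ^ J • (⊤ : Submodule (PS k) M),
      A.χ (m + n * J) c μ ∈ Λ := by
  induction J with
  | zero => intro μ _; simpa using hm μ
  | succ J ih =>
    intro μ hμ
    rw [pow_succ', Submodule.mul_smul] at hμ
    have := chi_max_mem ih hμ
    rwa [Nat.cast_succ, mul_add, mul_one, ← add_assoc]

theorem IsLat.exists_top {Λ : Submodule (KK k) W} (hΛ : A.IsLat Λ) :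
    ∃ m₀ : ℤ, ∀ m ≤ m₀, ∀ c μ, A.χ m c μ ∈ Λ := by
  obtain ⟨hT, N, h1, -⟩ := hΛ
  refine ⟨-N, fun m hm c μ => chi_mono hT hm ?_⟩
  rw [← A.chi_pow N, neg_add_cancel]
  exact h1 _ (A.top c μ)

theorem IsLat.exists_sep {Λ : Submodule (KK k) W} (hΛ : A.IsLat Λ) :
    ∃ C : ℤ, ∀ (j : ℕ) (m : ℤ), n * j + C ≤ m → ∀ c μ, A.χ m c μ ∈ Λ →
      μ ∈ IsLocalRing.maximalIdeal (PS k) ^ j • (⊤ : Submodule (PS k) M) := by
  obtain ⟨hT, N, -, h2⟩ := hΛ
  obtain ⟨C, hC⟩ := A.sep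
  refine ⟨C + N, fun j m hm c μ hμ => hC j c μ ?_⟩
  rw [← A.chi_pow N]
  exact h2 _ (chi_mono hT (by omega) hμ)

end basic

variable {A}

omit [Module.Finite (PS k) M] in
theorem IsLat.smul_mem {Λ : Submodule (KK k) W} (hΛ : A.IsLat Λ) {m : ℤ} {c : Fin 5 → ℤ}
    (f : PS k) {μ : M} (hμ : A.χ m c μ ∈ Λ) : A.χ m c (f • μ) ∈ Λ := by
  obtain ⟨m₀, hm₀⟩ := hΛ.exists_top
  have hn : (1 : ℤ) ≤ n := by exact_mod_cast D.n_pos
  have key : ∀ t j : ℕ, (m - m₀).toNat ≤ j + t →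
      ∀ μ ∈ IsLocalRing.maximalIdeal (PS k) ^ j • (⊤ : Submodule (PS k) M),
        A.χ m c μ ∈ Λ → ∀ f : PS k, A.χ m c (f • μ) ∈ Λ := by
    intro t
    induction t with
    | zero =>
      intro j hj μ h1 _ f
      refine chi_mono hΛ.1 ?_ (chi_pow_mem (hm₀ m₀ le_rfl c) j _ (Submodule.smul_mem _ f h1))
      have : (j : ℤ) ≤ n * j := le_mul_of_one_le_left (Int.natCast_nonneg j) hn
      omega
    | succ t ih =>
      intro j hj μ h1 h2 f
      obtain ⟨a, g, e⟩ := smul_decomp (M := M) f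
      rw [e, map_add, map_smul, map_sum]
      refine Λ.add_mem (Λ.smul_of_tower_mem a h2) (Λ.sum_mem fun i _ =>
        ih (j + 1) (by omega) _ ?_ (chi_mono hΛ.1 (by omega) (chi_X_mem h2 i)) _)
      rw [pow_succ', Submodule.mul_smul]
      exact Submodule.smul_mem_smul (X_mem_max i) h1
  exact key (m - m₀).toNat 0 (by omega) μ (by simp) hμ f

/-- the filtration attached to a lattice -/
def IsLat.FF {Λ : Submodule (KK k) W} (hΛ : A.IsLat Λ) (m : ℤ) (c : Fin 5 → ℤ) :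
    Submodule (PS k) M where
  carrier := {μ | A.χ m c μ ∈ Λ}
  zero_mem' := by simp
  add_mem' := fun {a b} ha hb => by
    change A.χ m c (a + b) ∈ Λ
    rw [map_add]; exact Λ.add_mem ha hb
  smul_mem' := fun f _ hμ => hΛ.smul_mem f hμ

/-- the symbol map -/
noncomputable def IsLat.iota {Λ : Submodule (KK k) W} (hΛ : A.IsLat Λ) (m : ℤ) (c : Fin 5 → ℤ) :
    (hΛ.FF m c).restrictScalars k →ₗ[k] A.Fib Λ where
  toFun x := Submodule.Quotient.mk ⟨A.χ m c x, x.2⟩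
  map_add' x y := by
    rw [← Submodule.Quotient.mk_add]
    exact congrArg _ (Subtype.ext (map_add (A.χ m c) x.1 y.1))
  map_smul' a x := by
    rw [RingHom.id_apply, ← Submodule.Quotient.mk_smul]
    exact congrArg _ (Subtype.ext (map_smul (A.χ m c) a x.1))

omit [IsScalarTower k (PS k) M] [Module.Finite (PS k) M] [IsScalarTower k (KK k) W] in
theorem mk_eq_zero {Λ : Submodule (KK k) W} {m : ℤ} {c : Fin 5 → ℤ} {μ : M}
    (hμ : A.χ m c μ ∈ Λ) :
    (Submodule.Quotient.mk ⟨A.χ m c μ, hμ⟩ : A.Fib Λ) = 0 ↔ A.χ (m + 1) c μ ∈ Λ := by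
  rw [Submodule.Quotient.mk_eq_zero]
  constructor
  · rintro ⟨w, hw, e⟩
    have : w = A.χ (m + 1) c μ := A.T.injective (by rw [A.χ_succ]; exact e)
    rwa [← this]
  · exact fun h1 => ⟨_, h1, A.χ_succ m c μ⟩

variable (A)

theorem mem_fam_iff (Λ : Submodule (KK k) W) (m : ℤ) (c : Fin 5 → ℤ) (v : A.Fib Λ) :
    v ∈ (A.fam Λ).U (cst m + lamv c) ↔
      ∃ μ, ∃ hμ : A.χ m c μ ∈ Λ, v = Submodule.Quotient.mk ⟨A.χ m c μ, hμ⟩ := by
  constructor
  · intro hv
    induction hv using Submodule.span_induction with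
    | mem x hx =>
      obtain ⟨_, ⟨m', c', μ, hμ, rfl⟩, φ, hφ, rfl⟩ := hx
      have e : cst m + lamv c - (cst m' + lamv c') = cst (m - m') + lamv (c - c') := by
        rw [sub_eq_add_neg m, sub_eq_add_neg c, cst_add, cst_neg, lamv_add, lamv_neg]; abel
      obtain ⟨μ', h1⟩ := A.mul _ _ φ (e ▸ hφ) μ
      have h2 := h1 m' c'
      rw [sub_add_cancel, sub_add_cancel] at h2
      refine ⟨μ', h2 ▸ Λ.smul_mem φ hμ, ?_⟩
      rw [← Submodule.Quotient.mk_smul]
      exact congrArg _ (Subtype.ext h2.symm)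
    | zero =>
      refine ⟨0, by simp, ?_⟩
      rw [← Submodule.Quotient.mk_zero]
      exact congrArg _ (Subtype.ext (map_zero (A.χ m c)).symm)
    | add x y _ _ hx hy =>
      obtain ⟨μ, hμ, rfl⟩ := hx
      obtain ⟨ν, hν, rfl⟩ := hy
      refine ⟨μ + ν, by rw [map_add]; exact Λ.add_mem hμ hν, ?_⟩
      rw [← Submodule.Quotient.mk_add]
      exact congrArg _ (Subtype.ext (map_add (A.χ m c) μ ν).symm)
    | smul a x _ hx =>
      obtain ⟨μ, hμ, rfl⟩ := hx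
      refine ⟨a • μ, by rw [map_smul]; exact Λ.smul_of_tower_mem a hμ, ?_⟩
      rw [← Submodule.Quotient.mk_smul]
      exact congrArg _ (Subtype.ext (map_smul (A.χ m c) a μ).symm)
  · rintro ⟨μ, hμ, rfl⟩
    exact Fam.mem_gen (S := D.S)
      (p := (cst m + lamv c, (Submodule.Quotient.mk ⟨A.χ m c μ, hμ⟩ : A.Fib Λ))) ⟨m, c, μ, hμ, rfl⟩

variable {A}

theorem IsLat.range_iota {Λ : Submodule (KK k) W} (hΛ : A.IsLat Λ) (m : ℤ) (c : Fin 5 → ℤ) :
    LinearMap.range (hΛ.iota m c) = (A.fam Λ).U (cst m + lamv c) := by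
  ext v
  rw [mem_fam_iff]
  constructor
  · rintro ⟨x, rfl⟩
    exact ⟨x.1, x.2, rfl⟩
  · rintro ⟨μ, hμ, rfl⟩
    exact ⟨⟨μ, hμ⟩, rfl⟩

theorem IsLat.fd {Λ : Submodule (KK k) W} (hΛ : A.IsLat Λ) (m : ℤ) (c : Fin 5 → ℤ) :
    FiniteDimensional k ((A.fam Λ).U (cst m + lamv c)) := by
  have hn : (1 : ℤ) ≤ n := by exact_mod_cast D.n_pos
  obtain ⟨s, hs⟩ := Module.Finite.fg_top (R := PS k) (M := hΛ.FF m c)
  have h1 : FiniteDimensional k (Submodule.span k ((fun x : hΛ.FF m c => hΛ.iota m c x) '' s)) :=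
    FiniteDimensional.span_of_finite k (s.finite_toSet.image _)
  refine Submodule.finiteDimensional_of_le (S₂ := Submodule.span k
    ((fun x : hΛ.FF m c => hΛ.iota m c x) '' s)) ?_
  rw [← hΛ.range_iota]
  rintro _ ⟨x, rfl⟩
  have hx : (show hΛ.FF m c from x) ∈ Submodule.span (PS k) (s : Set (hΛ.FF m c)) := by
    rw [hs]; trivial
  suffices H : ∀ y ∈ Submodule.span (PS k) (s : Set (hΛ.FF m c)), hΛ.iota m c y ∈
    Submodule.span k ((fun x : hΛ.FF m c => hΛ.iota m c x) '' s) from H _ hx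
  intro y hy
  induction hy using Submodule.span_induction with
  | mem y hy => exact Submodule.subset_span ⟨y, hy, rfl⟩
  | zero => exact (map_zero (hΛ.iota m c)).symm ▸ Submodule.zero_mem _
  | add y z _ _ hy hz => exact (map_add (hΛ.iota m c) y z).symm ▸ Submodule.add_mem _ hy hz
  | smul f y _ hy =>
    obtain ⟨a, g, e⟩ := smul_decomp (M := M) f
    have h2 : hΛ.iota m c ((f • y : hΛ.FF m c)) = a • hΛ.iota m c y := by
      refine Eq.trans ?_ (map_smul (hΛ.iota m c) a y)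
      refine sub_eq_zero.1 ((map_sub (hΛ.iota m c) _ _).symm.trans ((mk_eq_zero _).2 ?_))
      change A.χ (m + 1) c (f • y.1 - a • y.1) ∈ Λ
      rw [e, add_sub_cancel_left, map_sum]
      exact Λ.sum_mem fun i _ => hΛ.smul_mem _ (chi_mono hΛ.1 (by omega) (chi_X_mem y.2 i))
    rw [h2]
    exact Submodule.smul_mem _ a hy

theorem IsLat.stable {Λ : Submodule (KK k) W} (hΛ : A.IsLat Λ) (r : ℤ) (c : Fin 5 → ℤ) :
    ∀ᶠ j : ℤ in Filter.atTop, hΛ.FF (r + n * j + n) c ≤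
      IsLocalRing.maximalIdeal (PS k) • hΛ.FF (r + n * j) c := by
  have hn : (1 : ℤ) ≤ n := by exact_mod_cast D.n_pos
  obtain ⟨C, hC⟩ := hΛ.exists_sep
  obtain ⟨C', hC'⟩ : ∃ C' : ℕ, C - r ≤ n * C' :=
    ⟨(C - r).toNat, (Int.self_le_toNat _).trans (le_mul_of_one_le_left (Int.natCast_nonneg _) hn)⟩
  let F : (IsLocalRing.maximalIdeal (PS k)).Filtration M :=
    { N := fun j => hΛ.FF (r + n * (C' + j)) c
      mono := fun j μ hμ => chi_mono hΛ.1 (by push_cast; linarith) hμ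
      smul_le := fun j μ hμ => by
        have := chi_max_mem (P := hΛ.FF (r + n * (C' + j)) c) (fun _ h => h) hμ
        change A.χ _ c μ ∈ Λ
        rwa [Nat.cast_succ, ← add_assoc (C' : ℤ), mul_add _ _ (1 : ℤ), mul_one, ← add_assoc] }
  have h1 : F ≤ (IsLocalRing.maximalIdeal (PS k)).stableFiltration ⊤ := fun j μ hμ =>
    hC j _ (by linarith) c μ hμ
  obtain ⟨j₀, h2⟩ := (Ideal.stableFiltration_stable _ _).of_le h1
  filter_upwards [Filter.eventually_ge_atTop ((C' : ℤ) + j₀)] with j hj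
  obtain ⟨i, rfl⟩ : ∃ i : ℕ, j = C' + i := ⟨(j - C').toNat, by omega⟩
  have h3 := (h2 i (by omega)).ge
  change hΛ.FF (r + n * (C' + (i + 1 : ℕ))) c ≤ _ at h3
  rwa [Nat.cast_succ, ← add_assoc (C' : ℤ), mul_add _ _ (1 : ℤ), mul_one, ← add_assoc] at h3

variable (A)

theorem exists_model {Λ : Submodule (KK k) W} (hΛ : A.IsLat Λ) :
    Nonempty (Model h M (A.fam Λ)) := by
  refine ⟨{
    F := hΛ.FF
    ι := hΛ.iota
    anti := fun m c μ hμ => chi_mono hΛ.1 (by omega) hμ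
    ker := fun m c x => mk_eq_zero x.2
    range := hΛ.range_iota
    X_mem := fun m c i x hx => chi_X_mem hx i
    X_comp := fun m c i x hx => ?_
    top := ?_
    sep := fun c j => ?_ }⟩
  · change Submodule.Quotient.mk _ = _ • Submodule.Quotient.mk _
    rw [← Submodule.Quotient.mk_smul]
    exact congrArg _ (Subtype.ext (A.χ_X m c i x))
  · obtain ⟨m₀, h1⟩ := hΛ.exists_top
    exact ⟨m₀, fun c => eq_top_iff.2 fun μ _ => h1 m₀ le_rfl c μ⟩
  · obtain ⟨C, hC⟩ := hΛ.exists_sep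
    exact ⟨n * j + C, fun μ hμ => hC j _ le_rfl c μ hμ⟩

theorem fam_FG {Λ : Submodule (KK k) W} (hΛ : A.IsLat Λ) : (A.fam Λ).FG := by
  have hn : (0 : ℤ) < n := by exact_mod_cast D.n_pos
  obtain ⟨m₀, h0⟩ := hΛ.exists_top
  obtain ⟨j₁, h1⟩ := Filter.eventually_atTop.1 (Filter.eventually_all.2
    fun q : Fin n × (Fin 5 → Fin n) => hΛ.stable (q.1 : ℤ) fun j => (q.2 j : ℤ))
  have hr : ∀ z : ℤ, (z % n).toNat < n := fun z => by
    have := Int.emod_lt_of_pos z hn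
    have := Int.emod_nonneg z hn.ne'
    omega
  have h2 : ∀ m, n * j₁ ≤ m → ∀ c : Fin 5 → Fin n, hΛ.FF (m + n) (fun j => (c j : ℤ)) ≤
      IsLocalRing.maximalIdeal (PS k) • hΛ.FF m fun j => (c j : ℤ) := by
    intro m hm c
    have := h1 (m / n) ((Int.le_ediv_iff_mul_le hn).2 (by linarith)) (⟨_, hr m⟩, c)
    simp only [Int.toNat_of_nonneg (Int.emod_nonneg m hn.ne')] at this
    rwa [Int.emod_add_mul_ediv] at this
  obtain ⟨X, hX, h3⟩ := (A.fam Λ).exists_FG_cover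
    (fun q : Finset.Ico m₀ (n * j₁ + n) × (Fin 5 → Fin n) =>
      cst q.1 + lamv fun j => (q.2 j : ℤ)) fun q => hΛ.fd _ _
  have h4 : ∀ (c : Fin 5 → Fin n) (t : ℕ) (m : ℤ), m < n * j₁ + n + t →
      (A.fam Λ).U (cst m + lamv fun j => (c j : ℤ)) ≤ X.U (cst m + lamv fun j => (c j : ℤ)) := by
    intro c t
    have base : ∀ m : ℤ, m < n * j₁ + n →
        (A.fam Λ).U (cst m + lamv fun j => (c j : ℤ)) ≤ X.U (cst m + lamv fun j => (c j : ℤ)) := by
      intro m hm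
      by_cases h5 : m < m₀
      · intro v hv
        obtain ⟨μ, hμ, rfl⟩ := (A.mem_fam_iff Λ _ _ v).1 hv
        rw [(mk_eq_zero hμ).2 (h0 _ (by omega) _ _)]
        exact Submodule.zero_mem _
      · exact h3 (⟨m, Finset.mem_Ico.2 ⟨not_lt.1 h5, hm⟩⟩, c)
    induction t with
    | zero => intro m hm; exact base m (by simpa using hm)
    | succ t ih =>
      intro m hm
      by_cases h5 : m < n * j₁ + n
      · exact base m h5
      obtain ⟨m, rfl⟩ : ∃ m', m = m' + n := ⟨m - n, by ring⟩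
      intro v hv
      obtain ⟨μ, hμ, rfl⟩ := (A.mem_fam_iff Λ _ _ v).1 hv
      obtain ⟨y, hy, rfl⟩ := mem_max_smul (h2 m (by omega) c hμ)
      have e : (Submodule.Quotient.mk ⟨_, hμ⟩ : A.Fib Λ) = ∑ i, (![h.x, h.y, 1] : Fin 3 → KK k) i •
          Submodule.Quotient.mk ⟨A.χ m (fun j => (c j : ℤ)) (y i), hy i⟩ := by
        simp only [← Submodule.Quotient.mk_smul]
        rw [← Submodule.mkQ_apply]
        simp only [← Submodule.mkQ_apply, ← map_sum]
        refine congrArg _ (Subtype.ext ?_)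
        simp only [map_sum, A.χ_X, AddSubmonoidClass.coe_finset_sum, SetLike.val_smul]
      rw [e]
      refine Submodule.sum_mem _ fun i _ => ?_
      have := X.smul_mem _ _ _ _ (h.vec_mem i) (ih m (by push_cast at hm; omega)
        ((A.mem_fam_iff Λ _ _ _).2 ⟨y i, hy i, rfl⟩))
      rwa [← add_assoc, ← cst_add, add_comm (n : ℤ)] at this
  refine hX.of_le (Fam.gen_le.2 ?_)
  rintro _ ⟨m, c, μ, hμ, rfl⟩
  have h5 := (A.mem_fam_iff Λ m c _).2 ⟨μ, hμ, rfl⟩
  have e : cst m + lamv c + (n : ℤ) • lamv (fun j => -(c j / n)) =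
      cst m + lamv fun j => ((⟨_, hr (c j)⟩ : Fin n) : ℤ) := by
    rw [add_assoc, ← lamv_smul, ← lamv_add]
    congr 2
    funext j
    simp only [Pi.add_apply, Pi.smul_apply, smul_eq_mul,
      Int.toNat_of_nonneg (Int.emod_nonneg (c j) hn.ne')]
    rw [Int.emod_def]
    ring
  rw [DP.mem_fam_iff_unit _ _ fun j => -(c j / n), e] at h5 ⊢
  exact h4 (fun j => ⟨_, hr (c j)⟩) (m - (n * j₁ + n) + 1).toNat m (by omega) h5

theorem fam_spans {Λ : Submodule (KK k) W} (hΛ : A.IsLat Λ) : (A.fam Λ).Spans := by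
  have key : ∀ w ∈ Submodule.span (KK k) {w | ∃ m c μ, w = A.χ m c μ},
      ∃ f : KK k, f ≠ 0 ∧ ∃ m c μ, f • w = A.χ m c μ := by
    intro w hw
    induction hw using Submodule.span_induction with
    | mem x hx => exact ⟨1, one_ne_zero, by simpa using hx⟩
    | zero => exact ⟨1, one_ne_zero, 0, 0, 0, by simp⟩
    | add x y _ _ hx hy =>
      obtain ⟨f, hf, m, c, μ, e⟩ := hx
      obtain ⟨g, hg, m', c', ν, e'⟩ := hy
      obtain ⟨b, φ, h1, h2, h3⟩ := Sys.den (S := D.S) (ι := Unit)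
        (fun _ => cst (m - m') + lamv (c - c')) fun _ => f / g
      have hb : ∀ i, b i ≤ cst (∑ i, |b i|) i := fun i => (le_abs_self _).trans
        (Finset.single_le_sum (f := fun i => |b i|) (fun _ _ => abs_nonneg _) (Finset.mem_univ i))
      obtain ⟨μ', h4⟩ := A.mul (∑ i, |b i|) 0 φ
        (DP.fam_mono D.S.fam (fun i => by simpa [lamv_zero] using hb i) h2) μ
      obtain ⟨ν', h5⟩ := A.mul (∑ i, |b i| + (m - m')) (c - c') (φ * (f / g))
        (DP.fam_mono D.S.fam (fun i => by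
          have := hb i
          simp only [cst_add, Pi.add_apply]
          linarith) (h3 ())) ν
      refine ⟨φ * f, mul_ne_zero h1 hf, ∑ i, |b i| + m, c, μ' + ν', ?_⟩
      have h6 := h4 m c
      have h7 := h5 m' c'
      rw [zero_add] at h6
      rw [add_assoc, sub_add_cancel, sub_add_cancel] at h7
      rw [map_add, h6, h7, ← e, ← e', smul_add, smul_smul, smul_smul, mul_assoc φ (f / g),
        div_mul_cancel₀ _ hg]
    | smul a x _ hx =>
      obtain ⟨f, hf, m, c, μ, e⟩ := hx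
      by_cases ha : a = 0
      · exact ⟨1, one_ne_zero, 0, 0, 0, by simp [ha]⟩
      · exact ⟨f / a, div_ne_zero hf ha, m, c, μ, by rw [smul_smul, div_mul_cancel₀ _ ha, e]⟩
  obtain ⟨-, N, -, h2⟩ := hΛ
  refine Fam.spans_of_smul fun v => ?_
  obtain ⟨w, rfl⟩ := Submodule.Quotient.mk_surjective _ v
  obtain ⟨f, hf, m, c, μ, e⟩ := key _ (A.le_span (h2 w w.2))
  rw [← map_smul, ← A.chi_pow N] at e
  have e' := (A.T ^ N).injective e
  refine ⟨cst (m + N) + lamv c, f, hf, (A.mem_fam_iff Λ _ _ _).2 ⟨μ, e' ▸ Λ.smul_mem f w.2, ?_⟩⟩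
  rw [← Submodule.Quotient.mk_smul]
  exact congrArg _ (Subtype.ext e')

theorem fib_fd {Λ : Submodule (KK k) W} (hΛ : A.IsLat Λ) :
    FiniteDimensional (KK k) (A.Fib Λ) := by
  obtain ⟨G, hG, e⟩ := A.fam_FG hΛ
  have hs := A.fam_spans hΛ
  rw [e] at hs
  refine ⟨Submodule.fg_def.2 ⟨Prod.snd '' G, hG.image _, eq_top_iff.2 ?_⟩⟩
  rw [← hs, Submodule.span_le]
  rintro v ⟨a, hv⟩
  induction hv using Submodule.span_induction with
  | mem x hx =>
    obtain ⟨p, hp, φ, -, rfl⟩ := hx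
    exact Submodule.smul_mem _ φ (Submodule.subset_span ⟨p, hp, rfl⟩)
  | zero => exact Submodule.zero_mem _
  | add x y _ _ hx hy => exact Submodule.add_mem _ hx hy
  | smul a x _ hx => exact Submodule.smul_of_tower_mem _ a hx

theorem fib_pos [Nontrivial M] {Λ : Submodule (KK k) W} (hΛ : A.IsLat Λ) :
    0 < finrank (KK k) (A.Fib Λ) := by
  have := A.fib_fd hΛ
  rw [finrank_pos_iff]
  by_contra h1
  rw [not_nontrivial_iff_subsingleton] at h1
  obtain ⟨m₀, h0⟩ := hΛ.exists_top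
  obtain ⟨C, hC⟩ := hΛ.exists_sep
  have h2 : ∀ (t : ℕ) μ, A.χ (m₀ + t) 0 μ ∈ Λ := by
    intro t μ
    induction t with
    | zero => simpa using h0 m₀ le_rfl 0 μ
    | succ t ih =>
      rw [Nat.cast_succ, ← add_assoc]
      exact (mk_eq_zero ih).1 (Subsingleton.elim _ _)
  have h3 : (⊤ : Submodule (PS k) M) ≤ IsLocalRing.maximalIdeal (PS k) • ⊤ := fun μ _ => by
    simpa using hC 1 _ (by omega) 0 μ (h2 (n * (1 : ℕ) + C - m₀).toNat μ)
  exact top_ne_bot (Submodule.eq_bot_of_le_smul_of_le_jacobson_bot _ _ Module.Finite.fg_top h3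
    (IsLocalRing.maximalIdeal_le_jacobson _))

end Amb

end Vale.Agent.P190
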