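import Vale.Agent.P190.L2b
import Vale.Agent.P190.G4

/-! P190, part L2c: a balanced lattice. -/

namespace Vale.Agent.P190

open Module

variable {k : Type} [Field k] {n : ℕ} {D : DP k n} {h : Hs D}

section abs

variable {V : Type} [AddCommGroup V] [Module (KK k) V] [Module k V] [IsScalarTower k (KK k) V]
  [FiniteDimensional (KK k) V]
variable {V' : Type} [AddCommGroup V'] [Module (KK k) V'] [Module k V'] [IsScalarTower k (KK k) V']
  [FiniteDimensional (KK k) V']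

theorem L2c_abs {U : Fam D.S V} {U' : Fam D.S V'} (hU : U.FG) (hs : U.Spans) (hU' : U'.FG)
    (hs' : U'.Spans) (α : V →ₗ[KK k] V') (β : V' →ₗ[KK k] V) (X : Submodule (KK k) V)
    (hX : ∀ v, v ∈ X ↔ α v = 0) (h1 : Function.Exact α β) (h2 : Function.Exact β α)
    (ha : ∀ m c v', β v' = 0 → v' ∈ U'.U (cst m + lamv c) →
      ∃ v ∈ U.U (cst m + lamv c), α v = v')
    (ha' : ∀ m c v, v ∈ U.U (cst m + lamv c) → α v ∈ U'.U (cst m + lamv c))
    (hb : ∀ m c v, α v = 0 → v ∈ U.U (cst (m - 1) + lamv c) →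
      ∃ v' ∈ U'.U (cst m + lamv c), β v' = v)
    (hb' : ∀ m c v', v' ∈ U'.U (cst m + lamv c) → β v' ∈ U.U (cst (m - 1) + lamv c)) :
    finrank (KK k) V' = finrank (KK k) V ∧
    HA U'.cl = HA U.cl - 12 * finrank (KK k) X ∧
    (∀ σ : ℚ, (U.map X.mkQ).MinGe HA σ → (U.comap X.subtype).MinGe HA (σ + 12) →
      U'.MinGe HA σ) ∧
    ∀ σ : ℚ, U'.MinGe HA σ → (U.comap X.subtype).MinGe HA (σ + 12) := by
  have hH := D.eff_HA
  let a : (V ⧸ X) →ₗ[KK k] V' := X.liftQ α fun v hv => (hX v).1 hv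
  have ha_mk : ∀ v, a (X.mkQ v) = α v := fun _ => rfl
  have ha_inj : Function.Injective a :=
    LinearMap.ker_eq_bot.1 (Submodule.ker_liftQ_eq_bot _ _ _ fun v hv => (hX v).2 hv)
  let b : V' →ₗ[KK k] X := β.codRestrict X fun v' => (hX _).2 (h2.apply_apply_eq_zero v')
  have hb_val : ∀ v', (b v' : V) = β v' := fun _ => rfl
  have hb_surj : Function.Surjective b := fun x => by
    obtain ⟨v', hv'⟩ := (h2 x).1 ((hX _).1 x.2)
    exact ⟨v', Subtype.ext hv'⟩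
  have hex : Function.Exact a b := fun v' => by
    rw [← Subtype.coe_inj, hb_val]
    refine (h1 v').trans ⟨?_, ?_⟩
    · rintro ⟨v, rfl⟩
      exact ⟨X.mkQ v, rfl⟩
    · rintro ⟨q, rfl⟩
      obtain ⟨v, rfl⟩ := X.mkQ_surjective q
      exact ⟨v, rfl⟩
  have hdeg : ∀ m c, cst m + lamv c + -cst 1 = cst (m - 1) + lamv c := fun m c => by
    funext i
    simp only [cst, Pi.add_apply, Pi.neg_apply]
    ring
  have p1 : ∀ m c, (U'.comap a).U (cst m + lamv c) ≤ (U.map X.mkQ).U (cst m + lamv c) := by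
    intro m c q hq
    obtain ⟨v, hv, he⟩ := ha m c (a q) (congrArg Subtype.val (hex.apply_apply_eq_zero q)) hq
    exact ⟨v, hv, ha_inj he⟩
  have p2 : ∀ m c, (U.map X.mkQ).U (cst m + lamv c) ≤ (U'.comap a).U (cst m + lamv c) := by
    rintro m c _ ⟨v, hv, rfl⟩
    exact ha' m c v hv
  have p3 : ∀ m c, (U'.map b).U (cst m + lamv c) ≤
      ((U.comap X.subtype).shift (-cst 1)).U (cst m + lamv c) := by
    rintro m c _ ⟨v', hv', rfl⟩
    change β v' ∈ U.U (cst m + lamv c + -cst 1)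
    rw [hdeg]
    exact hb' m c v' hv'
  have p4 : ∀ m c, ((U.comap X.subtype).shift (-cst 1)).U (cst m + lamv c) ≤
      (U'.map b).U (cst m + lamv c) := by
    intro m c x hx
    change (x : V) ∈ U.U (cst m + lamv c + -cst 1) at hx
    rw [hdeg] at hx
    obtain ⟨v', hv', he⟩ := hb m c x ((hX _).1 x.2) hx
    exact ⟨v', hv', Subtype.ext he⟩
  have f1 := hU'.comap a ha_inj
  have s1 := hs'.comap a
  have f2 := hU.map X.mkQ
  have s2 := hs.map X.mkQ X.mkQ_surjective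
  have f3 := hU'.map b
  have s3 := hs'.map b hb_surj
  have f4 := hU.comap X.subtype X.injective_subtype
  have s4 := hs.comap X.subtype
  have f5 := f4.shift (-cst 1)
  have s5 := s4.shift (-cst 1)
  have hc : HA (-cst 1) = -12 := by rw [map_neg, HA_cst]; norm_num
  refine ⟨?_, ?_, fun σ m1 m2 => ?_, fun σ m1 => ?_⟩
  · have e1 := LinearMap.finrank_range_add_finrank_ker α
    have e2 := LinearMap.finrank_range_add_finrank_ker β
    rw [LinearMap.exact_iff.1 h1] at e2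
    rw [LinearMap.exact_iff.1 h2] at e1
    omega
  · have e1 := (Fam.cl_add_exact hU' hs' a b ha_inj hb_surj hex).map_eq_zero hH
    have e2 := (Fam.cl_add_exact hU hs X.subtype X.mkQ X.injective_subtype X.mkQ_surjective
      (LinearMap.exact_subtype_mkQ X)).map_eq_zero hH
    have e3 := (Fam.unitDeg_of_locMem f1 s1 f2 s2 (DP.locMem_of_cst p1)
      (DP.locMem_of_cst p2)).map_eq_zero hH
    have e4 := (Fam.unitDeg_of_locMem f3 s3 f5 s5 (DP.locMem_of_cst p3)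
      (DP.locMem_of_cst p4)).map_eq_zero hH
    have e5 := (Fam.cl_shift f4 s4 (-cst 1)).map_eq_zero hH
    simp only [map_sub, map_add, map_nsmul, hc] at e1 e2 e3 e4 e5
    rw [nsmul_eq_mul] at e5
    linarith
  · refine Fam.MinGe.of_exact hH hU' hs' a b ha_inj hb_surj hex
      (Fam.MinGe.congr hH f1 s1 f2 (DP.locMem_of_cst p1) (DP.locMem_of_cst p2) m1)
      (Fam.MinGe.congr hH f3 s3 f5 (DP.locMem_of_cst p3) (DP.locMem_of_cst p4) ?_)
    have := m2.shift hH f4 s4 (-cst 1)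
    rw [hc] at this
    exact this.mono (by push_cast; linarith)
  · have m2 := Fam.MinGe.congr hH f5 s5 f3 (DP.locMem_of_cst p4) (DP.locMem_of_cst p3)
      (m1.map hH hU' hs' b hb_surj)
    have m3 := m2.shift hH f5 s5 (cst 1)
    have e : ((U.comap X.subtype).shift (-cst 1)).shift (cst 1) = U.comap X.subtype := by
      ext a v
      simp [Fam.shift]
    rw [e, HA_cst] at m3
    exact m3.mono (by push_cast; linarith)

end abs

variable {M : Type} [AddCommGroup M] [Module (PS k) M] [Module k M] [IsScalarTower k (PS k) M]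
  [Module.Finite (PS k) M]
variable {W : Type} [AddCommGroup W] [Module (KK k) W] [Module k W] [IsScalarTower k (KK k) W]
variable (A : Amb h M W)

namespace Amb

omit [IsScalarTower k (PS k) M] [Module.Finite (PS k) M] [IsScalarTower k (KK k) W] in
theorem l2c_mk_eq_zero {Λ : Submodule (KK k) W} (w : Λ) :
    (Submodule.Quotient.mk w : A.Fib Λ) = 0 ↔ ∃ u ∈ Λ, A.T u = w :=
  Submodule.Quotient.mk_eq_zero _

theorem pair {Λ Λ' : Submodule (KK k) W} (hΛ : A.IsLat Λ) (hΛ' : A.IsLat Λ') (hle : Λ ≤ Λ')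
    (hT : ∀ w ∈ Λ', A.T w ∈ Λ) [FiniteDimensional (KK k) (A.Fib Λ)]
    [FiniteDimensional (KK k) (A.Fib Λ')] (X : Submodule (KK k) (A.Fib Λ))
    (hX : ∀ w : Λ, Submodule.Quotient.mk w ∈ X ↔ ∃ u ∈ Λ', A.T u = w) :
    finrank (KK k) (A.Fib Λ') = finrank (KK k) (A.Fib Λ) ∧
    HA (A.fam Λ').cl = HA (A.fam Λ).cl - 12 * finrank (KK k) X ∧
    (∀ σ : ℚ, ((A.fam Λ).map X.mkQ).MinGe HA σ →
      ((A.fam Λ).comap X.subtype).MinGe HA (σ + 12) → (A.fam Λ').MinGe HA σ) ∧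
    ∀ σ : ℚ, (A.fam Λ').MinGe HA σ → ((A.fam Λ).comap X.subtype).MinGe HA (σ + 12) := by
  let α : A.Fib Λ →ₗ[KK k] A.Fib Λ' := Submodule.mapQ _ _ (Submodule.inclusion hle) (by
    rintro w ⟨u, hu, he⟩
    exact ⟨u, hle hu, he⟩)
  have hα : ∀ w : Λ, α (Submodule.Quotient.mk w) = Submodule.Quotient.mk ⟨w, hle w.2⟩ :=
    fun _ => rfl
  let β : A.Fib Λ' →ₗ[KK k] A.Fib Λ := Submodule.mapQ _ _ (A.T.toLinearMap.restrict hT) (by
    rintro w ⟨u, hu, he⟩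
    exact ⟨A.T u, hT u hu, congrArg A.T he⟩)
  have hβ : ∀ w : Λ', β (Submodule.Quotient.mk w) = Submodule.Quotient.mk ⟨A.T w, hT w w.2⟩ :=
    fun _ => rfl
  have hβ0 : ∀ w : Λ', β (Submodule.Quotient.mk w) = 0 ↔ (w : W) ∈ Λ := fun w => by
    rw [hβ, A.l2c_mk_eq_zero]
    refine ⟨?_, fun hw => ⟨w, hw, rfl⟩⟩
    rintro ⟨u, hu, he⟩
    rw [← A.T.injective he]
    exact hu
  have hsucc : ∀ m c μ, A.T (A.χ m c μ) = A.χ (m - 1) c μ := fun m c μ => by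
    rw [← A.χ_succ (m - 1), sub_add_cancel]
  refine L2c_abs (A.fam_FG hΛ) (A.fam_spans hΛ) (A.fam_FG hΛ') (A.fam_spans hΛ') α β X
    (fun v => ?_) (fun v' => ?_) (fun v => ?_) ?_ ?_ ?_ ?_
  · obtain ⟨w, rfl⟩ := Submodule.Quotient.mk_surjective _ v
    rw [hX, hα, A.l2c_mk_eq_zero]
  · obtain ⟨w, rfl⟩ := Submodule.Quotient.mk_surjective _ v'
    refine ⟨fun h0 => ⟨Submodule.Quotient.mk ⟨w, (hβ0 w).1 h0⟩, rfl⟩, ?_⟩
    rintro ⟨v, hv⟩
    obtain ⟨u, rfl⟩ := Submodule.Quotient.mk_surjective _ v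
    rw [← hv, hα, hβ0]
    exact u.2
  · obtain ⟨w, rfl⟩ := Submodule.Quotient.mk_surjective _ v
    constructor
    · intro h0
      rw [hα, A.l2c_mk_eq_zero] at h0
      obtain ⟨u, hu, he⟩ := h0
      exact ⟨Submodule.Quotient.mk ⟨u, hu⟩, by rw [hβ]; congr 1; exact Subtype.ext he⟩
    · rintro ⟨v', hv'⟩
      obtain ⟨u, rfl⟩ := Submodule.Quotient.mk_surjective _ v'
      rw [← hv', hβ, hα, A.l2c_mk_eq_zero]
      exact ⟨u, u.2, rfl⟩
  · intro m c v' h0 hv'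
    obtain ⟨μ, hμ, rfl⟩ := (A.mem_fam_iff Λ' m c v').1 hv'
    exact ⟨_, (A.mem_fam_iff Λ m c _).2 ⟨μ, (hβ0 _).1 h0, rfl⟩, rfl⟩
  · intro m c v hv
    obtain ⟨μ, hμ, rfl⟩ := (A.mem_fam_iff Λ m c v).1 hv
    exact (A.mem_fam_iff Λ' m c _).2 ⟨μ, hle hμ, rfl⟩
  · intro m c v h0 hv
    obtain ⟨μ, hμ, rfl⟩ := (A.mem_fam_iff Λ (m - 1) c v).1 hv
    rw [hα, A.l2c_mk_eq_zero] at h0
    obtain ⟨u, hu, he⟩ := h0
    have h3 : A.χ m c μ ∈ Λ' := by
      rw [← A.T.injective (he.trans (hsucc m c μ).symm)]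
      exact hu
    refine ⟨_, (A.mem_fam_iff Λ' m c _).2 ⟨μ, h3, rfl⟩, ?_⟩
    rw [hβ]
    congr 1
    exact Subtype.ext (hsucc m c μ)
  · intro m c v' hv'
    obtain ⟨μ, hμ, rfl⟩ := (A.mem_fam_iff Λ' m c v').1 hv'
    refine (A.mem_fam_iff Λ (m - 1) c _).2 ⟨μ, hsucc m c μ ▸ hT _ hμ, ?_⟩
    rw [hβ]
    congr 1
    exact Subtype.ext (hsucc m c μ)

omit [IsScalarTower k (PS k) M] [Module.Finite (PS k) M] [IsScalarTower k (KK k) W] in
theorem T_pow_succ (N : ℕ) (w : W) : (A.T ^ (N + 1)) w = A.T ((A.T ^ N) w) := by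
  rw [pow_succ']; rfl

omit [IsScalarTower k (PS k) M] [Module.Finite (PS k) M] [IsScalarTower k (KK k) W] in
theorem T_pow_succ' (N : ℕ) (w : W) : (A.T ^ (N + 1)) w = (A.T ^ N) (A.T w) := by
  rw [pow_succ]; rfl

theorem exists_up {Λ : Submodule (KK k) W} (hΛ : A.IsLat Λ) {σ : ℚ}
    (hm : (haveI := A.fib_fd hΛ; (A.fam Λ).MinGe HA σ)) :
    ∃ Λ', ∃ hΛ' : A.IsLat Λ', (haveI := A.fib_fd hΛ'; (A.fam Λ').MinGe HA (σ + 12)) := by
  obtain ⟨hT, N, hN1, hN2⟩ := id hΛ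
  have hle : Λ.map A.T.toLinearMap ≤ Λ := by
    rintro _ ⟨u, hu, rfl⟩
    exact hT u hu
  have h1 : A.IsLat (Λ.map A.T.toLinearMap) := by
    refine ⟨fun w hw => ⟨w, hle hw, rfl⟩, N + 1, fun w hw => ⟨_, hN1 w hw, ?_⟩, fun w hw => ?_⟩
    · rw [A.T_pow_succ]; rfl
    · rw [A.T_pow_succ']
      exact hN2 _ (hT _ (hle hw))
  refine ⟨_, h1, ?_⟩
  haveI := A.fib_fd hΛ
  haveI := A.fib_fd h1
  have m1 := (A.pair h1 hΛ hle (fun w hw => ⟨w, hw, rfl⟩) ⊤
    fun w => ⟨fun _ => w.2, fun _ => Submodule.mem_top⟩).2.2.2 σ hm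
  have m2 := m1.map D.eff_HA ((A.fam_FG h1).comap _ (Submodule.injective_subtype _))
    ((A.fam_spans h1).comap _) (Submodule.subtype ⊤) fun v => ⟨⟨v, Submodule.mem_top⟩, rfl⟩
  have e : ((A.fam (Λ.map A.T.toLinearMap)).comap (Submodule.subtype ⊤)).map
      (Submodule.subtype ⊤) = A.fam (Λ.map A.T.toLinearMap) := by
    ext a v
    constructor
    · rintro ⟨x, hx, rfl⟩
      exact hx
    · exact fun hv => ⟨⟨v, Submodule.mem_top⟩, hv, rfl⟩
  rw [e] at m2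
  exact m2

theorem exists_start (σ₀ : ℚ) :
    ∃ Λ, ∃ hΛ : A.IsLat Λ, (haveI := A.fib_fd hΛ; (A.fam Λ).MinGe HA σ₀) := by
  have h0 : A.IsLat A.Λ₀ := ⟨A.T_mem, 0, fun w hw => hw, fun w hw => hw⟩
  haveI := A.fib_fd h0
  obtain ⟨σ₁, h1⟩ := Fam.exists_minGe D.eff_HA (A.fam_FG h0) (A.fam_spans h0)
  have key : ∀ N : ℕ, ∃ Λ, ∃ hΛ : A.IsLat Λ,
      (haveI := A.fib_fd hΛ; (A.fam Λ).MinGe HA (σ₁ + N)) := by
    intro N
    induction N with
    | zero => exact ⟨_, h0, by simpa using h1⟩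
    | succ N ih =>
      obtain ⟨Λ, hΛ, hm⟩ := ih
      obtain ⟨Λ', hΛ', hm'⟩ := A.exists_up hΛ hm
      haveI := A.fib_fd hΛ'
      exact ⟨Λ', hΛ', hm'.mono (by push_cast; linarith)⟩
  obtain ⟨N, hN⟩ := exists_nat_ge (σ₀ - σ₁)
  obtain ⟨Λ, hΛ, hm⟩ := key N
  haveI := A.fib_fd hΛ
  exact ⟨Λ, hΛ, hm.mono (by linarith)⟩

end Amb

theorem Amb.exists_balanced (σ₀ : ℚ) : ∃ Λ : Submodule (KK k) W, A.IsLat Λ ∧
    ∃ _ : FiniteDimensional (KK k) (A.Fib Λ),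
      (A.fam Λ).MinGe HA σ₀ ∧ (A.fam Λ).MaxLe HA (σ₀ + 12) := by
  have hH := D.eff_HA
  have key : ∀ t : ℕ, ∀ Λ, ∀ hΛ : A.IsLat Λ,
      (haveI := A.fib_fd hΛ; (A.fam Λ).MinGe HA σ₀ ∧
        (HA (A.fam Λ).cl : ℚ) - σ₀ * finrank (KK k) (A.Fib Λ) < t) →
      ∃ Λ : Submodule (KK k) W, A.IsLat Λ ∧ ∃ _ : FiniteDimensional (KK k) (A.Fib Λ),
        (A.fam Λ).MinGe HA σ₀ ∧ (A.fam Λ).MaxLe HA (σ₀ + 12) := by
    intro t
    induction t with
    | zero =>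
      rintro Λ hΛ ⟨hm, ht⟩
      haveI := A.fib_fd hΛ
      have := hm ⊥
      rw [Fam.sdeg_bot hH, finrank_bot] at this
      push_cast at this ht
      linarith
    | succ t ih =>
      rintro Λ hΛ ⟨hm, ht⟩
      haveI := A.fib_fd hΛ
      by_cases hmax : (A.fam Λ).MaxLe HA (σ₀ + 12)
      · exact ⟨Λ, hΛ, inferInstance, hm, hmax⟩
      have hU := A.fam_FG hΛ
      have hs := A.fam_spans hΛ
      have hr : 0 < finrank (KK k) (A.Fib Λ) := by
        by_contra h0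
        haveI : Subsingleton (A.Fib Λ) := (finrank_zero_iff (R := KK k)).1 (by omega)
        refine hmax fun Y => ?_
        rw [Subsingleton.elim Y ⊥, Fam.sdeg_bot hH, finrank_bot]
        simp
      obtain ⟨X, hX0, hX⟩ := Fam.exists_max_slope hH hU hs hr
      have hX0' : (0 : ℚ) < finrank (KK k) X := by exact_mod_cast hX0
      have hμ : σ₀ + 12 ≤ ((A.fam Λ).sdeg HA X : ℚ) / finrank (KK k) X := by
        by_contra hcon
        exact hmax (hX.mono (not_le.1 hcon).le)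
      have m1 := (hX.minGe_comap hH hU hs X (div_mul_cancel₀ _ hX0'.ne').le).mono hμ
      have m2 := hm.map hH hU hs X.mkQ X.mkQ_surjective
      obtain ⟨hT, N, hN1, hN2⟩ := id hΛ
      let Λ' : Submodule (KK k) W :=
        ((X.comap (Submodule.mkQ _)).map Λ.subtype).comap A.T.toLinearMap
      have hT' : ∀ w ∈ Λ', A.T w ∈ Λ := by
        rintro w ⟨u, -, he⟩
        exact (show (u : W) = A.T w from he) ▸ u.2
      have hle : Λ ≤ Λ' := fun w hw => by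
        refine ⟨⟨A.T w, hT w hw⟩, ?_, rfl⟩
        change (Submodule.Quotient.mk ⟨A.T w, hT w hw⟩ : A.Fib Λ) ∈ X
        rw [(A.l2c_mk_eq_zero ⟨A.T w, hT w hw⟩).2 ⟨w, hw, rfl⟩]
        exact X.zero_mem
      have hΛ' : A.IsLat Λ' := by
        refine ⟨fun w hw => hle (hT' w hw), N + 1, fun w hw => ?_, fun w hw => ?_⟩
        · rw [A.T_pow_succ]
          exact hle (hT _ (hN1 w hw))
        · rw [A.T_pow_succ']
          exact hN2 _ (hT' w hw)
      haveI := A.fib_fd hΛ'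
      obtain ⟨e1, e2, e3, -⟩ := A.pair hΛ hΛ' hle hT' X fun w => by
        constructor
        · intro hw
          refine ⟨A.T.symm w, ⟨w, hw, ?_⟩, A.T.apply_symm_apply w⟩
          exact (A.T.apply_symm_apply (w : W)).symm
        · rintro ⟨u, ⟨w', hw', he⟩, he'⟩
          have : w' = w := Subtype.ext (he.trans he')
          exact this ▸ hw'
      refine ih Λ' hΛ' ⟨e3 σ₀ m2 m1, ?_⟩
      have h1 : (1 : ℚ) ≤ finrank (KK k) X := by exact_mod_cast hX0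
      rw [e1, e2]
      push_cast at ht ⊢
      linarith
  obtain ⟨Λ, hΛ, hm⟩ := A.exists_start σ₀
  haveI := A.fib_fd hΛ
  obtain ⟨t, ht⟩ := exists_nat_gt ((HA (A.fam Λ).cl : ℚ) - σ₀ * finrank (KK k) (A.Fib Λ))
  exact key t Λ hΛ ⟨hm, ht⟩

end Vale.Agent.P190
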