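import Vale.Agent.P190.Bog
import Vale.Agent.P190.L2a
import Vale.Agent.P190.L2c

/-! P190: final assembly. -/

namespace Vale.Agent.P190

open Module Filter

section count

variable {D : DP QQ 80000} {h : Hs D}
variable {V : Type} [AddCommGroup V] [Module (KK QQ) V] [Module QQ V] [IsScalarTower QQ (KK QQ) V]
variable [FiniteDimensional (KK QQ) V]

theorem no_model {M : Type} [AddCommGroup M] [Module (PS QQ) M] [Module QQ M]
    [IsScalarTower QQ (PS QQ) M] [Module.Finite (PS QQ) M] {U : Fam D.S V} (Mo : Model h M U)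
    (hU : U.FG) (hs : U.Spans) (hr : 0 < finrank (KK QQ) V)
    (hmin : U.MinGe HA (3 * (80000 : ℕ) - 6)) (hmax : U.MaxLe HA (3 * (80000 : ℕ) + 6))
    (hK : ∀ q : ℕ, 0 < q → Kos2 M ((MvPowerSeries.X 0 : PS QQ) ^ q) (MvPowerSeries.X 1 ^ q)
      (MvPowerSeries.X 2 ^ q)) : False := by
  obtain ⟨g, hg⟩ := exists_hasRR hU hs
  obtain ⟨m₀', hm₀⟩ := Mo.top
  obtain ⟨m₁', hm₁⟩ := eventually_atTop.1 (h.tdim_zero hU)
  set m₁ : ℤ := max m₁' 7001 with hm₁def
  have hdFG := dag_FG h (U := U) hs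
  have hdsp := dag_spans h (U := U) hU
  have hdmax := dag_maxLe h D.eff_HA hU hs hmin
  have hcl := h.dag_fam_cl
  -- choose q
  have E1 : ∀ᶠ q : ℕ in atTop, ∀ m ∈ Finset.Ico (7001 : ℤ) m₁, ∀ c : Fin 5 → Fin 80000,
      h.tdim q U (cst m + lamv fun j => (c j : ℤ)) ≤
        finrank QQ ((dag h U).U (-(cst m + lamv fun j => (c j : ℤ)) - cst (3 * (80000 : ℕ)))) := by
    rw [eventually_all_finset]
    intro m _
    rw [eventually_all]
    intro c
    exact h.tdim_le hU hs _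
  have E2 : ∀ i : ℕ, 0 < i → ∀ᶠ q : ℕ in atTop, ∀ m ∈ Finset.Ico (-7000 : ℤ) 7001,
      (hh 80000 U (cst m + cst (i * q * (80000 : ℕ))) : ℚ) =
        RR 80000 (finrank (KK QQ) V) U.cl g (cst m + cst (i * q * (80000 : ℕ))) := by
    intro i hi
    rw [eventually_all_finset]
    intro m _
    have ht : Tendsto (fun q : ℕ => (i : ℤ) * q * (80000 : ℕ)) atTop atTop := by
      refine tendsto_atTop_mono (fun q => ?_) (tendsto_natCast_atTop_atTop (R := ℤ))
      have h1 : (1 : ℤ) ≤ i := by exact_mod_cast hi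
      have h2 : (0 : ℤ) ≤ q := Int.natCast_nonneg q
      push_cast
      nlinarith
    exact ht.eventually (hg (cst m))
  have E3 : ∀ᶠ q : ℕ in atTop, m₀' - q * (80000 : ℕ) ≤ -7000 := by
    filter_upwards [eventually_ge_atTop (m₀' + 7000).toNat] with q hq
    have : m₀' + 7000 ≤ q := by omega
    have h2 : (0 : ℤ) ≤ q := Int.natCast_nonneg q
    push_cast
    nlinarith
  obtain ⟨q, hq0, hq1, hq21, hq22, hq23, hq3⟩ := ((eventually_gt_atTop 0).and (E1.and
    ((E2 1 one_pos).and ((E2 2 two_pos).and ((E2 3 three_pos).and E3))))).exists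
  set m₀ : ℤ := m₀' - q * (80000 : ℕ) with hm₀def
  have key : ∀ c : Fin 5 → Fin 80000, _ := fun c =>
    Mo.koszul hU (fun j => (c j : ℤ)) q (hK q hq0) m₀ (-7000) 7001 m₁
      (by rw [hm₀def, sub_add_cancel]; exact hm₀ _) hq3 (by norm_num) (le_max_right _ _)
      (fun m hm => hm₁ m ((le_max_left _ _).trans hm) _ q hq0)
  have hsum := Finset.sum_le_sum (s := Finset.univ) fun c _ => key c
  rw [Finset.sum_add_distrib, Finset.sum_comm, Finset.sum_comm (t := Finset.Ico m₀ (-7000)),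
    Finset.sum_comm (t := Finset.Ico 7001 m₁)] at hsum
  -- left side
  have hL : ∀ m ∈ Finset.Ico (-7000 : ℤ) 7001, ((∑ c : Fin 5 → Fin 80000,
      (3 * (finrank QQ (U.U (cst m + lamv (fun j => (c j : ℤ)) + cst (2 * q * (80000 : ℕ)))) : ℤ) -
        finrank QQ (U.U (cst m + lamv (fun j => (c j : ℤ)) + cst (3 * q * (80000 : ℕ)))) -
        3 * finrank QQ (U.U (cst m + lamv (fun j => (c j : ℤ)) + cst (q * (80000 : ℕ))))) : ℤ) : ℚ) =
      -RR 80000 (finrank (KK QQ) V) U.cl g (cst m) := by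
    intro m hm
    have e1 := hq21 m hm
    have e2 := hq22 m hm
    have e3 := hq23 m hm
    have e := RR_third_diff 80000 (finrank (KK QQ) V) g U.cl (cst m) (q * (80000 : ℕ))
    have ec : ∀ t : ℤ, ∑ c : Fin 5 → Fin 80000,
        (finrank QQ (U.U (cst m + lamv (fun j => (c j : ℤ)) + cst t)) : ℤ) =
          hh 80000 U (cst m + cst t) := by
      intro t
      rw [hh, Nat.cast_sum]
      exact Finset.sum_congr rfl fun c _ => by rw [add_right_comm]
    rw [Finset.sum_sub_distrib, Finset.sum_sub_distrib, ← Finset.mul_sum, ← Finset.mul_sum,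
      ec, ec, ec]
    rw [← mul_assoc, ← mul_assoc] at e
    simp only [Nat.cast_one, one_mul] at e1
    push_cast at e e1 e2 e3 ⊢
    rw [e1, e2, e3]
    linarith
  have hS : ∀ m ∈ Finset.Ico m₀ (-7000), ((∑ c : Fin 5 → Fin 80000,
      h.sdim q U (cst m + lamv fun j => (c j : ℤ)) : ℤ) : ℚ) ≤
      finrank (KK QQ) V * Phi 80000 (3 * 80000 + 6 + 12 * m) := by
    intro m _
    refine le_trans ?_ (D.boundB hU hs hmax (cst m) _ (by rw [HA_cst]; push_cast; linarith))
    have : ∑ c : Fin 5 → Fin 80000, h.sdim q U (cst m + lamv fun j => (c j : ℤ)) ≤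
        (hh 80000 U.hull (cst m) : ℤ) := by
      rw [hh, Nat.cast_sum]
      refine Finset.sum_le_sum fun c _ => ?_
      have := hU.hull.fd (cst m + lamv fun j => (c j : ℤ))
      exact Int.ofNat_le.2 (Submodule.finrank_mono (h.sat_le_hull U q _))
    exact_mod_cast this
  have hT : ∀ m ∈ Finset.Ico (7001 : ℤ) m₁, ((∑ c : Fin 5 → Fin 80000,
      h.tdim q U (cst m + lamv fun j => (c j : ℤ)) : ℤ) : ℚ) ≤
      finrank (KK QQ) V * Phi 80000 (3 * 80000 + 6 - 12 * m) := by
    intro m hm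
    have hb := D.boundB hdFG hdsp hdmax (-cst m - cst (3 * (80000 : ℕ))) (3 * 80000 + 6 - 12 * m)
      (by
        have : (HA (dag h D.S.fam).cl : ℚ) ≤ 42 * 80000 - 12 := by exact_mod_cast hcl
        rw [map_sub, map_neg, HA_cst, HA_cst]; push_cast; linarith)
    rw [finrank_dag] at hb
    refine le_trans ?_ hb
    have : ∑ c : Fin 5 → Fin 80000, h.tdim q U (cst m + lamv fun j => (c j : ℤ)) ≤
        (hh 80000 (dag h U).hull (-cst m - cst (3 * (80000 : ℕ))) : ℤ) := by
      refine le_trans ?_ (Int.ofNat_le.2 (DP.hh_mono hdFG.hull (Fam.le_hull _) _))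
      rw [← DP.hh_eq_sum_neg, Nat.cast_sum]
      refine Finset.sum_le_sum fun c _ => ?_
      have e : -cst m - cst (3 * (80000 : ℕ)) - lamv (fun j => (c j : ℤ)) =
          -(cst m + lamv fun j => (c j : ℤ)) - cst (3 * (80000 : ℕ)) := by abel
      rw [e]
      exact hq1 m hm c
    exact_mod_cast this
  have hchi := chi_bound D hU hs hg hmin hmax 7000
  have hnum := numerics m₀ m₁
  have hsumQ := (Int.cast_le (R := ℚ)).2 hsum
  rw [Int.cast_add, Int.cast_sum, Int.cast_sum, Int.cast_sum, Finset.sum_congr rfl hL] at hsumQ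
  have h1 := Finset.sum_le_sum hS
  have h2 := Finset.sum_le_sum hT
  rw [← Finset.mul_sum] at h1 h2
  have hI : Finset.Ico (-7000 : ℤ) 7001 = Finset.Icc (-((7000 : ℕ) : ℤ)) (7000 : ℕ) := by
    ext x; simp only [Finset.mem_Ico, Finset.mem_Icc]; omega
  rw [Finset.sum_neg_distrib, hI] at hsumQ
  have hrQ : (0 : ℚ) < finrank (KK QQ) V := by exact_mod_cast hr
  have := mul_lt_mul_of_pos_left hnum hrQ
  rw [mul_add] at this
  linarith

end count

theorem exists_no_mcm : ∃ (R : Type) (_ : CommRing R) (_ : IsLocalRing R) (_ : IsNoetherianRing R)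
    (_ : IsDomain R) (_ : IsAdicComplete (IsLocalRing.maximalIdeal R) R),
    (3 : WithBot ℕ∞) ≤ ringKrullDim R ∧
    ∀ (M : Type) [AddCommGroup M] [Module R M] [Module.Finite R M] [Nontrivial M] (f₁ f₂ f₃ : R),
      f₁ ∈ IsLocalRing.maximalIdeal R → f₂ ∈ IsLocalRing.maximalIdeal R →
      f₃ ∈ IsLocalRing.maximalIdeal R → ¬ RingTheory.Sequence.IsWeaklyRegular M [f₁, f₂, f₃] := by
  obtain ⟨D⟩ := exists_DP QQ (n := 80000) (by norm_num)
  obtain ⟨h⟩ := D.exists_hs
  obtain ⟨E⟩ := h.exists_emb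
  have := E.isLocalRing
  refine ⟨E.SS, inferInstance, this, E.isNoetherianRing, inferInstance, E.complete,
    E.three_le_dim, ?_⟩
  intro M _ _ _ _ f₁ f₂ f₃ h₁ h₂ h₃ hreg
  letI : Module (PS QQ) M := Module.compHom M (algebraMap (PS QQ) E.SS)
  haveI : IsScalarTower (PS QQ) E.SS M := IsScalarTower.of_algebraMap_smul fun _ _ => rfl
  letI : Module QQ M := Module.compHom M (algebraMap QQ (PS QQ))
  haveI : IsScalarTower QQ (PS QQ) M := IsScalarTower.of_algebraMap_smul fun _ _ => rfl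
  haveI := E.finite
  haveI : Module.Finite (PS QQ) M := Module.Finite.trans E.SS M
  have hK : ∀ q : ℕ, 0 < q → Kos2 M ((MvPowerSeries.X 0 : PS QQ) ^ q) (MvPowerSeries.X 1 ^ q)
      (MvPowerSeries.X 2 ^ q) := by
    intro q hq
    have := kos2_of_regular (M := M) f₁ f₂ f₃ (algebraMap (PS QQ) E.SS (MvPowerSeries.X 0 ^ q))
      (algebraMap (PS QQ) E.SS (MvPowerSeries.X 1 ^ q))
      (algebraMap (PS QQ) E.SS (MvPowerSeries.X 2 ^ q)) hreg (by
        intro f hf
        simp only [List.mem_cons, List.not_mem_nil, or_false] at hf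
        rcases hf with rfl | rfl | rfl
        exacts [E.nilp h₁ hq, E.nilp h₂ hq, E.nilp h₃ hq])
    exact this
  haveI : Module.Free (PS QQ) M := free_of_kos2 M (by simpa using hK 1 one_pos)
  obtain ⟨W, _, _, _, _, ⟨A⟩⟩ := E.exists_amb M
  obtain ⟨Λ, hΛ, _, hmin, hmax⟩ := A.exists_balanced (3 * (80000 : ℕ) - 6)
  obtain ⟨Mo⟩ := A.exists_model hΛ
  refine no_model Mo (A.fam_FG hΛ) (A.fam_spans hΛ) (A.fib_pos hΛ) hmin (hmax.mono ?_) hK
  push_cast
  norm_num

end Vale.Agent.P190
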