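import Mathlib

/-! P190, part PB1: sections of a globally generated bundle on the projective line. -/

namespace Vale.Agent.P190

open Module Polynomial Matrix

theorem p1_sub {k : Type} [Field k] [Infinite k] {ι : Type} [Fintype ι] [DecidableEq ι] (δ : ℕ) :
    ∀ (U : Submodule k (ι → k[X])) [FiniteDimensional k U] (p : k[X]),
      (∀ v : Matrix ι ι k[X], (∀ j, v j ∈ U) → ∃ q : k[X], q.degree < δ ∧ v.det = p * q) →
      ∀ b : Matrix ι ι k[X], (∀ j, b j ∈ U) → b.det ≠ 0 → finrank k U + 1 ≤ Fintype.card ι + δ := by
  induction δ with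
  | zero =>
    intro U _ p hG b hb hb0
    obtain ⟨q, hq, e⟩ := hG b hb
    rw [Nat.cast_zero, Nat.WithBot.lt_zero_iff, degree_eq_bot] at hq
    rw [hq, mul_zero] at e
    exact absurd e hb0
  | succ δ ih =>
    intro U _ p hG b hb hb0
    obtain ⟨α, hα⟩ : ∃ α, eval α b.det ≠ 0 := by
      by_contra h
      push Not at h
      exact hb0 (zero_of_eval_zero _ h)
    let μ : ι → (ι → k[X]) →ₗ[k] k := fun i =>
      (leval α).comp (((LinearMap.proj i).comp (cramer bᵀ)).restrictScalars k)
    have hμ : ∀ i v, μ i v = eval α (cramer bᵀ v i) := fun i v => by simp [μ]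
    by_cases hc : ∃ i, ∃ v ∈ U, cramer bᵀ v i ≠ 0 ∧ μ i v = 0
    · obtain ⟨i, v, hv, hv0, hv1⟩ := hc
      have hp : eval α p ≠ 0 := by
        obtain ⟨q, -, e⟩ := hG b hb
        rw [e, eval_mul] at hα
        exact left_ne_zero_of_mul hα
      have h1 := ih (U ⊓ LinearMap.ker (μ i)) (p * (X - C α)) (fun w hw => by
        obtain ⟨q, hq, e⟩ := hG w fun j => (hw j).1
        have h0 : eval α w.det = 0 := by
          have e1 : eval α w.det = (w.map (eval α)).det := (evalRingHom α).map_det w
          rw [e1, ← Matrix.exists_mulVec_eq_zero_iff]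
          have e2 : ∀ x : ι → k[X], μ i x = ∑ j, eval α (x j) * eval α (adjugate bᵀ i j) := by
            intro x
            rw [hμ, cramer_eq_adjugate_mulVec, mulVec, dotProduct, eval_finsetSum]
            exact Finset.sum_congr rfl fun j _ => by rw [eval_mul, mul_comm]
          refine ⟨fun j => eval α (adjugate bᵀ i j), fun h => hα ?_, ?_⟩
          · have := e2 (b i)
            rw [hμ, cramer_transpose_apply, updateRow_eq_self] at this
            rw [this]
            exact Finset.sum_eq_zero fun j _ => by rw [congrFun h j]; simp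
          · funext l
            exact (e2 (w l)).symm.trans (hw l).2
        rw [e, eval_mul] at h0
        obtain ⟨q', rfl⟩ := dvd_iff_isRoot.2 ((mul_eq_zero.1 h0).resolve_left hp)
        refine ⟨q', ?_, by rw [e, mul_assoc]⟩
        rcases eq_or_ne q' 0 with rfl | hq'
        · simp
        · rw [degree_mul, degree_X_sub_C, degree_eq_natDegree hq'] at hq
          rw [degree_eq_natDegree hq']
          norm_cast at hq ⊢
          omega) (b.updateRow i v) (fun j => by
            by_cases hj : j = i
            · subst hj
              rw [updateRow_self]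
              exact ⟨hv, hv1⟩
            · rw [updateRow_ne hj]
              refine ⟨hb j, ?_⟩
              show μ i (b j) = 0
              rw [hμ, cramer_transpose_apply, det_updateRow_eq_zero hj, eval_zero])
        (by rwa [cramer_transpose_apply] at hv0)
      have h2 := ((μ i).domRestrict U).finrank_range_add_finrank_ker
      have h3 : finrank k (LinearMap.range ((μ i).domRestrict U)) ≤ 1 :=
        (Submodule.finrank_le _).trans (finrank_self k).le
      have h4 : finrank k (LinearMap.ker ((μ i).domRestrict U)) =
          finrank k ↥(U ⊓ LinearMap.ker (μ i)) := by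
        rw [LinearMap.ker_domRestrict, ← Submodule.finrank_map_subtype_eq, Submodule.map_comap_subtype]
      omega
    · push Not at hc
      have h1 := LinearMap.finrank_le_finrank_of_injective
        (f := (LinearMap.pi μ).domRestrict U) ((injective_iff_map_eq_zero _).2 fun v hv => by
          have h2 : cramer bᵀ v.1 = 0 := by
            funext i
            by_contra h
            exact hc i v v.2 h (congrFun hv i)
          have h3 := mulVec_cramer bᵀ v.1
          rw [h2, mulVec_zero, det_transpose] at h3
          exact Subtype.ext ((smul_eq_zero.1 h3.symm).resolve_left hb0))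
      rw [finrank_fintype_fun_eq_card] at h1
      omega

theorem p1_lemma {k : Type} [Field k] [Infinite k] {ι : Type} [Fintype ι] [DecidableEq ι]
    (δ : ℕ) (G : Set (ι → k[X])) (p : k[X]) (hp : p ≠ 0)
    (hG : ∀ v : ι → ι → k[X], (∀ j, v j ∈ G) →
      ∃ q : k[X], q.natDegree ≤ δ ∧ (Matrix.of v).det = p * q)
    (hne : ∃ v : ι → ι → k[X], (∀ j, v j ∈ G) ∧ (Matrix.of v).det ≠ 0)
    [FiniteDimensional k (Submodule.span k G)] :
    finrank k (Submodule.span k G) ≤ Fintype.card ι + δ := by
  have _ := hp
  obtain ⟨b, hb, hb0⟩ := hne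
  let N : Submodule k k[X] := (degreeLT k (δ + 1)).map (LinearMap.mulLeft k p)
  have key : ∀ (s : Finset ι) (v : Matrix ι ι k[X]), (∀ j ∈ s, v j ∈ Submodule.span k G) →
      (∀ j, j ∉ s → v j ∈ G) → v.det ∈ N := by
    intro s
    induction s using Finset.induction_on with
    | empty =>
      intro v _ hv
      obtain ⟨q, hq, e⟩ := hG v fun j => hv j (by simp)
      refine ⟨q, mem_degreeLT.2 (lt_of_le_of_lt degree_le_natDegree ?_), e.symm⟩
      exact_mod_cast Nat.lt_succ_of_le hq
    | insert a s ha ih =>
      intro v h1 h2
      have h3 : Submodule.span k G ≤ N.comap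
          (((LinearMap.proj a).comp (cramer vᵀ)).restrictScalars k) := by
        refine Submodule.span_le.2 fun x hx => ?_
        show cramer vᵀ x a ∈ N
        rw [cramer_transpose_apply]
        refine ih _ (fun j hj => ?_) fun j hj => ?_
        · rw [updateRow_ne (ne_of_mem_of_not_mem hj ha)]
          exact h1 j (Finset.mem_insert_of_mem hj)
        · by_cases hja : j = a
          · subst hja
            rwa [updateRow_self]
          · rw [updateRow_ne hja]
            exact h2 j (by simp [hja, hj])
      have h4 : cramer vᵀ (v a) a ∈ N := h3 (h1 a (Finset.mem_insert_self _ _))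
      rwa [cramer_transpose_apply, updateRow_eq_self] at h4
  have := p1_sub (δ + 1) (Submodule.span k G) p (fun v hv => by
    obtain ⟨q, hq, e⟩ := key Finset.univ v (fun j _ => hv j) (by simp)
    exact ⟨q, mem_degreeLT.1 hq, e.symm⟩) (Matrix.of b) (fun j => Submodule.subset_span (hb j)) hb0
  omega

end Vale.Agent.P190
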