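import Vale.Agent.P190.PB2a
import Vale.Agent.P190.G4

/-! P190, part PB2: peeling off one hexagon curve. -/

namespace Vale.Agent.P190

open Module

section generic

variable {k K Γ : Type} [Field k] [Field K] [Algebra k K] [AddCommGroup Γ] {S : Sys k K Γ}
variable {V : Type} [AddCommGroup V] [Module K V] [Module k V] [IsScalarTower k K V]
variable {W : Type} [AddCommGroup W] [Module K W] [Module k W] [IsScalarTower k K W]
variable [FiniteDimensional K V] [FiniteDimensional K W]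

theorem pb2_ge_det {U : Fam S W} (hU : U.FG) (hs : U.Spans) {s : ℕ} (e : Basis (Fin s) K W)
    {γ : Γ} {c : K} (hc : c ≠ 0) (P : S.Pl)
    (hn : ∀ (b' : Basis (Fin s) K W) (d' : Fin s → Γ), U.IsOpt P b' d' →
      S.val P (∑ l, d' l + γ) (c * e.det b') = 0)
    (a : Fin s → Γ) (v : Fin s → W) (hv : ∀ l, v l ∈ U.U (a l)) :
    S.Ge P (∑ l, a l + γ) (c * e.det v) 0 := by
  obtain ⟨b', d', hb'⟩ := Fam.exists_opt hU hs P (ι := Fin s) (finrank_eq_card_basis e).symm
  have h1 := Sys.ge_det P (b'.toMatrix v) d' a (fun _ => 0) fun i j => hb'.2 _ _ (hv j) i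
  have h2 : e.det v = e.det b' * b'.det v := by
    have := congrArg (fun f => f v) (AlternatingMap.eq_smul_basis_det b' e.det)
    simpa using this
  have h3 : S.Ge P (∑ l, d' l + γ) (c * e.det b') 0 := Or.inr (hn b' d' hb').ge
  have h4 := h3.mul h1
  rw [← Basis.det_apply, mul_assoc, ← h2] at h4
  simpa [show ∑ l, d' l + γ + (∑ j, a j - ∑ i, d' i) = ∑ l, a l + γ by abel] using h4

theorem pb2_isOpt_hull {U : Fam S V} {P : S.Pl} {ι : Type} [Finite ι] {b : Basis ι K V} {d : ι → Γ}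
    (hb : U.IsOpt P b d) : U.hull.IsOpt P b d :=
  ⟨fun i => Fam.le_hull U _ (hb.1 i), fun a v hv => (hb.locMem_iff a v).1 (hv P)⟩

end generic

variable {k : Type} [Field k] {n : ℕ}
variable {V : Type} [AddCommGroup V] [Module (KK k) V] [Module k V] [IsScalarTower k (KK k) V]
variable [FiniteDimensional (KK k) V]

theorem DP.ge_emod (D : DP k n) (i : Fin 10) {a : ZZ} {φ : KK k} (h : D.S.Ge (D.sp i) a φ 0) :
    D.S.Ge (D.sp i) a φ (a i % n) := by
  rcases h with h | h
  · exact Or.inl h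
  right
  rw [D.val_sp] at h ⊢
  have hn : (0 : ℤ) < n := by exact_mod_cast D.n_pos
  have h1 := Int.mul_ediv_add_emod (a i) n
  have h2 := Int.emod_lt_of_pos (a i) hn
  have h3 : 0 ≤ D.v (D.sp i) φ + a i / n := by
    by_contra h3
    have : D.v (D.sp i) φ + a i / n ≤ -1 := by omega
    nlinarith
  nlinarith

theorem DP.mid_bound (D : DP k n) {U : Fam D.S V} {W : Type} [AddCommGroup W] [Module (KK k) W]
    [Module k W] [IsScalarTower k (KK k) W] [FiniteDimensional (KK k) W] (α : W →ₗ[KK k] V)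
    (hα : Function.Injective α) {s : ℕ} (e : Basis (Fin s) (KK k) W) (γ : ZZ) (c : KK k)
    (hc : c ≠ 0) (i : Fin 10)
    (hn : ∀ (b' : Basis (Fin s) (KK k) W) (d' : Fin s → ZZ), (U.comap α).IsOpt (D.sp i) b' d' →
      D.S.val (D.sp i) (∑ l, d' l + γ) (c * e.det b') = 0)
    {ι : Type} [Fintype ι] (b : Basis ι (KK k) V) (d : ι → ZZ) (hb : U.IsOpt (D.sp i) b d)
    (t : ℤ) : ∃ (I : Fin s → ι) (N : ℤ), Function.Injective I ∧
      n * N = s * t + γ i - ∑ l, (t - d (I l) i) % n ∧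
      ∀ (a : Fin s → ZZ) (v : Fin s → W), (∀ l, a l i = t) → (∀ l, α (v l) ∈ U.U (a l)) →
        e.det v ≠ 0 → -N ≤ D.v (D.sp i) (c * e.det v) := by
  classical
  have h1 := (Fam.loc_formula α hα e γ c hc (D.sp i) hn b d hb (D.S.val (D.sp i) γ c)).1 le_rfl
  have h2 := (Fam.loc_formula α hα e γ c hc (D.sp i) hn b d hb (D.S.val (D.sp i) γ c + 1)).not.1
    (by omega)
  push Not at h2
  obtain ⟨I, hI⟩ := h2
  set μ := Matrix.det (Matrix.of fun l l' => b.repr (α (e l')) (I l)) with hμ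
  have hμ0 : μ ≠ 0 := fun h => hI (Or.inl h)
  have hval : D.S.val (D.sp i) (-∑ l, d (I l)) μ = D.S.val (D.sp i) γ c := by
    have h3 := (h1 I).resolve_left hμ0
    have h4 : ¬ _ := fun h => hI (Or.inr h)
    rw [← hμ] at h3
    omega
  have hn0 : (0 : ℤ) < n := by exact_mod_cast D.n_pos
  have hN : n * (∑ l, (t - d (I l) i) / n + D.v (D.sp i) μ - D.v (D.sp i) c) =
      s * t + γ i - ∑ l, (t - d (I l) i) % n := by
    rw [D.val_sp, D.val_sp, Pi.neg_apply, Finset.sum_apply] at hval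
    have h5 : n * ∑ l, (t - d (I l) i) / n + ∑ l, (t - d (I l) i) % n =
        s * t - ∑ l, d (I l) i := by
      rw [Finset.mul_sum, ← Finset.sum_add_distrib]
      simp only [Int.mul_ediv_add_emod, Finset.sum_sub_distrib, Finset.sum_const, Finset.card_univ,
        Fintype.card_fin, nsmul_eq_mul]
    linarith
  refine ⟨I, _, fun l l' hl => ?_, hN, fun a v ha hv hv0 => ?_⟩
  · by_contra hne
    exact hμ0 (Matrix.det_zero_of_row_eq hne (by funext j; simp [hl]))
  have h6 := Sys.ge_det (D.sp i) (Matrix.of fun l l' => b.repr (α (v l')) (I l)) (fun l => d (I l)) a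
    (fun l => (t - d (I l) i) % n) fun l l' => by
      have := D.ge_emod i (hb.2 _ _ (hv l') (I l))
      rwa [Pi.sub_apply, ha] at this
  have h7 : (Matrix.of fun l l' => b.repr (α (v l')) (I l)) =
      (Matrix.of fun l l' => b.repr (α (e l')) (I l)) * e.toMatrix v := by
    ext l l'
    have := congrArg (fun z => b.repr (α z) (I l)) (e.sum_repr (v l'))
    simp only [map_sum, map_smul, Finsupp.coe_finsetSum, Finset.sum_apply, Finsupp.coe_smul,
      Pi.smul_apply, smul_eq_mul] at this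
    simp only [Matrix.mul_apply, Basis.toMatrix_apply, Matrix.of_apply, ← this]
    exact Finset.sum_congr rfl fun _ _ => mul_comm _ _
  rw [h7, Matrix.det_mul, ← hμ, ← Basis.det_apply] at h6
  have h8 := h6.resolve_left (mul_ne_zero hμ0 hv0)
  rw [D.val_sp, D.v_mul _ hμ0 hv0, Pi.sub_apply, Finset.sum_apply, Finset.sum_apply] at h8
  rw [D.v_mul _ hc hv0]
  rw [D.val_sp, D.val_sp, Pi.neg_apply, Finset.sum_apply] at hval
  simp only [ha, Finset.sum_const, Finset.card_univ, Fintype.card_fin, nsmul_eq_mul] at h8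
  refine le_of_mul_le_mul_left ?_ hn0
  linarith

/-- the weight along a ray of the hexagon -/
def wt (g : Fin 6) : ℤ × ℤ →+ ℤ where
  toFun m := (rho g).1 * m.1 + (rho g).2 * m.2
  map_zero' := by simp
  map_add' a b := by simp only [Prod.fst_add, Prod.snd_add]; ring

theorem wt_adj (g : Fin 6) (m : ℤ × ℤ) : wt (g - 1) m + wt (g + 1) m = wt g m := by
  fin_cases g <;> simp [wt, rho]

theorem wt_inj (g : Fin 6) : Function.Injective ((wt g).prod (wt (g + 1))) := by
  intro a b h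
  have h1 := congrArg Prod.fst h
  have h2 := congrArg Prod.snd h
  refine Prod.ext ?_ ?_ <;> fin_cases g <;> simp [wt, rho] at h1 h2 <;> omega

theorem lamv_hex (g : Fin 6) (x y : ℤ) : lamv ![x, y, 0, 0, 0] (hex g) = wt g (x, y) := by
  rw [lamv_eq]
  fin_cases g <;> simp [wt, rho, hex] <;> ring

theorem lamv_mid (i : Fin 3) (x y : ℤ) : lamv ![x, y, 0, 0, 0] (mid i) = 0 := by
  rw [lamv_eq]
  fin_cases i <;> simp [mid]

theorem lamv_mid' (i : Fin 3) (N : Fin 3 → ℤ) : lamv ![0, 0, N 0, N 1, N 2] (mid i) = N i := by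
  rw [lamv_eq]
  fin_cases i <;> simp [mid]

theorem HA_eq_sum (x : ZZ) : HA x = ∑ g, x (hex g) + 2 * ∑ i, x (mid i) := by
  simp [HA, Fin.sum_univ_succ, hex, mid]
  ring

theorem DP.min_wt (D : DP k n) {F : LL k} (hF : F ≠ 0) (g : Fin 6) :
    (∀ m ∈ F.coeff.support, D.v (D.sp (hex g)) (lev k F) ≤ wt g m) ∧
      ∃ m ∈ F.coeff.support, wt g m = D.v (D.sp (hex g)) (lev k F) := by
  have h1 := (D.v_hex F hF g _).1 le_rfl
  have h2 := (D.v_hex F hF g (D.v (D.sp (hex g)) (lev k F) + 1)).not.1 (by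
    change ¬ D.v (D.sp (hex g)) (lev k F) + 1 ≤ D.v (D.sp (hex g)) (lev k F)
    omega)
  push Not at h2
  obtain ⟨m, hm, h3⟩ := h2
  refine ⟨h1, m, hm, le_antisymm ?_ (h1 m hm)⟩
  change (rho g).1 * m.1 + (rho g).2 * m.2 ≤ _
  omega

theorem lev_zero : lev k 0 = 0 := by simp [lev]

theorem DP.peel (D : DP k n) [Infinite k] {U : Fam D.S V} (hU : U.FG) (hs : U.Spans) {σ : ℚ}
    (hm : U.MaxLe HA σ) {ι : Type} [Fintype ι] (b : Fin 3 → Basis ι (KK k) V)
    (d : Fin 3 → ι → ZZ) (hb : ∀ i, U.IsOpt (D.sp (mid i)) (b i) (d i)) (a : ZZ) (y : ℚ)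
    (hy : σ + HA a ≤ y) :
    ∃ g : Fin 6, (h2 n U.hull a : ℚ) ≤ h2 n U.hull (a - Pi.single (hex g) 1) + Fintype.card ι +
      (∑ i, ∑ l, max 0 (y / 3 - 2 * (((a (mid i) - d i l (mid i)) % n : ℤ) : ℚ))) / 6 := by
  classical
  have hn0 : (0 : ℤ) < n := by exact_mod_cast D.n_pos
  let cc : Fin n × Fin n → ℤ × ℤ := fun c => ((c.1 : ℤ), (c.2 : ℤ))
  let ac : Fin n × Fin n → ZZ := fun c => a + lamv ![(c.1 : ℤ), (c.2 : ℤ), 0, 0, 0]
  have hac : ∀ c g, ac c (hex g) = a (hex g) + wt g (cc c) := fun c g => by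
    simp only [ac, cc, Pi.add_apply, lamv_hex]
  have hac' : ∀ c i, ac c (mid i) = a (mid i) := fun c i => by
    simp only [ac, Pi.add_apply, lamv_mid, add_zero]
  let X : Submodule (KK k) V := Submodule.span (KK k) {v | ∃ c, v ∈ U.hull.U (ac c)}
  let UX : Fam D.S X := U.hull.comap X.subtype
  have hFG : UX.FG := hU.hull.comap _ X.subtype_injective
  have hsp : UX.Spans := (hs.mono (Fam.le_hull U)).comap _
  set s := finrank (KK k) X with hsdef
  let e : Basis (Fin s) (KK k) X := Module.finBasis (KK k) X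
  obtain ⟨cX, hcX, hnorm⟩ := (Fam.isClass_cl hFG hsp).exists_norm e
  have hγ : (HA UX.cl : ℚ) ≤ σ * s := by
    have := hm X
    rwa [← Fam.sdeg_hull D.eff_HA hU hs] at this
  choose I N hI hN hmid using fun i : Fin 3 => D.mid_bound X.subtype X.subtype_injective e UX.cl cX
    hcX (mid i) (hnorm _) (b i) (d i) (pb2_isOpt_hull (hb i)) (a (mid i))
  let cN : Fin 5 → ℤ := ![0, 0, N 0, N 1, N 2]
  let u₀ : KK k := cX * umon k cN
  have hu₀ : u₀ ≠ 0 := mul_ne_zero hcX (umon_ne_zero _)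
  let β : ZZ := (s : ℤ) • a + UX.cl - (n : ℤ) • lamv cN
  let ω : Fin 6 → (Fin s → Fin n × Fin n) → (Fin s → X) → ℤ := fun g c v =>
    n * D.v (D.sp (hex g)) (u₀ * e.det v) + wt g (∑ l, cc (c l))
  have hvu : ∀ P (v : Fin s → X), e.det v ≠ 0 →
      D.v P (u₀ * e.det v) = D.v P (cX * e.det v) + D.v P (umon k cN) := by
    intro P v hv
    rw [← D.v_mul P (mul_ne_zero hcX hv) (umon_ne_zero _)]
    congr 1
    simp only [u₀]; ring
  have hge : ∀ (c : Fin s → Fin n × Fin n) (v : Fin s → X), (∀ l, v l ∈ UX.U (ac (c l))) →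
      e.det v ≠ 0 → ∀ P, 0 ≤ D.S.val P (∑ l, ac (c l) + UX.cl) (cX * e.det v) :=
    fun c v hv h0 P => (pb2_ge_det hFG hsp e hcX P (hnorm P) _ v hv).resolve_left
      (mul_ne_zero hcX h0)
  have hlaur : ∀ (c : Fin s → Fin n × Fin n) (v : Fin s → X), (∀ l, v l ∈ UX.U (ac (c l))) →
      ∃ F : LL k, lev k F = u₀ * e.det v := by
    intro c v hv
    by_cases h0 : e.det v = 0
    · exact ⟨0, by rw [h0, mul_zero, lev_zero]⟩
    refine D.laurent _ (mul_ne_zero hu₀ h0) fun P hP hP9 => ?_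
    rw [hvu P v h0]
    by_cases hsp : P ∈ Set.range D.sp
    · obtain ⟨j, rfl⟩ := hsp
      obtain ⟨i, rfl⟩ : ∃ i, j = mid i := by
        have h1 : ∀ g : Fin 6, j ≠ g.castLE (by norm_num) := fun g h => hP g (by rw [h])
        have h2 : j ≠ 9 := fun h => hP9 (by rw [h])
        revert h1 h2
        fin_cases j <;> decide
      have := hmid i (fun l => ac (c l)) v (fun l => hac' _ _) hv h0
      rw [D.v_umon_sp, lamv_mid']
      omega
    · have := hge c v hv h0 P
      rw [D.val_ns P hsp] at this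
      rw [D.v_umon_ns P hsp]
      omega
  have hβ : ∀ g (c : Fin s → Fin n × Fin n) (v : Fin s → X), (∀ l, v l ∈ UX.U (ac (c l))) →
      e.det v ≠ 0 → -ω g c v ≤ β (hex g) := by
    intro g c v hv h0
    have := hge c v hv h0 (D.sp (hex g))
    rw [D.val_sp, Pi.add_apply, Finset.sum_apply] at this
    simp only [hac, Finset.sum_add_distrib, Finset.sum_const, Finset.card_univ, Fintype.card_fin,
      nsmul_eq_mul] at this
    simp only [ω, β, hvu _ v h0, D.v_umon_sp, map_sum, Pi.sub_apply, Pi.add_apply, Pi.smul_apply,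
      smul_eq_mul]
    linarith
  have hex0 : ∃ (c : Fin s → Fin n × Fin n) (v : Fin s → X), (∀ l, v l ∈ UX.U (ac (c l))) ∧
      e.det v ≠ 0 := by
    have htop : ⊤ ≤ Submodule.span (KK k) {x : X | ∃ c, x ∈ UX.U (ac c)} := by
      have := Submodule.span_span_coe_preimage (R := KK k) (s := {v | ∃ c, v ∈ U.hull.U (ac c)})
      exact this.ge
    let B₀ := Basis.ofSpan htop
    let B₁ := B₀.reindex (B₀.indexEquiv e)
    have hB : ∀ l, ∃ c, B₁ l ∈ UX.U (ac c) := fun l => by
      have := Basis.ofSpan_subset htop ⟨(B₀.indexEquiv e).symm l, rfl⟩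
      rw [Basis.reindex_apply]
      exact this
    choose c hc using hB
    exact ⟨c, B₁, hc, Fam.basis_det_ne e B₁⟩
  have hmax : ∀ g : Fin 6, ∃ z : ℤ, (∃ (c : Fin s → Fin n × Fin n) (v : Fin s → X),
      (∀ l, v l ∈ UX.U (ac (c l))) ∧ e.det v ≠ 0 ∧ z = -ω g c v) ∧
      ∀ z', (∃ (c : Fin s → Fin n × Fin n) (v : Fin s → X),
        (∀ l, v l ∈ UX.U (ac (c l))) ∧ e.det v ≠ 0 ∧ z' = -ω g c v) → z' ≤ z := by
    intro g
    refine Int.exists_greatest_of_bdd ⟨β (hex g), ?_⟩ ?_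
    · rintro z ⟨c, v, hv, h0, rfl⟩
      exact hβ g c v hv h0
    · obtain ⟨c, v, hv, h0⟩ := hex0
      exact ⟨_, c, v, hv, h0, rfl⟩
  choose hh₀ hatt hle using hmax
  have hsupp : ∀ g (c : Fin s → Fin n × Fin n) (v : Fin s → X), (∀ l, v l ∈ UX.U (ac (c l))) →
      ∀ F : LL k, lev k F = u₀ * e.det v → ∀ m ∈ F.coeff.support,
        0 ≤ wt g (n • m + ∑ l, cc (c l)) + hh₀ g := by
    intro g c v hv F hF m hm
    have hF0 : F ≠ 0 := by rintro rfl; simp at hm
    obtain ⟨f, hf, hfi⟩ := exists_levHom (k := k)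
    have h0 : e.det v ≠ 0 := by
      intro h0
      rw [h0, mul_zero, ← hf, ← map_zero f] at hF
      exact hF0 (hfi hF)
    have h1 := (D.min_wt hF0 g).1 m hm
    have h2 := hle g _ ⟨c, v, hv, h0, rfl⟩
    rw [hF] at h1
    simp only [ω] at h2
    rw [map_add, map_nsmul, nsmul_eq_mul]
    nlinarith
  have hsum : ∑ g : Fin 6, 6 * (hh₀ (g - 1) + hh₀ (g + 1) - hh₀ g) ≤ ∑ _g : Fin 6, ∑ g, hh₀ g := by
    have e1 : ∑ g : Fin 6, hh₀ (g - 1) = ∑ g, hh₀ g := (Equiv.subRight (1 : Fin 6)).sum_comp hh₀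
    have e2 : ∑ g : Fin 6, hh₀ (g + 1) = ∑ g, hh₀ g := Equiv.sum_comp (Equiv.addRight (1 : Fin 6)) hh₀
    rw [← Finset.mul_sum, Finset.sum_sub_distrib, Finset.sum_add_distrib, e1, e2]
    simp
  obtain ⟨g, -, hg⟩ := Finset.exists_le_of_sum_le Finset.univ_nonempty hsum
  obtain ⟨cb, vb, hvb, hvb0, hvbe⟩ := hatt g
  obtain ⟨B, hB⟩ : ∃ B : Basis (Fin s) (KK k) X, ⇑B = vb := by
    obtain ⟨h1, h2⟩ := (e.is_basis_iff_det (v := vb)).2 (Ne.isUnit hvb0)
    exact ⟨Basis.mk h1 h2.ge, Basis.coe_mk _ _⟩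
  subst hB
  have hm₀ : ∀ F : LL k, lev k F = u₀ * e.det B →
      ∃ m ∈ F.coeff.support, wt g (n • m + ∑ l, cc (cb l)) + hh₀ g = 0 := by
    intro F hF
    have hF0 : F ≠ 0 := by
      rintro rfl
      exact mul_ne_zero hu₀ hvb0 (by rw [← hF, lev_zero])
    obtain ⟨m, hm, h1⟩ := (D.min_wt hF0 g).2
    refine ⟨m, hm, ?_⟩
    rw [map_add, map_nsmul, nsmul_eq_mul, h1, hF, hvbe]
    simp only [ω]; ring
  have hδ : 0 ≤ hh₀ (g - 1) + hh₀ (g + 1) - hh₀ g := by
    obtain ⟨F, hF⟩ := hlaur cb B hvb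
    obtain ⟨m, hm, h1⟩ := hm₀ F hF
    have h2 := hsupp (g - 1) cb B hvb F hF m hm
    have h3 := hsupp (g + 1) cb B hvb F hF m hm
    have h4 := wt_adj g (n • m + ∑ l, cc (cb l))
    omega
  haveI : ∀ c, FiniteDimensional k (UX.U (ac c)) := fun c => hFG.fd _
  haveI : ∀ c, FiniteDimensional k (UX.U (ac c - Pi.single (hex g) 1)) := fun c => hFG.fd _
  have key := edge_lemma e (fun c => UX.U (ac c)) (fun c => UX.U (ac c - Pi.single (hex g) 1)) cc n
    D.n_pos ((wt g).prod (wt (g + 1))) (wt_inj g) (fun c c' m m' h => ?_) u₀ (hh₀ g, hh₀ (g + 1))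
    (hh₀ (g - 1) + hh₀ (g + 1) - hh₀ g).toNat (fun c v hv => ?_) cb B hvb hm₀ (fun c v hv hH => ?_)
  rotate_left
  · have h1 := congrArg Prod.fst h
    have h2 := congrArg Prod.snd h
    simp only [cc, Prod.fst_add, Prod.snd_add, Prod.smul_fst, Prod.smul_snd, nsmul_eq_mul] at h1 h2
    have aux : ∀ (x x' : Fin n) (t t' : ℤ), n * t + (x : ℤ) = n * t' + (x' : ℤ) → x = x' := by
      intro x x' t t' h
      have h3 := congrArg (· % (n : ℤ)) h
      simp only [Int.mul_add_emod_self_left] at h3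
      rw [Int.emod_eq_of_lt (by omega) (by omega), Int.emod_eq_of_lt (by omega) (by omega)] at h3
      exact Fin.ext (by omega)
    exact Prod.ext (aux _ _ _ _ h1) (aux _ _ _ _ h2)
  · obtain ⟨F, hF⟩ := hlaur c v hv
    refine ⟨F, hF, fun m hm => ⟨hsupp g c v hv F hF m hm, hsupp (g + 1) c v hv F hF m hm, ?_⟩⟩
    have h2 := hsupp (g - 1) c v hv F hF m hm
    have h4 := wt_adj g (n • m + ∑ l, cc (c l))
    simp only [AddMonoidHom.prod_apply, Prod.fst_add, Prod.snd_add]
    omega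
  · change (v : V) ∈ U.hull.U _
    intro P
    rw [← Fam.locMem_hull]
    by_cases hP : P = D.sp (hex g)
    · subst hP
      have hcoord : ∀ l, D.S.Ge (D.sp (hex g)) (ac c - Pi.single (hex g) 1 - ac (cb l))
          (B.repr v l) 0 := by
        intro l
        by_cases h0 : B.repr v l = 0
        · exact Or.inl h0
        right
        have hupd : ∀ l', Function.update B l v l' ∈ UX.U (ac (Function.update cb l c l')) := by
          intro l'
          by_cases h : l' = l
          · subst h; simpa using hv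
          · simpa [Function.update_of_ne h] using hvb l'
        obtain ⟨F, hF⟩ := hlaur _ _ hupd
        have hF' := hF
        rw [Fam.det_update_eq, ← mul_assoc] at hF'
        have hF0 : F ≠ 0 := by
          rintro rfl
          exact mul_ne_zero (mul_ne_zero hu₀ hvb0) h0 (by rw [← hF', lev_zero])
        obtain ⟨m, hm, h1⟩ := (D.min_wt hF0 g).2
        have h2 := hH l F hF m hm
        have h3 : ∑ l', cc (Function.update cb l c l') = cc c + (∑ l', cc (cb l') - cc (cb l)) := by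
          rw [← Finset.add_sum_erase _ _ (Finset.mem_univ l), ← Finset.add_sum_erase _
            (fun l' => cc (cb l')) (Finset.mem_univ l), Function.update_self, add_sub_cancel_left]
          congr 1
          exact Finset.sum_congr rfl fun l' hl' => by
            rw [Function.update_of_ne (Finset.ne_of_mem_erase hl')]
        rw [hF', D.v_mul _ (mul_ne_zero hu₀ hvb0) h0] at h1
        simp only [AddMonoidHom.prod_apply, Prod.fst_add, h3] at h2
        rw [map_add, map_add, map_sub, map_nsmul, nsmul_eq_mul] at h2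
        rw [D.val_sp, Pi.sub_apply, Pi.sub_apply, hac, hac, Pi.single_eq_same]
        simp only [ω] at hvbe
        rw [h1] at h2
        linarith
      obtain ⟨b', f, hf0, hfB, hfv, hf⟩ := Sys.clear (D.sp (hex g)) _ _ hcoord
      refine ⟨b', f, hf0, hfB, hfv, ?_⟩
      have e1 : f • (v : V) = ∑ l, (f * B.repr v l) • (B l : V) := by
        have := congrArg (fun z : X => f • (z : V)) (B.sum_repr v)
        simp only [Submodule.coe_sum, Submodule.coe_smul, Finset.smul_sum, ← mul_smul] at this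
        exact this.symm
      rw [e1]
      refine Submodule.sum_mem _ fun l _ => ?_
      have := U.hull.smul_mem _ _ _ _ (hf l) (hvb l)
      rwa [show b' + (ac c - Pi.single (hex g) 1 - ac (cb l)) + ac (cb l) =
        b' + (ac c - Pi.single (hex g) 1) by abel] at this
    · refine ⟨Pi.single (hex g) 1, 1, one_ne_zero, D.one_mem fun i => ?_, ?_, ?_⟩
      · by_cases h : i = hex g
        · subst h; simp
        · simp [Pi.single_eq_of_ne h]
      · by_cases hsp : P ∈ Set.range D.sp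
        · obtain ⟨j, rfl⟩ := hsp
          rw [D.val_one_sp, Pi.single_eq_of_ne fun h => hP (by rw [h])]
        · exact D.val_one_ns hsp _
      · rw [one_smul, add_sub_cancel]
        exact hv
  refine ⟨g, ?_⟩
  have hfr : ∀ a', finrank k (UX.U a') ≤ finrank k (U.hull.U a') := by
    intro a'
    have := hU.hull.fd a'
    rw [← Fam.finrank_map_of_injective UX X.subtype X.subtype_injective]
    refine Submodule.finrank_mono ?_
    rintro _ ⟨x, hx, rfl⟩
    exact hx
  have hfr' : ∀ c, finrank k (U.hull.U (ac c)) ≤ finrank k (UX.U (ac c)) := by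
    intro c
    have := (hFG.map X.subtype).fd (ac c)
    rw [← Fam.finrank_map_of_injective UX X.subtype X.subtype_injective]
    refine Submodule.finrank_mono fun x hx => ⟨⟨x, Submodule.subset_span ⟨c, hx⟩⟩, hx, rfl⟩
  have h1 : h2 n U.hull a ≤ ∑ c, finrank k (UX.U (ac c)) := Finset.sum_le_sum fun c _ => hfr' c
  have h2' : ∑ c, finrank k (UX.U (ac c - Pi.single (hex g) 1)) ≤
      h2 n U.hull (a - Pi.single (hex g) 1) := Finset.sum_le_sum fun c _ => by
    rw [show ac c - Pi.single (hex g) 1 = a - Pi.single (hex g) 1 +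
      lamv ![(c.1 : ℤ), (c.2 : ℤ), 0, 0, 0] by simp only [ac]; abel]
    exact hfr _
  have h3 : s ≤ Fintype.card ι := by simpa using Fintype.card_le_of_injective _ (hI 0)
  have h4 : ∑ g, hh₀ g ≤ ∑ g, β (hex g) := Finset.sum_le_sum fun g _ => by
    obtain ⟨c, v, hv, h0, h⟩ := hatt g
    rw [h]
    exact hβ g c v hv h0
  have h5 : ∑ g, β (hex g) =
      s * HA a + HA UX.cl - 2 * ∑ i, ∑ l, (a (mid i) - d i (I i l) (mid i)) % n := by
    have e1 := HA_eq_sum β
    have e2 : HA β = s * HA a + HA UX.cl := by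
      simp only [β, map_sub, map_add, map_zsmul, HA_lamv, smul_eq_mul, mul_zero, sub_zero]
    have e3 : ∀ i, β (mid i) = ∑ l, (a (mid i) - d i (I i l) (mid i)) % n := fun i => by
      have := hN i
      simp only [β, cN, Pi.sub_apply, Pi.add_apply, Pi.smul_apply, lamv_mid', smul_eq_mul]
      linarith
    simp only [e3] at e1
    linarith
  have h6 : ∀ i, s * (y / 3) - 2 * ((∑ l, (a (mid i) - d i (I i l) (mid i)) % n : ℤ) : ℚ) ≤
      ∑ l, max 0 (y / 3 - 2 * (((a (mid i) - d i l (mid i)) % n : ℤ) : ℚ)) := by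
    intro i
    calc _ = ∑ l : Fin s, (y / 3 - 2 * (((a (mid i) - d i (I i l) (mid i)) % n : ℤ) : ℚ)) := by
          rw [Finset.sum_sub_distrib, ← Finset.mul_sum, Int.cast_sum]
          simp
      _ ≤ ∑ l : Fin s, max 0 (y / 3 - 2 * (((a (mid i) - d i (I i l) (mid i)) % n : ℤ) : ℚ)) :=
          Finset.sum_le_sum fun l _ => le_max_right _ _
      _ = ∑ l ∈ Finset.univ.map ⟨I i, hI i⟩,
            max 0 (y / 3 - 2 * (((a (mid i) - d i l (mid i)) % n : ℤ) : ℚ)) := by
          rw [Finset.sum_map]; rfl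
      _ ≤ _ := Finset.sum_le_sum_of_subset_of_nonneg (Finset.subset_univ _)
          fun _ _ _ => le_max_left _ _
  have h7 := Finset.sum_le_sum (s := Finset.univ) fun i _ => h6 i
  rw [Finset.sum_sub_distrib, Finset.sum_const, ← Finset.mul_sum, ← Int.cast_sum, Finset.card_univ,
    Fintype.card_fin, nsmul_eq_mul] at h7
  have h8 : (6 * ((hh₀ (g - 1) + hh₀ (g + 1) - hh₀ g).toNat : ℤ) : ℤ) ≤
      s * HA a + HA UX.cl - 2 * ∑ i, ∑ l, (a (mid i) - d i (I i l) (mid i)) % n := by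
    rw [Int.toNat_of_nonneg hδ]; linarith
  have h9 := (Int.cast_le (R := ℚ)).2 h8
  have h10 : h2 n U.hull a ≤ h2 n U.hull (a - Pi.single (hex g) 1) + Fintype.card ι +
      (hh₀ (g - 1) + hh₀ (g + 1) - hh₀ g).toNat := by omega
  have h11 := (Nat.cast_le (α := ℚ)).2 h10
  have hs0 : (0 : ℚ) ≤ s := Nat.cast_nonneg s
  have h12 := mul_le_mul_of_nonneg_left hy hs0
  rw [Int.cast_sub, Int.cast_add, Int.cast_mul, Int.cast_mul, Int.cast_mul, Int.cast_natCast,
    Int.cast_natCast] at h9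
  push_cast at h11 h7 h9 ⊢
  linarith

end Vale.Agent.P190
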