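import Vale.Agent.P190.PB1
import Vale.Agent.P190.D0
import Vale.Agent.P190.G2

/-! P190, part PB2a: initial forms along an edge. -/

namespace Vale.Agent.P190

open Module Polynomial

variable {k : Type} [Field k]

/-- the inclusion of the positive quadrant -/
def quad : ℕ × ℕ →+ ℤ × ℤ := (Nat.castAddMonoidHom ℤ).prodMap (Nat.castAddMonoidHom ℤ)

theorem quad_inj : Function.Injective quad := by
  rintro ⟨a, b⟩ ⟨c, d⟩ h
  simp only [quad, AddMonoidHom.coe_prodMap, Nat.coe_castAddMonoidHom, Prod.map_apply,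
    Prod.mk.injEq, Nat.cast_inj] at h
  exact Prod.ext h.1 h.2

variable (k) in
/-- put the first variable equal to zero -/
noncomputable def ev0 : AddMonoidAlgebra k (ℕ × ℕ) →ₐ[k] k[X] :=
  AddMonoidAlgebra.lift k k[X] (ℕ × ℕ)
    { toFun := fun m => 0 ^ m.toAdd.1 * X ^ m.toAdd.2
      map_one' := by simp
      map_mul' := fun a b => by
        simp only [toAdd_mul, Prod.fst_add, Prod.snd_add, pow_add]; ring }

theorem coeff_ev0 (G : AddMonoidAlgebra k (ℕ × ℕ)) (j : ℕ) :
    (ev0 k G).coeff j = G.coeff (0, j) := by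
  induction G using AddMonoidAlgebra.induction_linear with
  | zero => simp
  | add f g hf hg => simp [hf, hg]
  | single m r =>
    obtain ⟨a, b⟩ := m
    rw [ev0, AddMonoidAlgebra.lift_single]
    by_cases ha : a = 0
    · subst ha
      simp [Finsupp.single_apply, Polynomial.coeff_X_pow, eq_comm]
    · simp [Finsupp.single_apply, ha]

variable (k) in
/-- initial form along the line where the first exponent vanishes -/
noncomputable def inn : LL k →ₗ[k] k[X] where
  toFun F := ev0 k (AddMonoidAlgebra.comapDomain quad quad_inj F)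
  map_add' F G := by rw [AddMonoidAlgebra.comapDomain_add, map_add]
  map_smul' c F := by
    ext j
    simp [coeff_ev0]

theorem coeff_inn (F : LL k) (j : ℕ) : (inn k F).coeff j = F.coeff (0, (j : ℤ)) := by
  simp [inn, coeff_ev0, quad]

theorem inn_det {ι : Type} [Fintype ι] [DecidableEq ι] (A : Matrix ι ι (LL k)) (a b : LL k) (s : ℕ)
    (hA : ∀ i j, ∀ m ∈ (A i j).coeff.support, 0 ≤ m.1 ∧ 0 ≤ m.2)
    (ha : ∀ m ∈ a.coeff.support, 0 ≤ m.1 ∧ 0 ≤ m.2) (hb : ∀ m ∈ b.coeff.support, 0 ≤ m.1 ∧ 0 ≤ m.2)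
    (h : A.det * a = a ^ s * b) :
    (Matrix.of fun i j => inn k (A i j)).det * inn k a = inn k a ^ s * inn k b := by
  let Θ : AddMonoidAlgebra k (ℕ × ℕ) →ₐ[k] LL k := AddMonoidAlgebra.mapDomainAlgHom k k quad
  have hΘ : Function.Injective Θ := AddMonoidAlgebra.mapDomain_injective quad_inj
  have key : ∀ F : LL k, (∀ m ∈ F.coeff.support, 0 ≤ m.1 ∧ 0 ≤ m.2) →
      Θ (AddMonoidAlgebra.comapDomain quad quad_inj F) = F := by
    intro F hF
    refine AddMonoidAlgebra.mapDomain_comapDomain (fun m hm => ?_) quad_inj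
    obtain ⟨h1, h2⟩ := hF m hm
    exact ⟨(m.1.toNat, m.2.toNat), by ext <;> simp [quad, h1, h2]⟩
  let A' : Matrix ι ι (AddMonoidAlgebra k (ℕ × ℕ)) :=
    Matrix.of fun i j => AddMonoidAlgebra.comapDomain quad quad_inj (A i j)
  have h1 : A'.det * AddMonoidAlgebra.comapDomain quad quad_inj a =
      AddMonoidAlgebra.comapDomain quad quad_inj a ^ s *
        AddMonoidAlgebra.comapDomain quad quad_inj b := by
    apply hΘ
    rw [map_mul, map_mul, map_pow, key a ha, key b hb, AlgHom.map_det, ← h]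
    congr 2
    ext1 i j
    exact key _ (hA i j)
  have h2 := congrArg (ev0 k) h1
  rw [map_mul, map_mul, map_pow, AlgHom.map_det] at h2
  exact h2

/-- twisting a Laurent polynomial -/
noncomputable def tw (L : ℤ × ℤ →+ ℤ × ℤ) (p : ℤ × ℤ) : LL k →ₗ[k] LL k :=
  (LinearMap.mulRight k (AddMonoidAlgebra.single p (1 : k))).comp
    (AddMonoidAlgebra.mapDomainAlgHom k k L).toLinearMap

theorem tw_apply (L : ℤ × ℤ →+ ℤ × ℤ) (p : ℤ × ℤ) (F : LL k) :
    tw L p F = AddMonoidAlgebra.mapDomainAlgHom k k L F * AddMonoidAlgebra.single p (1 : k) := rfl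

theorem coeff_tw {L : ℤ × ℤ →+ ℤ × ℤ} (hL : Function.Injective L) (p : ℤ × ℤ) (F : LL k)
    (m : ℤ × ℤ) : (tw L p F).coeff (L m + p) = F.coeff m := by
  rw [tw_apply, AddMonoidAlgebra.coeff_mul_single_add, mul_one]
  exact Finsupp.mapDomain_apply hL _ _

theorem exists_of_coeff_tw {L : ℤ × ℤ →+ ℤ × ℤ} (hL : Function.Injective L) (p : ℤ × ℤ) (F : LL k)
    {q : ℤ × ℤ} (hq : (tw L p F).coeff q ≠ 0) : ∃ m ∈ F.coeff.support, q = L m + p := by
  by_cases h : q - p ∈ Set.range L
  · obtain ⟨m, hm⟩ := h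
    have e : q = L m + p := by rw [hm]; abel
    rw [e, coeff_tw hL] at hq
    exact ⟨m, Finsupp.mem_support_iff.2 hq, e⟩
  · exfalso
    apply hq
    have e : q = (q - p) + p := by abel
    rw [e, tw_apply, AddMonoidAlgebra.coeff_mul_single_add, mul_one]
    exact Finsupp.mapDomain_notin_range _ _ h

theorem pluecker {K X : Type} [Field K] [AddCommGroup X] [Module K X] {s : ℕ}
    (e B : Basis (Fin s) K X) (u : K) (v : Fin s → X) :
    (Matrix.of fun j l => u * e.det (Function.update B l (v j))).det * (u * e.det B) =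
      (u * e.det B) ^ s * (u * e.det v) := by
  have h1 : (Matrix.of fun j l => u * e.det (Function.update B l (v j))) =
      (u * e.det B) • (B.toMatrix v).transpose := by
    ext j l
    simp [Fam.det_update_eq, Basis.toMatrix_apply, mul_assoc]
  have h2 : e.det v = e.det B * B.det v := by
    have := congrArg (fun f => f v) (AlternatingMap.eq_smul_basis_det B e.det)
    simpa using this
  rw [h1, Matrix.det_smul, Matrix.det_transpose, ← Basis.det_apply, h2, Fintype.card_fin]
  ring

theorem edge_lemma [Infinite k] {X : Type} [AddCommGroup X] [Module (KK k) X] [Module k X]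
    [IsScalarTower k (KK k) X] {s : ℕ} (e : Basis (Fin s) (KK k) X) {J : Type} [Fintype J]
    (H H' : J → Submodule k X) [∀ c, FiniteDimensional k (H c)] [∀ c, FiniteDimensional k (H' c)]
    (cc : J → ℤ × ℤ) (n : ℕ) (hn : 0 < n) (ww : ℤ × ℤ →+ ℤ × ℤ) (hww : Function.Injective ww)
    (hcc : ∀ c c' (m m' : ℤ × ℤ), n • m + cc c = n • m' + cc c' → c = c') (u₀ : KK k) (h₀ : ℤ × ℤ)
    (δ : ℕ)
    (hF : ∀ (c : Fin s → J) (v : Fin s → X), (∀ l, v l ∈ H (c l)) → ∃ F : LL k,
      lev k F = u₀ * e.det v ∧ ∀ m ∈ F.coeff.support,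
        0 ≤ (ww (n • m + ∑ l, cc (c l)) + h₀).1 ∧ 0 ≤ (ww (n • m + ∑ l, cc (c l)) + h₀).2 ∧
          ((ww (n • m + ∑ l, cc (c l)) + h₀).1 = 0 → (ww (n • m + ∑ l, cc (c l)) + h₀).2 ≤ δ))
    (cb : Fin s → J) (B : Basis (Fin s) (KK k) X) (hb : ∀ l, B l ∈ H (cb l))
    (hm₀ : ∀ F : LL k, lev k F = u₀ * e.det B →
      ∃ m ∈ F.coeff.support, (ww (n • m + ∑ l, cc (cb l)) + h₀).1 = 0)
    (hH' : ∀ c, ∀ v ∈ H c, (∀ l (F : LL k), lev k F = u₀ * e.det (Function.update B l v) →
      ∀ m ∈ F.coeff.support, 1 ≤ (ww (n • m + ∑ l', cc (Function.update cb l c l')) + h₀).1) →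
        v ∈ H' c) :
    ∑ c, finrank k (H c) ≤ ∑ c, finrank k (H' c) + s + δ := by
  classical
  obtain ⟨f, hf, hfi⟩ := exists_levHom (k := k)
  obtain ⟨un, hun⟩ := f.toLinearMap.exists_leftInverse_of_injective (LinearMap.ker_eq_bot.2 hfi)
  have hun' : ∀ F, un (lev k F) = F := fun F => by
    rw [← hf]; exact LinearMap.congr_fun hun F
  let L : ℤ × ℤ →+ ℤ × ℤ := ww.comp (nsmulAddMonoidHom n)
  have hL : Function.Injective L := by
    refine hww.comp fun a b hab => ?_
    exact nsmul_right_injective hn.ne' hab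
  let pp : (Fin s → J) → ℤ × ℤ := fun c => ww (∑ l, cc (c l)) + h₀
  have hpos : ∀ m c, L m + pp c = ww (n • m + ∑ l, cc (c l)) + h₀ := by
    intro m c
    simp only [L, pp, map_add, AddMonoidHom.comp_apply, nsmulAddMonoidHom_apply, add_assoc]
  let Ψ : (Fin s → J) → (Fin s → X) → LL k := fun c v => tw L (pp c) (un (u₀ * e.det v))
  have hΨ : ∀ c v, (∀ l, v l ∈ H (c l)) → ∀ q ∈ (Ψ c v).coeff.support,
      0 ≤ q.1 ∧ 0 ≤ q.2 ∧ (q.1 = 0 → q.2 ≤ δ) := by
    intro c v hv q hq
    obtain ⟨F, hF1, hF2⟩ := hF c v hv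
    have hq' := Finsupp.mem_support_iff.1 hq
    simp only [Ψ] at hq'
    rw [← hF1, hun'] at hq'
    obtain ⟨m, hm, rfl⟩ := exists_of_coeff_tw hL _ _ hq'
    rw [hpos]
    exact hF2 m hm
  have hupd : ∀ c v, v ∈ H c → ∀ l l', Function.update B l v l' ∈ H (Function.update cb l c l') := by
    intro c v hv l l'
    by_cases h : l' = l
    · subst h; simpa using hv
    · simpa [Function.update_of_ne h] using hb l'
  let x : J → X →ₗ[k] (Fin s → k[X]) := fun c => LinearMap.pi fun l =>
    (inn k).comp ((tw L (pp (Function.update cb l c))).comp (un.comp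
      ((LinearMap.mulLeft k u₀).comp ((e.det.toMultilinearMap.toLinearMap B l).restrictScalars k))))
  have hx : ∀ c v l, x c v l = inn k (Ψ (Function.update cb l c) (Function.update B l v)) :=
    fun c v l => rfl
  let p : k[X] := inn k (Ψ cb B)
  have hp : p ≠ 0 := by
    obtain ⟨F, hF1, hF2⟩ := hF cb B hb
    obtain ⟨m, hm, hm0⟩ := hm₀ F hF1
    have h2 := (hF2 m hm).2.1
    intro h0
    have := congrArg (fun q => q.coeff (L m + pp cb).2.toNat) h0
    simp only [p, coeff_inn, Polynomial.coeff_zero, Ψ] at this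
    rw [← hF1, hun', Int.toNat_of_nonneg (by rw [hpos]; exact h2),
      show ((0 : ℤ), (L m + pp cb).2) = L m + pp cb from Prod.ext (by rw [hpos]; exact hm0.symm) rfl,
      coeff_tw hL] at this
    exact Finsupp.mem_support_iff.1 hm this
  have hdet : ∀ (c : Fin s → J) (v : Fin s → X), (∀ l, v l ∈ H (c l)) →
      (Matrix.of fun j => x (c j) (v j)).det * p = p ^ s * inn k (Ψ c v) := by
    intro c v hv
    refine inn_det (Matrix.of fun j l => Ψ (Function.update cb l (c j)) (Function.update B l (v j)))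
      (Ψ cb B) (Ψ c v) s (fun j l m hm => ?_) (fun m hm => ?_) (fun m hm => ?_) ?_
    · have := hΨ _ _ (hupd _ _ (hv j) l) m hm
      exact ⟨this.1, this.2.1⟩
    · have := hΨ _ _ hb m hm
      exact ⟨this.1, this.2.1⟩
    · have := hΨ _ _ hv m hm
      exact ⟨this.1, this.2.1⟩
    have hl : ∀ (c : Fin s → J) (v : Fin s → X), (∀ l, v l ∈ H (c l)) → f (un (u₀ * e.det v)) = u₀ * e.det v := by
      intro c v hv
      obtain ⟨F, hF1, -⟩ := hF c v hv
      rw [← hF1, hun', hf]
    have h1 : (Matrix.of fun j l => un (u₀ * e.det (Function.update B l (v j)))).det *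
        un (u₀ * e.det B) = un (u₀ * e.det B) ^ s * un (u₀ * e.det v) := by
      apply hfi
      rw [map_mul f, map_mul f, map_pow f, hl cb B hb, hl c v hv, AlgHom.map_det, ← pluecker e B u₀ v]
      congr 2
      ext1 j l
      exact hl _ _ (hupd _ _ (hv j) l)
    let Θ : LL k →ₐ[k] LL k := AddMonoidAlgebra.mapDomainAlgHom k k L
    have h2 := congrArg Θ h1
    rw [map_mul Θ, map_mul Θ, map_pow Θ, AlgHom.map_det] at h2
    let sg : ℤ × ℤ → LL k := fun q => AddMonoidAlgebra.single q (1 : k)
    have sg_add : ∀ a b, sg (a + b) = sg a * sg b := fun a b => by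
      simp [sg, AddMonoidAlgebra.single_mul_single]
    have sg_sum : ∀ a : Fin s → ℤ × ℤ, ∏ l, sg (a l) = sg (∑ l, a l) := fun a => by
      simp [sg, AddMonoidAlgebra.prod_single]
    have hpu : ∀ j l, pp (Function.update cb l (c j)) =
        ww (cc (c j)) + (pp cb - ww (cc (cb l))) := by
      intro j l
      have : ∑ l', cc (Function.update cb l (c j) l') = cc (c j) + (∑ l', cc (cb l') - cc (cb l)) := by
        rw [← Finset.add_sum_erase _ _ (Finset.mem_univ l), ← Finset.add_sum_erase _
          (fun l' => cc (cb l')) (Finset.mem_univ l), Function.update_self, add_sub_cancel_left]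
        congr 1
        exact Finset.sum_congr rfl fun l' hl' => by
          rw [Function.update_of_ne (Finset.ne_of_mem_erase hl')]
      simp only [pp, this, map_add, map_sub]
      abel
    have h3 : (Matrix.of fun j l => Ψ (Function.update cb l (c j)) (Function.update B l (v j))) =
        Matrix.of fun j l => sg (ww (cc (c j))) * (Matrix.of fun j l =>
          sg (pp cb - ww (cc (cb l))) * (Θ.mapMatrix (Matrix.of fun j l =>
            un (u₀ * e.det (Function.update B l (v j))))) j l) j l := by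
      ext1 j l
      simp only [Matrix.of_apply, Ψ, tw_apply, hpu, AlgHom.mapMatrix_apply, Matrix.map_apply]
      change _ * sg _ = _
      rw [sg_add]
      ring
    rw [h3, Matrix.det_mul_column, Matrix.det_mul_row, sg_sum, sg_sum]
    change _ * (Θ _ * sg _) = (Θ _ * sg _) ^ s * (Θ _ * sg _)
    have h4 : sg (∑ l, ww (cc (c l))) * sg (∑ l, (pp cb - ww (cc (cb l)))) * sg (pp cb) =
        sg (pp cb) ^ s * sg (pp c) := by
      have : sg (pp cb) ^ s = sg (s • pp cb) := by simp [sg, AddMonoidAlgebra.single_pow]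
      rw [this, ← sg_add, ← sg_add, ← sg_add]
      congr 1
      simp only [Finset.sum_sub_distrib, Finset.sum_const, Finset.card_univ, Fintype.card_fin, pp,
        map_sum]
      abel
    rw [mul_pow]
    linear_combination (sg (∑ l, ww (cc (c l))) * sg (∑ l, (pp cb - ww (cc (cb l)))) *
      sg (pp cb)) * h2 + (Θ (un (u₀ * e.det B)) ^ s * Θ (un (u₀ * e.det v))) * h4
  have hdeg : ∀ (c : Fin s → J) (v : Fin s → X), (∀ l, v l ∈ H (c l)) →
      (inn k (Ψ c v)).natDegree ≤ δ := by
    intro c v hv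
    rw [Polynomial.natDegree_le_iff_coeff_eq_zero]
    intro j hj
    rw [coeff_inn]
    by_contra h0
    have := (hΨ c v hv _ (Finsupp.mem_support_iff.2 h0)).2.2 rfl
    simp only at this
    omega
  let xx : (∀ c, H c) →ₗ[k] (Fin s → k[X]) :=
    ∑ c, ((x c).comp (H c).subtype).comp (LinearMap.proj c)
  have hxx : ∀ w, xx w = ∑ c, x c (w c) := fun w => by simp [xx]
  let G : Set (Fin s → k[X]) := {y | ∃ c, ∃ v ∈ H c, y = x c v}
  have hspan : Submodule.span k G = LinearMap.range xx := by
    apply le_antisymm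
    · rw [Submodule.span_le]
      rintro _ ⟨c, v, hv, rfl⟩
      refine ⟨Pi.single c ⟨v, hv⟩, ?_⟩
      rw [hxx, Finset.sum_eq_single c]
      · simp
      · intro c' _ hc'
        simp [Pi.single_eq_of_ne hc']
      · simp
    · rintro _ ⟨w, rfl⟩
      rw [hxx]
      exact Submodule.sum_mem _ fun c _ => Submodule.subset_span ⟨c, w c, (w c).2, rfl⟩
  have hrange : finrank k (LinearMap.range xx) ≤ s + δ := by
    rcases Nat.eq_zero_or_pos s with hs | hs
    · subst hs
      rw [Module.finrank_zero_of_subsingleton]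
      exact Nat.zero_le _
    have : FiniteDimensional k (Submodule.span k G) := by rw [hspan]; infer_instance
    have hps : p ^ s = p ^ (s - 1) * p := by rw [← pow_succ, Nat.sub_add_cancel hs]
    have key := p1_lemma δ G (p ^ (s - 1)) (pow_ne_zero _ hp) (fun y hy => ?_) ?_
    · rwa [hspan, Fintype.card_fin] at key
    · choose c v hv hy using hy
      refine ⟨inn k (Ψ c v), hdeg c v hv, mul_right_cancel₀ hp ?_⟩
      have e1 : y = fun j => x (c j) (v j) := funext hy
      rw [e1, hdet c v hv, hps]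
      ring
    · refine ⟨fun j => x (cb j) (B j), fun j => ⟨cb j, B j, hb j, rfl⟩, fun h0 => ?_⟩
      have := hdet cb B hb
      rw [h0, zero_mul] at this
      exact mul_ne_zero (pow_ne_zero _ hp) hp this.symm
  have hker : ∀ w : ∀ c, H c, xx w = 0 → ∀ c, (w c : X) ∈ H' c := by
    intro w hw c
    have hsupp : ∀ c l j, (x c (w c) l).coeff j ≠ 0 → ∃ m : ℤ × ℤ,
        ((0 : ℤ), (j : ℤ)) = ww (n • m + (cc c + (∑ l', cc (cb l') - cc (cb l)))) + h₀ := by
      intro c l j hj
      rw [hx, coeff_inn] at hj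
      obtain ⟨m, -, hm⟩ := exists_of_coeff_tw hL _ _ hj
      refine ⟨m, ?_⟩
      rw [hm, hpos]
      congr 3
      rw [← Finset.add_sum_erase _ _ (Finset.mem_univ l), ← Finset.add_sum_erase _
        (fun l' => cc (cb l')) (Finset.mem_univ l), Function.update_self, add_sub_cancel_left]
      congr 1
      exact Finset.sum_congr rfl fun l' hl' => by
        rw [Function.update_of_ne (Finset.ne_of_mem_erase hl')]
    have hxc : x c (w c) = 0 := by
      funext l
      ext j
      by_contra hj
      have h1 := congrArg (fun y => (y l).coeff j) (hxx w)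
      simp only [hw, Pi.zero_apply, Polynomial.coeff_zero, Finset.sum_apply,
        Polynomial.finsetSum_coeff] at h1
      rw [Finset.sum_eq_single c] at h1
      · exact hj h1.symm
      · intro c' _ hc'
        by_contra hj'
        obtain ⟨m, hm⟩ := hsupp c l j hj
        obtain ⟨m', hm'⟩ := hsupp c' l j hj'
        have := hww (add_right_cancel (hm.symm.trans hm'))
        rw [← add_assoc, ← add_assoc] at this
        exact hc' (hcc c c' m m' (add_right_cancel this)).symm
      · simp
    refine hH' c _ (w c).2 fun l F hF1 m hm => ?_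
    have h1 := hΨ _ _ (hupd c _ (w c).2 l) (L m + pp (Function.update cb l c)) (by
      rw [Finsupp.mem_support_iff]
      simp only [Ψ]
      rw [← hF1, hun', coeff_tw hL]
      exact Finsupp.mem_support_iff.1 hm)
    rw [← hpos]
    by_contra hlt
    have h0 : (L m + pp (Function.update cb l c)).1 = 0 := by omega
    have h2 := congrArg (fun y => (y l).coeff (L m + pp (Function.update cb l c)).2.toNat) hxc
    simp only [hx, coeff_inn, Pi.zero_apply, Polynomial.coeff_zero, Ψ] at h2
    rw [← hF1, hun', Int.toNat_of_nonneg h1.2.1,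
      show ((0 : ℤ), (L m + pp (Function.update cb l c)).2) = L m + pp (Function.update cb l c) from
        Prod.ext h0.symm rfl, coeff_tw hL] at h2
    exact Finsupp.mem_support_iff.1 hm h2
  let κ : LinearMap.ker xx →ₗ[k] (∀ c, H' c) := LinearMap.pi fun c =>
    LinearMap.codRestrict (H' c) ((H c).subtype.comp ((LinearMap.proj c).comp
      (LinearMap.ker xx).subtype)) fun w => hker w.1 w.2 c
  have hκ : Function.Injective κ := by
    intro w w' hw
    ext c
    exact congrArg (fun y => (y c : X)) hw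
  have h1 := LinearMap.finrank_le_finrank_of_injective hκ
  have h2 := LinearMap.finrank_range_add_finrank_ker xx
  rw [Module.finrank_pi_fintype] at h1 h2
  omega

end Vale.Agent.P190
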