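import Mathlib

/-! P190, part T1: transfer from characteristic zero to large characteristic. -/

namespace Vale.Agent.P190

open Module MvPolynomial

theorem T1_ext_hom {R S k : Type} [CommRing R] [CommRing S] [Algebra R S] [Algebra.IsIntegral R S]
    [Field k] [IsAlgClosed k] (g : R →+* k) (h : RingHom.ker (algebraMap R S) ≤ RingHom.ker g) :
    Nonempty (S →+* k) := by
  haveI : (RingHom.ker g).IsPrime := RingHom.ker_isPrime g
  obtain ⟨Q, -, hQ, hQP⟩ := Ideal.exists_ideal_over_prime_of_isIntegral (RingHom.ker g)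
    (⊥ : Ideal S) (by rwa [← RingHom.ker_eq_comap_bot])
  let g' : R ⧸ Q.comap (algebraMap R S) →+* k :=
    Ideal.Quotient.lift _ g fun a ha => by rw [hQP] at ha; exact ha
  have hg' : Function.Injective g' := RingHom.lift_injective_of_ker_le_ideal _ _ hQP.ge
  letI : Algebra (R ⧸ Q.comap (algebraMap R S)) k := g'.toAlgebra
  haveI : Module.IsTorsionFree (R ⧸ Q.comap (algebraMap R S)) k :=
    Module.isTorsionFree_iff_algebraMap_injective.2 hg'
  haveI : Module.IsTorsionFree (R ⧸ Q.comap (algebraMap R S)) (S ⧸ Q) :=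
    Module.isTorsionFree_iff_algebraMap_injective.2 Ideal.algebraMap_quotient_injective
  let F : (S ⧸ Q) →ₐ[R ⧸ Q.comap (algebraMap R S)] k := IsAlgClosed.lift
  exact ⟨F.toRingHom.comp (Ideal.Quotient.mk Q)⟩

theorem T1_exists_hom (T : Finset (AlgebraicClosure ℚ)) :
    ∃ (N₀ : ℕ) (B : Subring (AlgebraicClosure ℚ)), (∀ t ∈ T, t ∈ B) ∧
      ∀ p : ℕ, N₀ < p → ∀ (k : Type) [Field k] [IsAlgClosed k] [CharP k p],
        Nonempty (B →+* k) := by
  haveI : Algebra.IsAlgebraic ℤ (AlgebraicClosure ℚ) :=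
    ⟨fun x => (IsFractionRing.isAlgebraic_iff ℤ ℚ (AlgebraicClosure ℚ)).2
      (by
        obtain ⟨q, hq, h0⟩ := (AlgebraicClosure.isAlgebraic ℚ).isAlgebraic x
        refine ⟨q, hq, ?_⟩
        rw [Polynomial.aeval_def] at h0 ⊢
        rw [RingHom.ext_rat (algebraMap ℚ (AlgebraicClosure ℚ))
          (@algebraMap ℚ (AlgebraicClosure ℚ) _ _ (AlgebraicClosure.instAlgebra ℚ))]
        exact h0)⟩
  obtain ⟨y, hy, hint⟩ := Algebra.IsAlgebraic.exists_integral_multiples ℤ T
  have hu : IsUnit (Int.castRingHom (AlgebraicClosure ℚ) y) :=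
    (Int.cast_ne_zero.2 hy : (y : AlgebraicClosure ℚ) ≠ 0).isUnit
  let φ : Localization.Away y →+* AlgebraicClosure ℚ := IsLocalization.Away.lift y hu
  have hφ : Function.Injective φ := by
    refine (IsLocalization.lift_injective_iff _).2 fun a b => ⟨fun h => ?_, fun h => ?_⟩
    · have := congrArg φ h
      rwa [IsLocalization.Away.lift_eq, IsLocalization.Away.lift_eq] at this
    · rw [(Int.cast_injective h : a = b)]
  letI : Algebra (Localization.Away y) (AlgebraicClosure ℚ) := φ.toAlgebra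
  refine ⟨y.natAbs, (integralClosure (Localization.Away y) (AlgebraicClosure ℚ)).toSubring,
    fun t ht => ?_, fun p hp k _ _ _ => ?_⟩
  · have h1 : IsIntegral (Localization.Away y) (y • t) := by
      obtain ⟨q, hq, h0⟩ := hint t ht
      refine ⟨q.map (Int.castRingHom _), hq.map _, ?_⟩
      rw [Polynomial.eval₂_map, RingHom.ext_int (RingHom.comp _ _) (algebraMap ℤ _)]
      exact h0
    have h2 : φ (IsLocalization.Away.invSelf y) * (y : AlgebraicClosure ℚ) = 1 := by
      have := congrArg φ (IsLocalization.Away.mul_invSelf (S := Localization.Away y) y)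
      rw [map_mul, IsLocalization.Away.lift_eq, map_one] at this
      rw [mul_comm]
      exact this
    have h3 : t = (IsLocalization.Away.invSelf y : Localization.Away y) • (y • t) := by
      rw [Algebra.smul_def, zsmul_eq_mul, ← mul_assoc]
      change t = φ _ * _ * t
      rw [h2, one_mul]
    change IsIntegral (Localization.Away y) t
    rw [h3, Algebra.smul_def]
    exact isIntegral_algebraMap.mul h1
  · have hk : IsUnit (Int.castRingHom k y) := by
      refine Ne.isUnit fun h => ?_
      have h1 : (p : ℤ) ∣ y := (CharP.intCast_eq_zero_iff k p y).1 h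
      have h2 := Nat.le_of_dvd (Int.natAbs_pos.2 hy) (Int.natCast_dvd.1 h1)
      omega
    refine T1_ext_hom (R := Localization.Away y)
      (S := integralClosure (Localization.Away y) (AlgebraicClosure ℚ))
      (IsLocalization.Away.lift y hk) fun x hx => ?_
    have : x = 0 := hφ (by rw [map_zero]; exact congrArg Subtype.val hx)
    rw [this]
    exact zero_mem _

theorem T1_one {σ τ : Type} [Finite τ] (κ : σ → AlgebraicClosure ℚ)
    (S : Set (MvPolynomial (σ ⊕ τ) ℤ)) (q : MvPolynomial (σ ⊕ τ) ℤ)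
    (h : ∀ z : τ → AlgebraicClosure ℚ,
      (∀ P ∈ S, eval₂Hom (Int.castRingHom _) (Sum.elim κ z) P = 0) →
        eval₂Hom (Int.castRingHom _) (Sum.elim κ z) q = 0) :
    ∃ T : Finset (AlgebraicClosure ℚ), ∀ (B : Subring (AlgebraicClosure ℚ)), (∀ t ∈ T, t ∈ B) →
      ∀ κB : σ → B, (∀ s, (κB s : AlgebraicClosure ℚ) = κ s) →
      ∀ (k : Type) [Field k] (f : B →+* k) (z : τ → k),
        (∀ P ∈ S, eval₂Hom (Int.castRingHom k) (Sum.elim (f ∘ κB) z) P = 0) →
          eval₂Hom (Int.castRingHom k) (Sum.elim (f ∘ κB) z) q = 0 := by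
  classical
  let φ : MvPolynomial (σ ⊕ τ) ℤ →+* MvPolynomial τ (AlgebraicClosure ℚ) :=
    eval₂Hom (Int.castRingHom _) (Sum.elim (fun s => C (κ s)) X)
  have hφ : ∀ (z : τ → AlgebraicClosure ℚ) P,
      aeval z (φ P) = eval₂Hom (Int.castRingHom _) (Sum.elim κ z) P := by
    intro z P
    have : (aeval z : MvPolynomial τ (AlgebraicClosure ℚ) →ₐ[_] _).toRingHom.comp φ =
        eval₂Hom (Int.castRingHom _) (Sum.elim κ z) := by
      refine MvPolynomial.ringHom_ext' (RingHom.ext_int _ _) fun i => ?_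
      cases i <;> simp [φ]
    exact RingHom.congr_fun this P
  have hmem : φ q ∈ (Ideal.span (φ '' S)).radical := by
    rw [← vanishingIdeal_zeroLocus_eq_radical (K := AlgebraicClosure ℚ), mem_vanishingIdeal_iff]
    intro z hz
    rw [hφ]
    refine h z fun P hP => ?_
    rw [← hφ]
    exact hz _ (Ideal.subset_span ⟨P, hP, rfl⟩)
  obtain ⟨N, hN⟩ := hmem
  obtain ⟨l, hl, hsum⟩ := (Finsupp.mem_span_image_iff_linearCombination _).1 hN
  refine ⟨l.support.biUnion fun P => (l P).coeffs, fun B hB κB hκ k _ f z hz => ?_⟩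
  have hlift : ∀ P, ∃ A : MvPolynomial τ B, map B.subtype A = l P := by
    intro P
    by_cases hP : P ∈ l.support
    · refine mem_range_map_iff_coeffs_subset.2 fun c hc => ?_
      exact ⟨⟨c, hB c (Finset.mem_biUnion.2 ⟨P, hP, hc⟩)⟩, rfl⟩
    · exact ⟨0, by rw [Finsupp.notMem_support_iff.1 hP, map_zero]⟩
  choose A hA using hlift
  let φB : MvPolynomial (σ ⊕ τ) ℤ →+* MvPolynomial τ B :=
    eval₂Hom (Int.castRingHom _) (Sum.elim (fun s => C (κB s)) X)
  have h1 : ∀ P, map B.subtype (φB P) = φ P := by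
    intro P
    have : (map B.subtype).comp φB = φ := by
      refine MvPolynomial.ringHom_ext' (RingHom.ext_int _ _) fun i => ?_
      cases i <;> simp [φ, φB, hκ]
    exact RingHom.congr_fun this P
  have h2 : ∀ P, eval₂Hom f z (φB P) =
      eval₂Hom (Int.castRingHom k) (Sum.elim (f ∘ κB) z) P := by
    intro P
    have : (eval₂Hom f z).comp φB = eval₂Hom (Int.castRingHom k) (Sum.elim (f ∘ κB) z) := by
      refine MvPolynomial.ringHom_ext' (RingHom.ext_int _ _) fun i => ?_
      cases i <;> simp [φB]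
    exact RingHom.congr_fun this P
  have h3 : ∑ P ∈ l.support, A P * φB P = φB q ^ N := by
    apply map_injective B.subtype B.subtype_injective
    rw [map_pow, h1, ← hsum, map_sum, Finsupp.linearCombination_apply, Finsupp.sum]
    refine Finset.sum_congr rfl fun P _ => ?_
    rw [map_mul, hA, h1, smul_eq_mul]
  have h4 := congrArg (eval₂Hom f z) h3
  rw [map_pow, h2, map_sum, Finset.sum_eq_zero] at h4
  · exact pow_eq_zero_iff'.1 h4.symm |>.1
  · intro P hP
    rw [map_mul, h2, hz P ((Finsupp.mem_supported _ l).1 hl hP), mul_zero]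

theorem transfer {σ ι ρ : Type} [Finite σ] [Finite ι] {τ : ι → Type} [∀ i, Finite (τ i)]
    (κ : σ → AlgebraicClosure ℚ)
    (E : ∀ i, Set (MvPolynomial ρ (MvPolynomial (σ ⊕ τ i) ℤ)))
    (Q : ∀ i, MvPolynomial ρ (MvPolynomial (σ ⊕ τ i) ℤ))
    (hE : ∀ i (z : τ i → AlgebraicClosure ℚ),
      (∀ P ∈ E i, map (eval₂Hom (Int.castRingHom _) (Sum.elim κ z)) P = 0) →
        map (eval₂Hom (Int.castRingHom _) (Sum.elim κ z)) (Q i) = 0) :
    ∃ N₀ : ℕ, ∀ p : ℕ, N₀ < p → p.Prime → ∀ (k : Type) [Field k] [IsAlgClosed k] [CharP k p],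
      ∃ κ' : σ → k,
        (∀ P : MvPolynomial σ ℤ, eval₂Hom (Int.castRingHom _) κ P = 0 →
          eval₂Hom (Int.castRingHom k) κ' P = 0) ∧
        ∀ i (z : τ i → k),
          (∀ P ∈ E i, map (eval₂Hom (Int.castRingHom k) (Sum.elim κ' z)) P = 0) →
            map (eval₂Hom (Int.castRingHom k) (Sum.elim κ' z)) (Q i) = 0 := by
  classical
  haveI := Fintype.ofFinite σ
  haveI := Fintype.ofFinite ι
  have key := fun i e => T1_one κ {c | ∃ P ∈ E i, ∃ e', c = coeff e' P} (coeff e (Q i))
    fun z hz => by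
      have := hE i z fun P hP => by
        ext e'
        rw [coeff_map, coeff_zero]
        exact hz _ ⟨P, hP, e', rfl⟩
      have h2 := congrArg (coeff e) this
      rwa [coeff_map, coeff_zero] at h2
  choose T hT using key
  obtain ⟨N₀, B, hB, hhom⟩ := T1_exists_hom (Finset.univ.image κ ∪
    Finset.univ.biUnion fun i => (Q i).support.biUnion (T i))
  refine ⟨N₀, fun p hp _ k _ _ _ => ?_⟩
  obtain ⟨f⟩ := hhom p hp k
  let κB : σ → B := fun s => ⟨κ s, hB _ (Finset.mem_union_left _
    (Finset.mem_image_of_mem _ (Finset.mem_univ s)))⟩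
  refine ⟨f ∘ κB, fun P hP => ?_, fun i z hz => ?_⟩
  · have h1 : B.subtype.comp (eval₂Hom (Int.castRingHom B) κB) =
        eval₂Hom (Int.castRingHom _) κ :=
      MvPolynomial.ringHom_ext' (RingHom.ext_int _ _) fun s => by simp [κB]
    have h2 : f.comp (eval₂Hom (Int.castRingHom B) κB) =
        eval₂Hom (Int.castRingHom k) (f ∘ κB) :=
      MvPolynomial.ringHom_ext' (RingHom.ext_int _ _) fun s => by simp
    have h3 : eval₂Hom (Int.castRingHom B) κB P = 0 := by
      apply B.subtype_injective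
      rw [map_zero, ← hP, ← h1, RingHom.comp_apply]
    rw [← h2, RingHom.comp_apply, h3, map_zero]
  · ext e
    rw [coeff_map, coeff_zero]
    by_cases he : e ∈ (Q i).support
    · refine hT i e B (fun t ht => hB t (Finset.mem_union_right _ (Finset.mem_biUnion.2
        ⟨i, Finset.mem_univ i, Finset.mem_biUnion.2 ⟨e, he, ht⟩⟩))) κB (fun _ => rfl) k f z ?_
      rintro _ ⟨P, hP, e', rfl⟩
      have h2 := congrArg (coeff e') (hz P hP)
      rwa [coeff_map, coeff_zero] at h2
    · rw [notMem_support_iff.1 he, map_zero]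

theorem T1_minor {k κ X : Type} [Field k] [Fintype κ] [DecidableEq κ] {v : κ → X → k}
    (hv : LinearIndependent k v) :
    ∃ x : κ → X, (Matrix.of fun l l' => v l (x l')).det ≠ 0 := by
  have h1 := span_flip_eq_top_iff_linearIndependent.2 hv
  obtain ⟨κ', a, -, hsp, hli⟩ := exists_linearIndependent' k (flip v)
  rw [h1] at hsp
  let b : Basis κ' k (κ → k) := Basis.mk hli hsp.ge
  let e : κ ≃ κ' := (Pi.basisFun k κ).indexEquiv b
  refine ⟨a ∘ e, ?_⟩
  have h2 : LinearIndependent k (Matrix.of fun l l' => v l ((a ∘ e) l')).col :=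
    hli.comp e e.injective
  exact ((Matrix.isUnit_iff_isUnit_det _).1
    (Matrix.linearIndependent_cols_iff_isUnit.1 h2)).ne_zero

/-- coefficient coordinates -/
noncomputable def T1_co (k ρ J : Type) [Field k] :
    (J → MvPolynomial ρ k) →ₗ[k] (J × (ρ →₀ ℕ) → k) :=
  LinearMap.pi fun x => (lcoeff k x.2).comp (LinearMap.proj x.1)

theorem T1_co_ker (k ρ J : Type) [Field k] : LinearMap.ker (T1_co k ρ J) = ⊥ := by
  rw [LinearMap.ker_eq_bot']
  intro v hv
  ext j e
  exact congrFun hv (j, e)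

/-- the rank can only drop under specialisation -/
theorem rank_drop {R k₀ k ρ J L : Type} [CommRing R] [Field k₀] [Field k] [Finite J] [Finite L]
    (f₀ : R →+* k₀) (f : R →+* k) (hf : ∀ P, f₀ P = 0 → f P = 0)
    (G : L → J → MvPolynomial ρ R) :
    finrank k (Submodule.span k (Set.range fun l j => map f (G l j))) ≤
      finrank k₀ (Submodule.span k₀ (Set.range fun l j => map f₀ (G l j))) := by
  classical
  obtain ⟨κ, a, ha, hsp, hli⟩ := exists_linearIndependent' k (fun l j => map f (G l j))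
  haveI : Finite κ := Finite.of_injective a ha
  haveI := Fintype.ofFinite κ
  rw [← hsp, finrank_span_eq_card hli]
  obtain ⟨x, hx⟩ := T1_minor (hli.map' _ (T1_co_ker k ρ J))
  let M : Matrix κ κ R := Matrix.of fun l l' => coeff (x l').2 (G (a l) (x l').1)
  have h1 : f M.det ≠ 0 := by
    rw [RingHom.map_det]
    convert hx using 2
    ext l l'
    simp [M, T1_co, coeff_map]
  have h2 : (M.map f₀).det ≠ 0 := fun h => h1 (hf _ (by rw [RingHom.map_det]; exact h))
  have h3 := Matrix.linearIndependent_rows_of_det_ne_zero h2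
  have h4 : LinearIndependent k₀ ((fun l j => map f₀ (G l j)) ∘ a) := by
    refine LinearIndependent.of_comp ((LinearMap.funLeft k₀ k₀ x).comp (T1_co k₀ ρ J)) ?_
    have h5 : ⇑((LinearMap.funLeft k₀ k₀ x).comp (T1_co k₀ ρ J)) ∘
        ((fun l j => map f₀ (G l j)) ∘ a) = fun i => M.map f₀ i := by
      ext l l'
      simp [M, T1_co, coeff_map, LinearMap.funLeft_apply]
    rw [h5]
    exact h3
  rw [← finrank_span_eq_card h4]
  haveI : Module.Finite k₀ (Submodule.span k₀ (Set.range fun l j => map f₀ (G l j))) :=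
    Module.Finite.span_of_finite k₀ (Set.finite_range _)
  exact Submodule.finrank_mono (Submodule.span_mono (Set.range_comp_subset_range _ _))

end Vale.Agent.P190
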