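import Vale.Agent.P190.T1
import Vale.Agent.P190.D0

/-! P190, part T2: spreading out a matrix. -/

namespace Vale.Agent.P190

open Module MvPolynomial

/-- the five units as polynomials -/
noncomputable def upol (R : Type) [CommRing R] : Fin 5 → MvPolynomial (Fin 2) R :=
  ![X 0, X 1, 1 - X 0, 1 - X 1, X 0 - X 1]

/-- polynomial form of a unit monomial -/
noncomputable def pmon (R : Type) [CommRing R] (T : ℤ) (c : Fin 5 → ℤ) : MvPolynomial (Fin 2) R :=
  ∏ j, upol R j ^ (c j + T).toNat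

theorem map_upol {R R' : Type} [CommRing R] [CommRing R'] (f : R →+* R') (j : Fin 5) :
    map f (upol R j) = upol R' j := by
  fin_cases j <;> simp [upol]

theorem map_pmon {R R' : Type} [CommRing R] [CommRing R'] (f : R →+* R') (T : ℤ) (c : Fin 5 → ℤ) :
    map f (pmon R T c) = pmon R' T c := by
  simp [pmon, map_prod, map_upol]

/-- monomials of degree `a` -/
abbrev Mon (n : ℕ) (a : ZZ) : Type := {c : Fin 5 → ℤ // ∀ i, 0 ≤ a i + n * lamv c i}

theorem finite_Mon {n : ℕ} (hn : 0 < n) (a : ZZ) : Finite (Mon n a) :=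
  (finite_monomials hn a).to_subtype

/-- generic element of degree `a` -/
noncomputable def gpol {R : Type} [CommRing R] {n : ℕ} {a : ZZ} [Fintype (Mon n a)] (T : ℤ)
    (z : Mon n a → R) : MvPolynomial (Fin 2) R := ∑ c, C (z c) * pmon R T c.1

theorem map_gpol {R R' : Type} [CommRing R] [CommRing R'] (f : R →+* R') {n : ℕ} {a : ZZ}
    [Fintype (Mon n a)] (T : ℤ) (z : Mon n a → R) : map f (gpol T z) = gpol T (fun c => f (z c)) := by
  simp [gpol, map_sum, map_pmon]

theorem exists_bound {n : ℕ} (hn : 0 < n) {ι : Type} [Finite ι] (a : ι → ZZ) :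
    ∃ T : ℤ, ∀ i (c : Mon n (a i)) j, 0 ≤ c.1 j + T := by
  haveI := fun i => finite_Mon hn (a i)
  obtain ⟨T, hT⟩ := (Set.finite_range fun q : (Σ i, Mon n (a i)) × Fin 5 => -q.1.2.1 q.2).bddAbove
  refine ⟨T, fun i c j => ?_⟩
  have := hT ⟨(⟨i, c⟩, j), rfl⟩
  simp only at this
  omega

section field

variable {k : Type} [Field k] {n : ℕ}

theorem algebraMap_pmon {T : ℤ} {c : Fin 5 → ℤ} (h : ∀ j, 0 ≤ c j + T) :
    algebraMap (MvPolynomial (Fin 2) k) (KK k) (pmon k T c) = umon k (fun _ => T) * umon k c := by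
  rw [← umon_add, pmon, map_prod, umon]
  refine Finset.prod_congr rfl fun j _ => ?_
  have : algebraMap (MvPolynomial (Fin 2) k) (KK k) (upol k j) = uu k j := by
    fin_cases j <;> simp [upol, uu, ss, tt]
  rw [map_pow, this, ← zpow_natCast, Int.toNat_of_nonneg (h j), Pi.add_apply, add_comm]

theorem mem_BB_iff_fun {a : ZZ} [Fintype (Mon n a)] (φ : KK k) :
    φ ∈ BB k n a ↔ ∃ z : Mon n a → k, ∑ c, z c • umon k c.1 = φ := by
  rw [← Submodule.mem_span_range_iff_exists_fun, BB]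
  congr! 2
  ext ψ
  constructor
  · rintro ⟨c, hc, rfl⟩
    exact ⟨⟨c, hc⟩, rfl⟩
  · rintro ⟨c, rfl⟩
    exact ⟨c.1, c.2, rfl⟩

theorem algebraMap_gpol {a : ZZ} [Fintype (Mon n a)] {T : ℤ} (hT : ∀ (c : Mon n a) j, 0 ≤ c.1 j + T)
    (z : Mon n a → k) : algebraMap (MvPolynomial (Fin 2) k) (KK k) (gpol T z) =
      umon k (fun _ => T) * ∑ c, z c • umon k c.1 := by
  rw [gpol, map_sum, Finset.mul_sum]
  refine Finset.sum_congr rfl fun c _ => ?_
  rw [map_mul, algebraMap_pmon (hT c), mul_smul_comm, Algebra.smul_def,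
    IsScalarTower.algebraMap_apply k (MvPolynomial (Fin 2) k) (KK k)]
  rfl

theorem fd_BB (hn : 0 < n) (a : ZZ) : FiniteDimensional k (BB k n a) := by
  refine FiniteDimensional.span_of_finite k (((finite_monomials hn a).image (umon k)).subset ?_)
  rintro _ ⟨c, hc, rfl⟩
  exact ⟨c, hc, rfl⟩

variable {N N' : ℕ}

theorem sol_iff (b : Fin N → ZZ) (M : Matrix (Fin N') (Fin N) (MvPolynomial (Fin 2) k)) {x : ℕ}
    (I₀ : Fin x → Fin N) (γ : ZZ) [∀ a, Fintype (Mon n a)] {T : ℤ}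
    (hT : ∀ l j (c : Mon n (∑ l', b (I₀ l') - b (I₀ l) + b j - γ)) i, 0 ≤ c.1 i + T)
    (hT' : ∀ (I : Fin x → Fin N) (c : Mon n (∑ l', b (I l') - γ)) i, 0 ≤ c.1 i + T) :
    Sol n b M I₀ γ ↔ ∃ (zw : ∀ l j, Mon n (∑ l', b (I₀ l') - b (I₀ l) + b j - γ) → k)
      (zψ : ∀ I : Fin x → Fin N, Mon n (∑ l', b (I l') - γ) → k), gpol T (zψ I₀) ≠ 0 ∧
      (∀ l i, ∑ j, M i j * gpol T (zw l j) = 0) ∧ ∀ I : Fin x → Fin N,
        Matrix.det (Matrix.of fun l l' => gpol T (zw l' (I l))) * gpol T (zψ I₀) -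
          gpol T (zψ I₀) ^ x * gpol T (zψ I) = 0 := by
  have hinj := IsFractionRing.injective (MvPolynomial (Fin 2) k) (KK k)
  have hu := umon_ne_zero (k := k) fun _ => T
  have main : ∀ (zw : ∀ l j, Mon n (∑ l', b (I₀ l') - b (I₀ l) + b j - γ) → k)
      (zψ : ∀ I : Fin x → Fin N, Mon n (∑ l', b (I l') - γ) → k),
      ((∑ c, zψ I₀ c • umon k c.1) ≠ 0 ∧ (∀ l, (fun j => ∑ c, zw l j c • umon k c.1) ∈ kerV M) ∧
        ∀ I : Fin x → Fin N,
        Matrix.det (Matrix.of fun l l' => ∑ c, zw l' (I l) c • umon k c.1) *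
          (∑ c, zψ I₀ c • umon k c.1) = (∑ c, zψ I₀ c • umon k c.1) ^ x * ∑ c, zψ I c • umon k c.1) ↔
      (gpol T (zψ I₀) ≠ 0 ∧ (∀ l i, ∑ j, M i j * gpol T (zw l j) = 0) ∧ ∀ I : Fin x → Fin N,
        Matrix.det (Matrix.of fun l l' => gpol T (zw l' (I l))) * gpol T (zψ I₀) -
          gpol T (zψ I₀) ^ x * gpol T (zψ I) = 0) := by
    intro zw zψ
    refine and_congr ?_ (and_congr (forall_congr' fun l => ?_) (forall_congr' fun I => ?_))
    · rw [← map_ne_zero_iff _ hinj, algebraMap_gpol (hT' I₀), mul_ne_zero_iff_left hu]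
    · rw [kerV, LinearMap.mem_ker, funext_iff]
      refine forall_congr' fun i => ?_
      rw [← map_eq_zero_iff _ hinj, map_sum]
      simp only [map_mul, algebraMap_gpol (hT l _), mul_left_comm _ (umon k fun _ => T)]
      rw [← Finset.mul_sum, mul_eq_zero_iff_left hu]
      rfl
    · rw [← map_eq_zero_iff _ hinj, map_sub, map_mul, map_mul, map_pow, RingHom.map_det,
        algebraMap_gpol (hT' I₀), algebraMap_gpol (hT' I)]
      have : (algebraMap (MvPolynomial (Fin 2) k) (KK k)).mapMatrix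
          (Matrix.of fun l l' => gpol T (zw l' (I l))) =
          umon k (fun _ => T) • Matrix.of fun l l' => ∑ c, zw l' (I l) c • umon k c.1 := by
        ext l l'
        simp [algebraMap_gpol (hT l' _)]
      rw [this, Matrix.det_smul, Fintype.card_fin, ← sub_eq_zero,
        ← mul_eq_zero_iff_left (mul_ne_zero (pow_ne_zero x hu) hu)]
      constructor <;> intro h <;> rw [← h] <;> ring
  constructor
  · rintro ⟨w, ψ, hw, hψ, h⟩
    choose zw hzw using fun l j => (mem_BB_iff_fun _).1 (hw l j)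
    choose zψ hzψ using fun I => (mem_BB_iff_fun _).1 (hψ I)
    refine ⟨zw, zψ, (main zw zψ).1 ?_⟩
    simpa only [hzw, hzψ] using h
  · rintro ⟨zw, zψ, h⟩
    exact ⟨fun l j => ∑ c, zw l j c • umon k c.1, fun I => ∑ c, zψ I c • umon k c.1,
      fun l j => (mem_BB_iff_fun _).2 ⟨_, rfl⟩, fun I => (mem_BB_iff_fun _).2 ⟨_, rfl⟩,
      (main zw zψ).2 h⟩

theorem rkP_eq (hn : 0 < n) (b : Fin N → ZZ) (M : Matrix (Fin N') (Fin N) (MvPolynomial (Fin 2) k))
    (a : ZZ) {T : ℤ} (hT : ∀ l (c : Mon n (a + b l)) i, 0 ≤ c.1 i + T) :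
    rkP n b M a = finrank k (Submodule.span k (Set.range
      fun (q : Σ l, Mon n (a + b l)) (i : Fin N') => M i q.1 * pmon k T q.2.1)) := by
  classical
  haveI := fun l => fd_BB (k := k) hn (a + b l)
  haveI := fun a => finite_Mon hn a
  haveI := fun a => Fintype.ofFinite (Mon n a)
  have hinj := IsFractionRing.injective (MvPolynomial (Fin 2) k) (KK k)
  have hu := umon_ne_zero (k := k) fun _ => T
  let ι : (∀ l, BB k n (a + b l)) →ₗ[k] (Fin N → KK k) :=
    LinearMap.pi fun l => (BB k n (a + b l)).subtype.comp (LinearMap.proj l)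
  have hι : Function.Injective ι := fun x y h => funext fun l => Subtype.ext (congrFun h l)
  let Φ : (∀ l, BB k n (a + b l)) →ₗ[k] (Fin N' → KK k) :=
    umon k (fun _ => T) • (((matK M).mulVecLin.restrictScalars k).comp ι)
  have hΦ : ∀ φ i, Φ φ i = ∑ l, algebraMap _ (KK k) (M i l) * (umon k (fun _ => T) * φ l) := by
    intro φ i
    simp [Φ, ι, matK, Matrix.mulVec, dotProduct, Finset.mul_sum, mul_left_comm]
  let A : (Fin N' → MvPolynomial (Fin 2) k) →ₗ[k] (Fin N' → KK k) :=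
    (IsScalarTower.toAlgHom k (MvPolynomial (Fin 2) k) (KK k)).toLinearMap.compLeft (Fin N')
  have hA : Function.Injective A := fun x y h => funext fun i => hinj (congrFun h i)
  have h1 : (LinearMap.ker Φ).map ι = kerP n b M a := by
    ext φ
    constructor
    · rintro ⟨ψ, hψ, rfl⟩
      refine ⟨fun l _ => (ψ l).2, ?_⟩
      have : umon k (fun _ => T) • (matK M).mulVecLin (ι ψ) = 0 := hψ
      exact (smul_eq_zero.1 this).resolve_left hu
    · rintro ⟨h1, h2⟩
      refine ⟨fun l => ⟨φ l, h1 l trivial⟩, ?_, rfl⟩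
      have h3 : (matK M).mulVecLin φ = 0 := h2
      change umon k (fun _ => T) • (matK M).mulVecLin φ = 0
      rw [h3, smul_zero]
  have h2 : LinearMap.range Φ = (Submodule.span k (Set.range
      fun (q : Σ l, Mon n (a + b l)) (i : Fin N') => M i q.1 * pmon k T q.2.1)).map A := by
    apply le_antisymm
    · rintro _ ⟨φ, rfl⟩
      choose z hz using fun l => (mem_BB_iff_fun _).1 (φ l).2
      refine ⟨∑ l, ∑ c : Mon n (a + b l), z l c • fun i => M i l * pmon k T c.1,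
        Submodule.sum_mem _ fun l _ => Submodule.sum_mem _ fun c _ => Submodule.smul_mem _ _
          (Submodule.subset_span ⟨⟨l, c⟩, rfl⟩), ?_⟩
      funext i
      rw [hΦ]
      simp only [map_sum, map_smul, Finset.sum_apply, Pi.smul_apply]
      refine Finset.sum_congr rfl fun l _ => ?_
      rw [← hz, Finset.mul_sum, Finset.mul_sum]
      refine Finset.sum_congr rfl fun c _ => ?_
      change z l c • algebraMap _ (KK k) (M i l * pmon k T c.1) = _
      rw [map_mul, algebraMap_pmon (hT l c), mul_smul_comm, mul_smul_comm]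
    · rw [Submodule.map_span, Submodule.span_le]
      rintro _ ⟨_, ⟨⟨l, c⟩, rfl⟩, rfl⟩
      refine ⟨Pi.single l ⟨umon k c.1, umon_mem_BB c.2⟩, ?_⟩
      funext i
      rw [hΦ, Finset.sum_eq_single l]
      · change _ = algebraMap _ (KK k) (M i l * pmon k T c.1)
        rw [map_mul, algebraMap_pmon (hT l c), Pi.single_eq_same]
      · intro l' _ hl'
        simp [Pi.single_eq_of_ne hl']
      · simp
  have h3 := LinearMap.finrank_range_add_finrank_ker Φ
  rw [Module.finrank_pi_fintype, h2, ← (Submodule.equivMapOfInjective A hA _).finrank_eq,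
    (Submodule.equivMapOfInjective ι hι _).finrank_eq, h1] at h3
  rw [rkP, ← Nat.cast_sum, ← h3]
  push_cast
  ring

theorem rank_eq_iff {K : Type} [Field K] (M : Matrix (Fin N') (Fin N) K) :
    M.rank = N' ↔ ∃ I : Fin N' → Fin N, (M.submatrix id I).det ≠ 0 := by
  classical
  constructor
  · intro h
    rw [Matrix.rank_eq_finrank_span_cols] at h
    have htop : Submodule.span K (Set.range M.col) = ⊤ :=
      Submodule.eq_top_of_finrank_eq (by simpa using h)
    let B₀ := Basis.ofSpan htop.ge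
    let e := Pi.basisFun K (Fin N')
    let B₁ := B₀.reindex (B₀.indexEquiv e)
    have hB : ∀ l, ∃ j, M.col j = B₁ l := fun l => by
      have := Basis.ofSpan_subset htop.ge ⟨(B₀.indexEquiv e).symm l, rfl⟩
      rw [Basis.reindex_apply]
      exact this
    choose I hI using hB
    refine ⟨I, ?_⟩
    have h1 := (e.isUnit_det B₁).ne_zero
    rw [Basis.det_apply] at h1
    convert h1 using 2
    ext i j
    simp [e, Basis.toMatrix_apply, ← hI]
  · rintro ⟨I, hI⟩
    refine le_antisymm (Matrix.rank_le_height M) ?_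
    have h1 := Matrix.rank_of_isUnit _ ((Matrix.isUnit_iff_isUnit_det _).2 (Ne.isUnit hI))
    rw [Fintype.card_fin] at h1
    exact h1.ge.trans (Matrix.rank_submatrix_le M id I)

theorem rank_matK_iff (M : Matrix (Fin N') (Fin N) (MvPolynomial (Fin 2) k)) :
    (matK M).rank = N' ↔ ∃ I : Fin N' → Fin N, (M.submatrix id I).det ≠ 0 := by
  rw [rank_eq_iff]
  refine exists_congr fun I => ?_
  rw [← map_ne_zero_iff _ (IsFractionRing.injective (MvPolynomial (Fin 2) k) (KK k)),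
    RingHom.map_det]
  rfl

theorem exists_generic (M : Matrix (Fin N') (Fin N) (MvPolynomial (Fin 2) k)) :
    ∃ (σ : Type) (_ : Finite σ) (κ : σ → k)
      (G : Matrix (Fin N') (Fin N) (MvPolynomial (Fin 2) (MvPolynomial σ ℤ))),
      G.map (map (eval₂Hom (Int.castRingHom k) κ)) = M := by
  refine ⟨Σ q : Fin N' × Fin N, (M q.1 q.2).support, inferInstance, fun q => coeff q.2.1 (M q.1.1 q.1.2),
    Matrix.of fun i j => ∑ e : (M i j).support, monomial e.1 (X ⟨(i, j), e⟩), ?_⟩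
  ext1 i j
  simp only [Matrix.map_apply, Matrix.of_apply, map_sum, map_monomial, eval₂Hom_X']
  conv_rhs => rw [(M i j).as_sum, ← Finset.sum_coe_sort]

end field

theorem spread {n : ℕ} (hn : 0 < n) {N N' : ℕ} (b : Fin N → ZZ)
    (M₀ : Matrix (Fin N') (Fin N) (MvPolynomial (Fin 2) QQ)) (hrk : (matK M₀).rank = N')
    (T : Set (Σ x : ℕ, (Fin x → Fin N) × ZZ)) (hT : T.Finite)
    (hno : ∀ t ∈ T, ¬ Sol n b M₀ t.2.1 t.2.2) :
    ∃ N₀ : ℕ, ∀ p : ℕ, N₀ < p → p.Prime → ∀ (k : Type) [Field k] [IsAlgClosed k] [CharP k p],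
      ∃ M : Matrix (Fin N') (Fin N) (MvPolynomial (Fin 2) k), (matK M).rank = N' ∧
        (∀ t ∈ T, ¬ Sol n b M t.2.1 t.2.2) ∧ ∀ a, rkP n b M a ≤ rkP n b M₀ a := by
  classical
  haveI := fun a => finite_Mon hn a
  haveI := fun a => Fintype.ofFinite (Mon n a)
  haveI := hT.to_subtype
  obtain ⟨σ₀, _, κ₀, G₀, hG₀⟩ := exists_generic M₀
  obtain ⟨I₁, hI₁⟩ := (rank_matK_iff M₀).1 hrk
  obtain ⟨e₁, he₁⟩ := exists_coeff_ne_zero hI₁
  let σ := Option σ₀
  let κ : σ → QQ := fun o => o.elim (coeff e₁ (M₀.submatrix id I₁).det)⁻¹ κ₀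
  let G : Matrix (Fin N') (Fin N) (MvPolynomial (Fin 2) (MvPolynomial σ ℤ)) :=
    G₀.map (map (rename some).toRingHom)
  have hG : G.map (map (eval₂Hom (Int.castRingHom QQ) κ)) = M₀ := by
    rw [← hG₀]
    ext1 i j
    simp only [G, Matrix.map_apply, map_map]
    congr 2
    ext <;> simp [κ]
  have hdet : ∀ {k : Type} [Field k] (f : MvPolynomial σ ℤ →+* k),
      f (coeff e₁ (G.submatrix id I₁).det) = coeff e₁ ((G.map (map f)).submatrix id I₁).det := by
    intro k _ f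
    rw [← coeff_map, RingHom.map_det]
    rfl
  let dw : ∀ t : T, Fin t.1.1 → Fin N → ZZ := fun t l j =>
    ∑ l', b (t.1.2.1 l') - b (t.1.2.1 l) + b j - t.1.2.2
  let dψ : ∀ t : T, (Fin t.1.1 → Fin N) → ZZ := fun t I => ∑ l', b (I l') - t.1.2.2
  obtain ⟨T₀, hT₀⟩ := exists_bound hn
    (ι := Σ t : T, (Fin t.1.1 × Fin N) ⊕ (Fin t.1.1 → Fin N))
    fun q => q.2.elim (fun r => dw q.1 r.1 r.2) (dψ q.1)
  have hTw : ∀ t l j (c : Mon n (dw t l j)) i, 0 ≤ c.1 i + T₀ :=
    fun t l j c i => hT₀ ⟨t, Sum.inl (l, j)⟩ c i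
  have hTψ : ∀ t I (c : Mon n (dψ t I)) i, 0 ≤ c.1 i + T₀ := fun t I c i => hT₀ ⟨t, Sum.inr I⟩ c i
  let τ : T → Type := fun t =>
    (Σ r : Fin t.1.1 × Fin N, Mon n (dw t r.1 r.2)) ⊕ (Σ I : Fin t.1.1 → Fin N, Mon n (dψ t I))
  let Wg : ∀ t : T, Fin t.1.1 → Fin N → MvPolynomial (Fin 2) (MvPolynomial (σ ⊕ τ t) ℤ) :=
    fun t l j => gpol T₀ fun c : Mon n (dw t l j) => X (Sum.inr (Sum.inl ⟨(l, j), c⟩))
  let Ψg : ∀ t : T, (Fin t.1.1 → Fin N) → MvPolynomial (Fin 2) (MvPolynomial (σ ⊕ τ t) ℤ) :=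
    fun t I => gpol T₀ fun c : Mon n (dψ t I) => X (Sum.inr (Sum.inr ⟨I, c⟩))
  let E : ∀ t : T, Set (MvPolynomial (Fin 2) (MvPolynomial (σ ⊕ τ t) ℤ)) := fun t =>
    (Set.range fun q : Fin t.1.1 × Fin N' =>
      ∑ j, map (rename Sum.inl).toRingHom (G q.2 j) * Wg t q.1 j) ∪
    Set.range fun I : Fin t.1.1 → Fin N =>
      Matrix.det (Matrix.of fun l l' => Wg t l' (I l)) * Ψg t t.1.2.1 -
        Ψg t t.1.2.1 ^ t.1.1 * Ψg t I
  have main : ∀ {k : Type} [Field k] (κ' : σ → k) (t : T),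
      ¬ Sol n b (G.map (map (eval₂Hom (Int.castRingHom k) κ'))) t.1.2.1 t.1.2.2 ↔
      ∀ z : τ t → k, (∀ P ∈ E t, map (eval₂Hom (Int.castRingHom k) (Sum.elim κ' z)) P = 0) →
        map (eval₂Hom (Int.castRingHom k) (Sum.elim κ' z)) (Ψg t t.1.2.1) = 0 := by
    intro k _ κ' t
    have hW : ∀ (z : τ t → k) l j, map (eval₂Hom (Int.castRingHom k) (Sum.elim κ' z)) (Wg t l j) =
        gpol T₀ fun c : Mon n (dw t l j) => z (Sum.inl ⟨(l, j), c⟩) := by
      intro z l j
      simp only [Wg, map_gpol, eval₂Hom_X', Sum.elim_inr]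
    have hΨ : ∀ (z : τ t → k) I, map (eval₂Hom (Int.castRingHom k) (Sum.elim κ' z)) (Ψg t I) =
        gpol T₀ fun c : Mon n (dψ t I) => z (Sum.inr ⟨I, c⟩) := by
      intro z I
      simp only [Ψg, map_gpol, eval₂Hom_X', Sum.elim_inr]
    have hM : ∀ (z : τ t → k) P, map (eval₂Hom (Int.castRingHom k) (Sum.elim κ' z))
        (map (rename Sum.inl).toRingHom P : MvPolynomial (Fin 2) (MvPolynomial (σ ⊕ τ t) ℤ)) =
        map (eval₂Hom (Int.castRingHom k) κ') P := by
      intro z P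
      rw [map_map]
      congr 2
      ext <;> simp
    have hE : ∀ z : τ t → k,
        (∀ P ∈ E t, map (eval₂Hom (Int.castRingHom k) (Sum.elim κ' z)) P = 0) ↔
        ((∀ l i, ∑ j, (G.map (map (eval₂Hom (Int.castRingHom k) κ'))) i j *
          gpol T₀ (fun c : Mon n (dw t l j) => z (Sum.inl ⟨(l, j), c⟩)) = 0) ∧
        ∀ I : Fin t.1.1 → Fin N, Matrix.det (Matrix.of fun l l' =>
          gpol T₀ fun c : Mon n (dw t l' (I l)) => z (Sum.inl ⟨(l', I l), c⟩)) *
          gpol T₀ (fun c : Mon n (dψ t t.1.2.1) => z (Sum.inr ⟨t.1.2.1, c⟩)) -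
          gpol T₀ (fun c : Mon n (dψ t t.1.2.1) => z (Sum.inr ⟨t.1.2.1, c⟩)) ^ t.1.1 *
          gpol T₀ (fun c : Mon n (dψ t I) => z (Sum.inr ⟨I, c⟩)) = 0) := by
      intro z
      simp only [E, Set.mem_union, or_imp, forall_and, Set.forall_mem_range, Prod.forall]
      refine and_congr (forall_congr' fun l => forall_congr' fun i => ?_) (forall_congr' fun I => ?_)
      · simp only [map_sum, map_mul, hM, hW, Matrix.map_apply]
      · rw [map_sub, map_mul, map_mul, map_pow, RingHom.map_det, hΨ, hΨ]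
        have : (map (eval₂Hom (Int.castRingHom k) (Sum.elim κ' z))).mapMatrix
            (Matrix.of fun l l' => Wg t l' (I l)) = Matrix.of fun l l' =>
            gpol T₀ fun c : Mon n (dw t l' (I l)) => z (Sum.inl ⟨(l', I l), c⟩) := by
          ext1 l l'
          exact hW z l' (I l)
        rw [this]
    rw [sol_iff b _ t.1.2.1 t.1.2.2 (hTw t) (hTψ t)]
    constructor
    · intro h z hz
      by_contra h0
      rw [hΨ] at h0
      exact h ⟨fun l j c => z (Sum.inl ⟨(l, j), c⟩), fun I c => z (Sum.inr ⟨I, c⟩), h0, (hE z).1 hz⟩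
    · rintro h ⟨zw, zψ, h0, h1⟩
      have := h (Sum.elim (fun r => zw r.1.1 r.1.2 r.2) fun r => zψ r.1 r.2) ((hE _).2 h1)
      rw [hΨ] at this
      exact h0 this
  obtain ⟨N₀, hN₀⟩ := transfer κ E (fun t => Ψg t t.1.2.1) fun t =>
    (main κ t).1 (by rw [hG]; exact hno t.1 t.2)
  refine ⟨N₀, fun p hp hpp k _ _ _ => ?_⟩
  obtain ⟨κ', h1, h2⟩ := hN₀ p hp hpp k
  refine ⟨G.map (map (eval₂Hom (Int.castRingHom k) κ')), ?_, fun t ht => (main κ' ⟨t, ht⟩).2 (h2 _),
    fun a => ?_⟩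
  · refine (rank_matK_iff _).2 ⟨I₁, fun h0 => ?_⟩
    have h3 := h1 (X none * coeff e₁ (G.submatrix id I₁).det - 1) (by
      rw [map_sub, map_mul, map_one, hdet, hG, eval₂Hom_X']
      exact sub_eq_zero.2 (inv_mul_cancel₀ he₁))
    rw [map_sub, map_mul, map_one, hdet, h0] at h3
    simp at h3
  · obtain ⟨T₁, hT₁⟩ := exists_bound hn fun l => a + b l
    rw [rkP_eq hn b _ a hT₁, rkP_eq hn b _ a hT₁, ← hG]
    have := rank_drop (eval₂Hom (Int.castRingHom QQ) κ) (eval₂Hom (Int.castRingHom k) κ') h1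
      fun (q : Σ l, Mon n (a + b l)) (i : Fin N') => G i q.1 * pmon _ T₁ q.2.1
    have e1 : ∀ {k : Type} [Field k] (f : MvPolynomial σ ℤ →+* k),
        (fun (q : Σ l, Mon n (a + b l)) (i : Fin N') => map f (G i q.1 * pmon _ T₁ q.2.1)) =
        fun q i => G.map (map f) i q.1 * pmon k T₁ q.2.1 := by
      intro k _ f
      funext q i
      rw [map_mul, map_pmon]
      rfl
    rw [e1, e1] at this
    exact Int.ofNat_le.2 this

end Vale.Agent.P190
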