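import Vale.Agent.P190.D0
import Vale.Agent.P190.G4

/-! P190, part T3: kernel presentations and Pluecker data. -/

namespace Vale.Agent.P190

open Module

theorem sum_b_update {N x : ℕ} (b : Fin N → ZZ) (I₀ : Fin x → Fin N) (l : Fin x) (j : Fin N) :
    ∑ l', b (Function.update I₀ l j l') = ∑ l', b (I₀ l') - b (I₀ l) + b j := by
  rw [← Finset.add_sum_erase _ _ (Finset.mem_univ l),
    ← Finset.add_sum_erase _ (fun l' => b (I₀ l')) (Finset.mem_univ l), Function.update_self,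
    Finset.sum_congr rfl fun l' hl' => by rw [Function.update_of_ne (Finset.ne_of_mem_erase hl')]]
  abel

section sol

variable {k : Type} [Field k] {n N N' x : ℕ} {b : Fin N → ZZ}
  {M : Matrix (Fin N') (Fin N) (MvPolynomial (Fin 2) k)} {I₀ : Fin x → Fin N} {γ γ' : ZZ}

theorem Sol.mono (h : Sol n b M I₀ γ)
    (hle : ∀ I : Fin x → Fin N, BB k n (∑ l, b (I l) - γ) ≤ BB k n (∑ l, b (I l) - γ')) :
    Sol n b M I₀ γ' := by
  obtain ⟨w, ψ, h1, h2, h3, h4, h5⟩ := h
  refine ⟨w, ψ, fun l j => ?_, fun I => hle I (h2 I), h3, h4, h5⟩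
  have := h1 l j
  rw [← sum_b_update] at this ⊢
  exact hle _ this

theorem Sol.unit (h : Sol n b M I₀ γ) (c : Fin 5 → ℤ) :
    Sol n b M I₀ (γ - (n : ℤ) • lamv c) := by
  obtain ⟨w, ψ, h1, h2, h3, h4, h5⟩ := h
  refine ⟨fun l => umon k (-c) • w l, fun I => umon k (-c) * ψ I, fun l j => ?_, fun I => ?_,
    mul_ne_zero (umon_ne_zero _) h3, fun l => Submodule.smul_mem _ _ (h4 l), fun I => ?_⟩
  · rw [← sub_add]
    exact (mem_BB_iff_unit _ c _).1 (h1 l j)
  · rw [← sub_add]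
    exact (mem_BB_iff_unit _ c _).1 (h2 I)
  · have : (Matrix.of fun l l' => (umon k (-c) • w l') (I l)) =
        umon k (-c) • Matrix.of fun l l' => w l' (I l) := rfl
    rw [this, Matrix.det_smul, Fintype.card_fin, mul_pow]
    linear_combination umon k (-c) ^ x * umon k (-c) * h5 I

theorem Sol.normal (h : Sol n b M I₀ γ) : ∃ c : Fin 5 → ℤ,
    Sol n b M I₀ (γ - (n : ℤ) • lamv c) ∧ γ - (n : ℤ) • lamv c ≤ ∑ l, b (I₀ l) := by
  have h' := h
  obtain ⟨w, ψ, -, h2, h3, -, -⟩ := h'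
  by_contra hc
  have h4 := h2 I₀
  rw [BB, Submodule.span_eq_bot.2] at h4
  · exact h3 h4
  · rintro _ ⟨c, hc', rfl⟩
    refine (hc ⟨c, h.unit c, fun i => ?_⟩).elim
    have := hc' i
    simp only [Pi.sub_apply, Pi.smul_apply, smul_eq_mul] at this ⊢
    linarith

end sol

theorem sol_finite_HA {n : ℕ} (hn : 0 < n) {N x : ℕ} (b : Fin N → ZZ) (I₀ : Fin x → Fin N)
    (t : ℤ) : ∃ Γ : Finset ZZ, (∀ γ ∈ Γ, t ≤ HA γ) ∧ ∀ (k : Type) [Field k] (N' : ℕ)
      (M : Matrix (Fin N') (Fin N) (MvPolynomial (Fin 2) k)) (γ : ZZ), t ≤ HA γ →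
        Sol n b M I₀ γ → ∃ γ' ∈ Γ, Sol n b M I₀ γ' := by
  have _ := hn
  obtain ⟨C, hC⟩ := Finite.exists_le fun I : Fin x → Fin N =>
    (∑ l, b (I l)) 6 + (∑ l, b (I l)) 7 + (∑ l, b (I l)) 8 - (∑ l, b (I l)) 9
  set β := ∑ l, b (I₀ l) with hβ
  set β' := Function.update β 9 (β 6 + β 7 + β 8 - C) with hβ'
  refine ⟨(Finset.Icc (β' - cst (HA β - t)) β').filter fun γ => t ≤ HA γ,
    fun γ hγ => (Finset.mem_filter.1 hγ).2, fun k _ N' M γ ht h => ?_⟩
  obtain ⟨c, h1, h2⟩ := h.normal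
  have h3 : t ≤ HA (γ - (n : ℤ) • lamv c) := by
    rwa [map_sub, map_zsmul, HA_lamv, smul_zero, sub_zero]
  generalize γ - (n : ℤ) • lamv c = δ at h1 h2 h3
  refine ⟨Function.update δ 9 (δ 6 + δ 7 + δ 8 - C), ?_, h1.mono fun I =>
    (BB_le_update _).trans (BB_mono fun i => ?_)⟩
  · rw [← hβ] at h2
    have := h2 0; have := h2 1; have := h2 2; have := h2 3; have := h2 4; have := h2 5
    have := h2 6; have := h2 7; have := h2 8
    rw [HA_eq] at h3
    refine Finset.mem_filter.2 ⟨Finset.mem_Icc.2 ⟨fun i => ?_, fun i => ?_⟩, ?_⟩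
    · fin_cases i <;> simp [hβ', cst, HA_eq] <;> linarith
    · fin_cases i <;> simp [hβ'] <;> linarith
    · simpa [HA_eq] using h3
  · by_cases hi : i = 9
    · subst hi
      have := hC I
      simp only [Function.update_self, Pi.sub_apply] at this ⊢
      linarith
    · simp only [Function.update_of_ne hi, Pi.sub_apply, le_refl]

theorem sol_finite_HL {n : ℕ} (hn : 0 < n) {N x : ℕ} (b : Fin N → ZZ) (I₀ : Fin x → Fin N)
    (t : ℤ) : ∃ Γ : Finset ZZ, (∀ γ ∈ Γ, t ≤ HL γ) ∧ ∀ (k : Type) [Field k] (N' : ℕ)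
      (M : Matrix (Fin N') (Fin N) (MvPolynomial (Fin 2) k)) (γ : ZZ), t ≤ HL γ →
        Sol n b M I₀ γ → ∃ γ' ∈ Γ, Sol n b M I₀ γ' := by
  have _ := hn
  set β := ∑ l, b (I₀ l) with hβ
  refine ⟨(Finset.Icc (β - cst (HL β - t)) β).filter fun γ => t ≤ HL γ,
    fun γ hγ => (Finset.mem_filter.1 hγ).2, fun k _ N' M γ ht h => ?_⟩
  obtain ⟨c, h1, h2⟩ := h.normal
  have h3 : t ≤ HL (γ - (n : ℤ) • lamv c) := by
    rwa [map_sub, map_zsmul, HL_lamv, smul_zero, sub_zero]
  generalize γ - (n : ℤ) • lamv c = δ at h1 h2 h3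
  refine ⟨δ, Finset.mem_filter.2 ⟨Finset.mem_Icc.2 ⟨fun i => ?_, h2⟩, h3⟩, h1⟩
  have h4 : (β - δ) i ≤ HL (β - δ) :=
    Finset.single_le_sum (f := β - δ) (fun j _ => sub_nonneg.2 (h2 j)) (Finset.mem_univ i)
  rw [map_sub] at h4
  simp only [Pi.sub_apply, cst] at h4 ⊢
  linarith

theorem exists_minor {K ι κ : Type} [Field K] [Fintype ι] [Fintype κ] [DecidableEq κ]
    (v : κ → ι → K) (hv : LinearIndependent K v) :
    ∃ I : κ → ι, (Matrix.of fun l l' => v l' (I l)).det ≠ 0 := by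
  have h1 := LinearIndependent.rank_matrix (M := Matrix.of v) hv
  rw [Matrix.rank_eq_finrank_span_cols] at h1
  obtain ⟨κ', a, ha, hsp, hli⟩ := exists_linearIndependent' K (Matrix.of v).col
  have : Fintype κ' := Fintype.ofInjective a ha
  have hcard := finrank_span_eq_card hli
  rw [hsp, h1] at hcard
  let σ := Fintype.equivOfCardEq hcard
  refine ⟨a ∘ σ, ?_⟩
  have := (Matrix.linearIndependent_rows_iff_isUnit
    (A := Matrix.of fun l l' => v l' (a (σ l)))).1 (hli.comp σ σ.injective)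
  exact ((Matrix.isUnit_iff_isUnit_det _).1 this).ne_zero

section generic

variable {k K Γ : Type} [Field k] [Field K] [Algebra k K] [AddCommGroup Γ] (S : Sys k K Γ)
variable {N : ℕ} (b : Fin N → Γ) (Y : Submodule K (Fin N → K))

/-- restriction of a free family to a subspace -/
noncomputable def subF : Fam S Y :=
  (Fam.free S (Pi.basisFun K (Fin N)) fun l => -b l).comap Y.subtype

theorem subF_FG : (subF S b Y).FG :=
  (Fam.free_FG _ _).comap _ (Submodule.injective_subtype _)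

theorem subF_spans : (subF S b Y).Spans :=
  (Fam.free_spans _ _).comap _

theorem mem_subF (a : Γ) (v : Y) : v ∈ (subF S b Y).U a ↔ ∀ l, v.1 l ∈ S.B (a + b l) := by
  refine (Fam.mem_free (S := S) (Pi.basisFun K (Fin N)) (fun l => -b l) a v.1).trans ?_
  simp

/-- the local formula for a subspace -/
theorem subF_loc (X : Submodule K Y) {x : ℕ} (e : Basis (Fin x) K X) :
    ∃ c : K, c ≠ 0 ∧ ∀ P t, t ≤ S.val P (Fam.comap (W := X) X.subtype (subF S b Y)).cl c ↔
      ∀ I : Fin x → Fin N,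
        S.Ge P (∑ l, b (I l)) (Matrix.of fun l l' => (e l').1.1 (I l)).det t := by
  obtain ⟨c, hc, hn⟩ := (Fam.isClass_cl (Fam.FG.comap (W := X) (subF_FG S b Y) X.subtype
    (Submodule.injective_subtype _)) ((subF_spans S b Y).comap _)).exists_norm e
  refine ⟨c, hc, fun P t => ?_⟩
  have := Fam.loc_formula (W := X) (U := Fam.free S (Pi.basisFun K (Fin N)) fun l => -b l)
    (Y.subtype ∘ₗ X.subtype)
    ((Submodule.injective_subtype _).comp (Submodule.injective_subtype _)) e _ c hc P (hn P)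
    _ _ (Fam.free_isOpt _ _ P) t
  simpa using this

theorem subF_eff {x : ℕ} {I₀ : Fin x → Fin N} {γ : Γ} (w : Fin x → Fin N → K)
    (ψ : (Fin x → Fin N) → K) (h2 : ∀ I, ψ I ∈ S.B (∑ l', b (I l') - γ)) (h3 : ψ I₀ ≠ 0)
    (h4 : ∀ l, w l ∈ Y) (h5 : ∀ I : Fin x → Fin N,
      Matrix.det (Matrix.of fun l l' => w l' (I l)) * ψ I₀ = ψ I₀ ^ x * ψ I) :
    ∃ X : Submodule K Y, finrank K X = x ∧ S.Eff ((Fam.comap (W := X) X.subtype (subF S b Y)).cl - γ) := by
  have hdet : ∀ I, (Matrix.of fun l l' => w l' (I l)).det = ψ I₀ ^ x / ψ I₀ * ψ I := fun I => by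
    rw [div_mul_eq_mul_div, eq_div_iff h3, h5]
  have hne : ψ I₀ ^ x / ψ I₀ ≠ 0 := div_ne_zero (pow_ne_zero _ h3) h3
  have hli : LinearIndependent K fun l => (⟨w l, h4 l⟩ : Y) := by
    have h6 := Matrix.linearIndependent_cols_of_det_ne_zero
      (hdet I₀ ▸ mul_ne_zero hne h3 : (Matrix.of fun l l' => w l' (I₀ l)).det ≠ 0)
    exact LinearIndependent.of_comp ((LinearMap.funLeft K K I₀) ∘ₗ Y.subtype) h6
  refine ⟨_, (finrank_eq_card_basis (Basis.span hli)).trans (Fintype.card_fin x), ?_⟩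
  obtain ⟨c, hc, hloc⟩ := subF_loc S b Y _ (Basis.span hli)
  refine ⟨c / (ψ I₀ ^ x / ψ I₀), div_ne_zero hc hne, (S.mem_iff _ _ (div_ne_zero hc hne)).2
    fun P => ?_⟩
  rw [Sys.val_div P _ _ hc hne, sub_nonneg]
  refine (hloc P _).2 fun I => ?_
  simp only [Basis.span_apply, hdet]
  have := Sys.Ge.mul (S := S) (P := P) (a := γ) (Or.inr le_rfl : S.Ge P γ (ψ I₀ ^ x / ψ I₀) _)
    (Sys.mem_iff_ge.1 (h2 I) P)
  rwa [add_sub_cancel, add_zero] at this

theorem subF_sol (X : Submodule K Y) {x : ℕ} (hx : finrank K X = x) :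
    ∃ (I₀ : Fin x → Fin N) (w : Fin x → Fin N → K) (ψ : (Fin x → Fin N) → K),
      (∀ l j, w l j = ψ (Function.update I₀ l j)) ∧
      (∀ I, ψ I ∈ S.B (∑ l', b (I l') - (Fam.comap (W := X) X.subtype (subF S b Y)).cl)) ∧ ψ I₀ ≠ 0 ∧
      (∀ l, w l ∈ Y) ∧ ∀ I : Fin x → Fin N,
        Matrix.det (Matrix.of fun l l' => w l' (I l)) * ψ I₀ = ψ I₀ ^ x * ψ I := by
  have : Module.Free K X := Module.Free.of_divisionRing K X
  obtain ⟨e⟩ : Nonempty (Basis (Fin x) K X) := ⟨Module.finBasisOfFinrankEq K X hx⟩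
  obtain ⟨c, hc, hloc⟩ := subF_loc S b Y X e
  generalize (Fam.comap (W := X) X.subtype (subF S b Y)).cl = γ at hloc
  obtain ⟨v, hv⟩ : ∃ v : Fin x → Fin N → K, ∀ l, v l = (e l).1.1 := ⟨_, fun _ => rfl⟩
  simp only [← hv] at hloc
  have hli : LinearIndependent K v := by
    have h1 : LinearIndependent K fun l => e l := e.linearIndependent
    have h2 : LinearIndependent K fun l => (e l).1 := h1.map_injOn X.subtype
      Subtype.val_injective.injOn
    have h3 : LinearIndependent K fun l => (e l).1.1 :=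
      h2.map_injOn Y.subtype Subtype.val_injective.injOn
    rwa [funext hv]
  obtain ⟨I₀, hI₀⟩ := exists_minor v hli
  set A : (Fin x → Fin N) → Matrix (Fin x) (Fin x) K :=
    fun I => Matrix.of fun l l' => v l' (I l) with hA
  have hψ : ∀ I, (A I).det * c⁻¹ ∈ S.B (∑ l, b (I l) - γ) := fun I => by
    rw [Sys.mem_iff_ge]
    intro P
    have := ((hloc P _).1 le_rfl I).mul (Or.inr (Sys.val_inv P γ hc).ge)
    rwa [add_neg_cancel, ← sub_eq_add_neg] at this
  have hw : ∀ l j, (A (Function.update I₀ l j)).det = ∑ m, (A I₀).adjugate m l * v m j := by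
    intro l j
    have : A (Function.update I₀ l j) = (A I₀).updateRow l fun m => v m j := by
      ext l' m
      by_cases h : l' = l
      · subst h; simp [hA]
      · simp [hA, h]
    rw [this, ← Matrix.cramer_transpose_apply, Matrix.cramer_eq_adjugate_mulVec,
      ← Matrix.adjugate_transpose]
    rfl
  refine ⟨I₀, fun l j => (A (Function.update I₀ l j)).det * c⁻¹, fun I => (A I).det * c⁻¹,
    fun l j => rfl, hψ, mul_ne_zero hI₀ (inv_ne_zero hc), fun l => ?_, fun I => ?_⟩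
  · have : (fun j => (A (Function.update I₀ l j)).det * c⁻¹) =
        c⁻¹ • ∑ m, (A I₀).adjugate m l • v m := by
      funext j
      simp [hw, mul_comm]
    beta_reduce
    rw [this]
    exact Submodule.smul_mem _ _ (Submodule.sum_mem _ fun m _ =>
      Submodule.smul_mem _ _ (hv m ▸ (e m).1.2))
  · have h1 : (Matrix.of fun l l' => (A (Function.update I₀ l' (I l))).det * c⁻¹) =
        c⁻¹ • (A I * (A I₀).adjugate) := by
      ext l l'
      rw [Matrix.of_apply, hw, Matrix.smul_apply, Matrix.mul_apply, smul_eq_mul, mul_comm]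
      exact congrArg _ (Finset.sum_congr rfl fun m _ => mul_comm _ _)
    have h2 := congrArg Matrix.det (Matrix.adjugate_mul (A I₀))
    rw [Matrix.det_mul, Matrix.det_smul, Matrix.det_one, Fintype.card_fin] at h2
    rw [h1, Matrix.det_smul, Matrix.det_mul, Fintype.card_fin, mul_pow]
    linear_combination c⁻¹ ^ x * c⁻¹ * (A I).det * h2

theorem exists_subF {V : Type} [AddCommGroup V] [Module K V] [Module k V]
    [IsScalarTower k K V] [FiniteDimensional K V] {U : Fam S V} (hU : U.FG)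
    (hs : U.Spans) : ∃ (N : ℕ) (b : Fin N → Γ) (e₀ : V →ₗ[K] (Fin N → K)),
      ∀ Y : Submodule K (Fin N → K), LinearMap.range e₀ = Y →
        ∃ e : V ≃ₗ[K] Y, U.hull.map e.toLinearMap = subF S b Y := by
  obtain ⟨G, hG, hgen⟩ := Fam.dual_FG hs
  obtain ⟨N, g, -, rfl⟩ := hG.fin_param
  let e₀ : V →ₗ[K] (Fin N → K) := LinearMap.pi fun l => (g l).2
  have hinj : Function.Injective e₀ := by
    refine (injective_iff_map_eq_zero _).2 fun v hv => ?_
    refine (Module.forall_dual_apply_eq_zero_iff K v).1 fun f => ?_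
    have h1 : Submodule.span K {f | ∃ a, f ∈ U.dual.U a} ≤
        LinearMap.ker (Module.Dual.eval K V v) := by
      refine Submodule.span_le.2 ?_
      rintro f ⟨a, hf⟩
      rw [hgen] at hf
      show f v = 0
      induction hf using Submodule.span_induction with
      | mem y hy =>
        obtain ⟨_, ⟨l, rfl⟩, φ, -, rfl⟩ := hy
        rw [LinearMap.smul_apply, show (g l).2 v = 0 from congrFun hv l, smul_zero]
      | zero => rfl
      | add y z _ _ hy hz => rw [LinearMap.add_apply, hy, hz, add_zero]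
      | smul c y _ hy => rw [LinearMap.smul_apply, hy, smul_zero]
    rw [Fam.dual_spans hU] at h1
    exact h1 trivial
  have hhull : ∀ a v, v ∈ U.hull.U a ↔ ∀ l, e₀ v l ∈ S.B (a + (g l).1) := by
    intro a v
    rw [Fam.mem_hull_iff_dual hU hs, hgen]
    constructor
    · intro h l
      rw [add_comm]
      exact h _ _ (Fam.mem_gen ⟨l, rfl⟩)
    · intro h c f hf
      induction hf using Submodule.span_induction with
      | mem y hy =>
        obtain ⟨_, ⟨l, rfl⟩, φ, hφ, rfl⟩ := hy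
        have := S.mul_mem hφ (h l)
        rwa [show c - (g l).1 + (a + (g l).1) = c + a by abel] at this
      | zero => exact Submodule.zero_mem _
      | add y z _ _ hy hz => exact Submodule.add_mem _ hy hz
      | smul c y _ hy => exact Submodule.smul_mem _ c hy
  refine ⟨N, fun l => (g l).1, e₀, ?_⟩
  rintro _ rfl
  refine ⟨LinearEquiv.ofInjective e₀ hinj, ?_⟩
  rw [Fam.map_equiv_eq_comap]
  ext a y
  obtain ⟨v, rfl⟩ := (LinearEquiv.ofInjective e₀ hinj).surjective y
  rw [mem_subF]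
  refine Iff.trans ?_ (hhull a v)
  show (LinearEquiv.ofInjective e₀ hinj).symm (LinearEquiv.ofInjective e₀ hinj v) ∈ U.hull.U a ↔ _
  rw [LinearEquiv.symm_apply_apply]

omit [Algebra k K] in
theorem exists_matrix_ker {R : Type} [CommRing R] [IsDomain R] [Algebra R K] [IsFractionRing R K] :
    ∃ (N' : ℕ) (M : Matrix (Fin N') (Fin N) R), (M.map (algebraMap R K)).rank = N' ∧
      Y = LinearMap.ker (M.map (algebraMap R K)).mulVecLin := by
  let q : (Fin N → K) →ₗ[K] (Fin _ → K) :=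
    (Module.finBasis K ((Fin N → K) ⧸ Y)).equivFun.toLinearMap ∘ₗ Y.mkQ
  obtain ⟨d, hd⟩ := IsLocalization.exist_integer_multiples_of_finite
    (nonZeroDivisors R) fun p : Fin _ × Fin N => LinearMap.toMatrix' q p.1 p.2
  choose m hm using hd
  have hd0 : algebraMap R K d ≠ 0 := fun h =>
    nonZeroDivisors.coe_ne_zero d (IsFractionRing.injective R K (h.trans (map_zero _).symm))
  have hM : ((Matrix.of fun i j => m (i, j)).map (algebraMap R K)).mulVecLin =
      algebraMap R K d • q := by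
    have : (Matrix.of fun i j => m (i, j)).map (algebraMap R K) =
        algebraMap R K d • LinearMap.toMatrix' q := by
      ext i j
      simp only [Matrix.map_apply, Matrix.of_apply, hm, Matrix.smul_apply, Algebra.smul_def,
        Algebra.algebraMap_self, RingHom.id_apply]
    rw [this, ← Matrix.toLin'_apply', map_smul, Matrix.toLin'_toMatrix']
  have hq : LinearMap.range q = ⊤ := LinearMap.range_eq_top.2
    ((Module.finBasis K ((Fin N → K) ⧸ Y)).equivFun.surjective.comp (Submodule.mkQ_surjective Y))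
  refine ⟨_, Matrix.of fun i j => m (i, j), ?_, ?_⟩
  · rw [Matrix.rank, hM, LinearMap.range_smul _ _ hd0, hq, finrank_top, finrank_fin_fun]
  · rw [hM, LinearMap.ker_smul _ _ hd0, LinearEquiv.ker_comp, Submodule.ker_mkQ]

end generic

variable {k : Type} [Field k] {n : ℕ} (D : DP k n)
variable {N N' : ℕ} (b : Fin N → ZZ) (M : Matrix (Fin N') (Fin N) (MvPolynomial (Fin 2) k))

theorem kerF_FG : (kerF D.S b M).FG :=
  subF_FG D.S b (kerV M)

theorem kerF_spans : (kerF D.S b M).Spans :=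
  subF_spans D.S b (kerV M)

theorem mem_kerF (a : ZZ) (v : kerV M) :
    v ∈ (kerF D.S b M).U a ↔ ∀ l, v.1 l ∈ D.S.B (a + b l) :=
  mem_subF D.S b (kerV M) a v

theorem finrank_kerF (a : ZZ) : finrank k ((kerF D.S b M).U a) = finrank k (kerP n b M a) := by
  rw [← Fam.finrank_map_of_injective _ (kerV M).subtype (Submodule.injective_subtype _)]
  have : ((kerF D.S b M).map (kerV M).subtype).U a = kerP n b M a := by
    ext v
    constructor
    · rintro ⟨y, hy, rfl⟩
      exact ⟨fun l _ => D.hB ▸ (mem_kerF D b M a y).1 hy l, y.2⟩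
    · rintro ⟨h1, h2⟩
      exact ⟨⟨v, h2⟩, (mem_kerF D b M a _).2 fun l => D.hB ▸ h1 l trivial, rfl⟩
  rw [this]

theorem finrank_kerV : finrank (KK k) (kerV M) + (matK M).rank = N := by
  have := LinearMap.finrank_range_add_finrank_ker (matK M).mulVecLin
  rw [finrank_fin_fun] at this
  rw [add_comm]
  exact this

theorem eff_of_sol {x : ℕ} {I₀ : Fin x → Fin N} {γ : ZZ} (h : Sol n b M I₀ γ) :
    ∃ X : Submodule (KK k) (kerV M), finrank (KK k) X = x ∧
      D.S.Eff ((Fam.comap (W := X) X.subtype (kerF D.S b M)).cl - γ) := by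
  obtain ⟨w, ψ, -, h2, h3, h4, h5⟩ := h
  exact subF_eff D.S b (kerV M) w ψ (fun I => D.hB ▸ h2 I) h3 h4 h5

theorem sol_of_sub (X : Submodule (KK k) (kerV M)) {x : ℕ} (hx : finrank (KK k) X = x) :
    ∃ I₀ : Fin x → Fin N, Sol n b M I₀ (Fam.comap (W := X) X.subtype (kerF D.S b M)).cl := by
  obtain ⟨I₀, w, ψ, h1, h2, h3, h4, h5⟩ := subF_sol D.S b (kerV M) X hx
  rw [D.hB] at h2
  refine ⟨I₀, w, ψ, fun l j => ?_, h2, h3, h4, h5⟩
  rw [← sum_b_update, h1]
  exact h2 _

theorem exists_presentation {V : Type} [AddCommGroup V] [Module (KK k) V] [Module k V]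
    [IsScalarTower k (KK k) V] [FiniteDimensional (KK k) V] {U : Fam D.S V} (hU : U.FG)
    (hs : U.Spans) : ∃ (N N' : ℕ) (b : Fin N → ZZ)
      (M : Matrix (Fin N') (Fin N) (MvPolynomial (Fin 2) k)), (matK M).rank = N' ∧
      ∃ e : V ≃ₗ[KK k] kerV M, U.hull.map e.toLinearMap = kerF D.S b M := by
  obtain ⟨N, b, e₀, h⟩ := exists_subF D.S hU hs
  obtain ⟨N', M, h1, h2⟩ := exists_matrix_ker (R := MvPolynomial (Fin 2) k) (LinearMap.range e₀)
  exact ⟨N, N', b, M, h1, h (kerV M) h2⟩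

end Vale.Agent.P190
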