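import Vale.Agent.P190.T2
import Vale.Agent.P190.T3
import Vale.Agent.P190.D4

/-! P190, part T4: reduction modulo large primes. -/

namespace Vale.Agent.P190

open Module Filter

theorem t4_num {n : ℕ} (hn : 0 < n) (A B : ZZ) (r g g' : ℚ) (hL : HL B ≤ HL A)
    (h : ∀ w, ∀ᶠ m : ℤ in atTop, RR n r A g (w + cst m) ≤ RR n r B g' (w + cst m)) :
    g ≤ g' ∧ ∀ w, II B w = II A w := by
  have hn3 : (1 : ℚ) ≤ (n : ℚ) ^ 3 := one_le_pow₀ (by exact_mod_cast hn)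
  have key : ∀ w, ∀ᶠ m : ℤ in atTop, 0 ≤ (n : ℚ) ^ 3 * (((II B w : ℚ) - II A w) +
      (2 * m - ((n : ℚ) - 2) / 2) * ((HL B : ℚ) - HL A)) + (g' - g) := by
    intro w
    filter_upwards [h w] with m hm
    simp only [RR, II_add_right, II_comm A (cst m), II_comm B (cst m), II_cst] at hm
    push_cast at hm
    nlinarith
  have hL0 : HL B = HL A := by
    by_contra hne
    have h1 : (HL B : ℚ) - HL A ≤ -1 := by
      have : HL B - HL A ≤ -1 := by omega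
      exact_mod_cast this
    obtain ⟨m, hm, hm'⟩ := ((key 0).and (eventually_gt_atTop ⌈|g' - g| + (n : ℚ)⌉)).exists
    have hm2 : |g' - g| + (n : ℚ) < m := lt_of_le_of_lt (Int.le_ceil _) (by exact_mod_cast hm')
    have hz : ∀ x, II x 0 = 0 := fun x => by simp [II]
    rw [hz, hz] at hm
    have ha := le_abs_self (g' - g)
    have hb := abs_nonneg (g' - g)
    have hnn : (0 : ℚ) ≤ n := Nat.cast_nonneg n
    have hpos : |g' - g| < 2 * m - ((n : ℚ) - 2) / 2 := by linarith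
    have h3 : (2 * m - ((n : ℚ) - 2) / 2) * ((HL B : ℚ) - HL A) ≤ -(2 * m - ((n : ℚ) - 2) / 2) := by
      nlinarith
    simp only [Int.cast_zero, sub_self, zero_add] at hm
    nlinarith
  have key2 : ∀ w, 0 ≤ (n : ℚ) ^ 3 * ((II B w : ℚ) - II A w) + (g' - g) := by
    intro w
    obtain ⟨m, hm⟩ := (key w).exists
    rwa [hL0, sub_self, mul_zero, add_zero] at hm
  refine ⟨?_, fun w => ?_⟩
  · have := key2 0
    simp only [II, Pi.zero_apply, mul_zero, Finset.sum_const_zero, sub_self, zero_add] at this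
    linarith
  · by_contra hne
    set δ : ℤ := II B w - II A w with hδ
    have hδ0 : δ ≠ 0 := sub_ne_zero.2 hne
    have h1 : (1 : ℚ) ≤ (δ : ℚ) ^ 2 := by
      have : 1 ≤ δ ^ 2 := by
        have := sq_pos_of_ne_zero hδ0
        omega
      exact_mod_cast this
    obtain ⟨t, ht⟩ := exists_nat_gt |g' - g|
    have h2 := key2 ((-(t : ℤ) * δ) • w)
    rw [II_smul_right, II_smul_right] at h2
    have e : ((-(t : ℤ) * δ * II B w : ℤ) : ℚ) - ((-(t : ℤ) * δ * II A w : ℤ) : ℚ) =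
        -(t * (δ : ℚ) ^ 2) := by
      rw [hδ]; push_cast; ring
    rw [e] at h2
    have ha := le_abs_self (g' - g)
    have hb := abs_nonneg (g' - g)
    have h4 : (t : ℚ) ≤ t * (δ : ℚ) ^ 2 := by nlinarith
    nlinarith

theorem t4_hh {k : Type} [Field k] {n : ℕ} (D : DP k n) {N N' : ℕ} (b : Fin N → ZZ)
    (M : Matrix (Fin N') (Fin N) (MvPolynomial (Fin 2) k)) (w : ZZ) :
    ∀ᶠ m : ℤ in atTop, (hh n (kerF D.S b M) (w + cst m) : ℚ) =
      ∑ l, P0 n (w + b l + cst m) -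
        ∑ c : Fin 5 → Fin n, (rkP n b M (w + cst m + lamv fun j => (c j : ℤ)) : ℚ) := by
  filter_upwards [eventually_all.2 fun l => D.hh_fam (w + b l)] with m hm
  simp only [← hm]
  have hB : ∀ a, finrank k (D.S.fam.U a) = finrank k (BB k n a) := fun a => by
    rw [← D.hB]; rfl
  simp only [hh, finrank_kerF, rkP, hB]
  push_cast
  rw [Finset.sum_sub_distrib, Finset.sum_comm]
  have e : ∀ (c : Fin 5 → Fin n) l, w + b l + cst m + (lamv fun j => (c j : ℤ)) =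
      w + cst m + (lamv fun j => (c j : ℤ)) + b l := fun c l => by abel
  have e2 : ∑ c : Fin 5 → Fin n, ∑ l,
      (finrank k (BB k n (w + b l + cst m + lamv fun j => (c j : ℤ))) : ℚ) =
      ∑ c : Fin 5 → Fin n, ∑ l,
      (finrank k (BB k n (w + cst m + (lamv fun j => (c j : ℤ)) + b l)) : ℚ) :=
    Finset.sum_congr rfl fun c _ => Finset.sum_congr rfl fun l _ => by rw [e]
  rw [e2]
  ring

theorem reduce_mod_p {n : ℕ} (D₀ : DP QQ n) {V : Type} [AddCommGroup V] [Module (KK QQ) V]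
    [Module QQ V] [IsScalarTower QQ (KK QQ) V] [FiniteDimensional (KK QQ) V] {U : Fam D₀.S V}
    (hU : U.FG) (hs : U.Spans) {g : ℚ} (hg : HasRR n U g) {σ : ℚ} (hm : U.MaxLe HA σ) :
    ∃ N₀ : ℕ, ∀ p : ℕ, N₀ < p → p.Prime → ∀ (k : Type) [Field k] [IsAlgClosed k] [CharP k p]
      (D : DP k n), ∃ (U' : Fam D.S (Fin (finrank (KK QQ) V) → KK k)) (g' : ℚ),
        U'.FG ∧ U'.Spans ∧ HasRR n U' g' ∧ g ≤ g' ∧ U'.MaxLe HA σ ∧
          ∀ w, II U'.cl w = II U.cl w := by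
  have hn := D₀.n_pos
  obtain ⟨N, N', b, M₀, hrk, e, he⟩ := exists_presentation D₀ hU hs
  have hH : U.hull.FG := hU.hull
  have hHs : U.hull.Spans := hs.mono U.le_hull
  obtain ⟨g₁, hg₁⟩ := exists_hasRR hH hHs
  have hc1 : ∀ w, II U.hull.cl w = II U.cl w := D₀.II_eq_of_unitDeg
    (Fam.unitDeg_of_locMem hU hs hH hHs (fun P a v hv => Fam.locMem_of_mem P (U.le_hull a hv))
      (fun P a v hv => hv P))
  have hgg : g ≤ g₁ := HasRR.mono hH U.le_hull (fun w => (hc1 w).symm) hg hg₁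
  have hF₀ : HasRR n (kerF D₀.S b M₀) g₁ := he ▸ hg₁.map_equiv hH hHs e
  have hmH : U.hull.MaxLe HA σ := fun X => by
    rw [Fam.sdeg_hull D₀.eff_HA hU hs]; exact hm X
  have hm₀ : (kerF D₀.S b M₀).MaxLe HA σ := he ▸ hmH.map_equiv D₀.eff_HA hH hHs e
  have hc2 : ∀ w, II (kerF D₀.S b M₀).cl w = II U.cl w := fun w => by
    rw [← he, D₀.II_eq_of_unitDeg (Fam.cl_map_equiv hH hHs e), hc1]
  have hr₀ : finrank (KK QQ) (kerV M₀) = finrank (KK QQ) V := e.finrank_eq.symm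
  have hrN : finrank (KK QQ) V + N' = N := by
    have := finrank_kerV M₀
    omega
  choose ΓA hΓA hΓA' using fun (x : ℕ) (I₀ : Fin x → Fin N) =>
    sol_finite_HA hn b I₀ (⌊σ * x⌋ + 1)
  choose ΓL hΓL hΓL' using fun (x : ℕ) (I₀ : Fin x → Fin N) =>
    sol_finite_HL hn b I₀ (HL (kerF D₀.S b M₀).cl + 1)
  set T : Set (Σ x : ℕ, (Fin x → Fin N) × ZZ) :=
    {t | t.1 ≤ N ∧ t.2.2 ∈ ΓA t.1 t.2.1} ∪
      {t | t.1 = finrank (KK QQ) V ∧ t.2.2 ∈ ΓL t.1 t.2.1} with hT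
  have hTf : T.Finite := by
    have h1 : (⋃ x ∈ Set.Iic N, ⋃ I₀ : Fin x → Fin N,
        (fun γ : ZZ => (⟨x, (I₀, γ)⟩ : Σ x : ℕ, (Fin x → Fin N) × ZZ)) ''
          ((ΓA x I₀ : Set ZZ) ∪ ΓL x I₀)).Finite :=
      (Set.finite_Iic N).biUnion fun x _ => Set.finite_iUnion fun I₀ =>
        ((Finset.finite_toSet _).union (Finset.finite_toSet _)).image _
    refine h1.subset ?_
    rintro ⟨x, I₀, γ⟩ ht
    simp only [Set.mem_iUnion]
    rcases ht with ⟨h2, h3⟩ | ⟨h2, h3⟩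
    · exact ⟨x, h2, I₀, γ, Or.inl h3, rfl⟩
    · refine ⟨x, ?_, I₀, γ, Or.inr h3, rfl⟩
      simp only at h2
      simp only [Set.mem_Iic]
      omega
  have hno : ∀ t ∈ T, ¬ Sol n b M₀ t.2.1 t.2.2 := by
    rintro ⟨x, I₀, γ⟩ ht hsol
    obtain ⟨X, hX, hE⟩ := eff_of_sol D₀ b M₀ hsol
    rcases ht with ⟨-, h3⟩ | ⟨h2, h3⟩
    · have h4 := hΓA x I₀ γ h3
      have h5 := D₀.eff_HA _ hE
      rw [map_sub] at h5
      have h6 := hm₀ X
      rw [hX] at h6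
      have h7 : (kerF D₀.S b M₀).sdeg HA X ≤ ⌊σ * x⌋ := Int.le_floor.2 h6
      simp only [Fam.sdeg] at h7
      simp only at h4 h5
      omega
    · have h4 := hΓL x I₀ γ h3
      have h5 := D₀.eff_HL _ hE
      rw [map_sub] at h5
      have hXt : X = ⊤ := Submodule.eq_top_of_finrank_eq (by rw [hX, hr₀]; exact h2)
      subst hXt
      have h6 := Fam.sdeg_top D₀.eff_HL (kerF_FG D₀ b M₀) (kerF_spans D₀ b M₀)
      simp only [Fam.sdeg] at h6
      simp only at h4 h5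
      omega
  obtain ⟨N₀, hN₀⟩ := spread hn b M₀ hrk T hTf hno
  refine ⟨N₀, fun p hp hpp k _ _ _ D => ?_⟩
  obtain ⟨M, hrkM, hnoM, hrkP⟩ := hN₀ p hp hpp k
  have hkN := finrank_kerV M
  have hr : finrank (KK k) (kerV M) = finrank (KK QQ) V := by omega
  have hFG := kerF_FG D b M
  have hFs := kerF_spans D b M
  have hmF : (kerF D.S b M).MaxLe HA σ := by
    intro X
    by_contra hlt
    obtain ⟨I₀, hI⟩ := sol_of_sub D b M X rfl
    have h1 : ⌊σ * (finrank (KK k) X : ℕ)⌋ + 1 ≤ (kerF D.S b M).sdeg HA X :=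
      Int.floor_lt.2 (not_le.1 hlt)
    obtain ⟨γ', hγ', hs'⟩ := hΓA' _ I₀ k N' M _ h1 hI
    have h2 := Submodule.finrank_le X
    exact hnoM ⟨_, (I₀, γ')⟩ (Or.inl ⟨by simp only; omega, hγ'⟩) hs'
  have hLF : HL (kerF D.S b M).cl ≤ HL (kerF D₀.S b M₀).cl := by
    by_contra hlt
    obtain ⟨I₀, hI⟩ := sol_of_sub D b M ⊤ (x := finrank (KK QQ) V) (by rw [finrank_top, hr])
    have h6 := Fam.sdeg_top D.eff_HL hFG hFs
    simp only [Fam.sdeg] at h6
    obtain ⟨γ', hγ', hs'⟩ := hΓL' _ I₀ k N' M _ (by omega) hI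
    exact hnoM ⟨_, (I₀, γ')⟩ (Or.inr ⟨rfl, hγ'⟩) hs'
  obtain ⟨g', hg'⟩ := exists_hasRR hFG hFs
  obtain ⟨h1, h2⟩ := t4_num hn (kerF D₀.S b M₀).cl (kerF D.S b M).cl (finrank (KK QQ) V) g₁ g' hLF
    (fun w => by
      filter_upwards [hF₀ w, hg' w, t4_hh D₀ b M₀ w, t4_hh D b M w] with m a1 a2 a3 a4
      rw [hr₀] at a1
      rw [hr] at a2
      rw [← a1, ← a2, a3, a4]
      refine sub_le_sub_left (Finset.sum_le_sum fun c _ => ?_) _
      exact_mod_cast hrkP _)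
  let e' : kerV M ≃ₗ[KK k] (Fin (finrank (KK QQ) V) → KK k) :=
    LinearEquiv.ofFinrankEq _ _ (by rw [hr, finrank_fin_fun])
  refine ⟨(kerF D.S b M).map e'.toLinearMap, g', hFG.map _, hFs.map _ e'.surjective,
    hg'.map_equiv hFG hFs e', hgg.trans h1, hmF.map_equiv D.eff_HA hFG hFs e', fun w => ?_⟩
  rw [D.II_eq_of_unitDeg (Fam.cl_map_equiv hFG hFs e'), h2, hc2]

end Vale.Agent.P190
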